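import Crest.Agent.FGF.AmpB

/-! ROW 134, module Amp (helper96): Schwinger-Dyson relations of the matrix coefficients. -/

set_option autoImplicit false
set_option linter.unusedSectionVars false

namespace Crest.Agent.FGF.Amp

open Crest.Agent.GenII1 Filter Topology

variable {A : Type} [CStarAlgebra A] [FinVN A] {e : Fin 2 → Fin 2 → A}

/-- covariance of the coefficients -/
noncomputable def cX {κ : Type} [DecidableEq κ] (p q : κ × Fin 2 × Fin 2) : ℂ :=
  if p.1 = q.1 ∧ q.2.1 = p.2.2 ∧ q.2.2 = p.2.1 then 1 / 2 else 0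

theorem τ_e_mul (he : MU (⊤ : StarSubalgebra ℂ A) e) (y : QQ e) (i j : Fin 2) :
    τ (e i j * (y : A)) = if i = j then (1 / 2 : ℂ) * τ (y : A) else 0 := by
  rw [τ_MU_mul he ((mem_QQ he).1 y.2)]
  simp

theorem der_X (he : MU (⊤ : StarSubalgebra ℂ A) e) [Fact (TClosed (QQ e))]
    {κ : Type} [DecidableEq κ] (D : Set A) (D1 : Set (QQ e)) (hD1 : ∀ d ∈ D1, (d : A) ∈ D)
    (hE : ∀ i j, e i j ∈ D) (s : κ → A) (p : κ × Fin 2 × Fin 2) {z : QQ e}
    {Θ : QQ e → QQ e → ℂ}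
    (h : Der D1 (fun q : κ × Fin 2 × Fin 2 => cfQ he (s q.1) q.2.1 q.2.2) (cX p) z Θ) :
    ∃ Θ' : A → A → ℂ, Der D s (fun i => if p.1 = i then 1 else 0) (z : A) Θ' ∧
      ∀ x y : QQ e, Θ' x ((y : A) * e p.2.2 p.2.1) = (1 / 2) * Θ x y := by
  induction h with
  | base d hd => exact ⟨_, Der.base _ (hD1 d hd), fun x y => by simp⟩
  | var q =>
    obtain ⟨k', a', b'⟩ := q
    obtain ⟨k, a, b⟩ := p
    have h0 := Der.add (s := s) (c := fun i => if k = i then 1 else 0) _ _ _ _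
      (Der.mul _ _ _ _ (Der.mul _ _ _ _ (Der.base _ (hE 0 a')) (Der.var k'))
        (Der.base _ (hE b' 0))) (Der.mul _ _ _ _ (Der.mul _ _ _ _ (Der.base _ (hE 1 a'))
        (Der.var k')) (Der.base _ (hE b' 1)))
    have h00 : e 0 a' * s k' * e b' 0 + e 1 a' * s k' * e b' 1 = muCoef e (s k') a' b' := by
      rw [muCoef, Fin.sum_univ_two]
    rw [h00] at h0
    refine ⟨_, h0, ?_⟩
    · intro x y
      have h1 : ∀ c d, τ ((x : A) * e c d) = if c = d then (1 / 2 : ℂ) * τ (x : A) else 0 := by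
        intro c d
        rw [τ_comm, τ_e_mul he]
      have h2 : ∀ c, τ (e b' c * ((y : A) * e b a)) =
          if a = b' then (if b = c then (1 / 2 : ℂ) * τ (y : A) else 0) else 0 := by
        intro c
        rw [← mul_assoc, τ_comm, ← mul_assoc, he.mul]
        split_ifs with h3 h4
        · rw [τ_e_mul he, if_pos h4]
        · rw [τ_e_mul he, if_neg h4]
        · simp
      have hx : τ x = τ (x : A) := (fg_τ_coe _ x).symm
      have hy : τ y = τ (y : A) := (fg_τ_coe _ y).symm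
      simp only [h1, h2, hx, hy, cX]
      by_cases hk : k = k'
      · fin_cases a' <;> fin_cases b' <;> fin_cases a <;> fin_cases b <;> simp [hk] <;> ring
      · simp [hk]
  | add z z' Θ Θ' _ _ ih ih' =>
    obtain ⟨T, h1, h2⟩ := ih
    obtain ⟨T', h1', h2'⟩ := ih'
    exact ⟨_, Der.add _ _ _ _ h1 h1', fun x y => by rw [h2, h2']; ring⟩
  | smul c z Θ _ ih =>
    obtain ⟨T, h1, h2⟩ := ih
    exact ⟨_, Der.smul c _ _ h1, fun x y => by rw [h2]; ring⟩
  | mul z z' Θ Θ' _ _ ih ih' =>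
    obtain ⟨T, h1, h2⟩ := ih
    obtain ⟨T', h1', h2'⟩ := ih'
    refine ⟨_, Der.mul _ _ _ _ h1 h1', fun x y => ?_⟩
    have e1 := h2 x (z' * y)
    have e2 := h2' (x * z) y
    simp only [MulMemClass.coe_mul, mul_assoc] at e1 e2 ⊢
    rw [e1, e2]; ring

theorem sdc_X (he : MU (⊤ : StarSubalgebra ℂ A) e) [Fact (TClosed (QQ e))]
    {κ : Type} [DecidableEq κ] (D : Set A) (D1 : Set (QQ e)) (hD1 : ∀ d ∈ D1, (d : A) ∈ D)
    (hE : ∀ i j, e i j ∈ D) (s : κ → A) (hs : SD D s) :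
    SDc D1 (fun q : κ × Fin 2 × Fin 2 => cfQ he (s q.1) q.2.1 q.2.2) cX := by
  intro p z Θ hz
  obtain ⟨Θ', h1, h2⟩ := der_X he D D1 hD1 hE s p hz
  have h3 := hs p.1 _ _ (Der.mul _ _ _ _ h1 (Der.base _ (hE p.2.2 p.2.1)))
  have h4 := h2 1 1
  simp only [OneMemClass.coe_one, one_mul, mul_one, add_zero] at h3 h4
  rw [h4] at h3
  have h5 : τ (cfQ he (s p.1) p.2.1 p.2.2 * z) = τ (muCoef e (s p.1) p.2.1 p.2.2 * (z : A)) := rfl
  rw [h5]
  have h6 : τ (muCoef e (s p.1) p.2.1 p.2.2 * (z : A)) = 2 * τ (s p.1 * ((z : A) * e p.2.2 p.2.1)) := by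
    have hc := (mem_QQ he).1 z.2
    have h7 : ∀ k, τ (e k p.2.1 * s p.1 * e p.2.2 k * (z : A)) =
        τ (s p.1 * ((z : A) * e p.2.2 p.2.1)) := by
      intro k
      rw [mul_assoc, mul_assoc, τ_comm, hc, mul_assoc, mul_assoc, he.mul_same]
    rw [muCoef, Finset.sum_mul, map_sum]
    simp only [h7]
    simp
  rw [h6, h3]; ring

/-- coefficients of the self-adjoint basis -/
noncomputable def al (i : Fin 4) (a b : Fin 2) : ℂ :=
  match i with
  | 0 => if a = 0 ∧ b = 0 then ((√2 : ℝ) : ℂ) else 0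
  | 1 => if a = 1 ∧ b = 1 then ((√2 : ℝ) : ℂ) else 0
  | 2 => if a = b then 0 else 1
  | 3 => if a = b then 0 else if a = 1 then Complex.I else -Complex.I

theorem al_cov (i i' : Fin 4) :
    (1 / 2 : ℂ) * ∑ a, ∑ b, al i a b * al i' b a = if i = i' then 1 else 0 := by
  have h2 : ((√2 : ℝ) : ℂ) * ((√2 : ℝ) : ℂ) = 2 := by
    rw [← Complex.ofReal_mul, Real.mul_self_sqrt (by norm_num)]; simp
  have hI := Complex.I_mul_I
  fin_cases i <;> fin_cases i' <;> simp [al, Fin.sum_univ_two, h2]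
  all_goals norm_num

theorem al_inv (a b a' b' : Fin 2) :
    ∑ i, ((1 / 2 : ℂ) * al i b a) * al i a' b' = if a = a' ∧ b = b' then 1 else 0 := by
  have h2 : ((√2 : ℝ) : ℂ) * ((√2 : ℝ) : ℂ) = 2 := by
    rw [← Complex.ofReal_mul, Real.mul_self_sqrt (by norm_num)]; simp
  have hI := Complex.I_mul_I
  fin_cases a <;> fin_cases b <;> fin_cases a' <;> fin_cases b' <;>
    simp [al, Fin.sum_univ_four, h2, mul_assoc]
  all_goals norm_num [h2]

theorem al_star (i : Fin 4) (a b : Fin 2) : (starRingEnd ℂ) (al i a b) = al i b a := by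
  fin_cases i <;> fin_cases a <;> fin_cases b <;> simp [al]


end Crest.Agent.FGF.Amp
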