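import Crest.Agent.FGF.Dict
import Crest.Agent.FGF.AmpC

/-! MODULE Amp (helper96): Step 2(b). -/

set_option autoImplicit false
set_option linter.unusedSectionVars false

namespace Crest.Agent.FGF

open Crest.Agent.GenII1 Filter Topology

namespace Amp

variable {A : Type} [CStarAlgebra A] [FinVN A] {e : Fin 2 → Fin 2 → A}

/-- the semicircular family in the relative commutant -/
noncomputable def tt (he : MU (⊤ : StarSubalgebra ℂ A) e) {κ : Type} (s : κ → A)
    (p : κ × Fin 4) : QQ e := ∑ a, ∑ b, al p.2 a b • cfQ he (s p.1) a b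

theorem sum_pair {κ : Type} [Fintype κ] [DecidableEq κ] {V : Type*} [AddCommMonoid V] (k : κ)
    (f : κ → Fin 2 → Fin 2 → V) :
    (∑ q : κ × Fin 2 × Fin 2, if k = q.1 then f q.1 q.2.1 q.2.2 else 0) = ∑ a, ∑ b, f k a b := by
  rw [Fintype.sum_prod_type, Finset.sum_eq_single k]
  · simp [Fintype.sum_prod_type]
  · intro l _ hl
    simp [Ne.symm hl]
  · intro h; exact (h (Finset.mem_univ _)).elim

theorem sd_tt (he : MU (⊤ : StarSubalgebra ℂ A) e) [Fact (TClosed (QQ e))]
    {κ : Type} [Fintype κ] [DecidableEq κ] (D : Set A) (D1 : Set (QQ e))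
    (hD1 : ∀ d ∈ D1, (d : A) ∈ D) (hE : ∀ i j, e i j ∈ D) (s : κ → A) (hs : SD D s) :
    SD D1 (tt he s) := by
  have h1 := SD_lin D1 _ _ (sdc_X he D D1 hD1 hE s hs)
    (fun (p : κ × Fin 4) (q : κ × Fin 2 × Fin 2) => if p.1 = q.1 then al p.2 q.2.1 q.2.2 else 0)
  have h2 : (fun p : κ × Fin 4 => ∑ q : κ × Fin 2 × Fin 2,
      (if p.1 = q.1 then al p.2 q.2.1 q.2.2 else 0) • cfQ he (s q.1) q.2.1 q.2.2) = tt he s := by
    funext p
    have h3 := sum_pair p.1 (fun k a b => al p.2 a b • cfQ he (s k) a b)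
    rw [tt, ← h3]
    refine Finset.sum_congr rfl (fun q _ => ?_)
    split_ifs <;> simp
  have h3 : (fun p p' : κ × Fin 4 => ∑ q : κ × Fin 2 × Fin 2, ∑ q' : κ × Fin 2 × Fin 2,
      (if p.1 = q.1 then al p.2 q.2.1 q.2.2 else 0) *
        (if p'.1 = q'.1 then al p'.2 q'.2.1 q'.2.2 else 0) * cX q q') =
      fun p p' => if p = p' then 1 else 0 := by
    funext p p'
    have h4 : ∀ q : κ × Fin 2 × Fin 2, (∑ q' : κ × Fin 2 × Fin 2,
        (if p.1 = q.1 then al p.2 q.2.1 q.2.2 else 0) *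
          (if p'.1 = q'.1 then al p'.2 q'.2.1 q'.2.2 else 0) * cX q q') =
        if p.1 = q.1 then (if p'.1 = q.1 then
          (1 / 2 : ℂ) * (al p.2 q.2.1 q.2.2 * al p'.2 q.2.2 q.2.1) else 0) else 0 := by
      intro q
      rw [Finset.sum_eq_single (q.1, q.2.2, q.2.1)]
      · by_cases h5 : p.1 = q.1
        · by_cases h6 : p'.1 = q.1
          · simp only [h5, h6, if_true, cX, and_self]; ring
          · simp [h5, h6]
        · simp [h5]
      · intro q' _ hq'
        have : cX q q' = 0 := by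
          rw [cX, if_neg]
          rintro ⟨h5, h6, h7⟩
          apply hq'
          ext <;> simp [h5, h6, h7]
        rw [this, mul_zero]
      · intro h; exact (h (Finset.mem_univ _)).elim
    simp only [h4]
    rw [sum_pair p.1 (fun k a b => if p'.1 = k then
          (1 / 2 : ℂ) * (al p.2 a b * al p'.2 b a) else 0)]
    by_cases h5 : p'.1 = p.1
    · simp only [h5, if_true, ← Finset.mul_sum]
      rw [al_cov]
      by_cases h6 : p.2 = p'.2
      · rw [if_pos h6, if_pos (Prod.ext h5.symm h6)]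
      · rw [if_neg h6, if_neg]
        intro h7; exact h6 (by rw [h7])
    · simp only [h5, if_false, Finset.sum_const_zero]
      rw [if_neg]
      intro h7; exact h5 (by rw [h7])
  rw [h2, h3] at h1
  exact h1

theorem tt_sa (he : MU (⊤ : StarSubalgebra ℂ A) e) {κ : Type} (s : κ → A)
    (hs : ∀ k, IsSelfAdjoint (s k)) (p : κ × Fin 4) : IsSelfAdjoint (tt he s p) := by
  have h1 : ∀ a b, star (cfQ he (s p.1) a b) = cfQ he (s p.1) b a := by
    intro a b
    rw [← cfQ_star, (hs p.1).star_eq]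
  rw [IsSelfAdjoint, tt]
  simp only [star_sum, star_smul, h1, Complex.star_def, al_star]
  exact Finset.sum_comm

theorem X_eq_tt (he : MU (⊤ : StarSubalgebra ℂ A) e) {κ : Type} (s : κ → A) (k : κ) (a b : Fin 2) :
    cfQ he (s k) a b = ∑ i, ((1 / 2 : ℂ) * al i b a) • tt he s (k, i) := by
  simp only [tt, Finset.smul_sum, smul_smul]
  rw [Finset.sum_comm]
  have h1 : ∀ a' : Fin 2, (∑ i, ∑ b', ((1 / 2 : ℂ) * al i b a * al i a' b') • cfQ he (s k) a' b') =
      ∑ b', (if a = a' ∧ b = b' then (1 : ℂ) else 0) • cfQ he (s k) a' b' := by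
    intro a'
    rw [Finset.sum_comm]
    refine Finset.sum_congr rfl (fun b' _ => ?_)
    rw [← Finset.sum_smul, al_inv]
  simp only [h1]
  simp only [Fin.sum_univ_two]
  fin_cases a <;> fin_cases b <;> simp

theorem n2_par (x y : A) : n2 (x + y) ^ 2 + n2 (x - y) ^ 2 = 2 * n2 x ^ 2 + 2 * n2 y ^ 2 := by
  have := parallelogram_law_with_norm ℂ (toL2 x : L2 A) (toL2 y)
  simp only [← map_add, ← map_sub] at this
  change n2 (x + y) ^ 2 + n2 (x - y) ^ 2 = 2 * (n2 x ^ 2 + n2 y ^ 2) at this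
  linarith

theorem n2_basis (d : Fin 4 → A) :
    ∑ a, ∑ b, n2 (∑ i, ((1 / 2 : ℂ) * al i b a) • d i) ^ 2 = (1 / 2) * ∑ i, n2 (d i) ^ 2 := by
  have h0 : ∀ a b, ∑ i, ((1 / 2 : ℂ) * al i b a) • d i = (1 / 2 : ℂ) • ∑ i, al i b a • d i := by
    intro a b
    rw [Finset.smul_sum]
    simp only [smul_smul]
  simp only [h0, n2_smul]
  have hn : ‖(1 / 2 : ℂ)‖ = 1 / 2 := by simp
  have h1 : n2 (∑ i, al i 0 0 • d i) = √2 * n2 (d 0) := by
    have h : ∑ i, al i 0 0 • d i = ((√2 : ℝ) : ℂ) • d 0 := by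
      simp [al, Fin.sum_univ_four]
    rw [h, n2_smul, Complex.norm_real, Real.norm_of_nonneg (Real.sqrt_nonneg _)]
  have h2 : n2 (∑ i, al i 1 1 • d i) = √2 * n2 (d 1) := by
    have h : ∑ i, al i 1 1 • d i = ((√2 : ℝ) : ℂ) • d 1 := by
      simp [al, Fin.sum_univ_four]
    rw [h, n2_smul, Complex.norm_real, Real.norm_of_nonneg (Real.sqrt_nonneg _)]
  have h3 : ∑ i, al i 1 0 • d i = d 2 + Complex.I • d 3 := by
    simp [al, Fin.sum_univ_four]
  have h4 : ∑ i, al i 0 1 • d i = d 2 - Complex.I • d 3 := by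
    simp [al, Fin.sum_univ_four, sub_eq_add_neg]
  have h5 := n2_par (d 2) (Complex.I • d 3)
  rw [n2_smul, Complex.norm_I, one_mul] at h5
  simp only [Fin.sum_univ_two, hn, h1, h2, h3, h4]
  rw [Fin.sum_univ_four]
  have h6 : √2 ^ 2 = 2 := Real.sq_sqrt (by norm_num)
  simp only [mul_pow, h6]
  linarith

end Amp

open Amp

/-- STEP 2(b) -/
theorem PP_amp {N N₁ : Type} [CStarAlgebra N] [FinVN N] [CStarAlgebra N₁] [FinVN N₁]
    (e : Fin 2 → Fin 2 → N) (j : N₁ →⋆ₐ[ℂ] N) (h : IsM2 e j) (κ : Type) [Fintype κ]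
    [DecidableEq κ] (δ : ℝ) (hP : PP N₁ (κ × Fin 4) δ) : PP N κ δ := by
  intro A _ _ ι s hs F ε hε
  classical
  -- matrix units in `A`
  set E : Fin 2 → Fin 2 → A := fun a b => ι (e a b) with hEdef
  have hE : MU (⊤ : StarSubalgebra ℂ A) E := by
    refine ⟨fun _ _ => trivial, fun a b c d => ?_, fun a b => ?_, ?_⟩
    · simp only [hEdef, ← map_mul, h.mu.mul]
      split_ifs
      · rfl
      · exact map_zero _
    · simp only [hEdef, ← map_star, h.mu.st]
    · simp only [hEdef, ← map_sum, h.mu.sum, map_one]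
  have hfact : Fact (TClosed (QQ E)) := ⟨QQ_closed hE⟩
  -- the embedding of `N₁`
  have hjmem : ∀ x, (ι.comp j) x ∈ QQ E := by
    intro x
    rw [mem_QQ hE]
    intro a b
    simp only [hEdef, StarAlgHom.comp_apply, ← map_mul, h.comm]
  let ι1 : N₁ →⋆ₐ[ℂ] QQ E := StarAlgHom.codRestrict (ι.comp j) (QQ E) hjmem
  have hι1 : ∀ x, (ι1 x : A) = ι (j x) := fun x => rfl
  -- coefficients of elements of `N`
  have hcoef : ∀ (x : N) (a b : Fin 2), ∃ y : N₁, ι1 y = cfQ hE (ι x) a b := by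
    intro x a b
    obtain ⟨y, hy⟩ := h.surj (muCoef e x a b) ((mem_QQ h.mu).1 (cf_mem h.mu x a b))
    refine ⟨y, Subtype.ext ?_⟩
    rw [hι1, hy]
    simp [muCoef, hEdef, map_mul]
  choose co hco using hcoef
  -- the semicircular extension
  have hext : SemiExt ι1 (tt hE s) := by
    refine ⟨?_, tt_sa hE s hs.sa, ?_, ?_⟩
    · intro x
      rw [← fg_τ_coe, hι1, hs.tr, h.tr]
    · refine sd_tt hE (Set.range ι) (Set.range ι1) ?_ ?_ s hs.sd
      · rintro _ ⟨x, rfl⟩
        exact ⟨j x, rfl⟩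
      · intro a b
        exact ⟨e a b, rfl⟩
    · rw [eq_top_iff]
      intro q _ η hη
      have hq : (q : A) ∈ vn (Set.range ι ∪ Set.range s) := by rw [hs.gen]; trivial
      obtain ⟨x, hx, hxq⟩ := hq (η / 2) (by linarith)
      set B := StarAlgebra.adjoin ℂ (Set.range ι1 ∪ Set.range (tt hE s)) with hB
      let P : StarSubalgebra ℂ A :=
        { carrier := {x | ∀ a b, cfQ hE x a b ∈ B}
          mul_mem' := by
            intro x y hx hy a b
            rw [cfQ_mul]
            exact sum_mem fun m _ => mul_mem (hx _ _) (hy _ _)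
          add_mem' := by
            intro x y hx hy a b
            rw [cfQ_add]
            exact add_mem (hx _ _) (hy _ _)
          algebraMap_mem' := by
            intro r a b
            rw [Algebra.algebraMap_eq_smul_one, cfQ_smul, cfQ_one]
            split_ifs
            · exact B.smul_mem (one_mem _) r
            · exact B.smul_mem (zero_mem _) r
          star_mem' := by
            intro x hx a b
            rw [cfQ_star]
            exact star_mem (hx _ _) }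
      have hP' : ∀ x : A, x ∈ P ↔ ∀ a b, cfQ hE x a b ∈ B := fun x => Iff.rfl
      have hle : StarAlgebra.adjoin ℂ (Set.range ι ∪ Set.range s) ≤ P := by
        apply StarAlgebra.adjoin_le
        rintro x (⟨n, rfl⟩ | ⟨k, rfl⟩)
        · change ι n ∈ P
          rw [hP']
          intro a b
          rw [← hco]
          exact StarAlgebra.subset_adjoin ℂ _ (Or.inl ⟨_, rfl⟩)
        · change s k ∈ P
          rw [hP']
          intro a b
          rw [X_eq_tt]
          refine sum_mem fun i _ => B.smul_mem ?_ _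
          exact StarAlgebra.subset_adjoin ℂ _ (Or.inr ⟨_, rfl⟩)
      refine ⟨cfQ hE x 0 0, (hP' x).1 (hle hx) 0 0, ?_⟩
      have h1 : q - cfQ hE x 0 0 = cfQ hE ((q : A) - x) 0 0 := by
        rw [cfQ_sub, cfQ_of_mem]; simp
      rw [h1, ← fg_n2_coe, cfQ_coe]
      have h2 := n2_cf_le hE ((q : A) - x) 0 0
      linarith
  obtain ⟨β1, hβ1, hβF, t, ht⟩ := hP (QQ E) ι1 (tt hE s) hext
    (F.biUnion fun x => Finset.univ.image fun ab : Fin 2 × Fin 2 => co x ab.1 ab.2) (ε / 2)
    (by linarith)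
  obtain ⟨β, hβ, hβc⟩ := exists_lift hE β1 hβ1
  refine ⟨β, hβ, ?_, ?_⟩
  · intro x hx
    have h1 : ∀ a b, n2 (muCoef E (β (ι x) - ι x) a b) ≤ ε / 2 := by
      intro a b
      have h2 : muCoef E (β (ι x) - ι x) a b = ((cfQ hE (β (ι x) - ι x) a b : QQ E) : A) := rfl
      rw [h2, fg_n2_coe, cfQ_sub, hβc, ← hco]
      apply hβF
      rw [Finset.mem_biUnion]
      exact ⟨x, hx, Finset.mem_image.2 ⟨(a, b), Finset.mem_univ _, rfl⟩⟩
    have h2 := n2_sq_cf hE (β (ι x) - ι x)
    have h3 : ∑ a, ∑ b, n2 (muCoef E (β (ι x) - ι x) a b) ^ 2 ≤ ∑ _a : Fin 2, ∑ _b : Fin 2, (ε / 2) ^ 2 :=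
      Finset.sum_le_sum fun a _ => Finset.sum_le_sum fun b _ =>
        pow_le_pow_left₀ (n2_nonneg _) (h1 a b) 2
    simp only [Finset.sum_const, Finset.card_univ, Fintype.card_fin, nsmul_eq_mul] at h3
    have h4 : n2 (β (ι x) - ι x) ^ 2 ≤ ε ^ 2 := by
      rw [h2]; push_cast at h3; nlinarith
    exact (abs_le_of_sq_le_sq' h4 hε.le).2
  · -- the approximants
    let T : κ → N := fun k => ∑ a, ∑ b, j (∑ i, ((1 / 2 : ℂ) * al i b a) • t (k, i)) * e a b
    refine ⟨T, ?_⟩
    have h1 : ∀ k a b, cfQ hE (β (ι (T k))) a b =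
        ∑ i, ((1 / 2 : ℂ) * al i b a) • β1 (ι1 (t (k, i))) := by
      intro k a b
      rw [hβc]
      have h2 : ι (T k) = ∑ a, ∑ b, ((ι1 (∑ i, ((1 / 2 : ℂ) * al i b a) • t (k, i)) : QQ E) : A) *
          E a b := by
        simp only [T, hEdef, hι1]
        rw [map_sum]
        refine Finset.sum_congr rfl (fun a _ => ?_)
        rw [map_sum]
        refine Finset.sum_congr rfl (fun b _ => ?_)
        rw [map_mul]
      rw [h2, cfQ_sum hE (fun a b => ι1 (∑ i, ((1 / 2 : ℂ) * al i b a) • t (k, i)))]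
      simp only [map_sum, map_smul]
    have h2 : ∀ k, n2 (s k - β (ι (T k))) ^ 2 =
        (1 / 4) * ∑ i, n2 (tt hE s (k, i) - β1 (ι1 (t (k, i)))) ^ 2 := by
      intro k
      rw [n2_sq_cf hE]
      have h3 : ∀ a b, n2 (muCoef E (s k - β (ι (T k))) a b) =
          n2 (∑ i, ((1 / 2 : ℂ) * al i b a) • (tt hE s (k, i) - β1 (ι1 (t (k, i))))) := by
        intro a b
        have h4 : muCoef E (s k - β (ι (T k))) a b = ((cfQ hE (s k - β (ι (T k))) a b : QQ E) : A) :=
          rfl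
        rw [h4, fg_n2_coe, cfQ_sub, h1, X_eq_tt, ← Finset.sum_sub_distrib]
        simp only [smul_sub]
      simp only [h3]
      rw [n2_basis]
      ring
    simp only [h2]
    rw [← Finset.mul_sum]
    have h3 : ∑ k, ∑ i, n2 (tt hE s (k, i) - β1 (ι1 (t (k, i)))) ^ 2 =
        ∑ p : κ × Fin 4, n2 (tt hE s p - β1 (ι1 (t p))) ^ 2 := by
      rw [Fintype.sum_prod_type]
    rw [h3]
    have h4 : ((Fintype.card (κ × Fin 4) : ℕ) : ℝ) = 4 * (Fintype.card κ : ℝ) := by
      rw [Fintype.card_prod, Fintype.card_fin]; push_cast; ring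
    rw [h4] at ht
    linarith

end Crest.Agent.FGF
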