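import Crest.Agent.FGF.Ext
import Crest.Agent.GenII1.MatUnits

/-! ROW 134, module Amp (helper96): algebra of `2 × 2` matrix coefficients. -/

set_option autoImplicit false
set_option linter.unusedSectionVars false

namespace Crest.Agent.FGF.Amp

open Crest.Agent.GenII1 Filter Topology

variable {A : Type} [CStarAlgebra A] [FinVN A] {e : Fin 2 → Fin 2 → A}

/-- relative commutant of the matrix units -/
abbrev QQ (e : Fin 2 → Fin 2 → A) : StarSubalgebra ℂ A := relComm ⊤ e

theorem mem_QQ (he : MU (⊤ : StarSubalgebra ℂ A) e) {x : A} :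
    x ∈ QQ e ↔ ∀ i j, e i j * x = x * e i j := by
  rw [mem_relComm he]
  exact ⟨fun h => h.2, fun h => ⟨trivial, h⟩⟩

theorem QQ_closed (he : MU (⊤ : StarSubalgebra ℂ A) e) : TClosed (QQ e) :=
  relComm_closed tclosed_top he

theorem cf_mem (he : MU (⊤ : StarSubalgebra ℂ A) e) (x : A) (i j : Fin 2) :
    muCoef e x i j ∈ QQ e := muCoef_mem he trivial i j

theorem cf_add (x y : A) (i j : Fin 2) :
    muCoef e (x + y) i j = muCoef e x i j + muCoef e y i j := by
  simp only [muCoef, mul_add, add_mul, Finset.sum_add_distrib]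

theorem cf_smul (c : ℂ) (x : A) (i j : Fin 2) :
    muCoef e (c • x) i j = c • muCoef e x i j := by
  simp only [muCoef, mul_smul_comm, smul_mul_assoc, Finset.smul_sum]

theorem cf_sub (x y : A) (i j : Fin 2) :
    muCoef e (x - y) i j = muCoef e x i j - muCoef e y i j := by
  simp only [muCoef, mul_sub, sub_mul, Finset.sum_sub_distrib]

theorem cf_star (he : MU (⊤ : StarSubalgebra ℂ A) e) (x : A) (i j : Fin 2) :
    muCoef e (star x) i j = star (muCoef e x j i) := by
  simp only [muCoef, star_sum, star_mul, he.st, mul_assoc]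

theorem cf_mul (he : MU (⊤ : StarSubalgebra ℂ A) e) (x y : A) (i j : Fin 2) :
    muCoef e (x * y) i j = ∑ m, muCoef e x i m * muCoef e y m j := by
  have h1 : ∀ m, muCoef e x i m * muCoef e y m j = ∑ k, e k i * (x * e m m * y) * e j k := by
    intro m
    rw [muCoef, Finset.sum_mul]
    refine Finset.sum_congr rfl (fun k _ => ?_)
    have h2 : e k i * x * e m k * muCoef e y m j = e k i * x * e m m * y * e j k := by
      rw [muCoef, Finset.mul_sum, Finset.sum_eq_single k]
      · have : e k i * x * e m k * (e k m * y * e j k) = e k i * x * (e m k * e k m) * y * e j k := by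
          noncomm_ring
        rw [this, he.mul_same]
      · intro l _ hl
        have : e k i * x * e m k * (e l m * y * e j l) = e k i * x * (e m k * e l m) * y * e j l := by
          noncomm_ring
        rw [this, he.mul_ne (Ne.symm hl)]; noncomm_ring
      · intro h; exact (h (Finset.mem_univ _)).elim
    rw [h2]; noncomm_ring
  simp only [h1]
  rw [Finset.sum_comm, muCoef]
  refine Finset.sum_congr rfl (fun k _ => ?_)
  rw [← Finset.sum_mul, ← Finset.mul_sum, ← Finset.sum_mul, ← Finset.mul_sum, he.sum, mul_one,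
    mul_assoc]

theorem cf_mul_e (he : MU (⊤ : StarSubalgebra ℂ A) e) {q : A} (hq : q ∈ QQ e) (a b i j : Fin 2) :
    muCoef e (q * e a b) i j = if i = a ∧ j = b then q else 0 := by
  have hc := (mem_QQ he).1 hq
  have h1 : ∀ k, e k i * (q * e a b) * e j k = q * (e k i * e a b * e j k) := by
    intro k
    rw [← mul_assoc (e k i), hc]
    noncomm_ring
  rw [muCoef]
  simp only [h1]
  rw [← Finset.mul_sum]
  split_ifs with h
  · obtain ⟨rfl, rfl⟩ := h
    have h2 : ∀ k, e k i * e i j * e j k = e k k := by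
      intro k
      rw [he.mul_same, he.mul_same]
    simp only [h2]
    rw [he.sum, mul_one]
  · have h2 : ∀ k, e k i * e a b * e j k = 0 := by
      intro k
      by_cases hi : i = a
      · have hj : b ≠ j := fun h' => h ⟨hi, h'.symm⟩
        rw [mul_assoc, he.mul_ne hj, mul_zero]
      · rw [he.mul_ne hi, zero_mul]
    simp [h2]

theorem cf_sum (he : MU (⊤ : StarSubalgebra ℂ A) e) (q : Fin 2 → Fin 2 → A)
    (hq : ∀ a b, q a b ∈ QQ e) (i j : Fin 2) :
    muCoef e (∑ a, ∑ b, q a b * e a b) i j = q i j := by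
  simp only [Fin.sum_univ_two, cf_add, cf_mul_e he (hq _ _)]
  fin_cases i <;> fin_cases j <;> simp

theorem cf_of_mem (he : MU (⊤ : StarSubalgebra ℂ A) e) {x : A} (hx : x ∈ QQ e) (i j : Fin 2) :
    muCoef e x i j = if i = j then x else 0 := by
  have h1 : x = ∑ a, ∑ b, (if a = b then x else 0) * e a b := by
    simp only [Fin.sum_univ_two]
    have := he.sum
    simp only [Fin.sum_univ_two] at this
    simp [← mul_add, this]
  conv_lhs => rw [h1]
  rw [cf_sum he]
  intro a b
  split_ifs
  · exact hx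
  · exact zero_mem _

theorem cf_one (he : MU (⊤ : StarSubalgebra ℂ A) e) (i j : Fin 2) :
    muCoef e (1 : A) i j = if i = j then 1 else 0 := cf_of_mem he (one_mem _) i j

theorem cf_ext (he : MU (⊤ : StarSubalgebra ℂ A) e) {x y : A}
    (h : ∀ i j, muCoef e x i j = muCoef e y i j) : x = y := by
  rw [← sum_muCoef he x, ← sum_muCoef he y]
  simp only [h]

theorem τ_cf (he : MU (⊤ : StarSubalgebra ℂ A) e) (x : A) :
    τ x = (1 / 2 : ℂ) * ∑ i, τ (muCoef e x i i) := by
  conv_lhs => rw [← sum_muCoef he x]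
  simp only [map_sum]
  have h1 : ∀ i j, τ (muCoef e x i j * e i j) = if i = j then (1 / 2 : ℂ) * τ (muCoef e x i j) else 0 := by
    intro i j
    rw [τ_comm, τ_MU_mul he ((mem_QQ he).1 (cf_mem he x i j))]
    simp
  simp only [h1, Finset.sum_ite_eq, Finset.mem_univ, if_true, Finset.mul_sum]

theorem n2_sq_cf (he : MU (⊤ : StarSubalgebra ℂ A) e) (x : A) :
    n2 x ^ 2 = (1 / 2) * ∑ i, ∑ j, n2 (muCoef e x i j) ^ 2 := by
  have h1 : τ (star x * x) = (((1 / 2) * ∑ i, ∑ j, n2 (muCoef e x i j) ^ 2 : ℝ) : ℂ) := by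
    rw [τ_cf he]
    have h2 : ∀ i, τ (muCoef e (star x * x) i i) = ∑ k, ((n2 (muCoef e x k i) ^ 2 : ℝ) : ℂ) := by
      intro i
      rw [cf_mul he, map_sum]
      refine Finset.sum_congr rfl (fun k _ => ?_)
      rw [cf_star he, τ_star_mul_self]
    simp only [h2]
    rw [Finset.sum_comm]
    push_cast
    rfl
  rw [n2_sq, h1, Complex.ofReal_re]

theorem n2_cf_le (he : MU (⊤ : StarSubalgebra ℂ A) e) (x : A) (i j : Fin 2) :
    n2 (muCoef e x i j) ≤ 2 * n2 x := by
  have h1 := n2_sq_cf he x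
  have h2 : n2 (muCoef e x i j) ^ 2 ≤ ∑ i, ∑ j, n2 (muCoef e x i j) ^ 2 := by
    refine le_trans ?_ (Finset.single_le_sum (f := fun i => ∑ j, n2 (muCoef e x i j) ^ 2)
      (fun i _ => Finset.sum_nonneg fun j _ => sq_nonneg _) (Finset.mem_univ i))
    exact Finset.single_le_sum (f := fun j => n2 (muCoef e x i j) ^ 2)
      (fun j _ => sq_nonneg _) (Finset.mem_univ j)
  have h3 : n2 (muCoef e x i j) ^ 2 ≤ (2 * n2 x) ^ 2 := by
    rw [mul_pow, h1]
    have h4 : 0 ≤ ∑ i, ∑ j, n2 (muCoef e x i j) ^ 2 :=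
      Finset.sum_nonneg fun i _ => Finset.sum_nonneg fun j _ => sq_nonneg _
    nlinarith
  exact (abs_le_of_sq_le_sq' h3 (by have := n2_nonneg x; linarith)).2

end Crest.Agent.FGF.Amp
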