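import Crest.Agent.FGF.AmpA

/-! ROW 134, module Amp (helper96): lifting automorphisms of the relative commutant. -/

set_option autoImplicit false
set_option linter.unusedSectionVars false

namespace Crest.Agent.FGF.Amp

open Crest.Agent.GenII1 Filter Topology

variable {A : Type} [CStarAlgebra A] [FinVN A] {e : Fin 2 → Fin 2 → A}

/-- coefficients as elements of the relative commutant -/
noncomputable def cfQ (he : MU (⊤ : StarSubalgebra ℂ A) e) (x : A) (i j : Fin 2) : QQ e :=
  ⟨muCoef e x i j, cf_mem he x i j⟩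

@[simp] theorem cfQ_coe (he : MU (⊤ : StarSubalgebra ℂ A) e) (x : A) (i j : Fin 2) :
    (cfQ he x i j : A) = muCoef e x i j := rfl

theorem cfQ_add (he : MU (⊤ : StarSubalgebra ℂ A) e) (x y : A) (i j : Fin 2) :
    cfQ he (x + y) i j = cfQ he x i j + cfQ he y i j := Subtype.ext (cf_add x y i j)

theorem cfQ_sub (he : MU (⊤ : StarSubalgebra ℂ A) e) (x y : A) (i j : Fin 2) :
    cfQ he (x - y) i j = cfQ he x i j - cfQ he y i j := Subtype.ext (cf_sub x y i j)

theorem cfQ_smul (he : MU (⊤ : StarSubalgebra ℂ A) e) (c : ℂ) (x : A) (i j : Fin 2) :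
    cfQ he (c • x) i j = c • cfQ he x i j := Subtype.ext (cf_smul c x i j)

theorem cfQ_star (he : MU (⊤ : StarSubalgebra ℂ A) e) (x : A) (i j : Fin 2) :
    cfQ he (star x) i j = star (cfQ he x j i) := Subtype.ext (cf_star he x i j)

theorem cfQ_mul (he : MU (⊤ : StarSubalgebra ℂ A) e) (x y : A) (i j : Fin 2) :
    cfQ he (x * y) i j = ∑ m, cfQ he x i m * cfQ he y m j := by
  apply Subtype.ext
  rw [cfQ_coe, cf_mul he]
  simp [Fin.sum_univ_two]

theorem cfQ_of_mem (he : MU (⊤ : StarSubalgebra ℂ A) e) (x : QQ e) (i j : Fin 2) :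
    cfQ he (x : A) i j = if i = j then x else 0 := by
  apply Subtype.ext
  rw [cfQ_coe, cf_of_mem he x.2]
  split_ifs <;> rfl

theorem cfQ_sum (he : MU (⊤ : StarSubalgebra ℂ A) e) (q : Fin 2 → Fin 2 → QQ e) (i j : Fin 2) :
    cfQ he (∑ a, ∑ b, (q a b : A) * e a b) i j = q i j :=
  Subtype.ext (cf_sum he (fun a b => (q a b : A)) (fun a b => (q a b).2) i j)

theorem cfQ_ext (he : MU (⊤ : StarSubalgebra ℂ A) e) {x y : A}
    (h : ∀ i j, cfQ he x i j = cfQ he y i j) : x = y :=
  cf_ext he fun i j => congrArg Subtype.val (h i j)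

theorem cfQ_one (he : MU (⊤ : StarSubalgebra ℂ A) e) (i j : Fin 2) :
    cfQ he (1 : A) i j = if i = j then 1 else 0 := cfQ_of_mem he 1 i j

/-- A trace preserving automorphism of the relative commutant of `2 × 2` matrix units extends to a
trace preserving automorphism fixing the matrix units. -/
theorem exists_lift (he : MU (⊤ : StarSubalgebra ℂ A) e) [Fact (TClosed (QQ e))]
    (β : QQ e ≃⋆ₐ[ℂ] QQ e) (hβ : ∀ x, τ (β x) = τ x) :
    ∃ Φ : A ≃⋆ₐ[ℂ] A, (∀ x, τ (Φ x) = τ x) ∧
      ∀ x i j, cfQ he (Φ x) i j = β (cfQ he x i j) := by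
  let R : StarSubalgebra ℂ (A × A) :=
    { carrier := {p | ∀ i j, cfQ he p.2 i j = β (cfQ he p.1 i j)}
      mul_mem' := by
        intro p q hp hq i j
        rw [Prod.snd_mul, Prod.fst_mul, cfQ_mul, cfQ_mul, map_sum]
        refine Finset.sum_congr rfl (fun m _ => ?_)
        rw [hp, hq, map_mul]
      add_mem' := by
        intro p q hp hq i j
        rw [Prod.snd_add, Prod.fst_add, cfQ_add, cfQ_add, map_add, hp, hq]
      algebraMap_mem' := by
        intro r i j
        have e1 : (algebraMap ℂ (A × A) r).1 = r • (1 : A) := by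
          rw [Algebra.algebraMap_eq_smul_one]; rfl
        have e2 : (algebraMap ℂ (A × A) r).2 = r • (1 : A) := by
          rw [Algebra.algebraMap_eq_smul_one]; rfl
        rw [e1, e2, cfQ_smul, cfQ_one, map_smul]
        split_ifs
        · rw [map_one]
        · rw [map_zero]
      star_mem' := by
        intro p hp i j
        rw [Prod.snd_star, Prod.fst_star, cfQ_star, cfQ_star, map_star, hp] }
  have hR : ∀ p : A × A, p ∈ R ↔ ∀ i j, cfQ he p.2 i j = β (cfQ he p.1 i j) := fun p => Iff.rfl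
  have hτ : ∀ p ∈ R, τ p.1 = τ p.2 := by
    intro p hp
    rw [hR] at hp
    rw [τ_cf he p.1, τ_cf he p.2]
    congr 1
    refine Finset.sum_congr rfl (fun i _ => ?_)
    have h1 : τ (cfQ he p.2 i i) = τ (cfQ he p.1 i i) := by rw [hp, hβ]
    exact h1.symm
  have h1 : ∀ x : A, (x, ∑ a, ∑ b, (β (cfQ he x a b) : A) * e a b) ∈ R := by
    intro x
    rw [hR]
    intro i j
    exact cfQ_sum he (fun a b => β (cfQ he x a b)) i j
  have h2 : ∀ y : A, ((∑ a, ∑ b, (β.symm (cfQ he y a b) : A) * e a b), y) ∈ R := by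
    intro y
    rw [hR]
    intro i j
    change cfQ he y i j = β (cfQ he (∑ a, ∑ b, (β.symm (cfQ he y a b) : A) * e a b) i j)
    rw [cfQ_sum he (fun a b => β.symm (cfQ he y a b)) i j, StarAlgEquiv.apply_symm_apply]
  obtain ⟨Φ, hΦ, hΦR⟩ := iso_rel R hτ
    (fun x ε hε => ⟨_, h1 x, by simpa using hε⟩) (fun y ε hε => ⟨_, h2 y, by simpa using hε⟩)
  refine ⟨Φ, hΦ, fun x i j => ?_⟩
  have h3 := hΦR _ (h1 x)
  simp only at h3
  rw [h3]
  exact cfQ_sum he (fun a b => β (cfQ he x a b)) i j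

end Crest.Agent.FGF.Amp
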