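import Crest.Agent.GenII1.Closure
import Crest.Agent.GenII1.Lim
import Crest.Agent.GenII1.Free
import Crest.Agent.GenII1.Taylor

/-! 2-norm closures and sub-von-Neumann-algebras (light copy of the beginning of
`GenII1.OneGen`, by helper27). -/

set_option autoImplicit false
set_option linter.unusedSectionVars false

namespace Crest.Agent.FGF

open Crest.Agent.GenII1 Filter Topology

variable {A : Type*} [CStarAlgebra A] [FinVN A]

/-! ### 2-norm closures -/

theorem fg_L2mem_of_mem {N : StarSubalgebra ℂ A} {x : A} (hx : x ∈ N) : L2mem N x := by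
  intro ε hε
  exact ⟨x, hx, by simpa using hε⟩

theorem fg_L2mem_add {N : StarSubalgebra ℂ A} {x y : A} (hx : L2mem N x) (hy : L2mem N y) :
    L2mem N (x + y) := by
  intro ε hε
  obtain ⟨a, ha, h1⟩ := hx (ε / 2) (by linarith)
  obtain ⟨b, hb, h2⟩ := hy (ε / 2) (by linarith)
  refine ⟨a + b, add_mem ha hb, ?_⟩
  have e : x + y - (a + b) = (x - a) + (y - b) := by abel
  rw [e]
  exact (n2_add_le _ _).trans_lt (by linarith)

theorem fg_L2mem_mul {N : StarSubalgebra ℂ A} {x y : A} (hx : L2mem N x) (hy : L2mem N y) :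
    L2mem N (x * y) := by
  intro ε hε
  obtain ⟨b, hb, h2⟩ := hy (ε / (2 * (‖x‖ + 1))) (by positivity)
  obtain ⟨a, ha, h1⟩ := hx (ε / (2 * (‖b‖ + 1))) (by positivity)
  refine ⟨a * b, mul_mem ha hb, ?_⟩
  have e : x * y - a * b = x * (y - b) + (x - a) * b := by noncomm_ring
  rw [e]
  have h3 : n2 (x * (y - b)) < ε / 2 := by
    refine (n2_mul_le_left _ _).trans_lt ?_
    rw [lt_div_iff₀ (by positivity)] at h2
    have := n2_nonneg (y - b)
    nlinarith [norm_nonneg x]
  have h4 : n2 ((x - a) * b) < ε / 2 := by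
    refine (n2_mul_le_right _ _).trans_lt ?_
    rw [lt_div_iff₀ (by positivity)] at h1
    have := n2_nonneg (x - a)
    nlinarith [norm_nonneg b]
  exact (n2_add_le _ _).trans_lt (by linarith)

theorem fg_L2mem_star {N : StarSubalgebra ℂ A} {x : A} (hx : L2mem N x) : L2mem N (star x) := by
  intro ε hε
  obtain ⟨a, ha, h1⟩ := hx ε hε
  refine ⟨star a, star_mem ha, ?_⟩
  rw [← star_sub, n2_star]
  exact h1

/-- the 2-norm closure of a star subalgebra -/
def fg_cl (N : StarSubalgebra ℂ A) : StarSubalgebra ℂ A where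
  carrier := {x | L2mem N x}
  mul_mem' hx hy := fg_L2mem_mul hx hy
  add_mem' hx hy := fg_L2mem_add hx hy
  algebraMap_mem' r := fg_L2mem_of_mem (algebraMap_mem N r)
  star_mem' hx := fg_L2mem_star hx

theorem fg_mem_cl {N : StarSubalgebra ℂ A} {x : A} : x ∈ fg_cl N ↔ L2mem N x := Iff.rfl

theorem fg_cl_closed (N : StarSubalgebra ℂ A) : TClosed (fg_cl N) := by
  intro f g C hf _ hlim ε hε
  have h1 : ∀ᶠ n in atTop, n2 (f n - g) < ε / 2 :=
    hlim.eventually_lt_const (by linarith)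
  obtain ⟨n, hn⟩ := h1.exists
  obtain ⟨a, ha, h2⟩ := hf n (ε / 2) (by linarith)
  refine ⟨a, ha, ?_⟩
  calc n2 (g - a) ≤ n2 (g - f n) + n2 (f n - a) := n2_triangle _ _ _
    _ < ε / 2 + ε / 2 := by rw [n2_sub_comm g]; exact add_lt_add hn h2
    _ = ε := by ring

theorem fg_le_cl (N : StarSubalgebra ℂ A) : N ≤ fg_cl N := fun _ hx => fg_L2mem_of_mem hx

theorem fg_cl_le {N P : StarSubalgebra ℂ A} (hP : TClosed P) (h : N ≤ P) : fg_cl N ≤ P :=
  fun _ hx => mem_of_L2mem hP h hx

/-! ### a 2-closed star subalgebra as a finite von Neumann algebra -/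

section sub

variable (M : StarSubalgebra ℂ A) [hM : Fact (TClosed M)]

noncomputable instance fg_cstar : CStarAlgebra M :=
  StarSubalgebra.cstarAlgebra M (h_closed := hM.out.isClosed)

noncomputable instance fg_fin : FinVN M where
  τ := (τ : A →ₗ[ℂ] ℂ) ∘ₗ M.toSubalgebra.val.toLinearMap
  τ_one := τ_one (A := A)
  τ_comm x y := τ_comm (x : A) y
  τ_nonneg x := τ_nonneg (x : A)
  τ_im x := τ_im (x : A)
  faithful x hx := Subtype.ext (FinVN.faithful (x : A) hx)
  complete f C hf hc := by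
    obtain ⟨g, hg, hlim⟩ := FinVN.complete (fun n => (f n : A)) C hf hc
    have hgM : g ∈ M := by
      refine hM.out (fun n => (f n : A)) g C (fun n => (f n).2) hf ?_
      have h2 := (Real.continuous_sqrt.tendsto 0).comp hlim
      rw [Real.sqrt_zero] at h2
      refine h2.congr (fun n => ?_)
      simp only [Function.comp]
      rw [← n2_sq, Real.sqrt_sq (n2_nonneg _)]
    exact ⟨⟨g, hgM⟩, hg, hlim⟩

theorem fg_τ_coe (x : M) : τ (x : A) = τ x := rfl

theorem fg_n2_coe (x : M) : n2 (x : A) = n2 x := by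
  have h : n2 (x : A) ^ 2 = n2 x ^ 2 := by
    rw [n2_sq, n2_sq]; rfl
  exact (sq_eq_sq₀ (n2_nonneg _) (n2_nonneg _)).1 h

theorem fg_norm_coe (x : M) : ‖(x : A)‖ = ‖x‖ := rfl

/-- restriction of a subalgebra of `A` to `M` -/
noncomputable def fg_res (P : StarSubalgebra ℂ A) : StarSubalgebra ℂ M := P.comap M.subtype

theorem fg_mem_res {P : StarSubalgebra ℂ A} {x : M} : x ∈ fg_res M P ↔ (x : A) ∈ P := Iff.rfl


end sub

end Crest.Agent.FGF
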