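import Crest.Agent.FGF.CapOne

/-! # Row 134, module Capture: Step 1' (all targets, the same slots) -/

set_option autoImplicit false

namespace Crest.Agent.FGF.Cap

open Crest.Agent.GenII1 Filter Topology

/-- words are Lipschitz functions of the slots in the 2-norm -/
theorem slotWords_lip {n : ℕ} {κ : Type} {X : FreeGroup (Idx n κ)} (hX : X ∈ slotWords n κ) :
    ∃ C : ℝ, 0 ≤ C ∧ ∀ (A : Type) [CStarAlgebra A] [FinVN A] (g g' : Idx n κ → unitary A) (ε : ℝ),
      g' .w = g .w → (∀ l, n2 ((g' (.v l) : A) - g (.v l)) ≤ ε) →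
      n2 ((evu g' X : A) - evu g X) ≤ C * ε := by
  unfold slotWords at hX
  induction hX using Subgroup.closure_induction with
  | mem x hx =>
    rcases hx with hx | ⟨l, rfl⟩
    · rw [Set.mem_singleton_iff] at hx
      subst hx
      refine ⟨0, le_refl 0, fun A _ _ g g' ε hw _ => ?_⟩
      rw [evu_of, evu_of, hw, sub_self, zero_mul]
      simp
    · refine ⟨1, zero_le_one, fun A _ _ g g' ε _ hv => ?_⟩
      simp only [evu_of, one_mul]
      exact hv l
  | one =>
    refine ⟨0, le_refl 0, fun A _ _ g g' ε _ _ => ?_⟩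
    rw [map_one, map_one, sub_self, zero_mul]
    simp
  | mul x y _ _ ihx ihy =>
    obtain ⟨C₁, h₁, H₁⟩ := ihx
    obtain ⟨C₂, h₂, H₂⟩ := ihy
    refine ⟨C₁ + C₂, add_nonneg h₁ h₂, fun A _ _ g g' ε hw hv => ?_⟩
    have e : ((evu g' (x * y) : unitary A) : A) - (evu g (x * y) : unitary A) =
        ((evu g' x : unitary A) : A) * (((evu g' y : unitary A) : A) - (evu g y : unitary A)) +
          (((evu g' x : unitary A) : A) - (evu g x : unitary A)) * (evu g y : unitary A) := by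
      rw [map_mul, map_mul]
      push_cast
      noncomm_ring
    rw [e]
    refine (n2_add_le _ _).trans ?_
    rw [n2_unitary_mul (evu g' x).2, n2_mul_unitary _ (evu g y).2]
    have := H₁ A g g' ε hw hv
    have := H₂ A g g' ε hw hv
    linarith
  | inv x _ ih =>
    obtain ⟨C, h, H⟩ := ih
    refine ⟨C, h, fun A _ _ g g' ε hw hv => ?_⟩
    have e : ((evu g' x⁻¹ : unitary A) : A) - (evu g x⁻¹ : unitary A) =
        star (((evu g' x : unitary A) : A) - (evu g x : unitary A)) := by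
      rw [map_inv, map_inv, star_sub, ← Unitary.star_eq_inv, ← Unitary.star_eq_inv,
        Unitary.coe_star, Unitary.coe_star]
    rw [e, n2_star]
    exact H A g g' ε hw hv

theorem EW_mem_slotWords {n : ℕ} [NeZero n] {κ : Type} (t : ℕ) :
    EW (Idx.w : Idx n κ) Idx.v t ∈ slotWords n κ := by
  induction t with
  | zero => exact Subgroup.one_mem _
  | succ t ih =>
    rw [EW]
    refine Subgroup.mul_mem _ (Subgroup.mul_mem _ ih (Subgroup.pow_mem _ ?_ _)) ?_
    · exact Subgroup.subset_closure (Or.inl rfl)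
    · exact Subgroup.subset_closure (Or.inr ⟨_, rfl⟩)

/-- STEP 1' : induction on the finite set `S` of captured targets -/
theorem capture_finset (η : ℝ) (hη : 0 < η) : ∃ n0 : ℕ, ∀ n, n0 ≤ n → ∀ [NeZero n]
    (κ : Type) [Fintype κ] [DecidableEq κ] (A : Type) [CStarAlgebra A] [FinVN A] (S : Finset κ)
    (g : Idx n κ → unitary A), Good g → ∀ ε : ℝ, 0 < ε →
    ∃ g' : Idx n κ → unitary A, Good g' ∧ g' .w = g .w ∧
      (∀ l, n2 ((g' (.v l) : A) - g (.v l)) ≤ ε) ∧ (∀ k, k ∉ S → g' (.y k) = g (.y k)) ∧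
      ∀ k ∈ S, ∃ X ∈ slotWords n κ, n2 ((evu g' X : A) - g (.y k)) < η := by
  obtain ⟨n0, hn0⟩ := capture_one (η / 2) (by positivity)
  refine ⟨n0, fun n hn _ κ _ _ A _ _ S g hg => ?_⟩
  classical
  induction S using Finset.induction_on with
  | empty =>
    intro ε hε
    refine ⟨g, hg, rfl, fun l => ?_, fun k _ => rfl, fun k hk => absurd hk (Finset.notMem_empty k)⟩
    rw [sub_self]
    simpa using hε.le
  | insert k0 S hk0 ih =>
    intro ε hε
    obtain ⟨g₁, hg₁, hw₁, hv₁, hy₁, hX₁⟩ := ih (ε / 2) (by positivity)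
    -- a small `ε₂`
    have hev : ∀ k ∈ S, ∀ᶠ e in 𝓝[>] (0 : ℝ), ∃ X ∈ slotWords n κ, ∃ C : ℝ,
        n2 ((evu g₁ X : A) - g (.y k)) + C * e < η ∧ ∀ (g' : Idx n κ → unitary A),
          g' .w = g₁ .w → (∀ l, n2 ((g' (.v l) : A) - g₁ (.v l)) ≤ e) →
            n2 ((evu g' X : A) - evu g₁ X) ≤ C * e := by
      intro k hk
      obtain ⟨X, hX, hXk⟩ := hX₁ k hk
      obtain ⟨C, -, hC⟩ := slotWords_lip hX
      have h1 : Tendsto (fun e : ℝ => n2 ((evu g₁ X : A) - g (.y k)) + C * e) (𝓝[>] 0)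
          (𝓝 (n2 ((evu g₁ X : A) - g (.y k)) + C * 0)) := by
        refine Tendsto.mono_left ?_ nhdsWithin_le_nhds
        exact (tendsto_const_nhds).add (tendsto_id.const_mul C)
      rw [mul_zero, add_zero] at h1
      filter_upwards [h1.eventually_lt_const hXk] with e he
      exact ⟨X, hX, C, he, fun g' hw' hv' => hC A g₁ g' e hw' hv'⟩
    have hev2 : ∀ᶠ e in 𝓝[>] (0 : ℝ), ∀ k ∈ S, ∃ X ∈ slotWords n κ, ∃ C : ℝ,
        n2 ((evu g₁ X : A) - g (.y k)) + C * e < η ∧ ∀ (g' : Idx n κ → unitary A),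
          g' .w = g₁ .w → (∀ l, n2 ((g' (.v l) : A) - g₁ (.v l)) ≤ e) →
            n2 ((evu g' X : A) - evu g₁ X) ≤ C * e :=
      (Filter.eventually_all_finset S).2 hev
    have hev3 : ∀ᶠ e in 𝓝[>] (0 : ℝ), e < ε / 2 :=
      (eventually_lt_nhds (show (0 : ℝ) < ε / 2 by positivity)).filter_mono nhdsWithin_le_nhds
    have hev4 : ∀ᶠ e in 𝓝[>] (0 : ℝ), 0 < e := eventually_mem_nhdsWithin
    obtain ⟨e, ⟨he1, he2⟩, he3⟩ := ((hev2.and hev3).and hev4).exists
    obtain ⟨g₂, hg₂, hoff, hv₂, P, hP⟩ := hn0 n hn (Idx n κ) Idx.w (Idx.y k0) Idx.v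
      (by simp) (by simp) (by simp) (fun a b h => by simpa using h) A g₁ hg₁ e he3
    have hw₂ : g₂ .w = g₁ .w := hoff _ (by simp) (by simp)
    refine ⟨g₂, hg₂, hw₂.trans hw₁, fun l => ?_, fun k hk => ?_, fun k hk => ?_⟩
    · have h1 := n2_triangle (g₂ (.v l) : A) (g₁ (.v l)) (g (.v l))
      have h2 := hv₂ l
      have h3 := hv₁ l
      linarith
    · rw [Finset.mem_insert, not_or] at hk
      rw [hoff _ (by simpa using hk.1) (by simp), hy₁ k hk.2]
    · rcases Finset.mem_insert.1 hk with rfl | hk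
      · refine ⟨_, EW_mem_slotWords (P * n), ?_⟩
        rw [← hy₁ k hk0]
        linarith
      · obtain ⟨X, hX, C, h1, h2⟩ := he1 k hk
        refine ⟨X, hX, ?_⟩
        have h3 := h2 g₂ hw₂ hv₂
        have h4 := n2_triangle (evu g₂ X : A) (evu g₁ X) (g (.y k))
        linarith

end Crest.Agent.FGF.Cap
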