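import Crest.Agent.FGF.CapJet

/-! # Row 134, module Capture: one cycle of moves and its first order expansion (jets) -/

set_option autoImplicit false

namespace Crest.Agent.FGF.Cap

open Crest.Agent.GenII1 Filter Topology

variable {A : Type} [CStarAlgebra A] {ι : Type} [DecidableEq ι] {n : ℕ} [NeZero n]

/-- state after `t` elementary moves of one cycle of total angle `δ` (each move has angle
`δ / (P n)`; the move number `t` uses the slot `slot v t` and the word `E_{t+1}`) -/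
noncomputable def cyc (w b : ι) (v : Fin n → ι) (p : Trig) (P : ℕ) (δ : ℝ) (g : ι → unitary A) :
    ℕ → (ι → unitary A)
  | 0 => g
  | t + 1 => move p (slot v t) b (EW w v (t + 1)) (δ / ((P * n : ℕ) : ℝ)) (cyc w b v p P δ g t)

/-- letters other than `b` and the slots are not changed -/
theorem cyc_fixed (w b : ι) (v : Fin n → ι) (p : Trig) (P : ℕ) (δ : ℝ) (g : ι → unitary A) (t : ℕ)
    {k : ι} (hkb : k ≠ b) (hkv : ∀ l, v l ≠ k) : cyc w b v p P δ g t k = g k := by
  induction t with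
  | zero => rfl
  | succ t ih =>
    rw [cyc, move, Function.update_of_ne hkb, Function.update_of_ne (show k ≠ slot v t from (hkv _).symm), ih]

theorem Good.cyc [FinVN A] {g : ι → unitary A} (hg : Good g) {w b : ι} {v : Fin n → ι} (hw : w ≠ b)
    (hv : ∀ l, v l ≠ b) (p : Trig) (P : ℕ) (δ : ℝ) (t : ℕ) :
    Good (Cap.cyc w b v p P δ g t) := by
  induction t with
  | zero => exact hg
  | succ t ih =>
    rw [Cap.cyc]
    exact ih.move p (hv _) (EW_off w b v hw hv _) _

/-- first order expansion of words: if the slots move by `v_l ↦ v_l (1 + iδ D_l) + O(δ²)` and the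
letter `w` is fixed, then `E_t ↦ (1 + iδ ∑_{s<t} E_{s+1} D_{slot s} E_{s+1}⋆) E_t + O(δ²)`.
(induction on `t`, with `C` depending only on `t, B, C₀`). -/
theorem EW_jet (w : ι) (v : Fin n → ι) (B C₀ : ℝ) (t : ℕ) : ∃ C : ℝ, 0 ≤ C ∧
    ∀ (δ : ℝ), 0 ≤ δ → δ ≤ 1 → ∀ (g g' : ι → unitary A) (D : Fin n → A), (∀ l, ‖D l‖ ≤ B) →
      g' w = g w →
      (∀ l, ‖(g' (v l) : A) - ((g (v l) : A) + ((δ : ℂ) * Complex.I) • ((g (v l) : A) * D l))‖ ≤
        C₀ * δ ^ 2) →
      ‖(evu g' (EW w v t) : A) - ((evu g (EW w v t) : A) + ((δ : ℂ) * Complex.I) •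
        ((∑ s ∈ Finset.range t, (evu g (EW w v (s + 1)) : A) * D (Fin.ofNat n s) *
          star (evu g (EW w v (s + 1)) : A)) * (evu g (EW w v t) : A)))‖ ≤ C * δ ^ 2 := by
  induction t with
  | zero => exact ⟨0, le_rfl, fun δ _ _ g g' D _ _ _ => by simp [EW]⟩
  | succ t ih =>
    obtain ⟨C, hC, ih⟩ := ih
    refine ⟨t * |B| * |B| + C * (1 + |B|) + |C₀|, by positivity, ?_⟩
    intro δ h0 h1 g g' D hD hw hvl
    have ih' := ih δ h0 h1 g g' D hD hw hvl
    have hv' := hvl (Fin.ofNat n t)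
    set X : A := (evu g (EW w v t) : A) with hX
    set X' : A := (evu g' (EW w v t) : A) with hX'
    set S : A := ∑ s ∈ Finset.range t, (evu g (EW w v (s + 1)) : A) * D (Fin.ofNat n s) *
          star (evu g (EW w v (s + 1)) : A) with hS
    set V : A := (g (v (Fin.ofNat n t)) : A) with hV
    set V' : A := (g' (v (Fin.ofNat n t)) : A) with hV'
    set W : unitary A := (g w) ^ (t + 1) with hW
    set d : A := D (Fin.ofNat n t) with hd
    set z : ℂ := (δ : ℂ) * Complex.I with hz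
    have hzn : ‖z‖ = δ := by
      rw [hz, norm_mul, Complex.norm_I, mul_one, Complex.norm_real, Real.norm_of_nonneg h0]
    have hdB : ‖d‖ ≤ |B| := (hD _).trans (le_abs_self B)
    -- the words
    have e1 : (evu g (EW w v (t + 1)) : A) = X * W * V := by
      rw [EW, map_mul, map_mul, map_pow, evu_of, evu_of]; rfl
    have e2 : (evu g' (EW w v (t + 1)) : A) = X' * W * V' := by
      rw [EW, map_mul, map_mul, map_pow, evu_of, evu_of, hw]; rfl
    have hSn : ‖S‖ ≤ t * |B| := by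
      rw [hS]
      refine (norm_sum_le _ _).trans ?_
      refine (Finset.sum_le_sum (g := fun _ => |B|) fun s _ => ?_).trans ?_
      · have hs : star (evu g (EW w v (s + 1)) : A) = (((evu g (EW w v (s + 1)))⁻¹ : unitary A) : A) := rfl
        rw [hs, CStarRing.norm_mul_coe_unitary, CStarRing.norm_coe_unitary_mul]
        exact (hD _).trans (le_abs_self B)
      · simp
    have hVs : (evu g (EW w v (t + 1)) : A) * d * star (evu g (EW w v (t + 1)) : A) *
        (evu g (EW w v (t + 1)) : A) = X * W * V * d := by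
      rw [mul_assoc, Unitary.coe_star_mul_self, mul_one, e1]
    rw [Finset.sum_range_succ, add_mul, hVs, e2, e1]
    set r1 : A := X' - (X + z • (S * X)) with hr1
    set r2 : A := V' - (V + z • (V * d)) with hr2
    have key : X' * W * V' - (X * W * V + z • (S * (X * W * V) + X * W * V * d)) =
        (z * z) • (S * X * W * (V * d)) + r1 * W * (V + z • (V * d)) + X' * W * r2 := by
      rw [hr1, hr2]
      simp only [mul_add, add_mul, sub_mul, mul_sub, smul_mul_assoc, mul_smul_comm, smul_add,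
        mul_assoc]
      module
    rw [key]
    have n1 : ‖(z * z) • (S * X * W * (V * d))‖ ≤ (t * |B| * |B|) * δ ^ 2 := by
      rw [norm_smul, norm_mul, hzn]
      have h3 : S * X * (W : A) * (V * d) = S * ((X * W * V : A) * d) := by simp only [mul_assoc]
      have h4 : ‖S * ((X * W * V : A) * d)‖ ≤ (t * |B|) * |B| := by
        refine (norm_mul_le _ _).trans ?_
        rw [← e1, CStarRing.norm_coe_unitary_mul]
        exact mul_le_mul hSn hdB (norm_nonneg _) (by positivity)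
      rw [h3]
      calc δ * δ * ‖S * ((X * W * V : A) * d)‖ ≤ δ * δ * ((t * |B|) * |B|) :=
            mul_le_mul_of_nonneg_left h4 (by positivity)
        _ = _ := by ring
    have n2' : ‖r1 * W * (V + z • (V * d))‖ ≤ (C * (1 + |B|)) * δ ^ 2 := by
      have h5 : V + z • (V * d) = V * (1 + z • d) := by
        rw [mul_add, mul_one, mul_smul_comm]
      rw [h5]
      have h6 : r1 * (W : A) * (V * (1 + z • d)) = (r1 * ((W * g (v (Fin.ofNat n t)) : unitary A) : A)) * (1 + z • d) := by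
        simp only [mul_assoc, Submonoid.coe_mul, hV]
      rw [h6]
      refine (norm_mul_le _ _).trans ?_
      rw [CStarRing.norm_mul_coe_unitary]
      have h7 : ‖(1 : A) + z • d‖ ≤ 1 + |B| := by
        refine (norm_add_le _ _).trans (add_le_add ?_ ?_)
        · have := CStarRing.norm_coe_unitary_mul (1 : unitary A) (1 : A)
          rcases subsingleton_or_nontrivial A with hA | hA
          · rw [Subsingleton.elim (1 : A) 0, norm_zero]; exact zero_le_one
          · exact (CStarRing.norm_one).le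
        · rw [norm_smul, hzn]
          calc δ * ‖d‖ ≤ 1 * |B| := mul_le_mul h1 hdB (norm_nonneg _) zero_le_one
            _ = |B| := one_mul _
      calc ‖r1‖ * ‖(1 : A) + z • d‖ ≤ (C * δ ^ 2) * (1 + |B|) :=
            mul_le_mul ih' h7 (norm_nonneg _) (by positivity)
        _ = _ := by ring
    have n3 : ‖X' * W * r2‖ ≤ |C₀| * δ ^ 2 := by
      have h6 : X' * (W : A) * r2 = ((evu g' (EW w v t) * W : unitary A) : A) * r2 := rfl
      rw [h6, CStarRing.norm_coe_unitary_mul]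
      exact hv'.trans (mul_le_mul_of_nonneg_right (le_abs_self _) (by positivity))
    refine (norm_add₃_le).trans ?_
    calc _ ≤ (t * |B| * |B|) * δ ^ 2 + (C * (1 + |B|)) * δ ^ 2 + |C₀| * δ ^ 2 :=
          add_le_add (add_le_add n1 n2') n3
      _ = _ := by ring

/-! ### the jet of one cycle -/

/-- `EW_jet` in the `Ok` calculus -/
theorem EW_jetOk {X : Type} (w : ι) (v : Fin n → ι) {T : ℕ} (hT : 0 < T) (t : ℕ)
    (γ γ' : ℝ → X → ι → unitary A) (D : Fin n → ℝ → X → A) (hD : ∀ l, Ok 0 (D l))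
    (hw : ∀ δ x, γ' δ x w = γ δ x w)
    (hv : ∀ l, Ok 2 (fun δ x => (γ' δ x (v l) : A) -
      ((γ δ x (v l) : A) + smc T δ • ((γ δ x (v l) : A) * D l δ x)))) :
    Ok 2 (fun δ x => (evu (γ' δ x) (EW w v t) : A) - ((evu (γ δ x) (EW w v t) : A) + smc T δ •
        ((∑ s ∈ Finset.range t, (evu (γ δ x) (EW w v (s + 1)) : A) * D (Fin.ofNat n s) δ x *
          star (evu (γ δ x) (EW w v (s + 1)) : A)) * (evu (γ δ x) (EW w v t) : A)))) := by
  choose B hB hD' using hD
  choose C₀ hC₀ hv' using hv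
  have hT' : (0 : ℝ) < T := by exact_mod_cast hT
  have hT1 : (1 : ℝ) ≤ T := by exact_mod_cast hT
  obtain ⟨C, hC, h⟩ := EW_jet (A := A) w v (∑ l, B l) (∑ l, C₀ l) t
  refine ⟨C, hC, fun δ h0 h1 x => ?_⟩
  have key := h δ h0 h1 (γ δ x) (γ' δ x) (fun l => ((T : ℂ)⁻¹) • D l δ x) ?_ (hw δ x) ?_
  · have e1 : ((δ : ℂ) * Complex.I) • ((∑ s ∈ Finset.range t, (evu (γ δ x) (EW w v (s + 1)) : A) *
        (((T : ℂ)⁻¹) • D (Fin.ofNat n s) δ x) *
          star (evu (γ δ x) (EW w v (s + 1)) : A)) * (evu (γ δ x) (EW w v t) : A)) =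
        smc T δ • ((∑ s ∈ Finset.range t, (evu (γ δ x) (EW w v (s + 1)) : A) *
          D (Fin.ofNat n s) δ x *
          star (evu (γ δ x) (EW w v (s + 1)) : A)) * (evu (γ δ x) (EW w v t) : A)) := by
      simp only [mul_smul_comm, smul_mul_assoc, ← Finset.smul_sum]
      rw [smul_smul]
      congr 1
      unfold smc
      push_cast
      field_simp
    rw [e1] at key
    exact key
  · intro l
    rw [norm_smul, norm_inv, Complex.norm_natCast]
    have h2 := hD' l δ h0 h1 x
    rw [pow_zero, mul_one] at h2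
    have h3 : B l ≤ ∑ l, B l := Finset.single_le_sum (fun i _ => hB i) (Finset.mem_univ l)
    calc (T : ℝ)⁻¹ * ‖D l δ x‖ ≤ 1 * ‖D l δ x‖ :=
          mul_le_mul_of_nonneg_right (inv_le_one_of_one_le₀ hT1) (norm_nonneg _)
      _ ≤ ∑ l, B l := by linarith
  · intro l
    have e2 : ((δ : ℂ) * Complex.I) • ((γ δ x (v l) : A) * (((T : ℂ)⁻¹) • D l δ x)) =
        smc T δ • ((γ δ x (v l) : A) * D l δ x) := by
      rw [mul_smul_comm, smul_smul]
      congr 1
      unfold smc
      push_cast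
      field_simp
    rw [e2]
    refine (hv' l δ h0 h1 x).trans (mul_le_mul_of_nonneg_right ?_ (by positivity))
    exact Finset.single_le_sum (fun i _ => hC₀ i) (Finset.mem_univ l)

/-- `h_t(g) = E_{t+1}⋆ H E_{t+1}` -/
noncomputable def cycH (w b : ι) (v : Fin n → ι) (p : Trig) (g : ι → unitary A) (t : ℕ) : A :=
  star (evu g (EW w v (t + 1)) : A) * p.val (g b) * (evu g (EW w v (t + 1)) : A)

theorem cycH_eq (w b : ι) (v : Fin n → ι) (p : Trig) (g : ι → unitary A) (t : ℕ) :
    p.val ((evu g (EW w v (t + 1)))⁻¹ * g b * evu g (EW w v (t + 1))) = cycH w b v p g t := by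
  have h := p.val_conj ((evu g (EW w v (t + 1)))⁻¹) (g b)
  rw [inv_inv] at h
  rw [h, ← Unitary.star_eq_inv]
  unfold cycH
  simp

/-- the conjugate `U_{st} H U_{st}⋆` -/
theorem UH_eq (w b : ι) (v : Fin n → ι) (p : Trig) (g : ι → unitary A) (s t : ℕ) :
    UH w b v p g (s + 1) (t + 1) = (evu g (EW w v (s + 1)) : A) * cycH w b v p g t *
      star (evu g (EW w v (s + 1)) : A) := by
  unfold UH cycH
  rw [map_mul, map_inv, ← Unitary.star_eq_inv]
  push_cast
  rw [star_mul, star_star]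
  noncomm_ring

theorem UH_self (w b : ι) (v : Fin n → ι) (p : Trig) (g : ι → unitary A) (t : ℕ) :
    UH w b v p g t t = p.val (g b) := by
  unfold UH
  simp

theorem UH_sa (w b : ι) (v : Fin n → ι) (p : Trig) (g : ι → unitary A) (s t : ℕ) :
    star (UH w b v p g s t) = UH w b v p g s t := by
  unfold UH
  rw [star_mul, star_mul, star_star, (p.val_sa (g b)).star_eq, mul_assoc]

theorem cyc_ok_sub_one {X : Type} {T : ℕ} (hT : 0 < T) {f g D : ℝ → X → A} (hD : Ok 0 D)
    (h : Ok 2 (fun δ x => f δ x - (g δ x + smc T δ • D δ x))) :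
    Ok 1 (fun δ x => f δ x - g δ x) :=
  ((h.mono one_le_two).add (hD.sm hT)).congr fun δ x => by abel

/-- slot step -/
theorem cyc_slot_step {X : Type} {T : ℕ} (hT : 0 < T) {a u g D h h' : ℝ → X → A} (ha : Ok 0 a)
    (hg : Ok 0 g) (hD : Ok 0 D) (hh' : Ok 0 h')
    (h1 : Ok 2 (fun δ x => a δ x - (g δ x + smc T δ • (g δ x * D δ x))))
    (h2 : Ok 2 (fun δ x => u δ x - (1 + smc T δ • h' δ x)))
    (h3 : Ok 1 (fun δ x => h' δ x - h δ x)) :
    Ok 2 (fun δ x => a δ x * u δ x - (g δ x + smc T δ • (g δ x * (D δ x + h δ x)))) := by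
  have h4 := cyc_ok_sub_one hT (hg.mul hD) h1
  have h6 : Ok 1 (fun δ x => (a δ x - g δ x) * h' δ x + g δ x * (h' δ x - h δ x)) :=
    (h4.mul hh').add ((hg.mul h3).mono (by norm_num : 1 ≤ 0 + 1))
  have h7 : Ok 2 (fun δ x => a δ x * (u δ x - (1 + smc T δ • h' δ x))) :=
    (ha.mul h2).mono (by norm_num : 2 ≤ 0 + 2)
  have h5 := (h1.add (h6.sm hT)).add h7
  refine h5.congr fun δ x => ?_
  simp only [mul_add, add_mul, mul_sub, sub_mul, smul_add, smul_sub, mul_smul_comm,
    smul_mul_assoc, mul_one, one_mul]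
  abel

/-- conjugation step -/
theorem cyc_conj_step {X : Type} {T : ℕ} (hT : 0 < T) {W Yt Y S' Sf S R : ℝ → X → A}
    (hYt0 : Ok 0 Yt) (hY0 : Ok 0 Y) (hR : Ok 0 R) (hSf0 : Ok 0 Sf) (hS'0 : Ok 0 S')
    (hW : Ok 2 (fun δ x => W δ x - (1 + smc T δ • S' δ x)))
    (hSsa : ∀ δ x, star (S' δ x) = S' δ x)
    (hY : Ok 2 (fun δ x => Yt δ x - (Y δ x + smc T δ • (R δ x * Y δ x - Y δ x * R δ x))))
    (hS : Ok 1 (fun δ x => S' δ x - Sf δ x))
    (hcomm : ∀ δ x, Sf δ x * Y δ x - Y δ x * Sf δ x = S δ x * Y δ x - Y δ x * S δ x) :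
    Ok 2 (fun δ x => W δ x * Yt δ x * star (W δ x) -
      (Y δ x + smc T δ • ((R δ x + S δ x) * Y δ x - Y δ x * (R δ x + S δ x)))) := by
  have hW1 : Ok 1 (fun δ x => W δ x - 1) := cyc_ok_sub_one hT hS'0 hW
  have hY1 : Ok 1 (fun δ x => Yt δ x - Y δ x) :=
    cyc_ok_sub_one hT ((hR.mul hY0).sub (hY0.mul hR)) hY
  have k1 : Ok 2 (fun δ x => (W δ x - (1 + smc T δ • S' δ x)) * Yt δ x) := hW.mul hYt0
  have k2 : Ok 2 (fun δ x => Yt δ x * star (W δ x - (1 + smc T δ • S' δ x))) :=
    (hYt0.mul hW.star).mono (by norm_num)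
  have k3 : Ok 2 (fun δ x => (W δ x - 1) * Yt δ x * star (W δ x - 1)) :=
    ((hW1.mul hYt0).mul hW1.star).mono (by norm_num)
  have k4 : Ok 1 (fun δ x => (S' δ x - Sf δ x) * Yt δ x + Sf δ x * (Yt δ x - Y δ x) -
      Yt δ x * (S' δ x - Sf δ x) - (Yt δ x - Y δ x) * Sf δ x) :=
    ((((hS.mul hYt0).add ((hSf0.mul hY1).mono (by norm_num : 1 ≤ 0 + 1))).sub
      ((hYt0.mul hS).mono (by norm_num : 1 ≤ 0 + 1))).sub (hY1.mul hSf0))
  refine ((((hY.add (k4.sm hT)).add k1).add k2).add k3).congr fun δ x => ?_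
  have e1 : star (smc T δ • S' δ x) = - (smc T δ • S' δ x) := by
    rw [star_smul, star_smc, hSsa, neg_smul]
  have e2 := hcomm δ x
  have e3 : (R δ x + S δ x) * Y δ x - Y δ x * (R δ x + S δ x) =
      (R δ x * Y δ x - Y δ x * R δ x) + (Sf δ x * Y δ x - Y δ x * Sf δ x) := by
    rw [e2]; noncomm_ring
  rw [e3]
  simp only [star_sub, star_add, star_one, e1]
  simp only [mul_add, add_mul, mul_sub, sub_mul, smul_add, smul_sub, mul_smul_comm,
    smul_mul_assoc, mul_one, one_mul, mul_neg]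
  abel

theorem cyc_ok_of_le {X : Type} {k : ℕ} {f g : ℝ → X → A} (L : ℝ) (hL : 0 ≤ L)
    (h : ∀ δ : ℝ, 0 ≤ δ → δ ≤ 1 → ∀ x, ‖f δ x‖ ≤ L * ‖g δ x‖) (hg : Ok k g) : Ok k f := by
  obtain ⟨C, hC, h'⟩ := hg
  refine ⟨L * C, mul_nonneg hL hC, fun δ h0 h1 x => (h δ h0 h1 x).trans ?_⟩
  rw [mul_assoc]
  exact mul_le_mul_of_nonneg_left (h' δ h0 h1 x) hL

theorem cyc_lip_nonneg (p : Trig) : 0 ≤ p.lip := by
  unfold Trig.lip Finsupp.sum
  exact Finset.sum_nonneg fun k _ => mul_nonneg (abs_nonneg _) (norm_nonneg _)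

theorem cyc_val_ok0 {X : Type} (p : Trig) (y : ℝ → X → unitary A) :
    Ok 0 (fun δ x => p.val (y δ x)) :=
  ⟨p.sup, Trig_sup_nonneg p, fun δ _ _ x => by simpa using p.norm_val_le (y δ x)⟩

theorem cyc_val_sub {X : Type} (p : Trig) (y y' : ℝ → X → unitary A)
    (h : Ok 1 (fun δ x => (y' δ x : A) - y δ x)) :
    Ok 1 (fun δ x => p.val (y' δ x) - p.val (y δ x)) :=
  cyc_ok_of_le p.lip (cyc_lip_nonneg p) (fun δ _ _ x => p.norm_val_sub_le _ _) h

theorem cycH_ok0 {X : Type} (w b : ι) (v : Fin n → ι) (p : Trig) (γ : ℝ → X → ι → unitary A)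
    (t : ℕ) : Ok 0 (fun δ x => cycH w b v p (γ δ x) t) :=
  ((Ok.unit fun δ x => evu (γ δ x) (EW w v (t + 1))).star.mul
    (cyc_val_ok0 p fun δ x => γ δ x b)).mul (Ok.unit fun δ x => evu (γ δ x) (EW w v (t + 1)))

/-- product difference -/
theorem cyc_mul_sub {X : Type} {f f' g g' : ℝ → X → A} (hf : Ok 0 f) (hg' : Ok 0 g')
    (h1 : Ok 1 (fun δ x => f' δ x - f δ x)) (h2 : Ok 1 (fun δ x => g' δ x - g δ x)) :
    Ok 1 (fun δ x => f' δ x * g' δ x - f δ x * g δ x) := by
  have k1 : Ok 1 (fun δ x => (f' δ x - f δ x) * g' δ x) := h1.mul hg'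
  have k2 : Ok 1 (fun δ x => f δ x * (g' δ x - g δ x)) := (hf.mul h2).mono (by norm_num)
  exact (k1.add k2).congr fun δ x => by noncomm_ring

theorem cyc_star_sub {X : Type} {f f' : ℝ → X → A} (h1 : Ok 1 (fun δ x => f' δ x - f δ x)) :
    Ok 1 (fun δ x => star (f' δ x) - star (f δ x)) :=
  h1.star.congr fun δ x => star_sub _ _

theorem cycH_sub {X : Type} (w b : ι) (v : Fin n → ι) (p : Trig) (γ γ' : ℝ → X → ι → unitary A)
    (t : ℕ)
    (hF : Ok 1 (fun δ x => (evu (γ' δ x) (EW w v (t + 1)) : A) - evu (γ δ x) (EW w v (t + 1))))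
    (hb : Ok 1 (fun δ x => (γ' δ x b : A) - γ δ x b)) :
    Ok 1 (fun δ x => cycH w b v p (γ' δ x) t - cycH w b v p (γ δ x) t) := by
  have h1 := cyc_val_sub p (fun δ x => γ δ x b) (fun δ x => γ' δ x b) hb
  have h2 := cyc_mul_sub (Ok.unit fun δ x => evu (γ δ x) (EW w v (t + 1))).star
    (cyc_val_ok0 p fun δ x => γ' δ x b) (cyc_star_sub hF) h1
  exact cyc_mul_sub ((Ok.unit fun δ x => evu (γ δ x) (EW w v (t + 1))).star.mul
    (cyc_val_ok0 p fun δ x => γ δ x b)) (Ok.unit fun δ x => evu (γ' δ x) (EW w v (t + 1))) h2 hF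

theorem UH_ok0 {X : Type} (w b : ι) (v : Fin n → ι) (p : Trig) (γ : ℝ → X → ι → unitary A)
    (s t : ℕ) : Ok 0 (fun δ x => UH w b v p (γ δ x) (s + 1) (t + 1)) := by
  have h := ((Ok.unit fun δ x => evu (γ δ x) (EW w v (s + 1))).mul
    (cycH_ok0 w b v p γ t)).mul (Ok.unit fun δ x => evu (γ δ x) (EW w v (s + 1))).star
  exact h.congr fun δ x => (UH_eq w b v p (γ δ x) s t).symm

theorem UH_sub {X : Type} (w b : ι) (v : Fin n → ι) (p : Trig) (γ γ' : ℝ → X → ι → unitary A)
    (s t : ℕ)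
    (hF : ∀ s, Ok 1 (fun δ x => (evu (γ' δ x) (EW w v s) : A) - evu (γ δ x) (EW w v s)))
    (hb : Ok 1 (fun δ x => (γ' δ x b : A) - γ δ x b)) :
    Ok 1 (fun δ x => UH w b v p (γ' δ x) (s + 1) (t + 1) - UH w b v p (γ δ x) (s + 1) (t + 1)) := by
  have h1 := cyc_mul_sub (Ok.unit fun δ x => evu (γ δ x) (EW w v (s + 1)))
    (cycH_ok0 w b v p γ' t) (hF (s + 1)) (cycH_sub w b v p γ γ' t (hF (t + 1)) hb)
  have h2 := cyc_mul_sub ((Ok.unit fun δ x => evu (γ δ x) (EW w v (s + 1))).mul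
    (cycH_ok0 w b v p γ t)) (Ok.unit fun δ x => evu (γ' δ x) (EW w v (s + 1))).star h1
    (cyc_star_sub (hF (s + 1)))
  refine h2.congr fun δ x => ?_
  rw [UH_eq, UH_eq]

/-- jet of the rotating unitary -/
theorem cyc_u_jet {X : Type} {T : ℕ} (hT : 0 < T) (w b : ι) (v : Fin n → ι) (p : Trig)
    (γ : ℝ → X → ι → unitary A) (t : ℕ) :
    Ok 2 (fun δ x => (p.u (δ / (T : ℝ)) ((evu (γ δ x) (EW w v (t + 1)))⁻¹ * γ δ x b *
      evu (γ δ x) (EW w v (t + 1))) : A) - (1 + smc T δ • cycH w b v p (γ δ x) t)) := by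
  have hs := Trig_sup_nonneg p
  have hT1 : (1 : ℝ) ≤ T := by exact_mod_cast hT
  refine ⟨p.sup ^ 2 * Real.exp p.sup, by positivity, fun δ h0 h1 x => ?_⟩
  have h2 : 0 ≤ δ / (T : ℝ) := by positivity
  have h3 : δ / (T : ℝ) ≤ δ := div_le_self h0 hT1
  have h4 := p.norm_u_sub_le h2 (h3.trans h1) ((evu (γ δ x) (EW w v (t + 1)))⁻¹ * γ δ x b *
      evu (γ δ x) (EW w v (t + 1)))
  rw [cycH_eq, smul_smul] at h4
  refine h4.trans ?_
  exact mul_le_mul_of_nonneg_left (pow_le_pow_left₀ h2 h3 2) (by positivity)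

/-! #### the moves -/

/-- cumulative slot direction -/
noncomputable def cycD (w b : ι) (v : Fin n → ι) (p : Trig) (g : ι → unitary A) (t : ℕ)
    (l : Fin n) : A :=
  ∑ s ∈ (Finset.range t).filter (fun s => Fin.ofNat n s = l), cycH w b v p g s

/-- cross terms of the move number `t` -/
noncomputable def cycS (w b : ι) (v : Fin n → ι) (p : Trig) (g : ι → unitary A) (t : ℕ) : A :=
  ∑ s ∈ (Finset.range t).filter (fun s => Fin.ofNat n s = Fin.ofNat n t),
    UH w b v p g (s + 1) (t + 1)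

/-- cumulative cross terms -/
noncomputable def cycR (w b : ι) (v : Fin n → ι) (p : Trig) (g : ι → unitary A) (t : ℕ) : A :=
  ∑ r ∈ Finset.range t, cycS w b v p g r

theorem cyc_succ_b (w b : ι) (v : Fin n → ι) (hw : w ≠ b) (hv : ∀ l, v l ≠ b) (p : Trig) (P : ℕ)
    (δ : ℝ) (g : ι → unitary A) (t : ℕ) :
    cyc w b v p P δ g (t + 1) b =
      (evu (cyc w b v p P δ g (t + 1)) (EW w v (t + 1)) *
        (evu (cyc w b v p P δ g t) (EW w v (t + 1)))⁻¹) * cyc w b v p P δ g t b *
      (evu (cyc w b v p P δ g (t + 1)) (EW w v (t + 1)) *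
        (evu (cyc w b v p P δ g t) (EW w v (t + 1)))⁻¹)⁻¹ := by
  have hE := EW_off w b v hw hv (t + 1)
  simp only [cyc, move]
  rw [Function.update_self, ev_update_off _ _ hE]
  group

theorem cyc_succ_v (w b : ι) (v : Fin n → ι) (hv : ∀ l, v l ≠ b)
    (hinj : Function.Injective v) (p : Trig) (P : ℕ)
    (δ : ℝ) (g : ι → unitary A) (t : ℕ) (l : Fin n) :
    cyc w b v p P δ g (t + 1) (v l) =
      if Fin.ofNat n t = l then cyc w b v p P δ g t (v l) * p.u (δ / ((P * n : ℕ) : ℝ))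
        ((evu (cyc w b v p P δ g t) (EW w v (t + 1)))⁻¹ * cyc w b v p P δ g t b *
          evu (cyc w b v p P δ g t) (EW w v (t + 1))) else cyc w b v p P δ g t (v l) := by
  simp only [cyc, move, slot]
  rw [Function.update_of_ne (hv l)]
  split_ifs with h
  · rw [h, Function.update_self]
  · rw [Function.update_of_ne]
    exact fun h' => h (hinj h').symm

theorem cycD_succ (w b : ι) (v : Fin n → ι) (p : Trig) (g : ι → unitary A) (t : ℕ) (l : Fin n) :
    cycD w b v p g (t + 1) l = if Fin.ofNat n t = l then cycD w b v p g t l + cycH w b v p g t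
      else cycD w b v p g t l := by
  unfold cycD
  rw [Finset.range_add_one, Finset.filter_insert]
  split_ifs with h
  · rw [Finset.sum_insert (by simp), add_comm]
  · rfl

theorem cycR_succ (w b : ι) (v : Fin n → ι) (p : Trig) (g : ι → unitary A) (t : ℕ) :
    cycR w b v p g (t + 1) = cycR w b v p g t + cycS w b v p g t :=
  Finset.sum_range_succ _ _

/-- with the diagonal term -/
noncomputable def cycSf (w b : ι) (v : Fin n → ι) (p : Trig) (g : ι → unitary A) (t : ℕ) : A :=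
  ∑ s ∈ (Finset.range (t + 1)).filter (fun s => Fin.ofNat n s = Fin.ofNat n t),
    UH w b v p g (s + 1) (t + 1)

theorem cycSf_eq (w b : ι) (v : Fin n → ι) (p : Trig) (g : ι → unitary A) (t : ℕ) :
    cycSf w b v p g t = cycS w b v p g t + p.val (g b) := by
  unfold cycSf cycS
  rw [Finset.range_add_one, Finset.filter_insert, if_pos rfl, Finset.sum_insert (by simp),
    add_comm, UH_self]

theorem cycSf_sum (w b : ι) (v : Fin n → ι) (p : Trig) (g : ι → unitary A) (t : ℕ) :
    ∑ s ∈ Finset.range (t + 1), (evu g (EW w v (s + 1)) : A) *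
      (if Fin.ofNat n t = Fin.ofNat n s then cycH w b v p g t else 0) *
        star (evu g (EW w v (s + 1)) : A) = cycSf w b v p g t := by
  unfold cycSf
  rw [Finset.sum_filter]
  refine Finset.sum_congr rfl fun s _ => ?_
  by_cases h : Fin.ofNat n s = Fin.ofNat n t
  · rw [if_pos h.symm, if_pos h, UH_eq]
  · rw [if_neg (fun h' => h h'.symm), if_neg h]
    simp

theorem cyc_inv (w b : ι) (v : Fin n → ι) (hw : w ≠ b) (hv : ∀ l, v l ≠ b) (hvw : ∀ l, v l ≠ w)
    (hinj : Function.Injective v) (p : Trig) (P : ℕ) (hP : 0 < P) (t : ℕ) :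
    (∀ l, Ok 2 (fun (δ : ℝ) (g : ι → unitary A) => (cyc w b v p P δ g t (v l) : A) -
      ((g (v l) : A) + smc (P * n) δ • ((g (v l) : A) * cycD w b v p g t l)))) ∧
    Ok 2 (fun (δ : ℝ) (g : ι → unitary A) => (cyc w b v p P δ g t b : A) -
      ((g b : A) + smc (P * n) δ • (cycR w b v p g t * (g b : A) -
        (g b : A) * cycR w b v p g t))) := by
  have hT : 0 < P * n := Nat.mul_pos hP (Nat.pos_of_ne_zero (NeZero.ne n))
  induction t with
  | zero =>
    constructor
    · intro l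
      refine (Ok.zero 2).congr fun δ g => ?_
      simp [cyc, cycD]
    · refine (Ok.zero 2).congr fun δ g => ?_
      simp [cyc, cycR]
  | succ t ih =>
    obtain ⟨ihv, ihb⟩ := ih
    have hD0 : ∀ l, Ok 0 (fun (_ : ℝ) (g : ι → unitary A) => cycD w b v p g t l) := fun l =>
      Ok.sum _ fun s _ => cycH_ok0 w b v p (fun _ g => g) s
    have hS0 : Ok 0 (fun (_ : ℝ) (g : ι → unitary A) => cycSf w b v p g t) :=
      Ok.sum _ fun s _ => UH_ok0 w b v p (fun _ g => g) s t
    have hS'0 : Ok 0 (fun (δ : ℝ) (g : ι → unitary A) =>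
        cycSf w b v p (cyc w b v p P δ g t) t) :=
      Ok.sum _ fun s _ => UH_ok0 w b v p (fun δ g => cyc w b v p P δ g t) s t
    have hR0 : Ok 0 (fun (_ : ℝ) (g : ι → unitary A) => cycR w b v p g t) :=
      Ok.sum _ fun r _ => Ok.sum _ fun s _ => UH_ok0 w b v p (fun _ g => g) s r
    have hwt : ∀ (δ : ℝ) (g : ι → unitary A), cyc w b v p P δ g t w = g w :=
      fun δ g => cyc_fixed w b v p P δ g t hw hvw
    have hwt' : ∀ (δ : ℝ) (g : ι → unitary A), cyc w b v p P δ g (t + 1) w = g w :=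
      fun δ g => cyc_fixed w b v p P δ g (t + 1) hw hvw
    have hF : ∀ s, Ok 1 (fun (δ : ℝ) (g : ι → unitary A) =>
        (evu (cyc w b v p P δ g t) (EW w v s) : A) - evu g (EW w v s)) := by
      intro s
      have h := EW_jetOk w v hT s (fun _ g => g) (fun δ g => cyc w b v p P δ g t)
        (fun l _ g => cycD w b v p g t l) hD0 hwt ihv
      refine cyc_ok_sub_one hT ?_ h
      exact (Ok.sum _ fun s _ => ((Ok.unit fun _ g => evu g (EW w v (s + 1))).mul
        (hD0 (Fin.ofNat n s))).mul (Ok.unit fun _ g => evu g (EW w v (s + 1))).star).mul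
          (Ok.unit fun _ g => evu g (EW w v s))
    have hb1 : Ok 1 (fun (δ : ℝ) (g : ι → unitary A) => (cyc w b v p P δ g t b : A) - g b) :=
      cyc_ok_sub_one hT ((hR0.mul (Ok.unit fun _ g => g b)).sub
        ((Ok.unit fun _ g => g b).mul hR0)) ihb
    have hu := cyc_u_jet hT w b v p (fun (δ : ℝ) (g : ι → unitary A) => cyc w b v p P δ g t) t
    have hH' : Ok 0 (fun (δ : ℝ) (g : ι → unitary A) => cycH w b v p (cyc w b v p P δ g t) t) :=
      cycH_ok0 w b v p (fun δ g => cyc w b v p P δ g t) t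
    constructor
    · intro l
      by_cases hl : Fin.ofNat n t = l
      · have h1 := cyc_slot_step hT (Ok.unit fun (δ : ℝ) (g : ι → unitary A) =>
          cyc w b v p P δ g t (v l)) (Ok.unit fun _ g => g (v l)) (hD0 l) hH' (ihv l) hu
          (cycH_sub w b v p (fun _ g => g) (fun δ g => cyc w b v p P δ g t) t (hF (t + 1)) hb1)
        refine h1.congr fun δ g => ?_
        rw [cyc_succ_v w b v hv hinj, if_pos hl, cycD_succ, if_pos hl]
        push_cast
        rfl
      · refine (ihv l).congr fun δ g => ?_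
        rw [cyc_succ_v w b v hv hinj, if_neg hl, cycD_succ, if_neg hl]
    · -- the jet of `W`
      have hW0 := EW_jetOk w v hT (t + 1) (fun (δ : ℝ) (g : ι → unitary A) => cyc w b v p P δ g t)
        (fun δ g => cyc w b v p P δ g (t + 1))
        (fun l δ g => if Fin.ofNat n t = l then cycH w b v p (cyc w b v p P δ g t) t else 0) ?_ ?_ ?_
      · have hW1 : Ok 2 (fun (δ : ℝ) (g : ι → unitary A) =>
            ((evu (cyc w b v p P δ g (t + 1)) (EW w v (t + 1)) *
              (evu (cyc w b v p P δ g t) (EW w v (t + 1)))⁻¹ : unitary A) : A) -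
            (1 + smc (P * n) δ • cycSf w b v p (cyc w b v p P δ g t) t)) := by
          have h := hW0.mul (Ok.unit fun (δ : ℝ) (g : ι → unitary A) =>
            evu (cyc w b v p P δ g t) (EW w v (t + 1))).star
          refine (h.mono (by norm_num : 2 ≤ 2 + 0)).congr fun δ g => ?_
          have e : (evu (cyc w b v p P δ g t) (EW w v (t + 1)) : A) *
              star (evu (cyc w b v p P δ g t) (EW w v (t + 1)) : A) = 1 :=
            Unitary.mul_star_self_of_mem (Subtype.property _)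
          rw [cycSf_sum, ← Unitary.star_eq_inv]
          push_cast
          rw [sub_mul, add_mul, e, smul_mul_assoc, mul_assoc, e, mul_one]
        have hSd : Ok 1 (fun (δ : ℝ) (g : ι → unitary A) =>
            cycSf w b v p (cyc w b v p P δ g t) t - cycSf w b v p g t) := by
          have h : Ok 1 (fun (δ : ℝ) (g : ι → unitary A) =>
              ∑ s ∈ (Finset.range (t + 1)).filter (fun s => Fin.ofNat n s = Fin.ofNat n t),
                (UH w b v p (cyc w b v p P δ g t) (s + 1) (t + 1) -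
                  UH w b v p g (s + 1) (t + 1))) :=
            Ok.sum _ fun s _ =>
              UH_sub w b v p (fun _ g => g) (fun δ g => cyc w b v p P δ g t) s t hF hb1
          exact h.congr fun δ g => Finset.sum_sub_distrib _ _
        have key := cyc_conj_step hT
          (S := fun (_ : ℝ) (g : ι → unitary A) => cycS w b v p g t)
          (Ok.unit fun (δ : ℝ) (g : ι → unitary A) => cyc w b v p P δ g t b)
          (Ok.unit fun _ g => g b) hR0 hS0 hS'0 hW1
          (fun δ g => by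
            unfold cycSf
            rw [star_sum]
            exact Finset.sum_congr rfl fun s _ => UH_sa _ _ _ _ _ _ _) ihb hSd
          (fun δ g => by
            rw [cycSf_eq, add_mul, mul_add, p.val_comm]
            abel)
        refine key.congr fun δ g => ?_
        rw [cyc_succ_b w b v hw hv p P δ g t, cycR_succ]
        simp only [← Unitary.star_eq_inv]
        push_cast
        rfl
      · intro l
        by_cases hl : Fin.ofNat n t = l
        · exact hH'.congr fun δ g => (if_pos hl).symm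
        · exact (Ok.zero 0).congr fun δ g => (if_neg hl).symm
      · intro δ g
        rw [hwt, hwt']
      · intro l
        by_cases hl : Fin.ofNat n t = l
        · have h := (Ok.unit fun (δ : ℝ) (g : ι → unitary A) => cyc w b v p P δ g t (v l)).mul hu
          refine (h.mono (by norm_num : 2 ≤ 0 + 2)).congr fun δ g => ?_
          rw [cyc_succ_v w b v hv hinj, if_pos hl, if_pos hl]
          push_cast
          rw [mul_sub, mul_add, mul_one, mul_smul_comm]
        · refine (Ok.zero 2).congr fun δ g => ?_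
          rw [cyc_succ_v w b v hv hinj, if_neg hl, if_neg hl]
          simp

/-- the jet of one cycle: slots -/
theorem cyc_jet_v (w b : ι) (v : Fin n → ι) (hw : w ≠ b) (hv : ∀ l, v l ≠ b) (hvw : ∀ l, v l ≠ w)
    (hinj : Function.Injective v) (p : Trig) (P : ℕ) (hP : 0 < P) : ∃ C : ℝ, 0 ≤ C ∧
    ∀ (δ : ℝ), 0 ≤ δ → δ ≤ 1 → ∀ (g : ι → unitary A) (l : Fin n),
      ‖(cyc w b v p P δ g (P * n) (v l) : A) - ((g (v l) : A) +
        (((δ / ((P * n : ℕ) : ℝ) : ℝ) : ℂ) * Complex.I) • ((g (v l) : A) * DD w b v p P g l))‖ ≤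
        C * δ ^ 2 := by
  choose C hC h using (cyc_inv (A := A) w b v hw hv hvw hinj p P hP (P * n)).1
  refine ⟨∑ l, C l, Finset.sum_nonneg fun l _ => hC l, fun δ h0 h1 g l => ?_⟩
  refine (h l δ h0 h1 g).trans (mul_le_mul_of_nonneg_right ?_ (by positivity))
  exact Finset.single_le_sum (fun i _ => hC i) (Finset.mem_univ l)

theorem cycR_eq_RY (w b : ι) (v : Fin n → ι) (p : Trig) (P : ℕ) (g : ι → unitary A) :
    cycR w b v p g (P * n) = RY w b v p P g := by
  unfold cycR cycS RY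
  rw [Finset.sum_filter, Finset.sum_product_right]
  refine Finset.sum_congr rfl fun t ht => ?_
  rw [← Finset.sum_filter]
  refine Finset.sum_congr ?_ fun s _ => rfl
  ext s
  rw [Finset.mem_range] at ht
  simp only [Finset.mem_filter, Finset.mem_range]
  constructor
  · rintro ⟨h1, h2⟩
    exact ⟨h1.trans ht, h1, h2⟩
  · rintro ⟨_, h1, h2⟩
    exact ⟨h1, h2⟩

/-- the jet of one cycle: the partner `Y = g b` -/
theorem cyc_jet_b (w b : ι) (v : Fin n → ι) (hw : w ≠ b) (hv : ∀ l, v l ≠ b) (hvw : ∀ l, v l ≠ w)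
    (hinj : Function.Injective v) (p : Trig) (P : ℕ) (hP : 0 < P) : ∃ C : ℝ, 0 ≤ C ∧
    ∀ (δ : ℝ), 0 ≤ δ → δ ≤ 1 → ∀ (g : ι → unitary A),
      ‖(cyc w b v p P δ g (P * n) b : A) - ((g b : A) +
        (((δ / ((P * n : ℕ) : ℝ) : ℝ) : ℂ) * Complex.I) •
          (RY w b v p P g * (g b : A) - (g b : A) * RY w b v p P g))‖ ≤ C * δ ^ 2 := by
  obtain ⟨C, hC, h⟩ := (cyc_inv (A := A) w b v hw hv hvw hinj p P hP (P * n)).2
  refine ⟨C, hC, fun δ h0 h1 g => ?_⟩
  have := h δ h0 h1 g
  beta_reduce at this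
  rw [cycR_eq_RY] at this
  exact this

theorem cyc_sum_RX (w b : ι) (v : Fin n → ι) (p : Trig) (P : ℕ) (g : ι → unitary A) :
    ∑ s ∈ Finset.range (P * n), (evu g (EW w v (s + 1)) : A) *
      cycD w b v p g (P * n) (Fin.ofNat n s) * star (evu g (EW w v (s + 1)) : A) =
      ((P * n : ℕ) : ℂ) • p.val (g b) + RX w b v p P g := by
  have h1 : ∀ s ∈ Finset.range (P * n), (evu g (EW w v (s + 1)) : A) *
      cycD w b v p g (P * n) (Fin.ofNat n s) * star (evu g (EW w v (s + 1)) : A) =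
      ∑ t ∈ Finset.range (P * n), ((if s = t then p.val (g b) else 0) +
        (if s ≠ t ∧ Fin.ofNat n s = Fin.ofNat n t then UH w b v p g (s + 1) (t + 1) else 0)) := by
    intro s _
    unfold cycD
    rw [Finset.mul_sum, Finset.sum_mul, Finset.sum_filter]
    refine Finset.sum_congr rfl fun t _ => ?_
    rw [← UH_eq]
    by_cases hst : s = t
    · subst hst
      simp [UH_self]
    · by_cases h2 : Fin.ofNat n t = Fin.ofNat n s
      · rw [if_pos h2, if_neg hst, if_pos ⟨hst, h2.symm⟩, zero_add]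
      · rw [if_neg h2, if_neg hst, if_neg (fun h => h2 h.2.symm), zero_add]
  rw [Finset.sum_congr rfl h1]
  simp only [Finset.sum_add_distrib]
  congr 1
  · have h2 : ∀ s ∈ Finset.range (P * n), ∑ t ∈ Finset.range (P * n),
        (if s = t then p.val (g b) else 0) = p.val (g b) := by
      intro s hs
      rw [Finset.sum_ite_eq, if_pos hs]
    rw [Finset.sum_congr rfl h2, Finset.sum_const, Finset.card_range, Nat.cast_smul_eq_nsmul]
  · unfold RX
    rw [Finset.sum_filter, Finset.sum_product]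

/-- the jet of one cycle: the long word `X = E_{Pn}` -/
theorem cyc_jet_X (w b : ι) (v : Fin n → ι) (hw : w ≠ b) (hv : ∀ l, v l ≠ b) (hvw : ∀ l, v l ≠ w)
    (hinj : Function.Injective v) (p : Trig) (P : ℕ) (hP : 0 < P) : ∃ C : ℝ, 0 ≤ C ∧
    ∀ (δ : ℝ), 0 ≤ δ → δ ≤ 1 → ∀ (g : ι → unitary A),
      ‖(evu (cyc w b v p P δ g (P * n)) (EW w v (P * n)) : A) -
        ((evu g (EW w v (P * n)) : A) + (((δ / ((P * n : ℕ) : ℝ) : ℝ) : ℂ) * Complex.I) •
          ((((P * n : ℕ) : ℂ) • p.val (g b) + RX w b v p P g) * (evu g (EW w v (P * n)) : A)))‖ ≤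
        C * δ ^ 2 := by
  have hT : 0 < P * n := Nat.mul_pos hP (Nat.pos_of_ne_zero (NeZero.ne n))
  have hD0 : ∀ l, Ok 0 (fun (_ : ℝ) (g : ι → unitary A) => cycD w b v p g (P * n) l) := fun l =>
    Ok.sum _ fun s _ => cycH_ok0 w b v p (fun _ g => g) s
  obtain ⟨C, hC, h⟩ := EW_jetOk w v hT (P * n) (fun _ g => g)
    (fun (δ : ℝ) (g : ι → unitary A) => cyc w b v p P δ g (P * n))
    (fun l _ g => cycD w b v p g (P * n) l) hD0
    (fun δ g => cyc_fixed w b v p P δ g (P * n) hw hvw)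
    (cyc_inv w b v hw hv hvw hinj p P hP (P * n)).1
  refine ⟨C, hC, fun δ h0 h1 g => ?_⟩
  have := h δ h0 h1 g
  beta_reduce at this
  rw [cyc_sum_RX] at this
  exact this

end Crest.Agent.FGF.Cap
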