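import Crest.Agent.FGF.Defs

/-! # Row 134, module Capture (helper27): local definitions (namespace `FGF.Cap`) on top of
`FGF.Defs` (`FH`, `gens`, `vn`). -/

set_option autoImplicit false

namespace Crest.Agent.FGF.Cap

open Crest.Agent.GenII1 Filter Topology

variable {A : Type} [CStarAlgebra A]

/-- evaluation of words in a family of unitaries, as a homomorphism to the unitary group
(`FGF.ev g h = (evu g h : A)` by definition) -/
noncomputable def evu {ι : Type} (g : ι → unitary A) : FreeGroup ι →* unitary A := FreeGroup.lift g

@[simp] theorem evu_of {ι : Type} (g : ι → unitary A) (k : ι) : evu g (FreeGroup.of k) = g k := by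
  simp [evu]

/-- star algebra generated by a family of unitaries -/
noncomputable def alg {ι : Type} (g : ι → unitary A) : StarSubalgebra ℂ A :=
  StarAlgebra.adjoin ℂ (Set.range fun k => (g k : A))

variable [FinVN A]

theorem ev_eq {ι : Type} (g : ι → unitary A) (h : FreeGroup ι) : ev g h = (evu g h : A) := rfl

theorem FH.app {ι : Type} {g : ι → unitary A} (hg : FH g) {h : FreeGroup ι} (hh : h ≠ 1) :
    τ (evu g h : A) = 0 := hg h hh

/-- free Haar generating family -/
structure Good {ι : Type} (g : ι → unitary A) : Prop where
  fh : FH g
  gen : vn (gens g) = ⊤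

end Crest.Agent.FGF.Cap
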