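import Crest.Agent.FGF.CapCycle

/-! # Row 134, module Capture: K cycles (discrete Gronwall in the 2-norm) -/

set_option autoImplicit false

namespace Crest.Agent.FGF.Cap

open Crest.Agent.GenII1 Filter Topology

variable {A : Type} [CStarAlgebra A] [FinVN A] {ι : Type} [DecidableEq ι] {n : ℕ} [NeZero n]

/-- one cycle in the 2-norm: from the jets `cyc_jet_v/b/X`, the bounds `n2_DD_le`, `n2_RY_le`,
`n2_RX_le` (`n2 ≤ ‖·‖`, unitaries preserve `n2`) and `Trig.norm_u_sub_le`. -/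
theorem cycle2 (w b : ι) (v : Fin n → ι) (hw : w ≠ b) (hv : ∀ l, v l ≠ b) (hvw : ∀ l, v l ≠ w)
    (hinj : Function.Injective v) (p : Trig) (P : ℕ) (hP : 0 < P) : ∃ C : ℝ, 0 ≤ C ∧
    ∀ (δ : ℝ), 0 ≤ δ → δ ≤ 1 → ∀ (g : ι → unitary A), Good g →
      ∃ g' : ι → unitary A, Good g' ∧ (∀ k, k ≠ b → (∀ l, v l ≠ k) → g' k = g k) ∧
        (∀ l, n2 ((g' (v l) : A) - g (v l)) ≤ δ * (p.nrm / (n * Real.sqrt P)) + C * δ ^ 2) ∧
        n2 ((g' b : A) - g b) ≤ δ * (2 * p.nrm / Real.sqrt n) + C * δ ^ 2 ∧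
        n2 ((evu g' (EW w v (P * n)) : A) - (p.u δ (g b) : A) * evu g (EW w v (P * n))) ≤
          δ * (p.nrm / Real.sqrt n) + C * δ ^ 2 := by
  obtain ⟨C1, hC1, h1⟩ := cyc_jet_v (A := A) w b v hw hv hvw hinj p P hP
  obtain ⟨C2, hC2, h2⟩ := cyc_jet_b (A := A) w b v hw hv hvw hinj p P hP
  obtain ⟨C3, hC3, h3⟩ := cyc_jet_X (A := A) w b v hw hv hvw hinj p P hP
  have hS : 0 ≤ p.sup ^ 2 * Real.exp p.sup := by positivity
  have hnrm : 0 ≤ p.nrm := Real.sqrt_nonneg _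
  have hn : (0 : ℝ) < n := by exact_mod_cast Nat.pos_of_ne_zero (NeZero.ne n)
  have hP' : (0 : ℝ) < P := by exact_mod_cast hP
  have hsn : 0 < Real.sqrt n := Real.sqrt_pos.2 hn
  have hsP : 0 < Real.sqrt P := Real.sqrt_pos.2 hP'
  have hsn2 : Real.sqrt n * Real.sqrt n = n := Real.mul_self_sqrt hn.le
  have hsP2 : Real.sqrt P * Real.sqrt P = P := Real.mul_self_sqrt hP'.le
  refine ⟨C1 + C2 + C3 + p.sup ^ 2 * Real.exp p.sup, by positivity, ?_⟩
  intro δ hδ0 hδ1 g hg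
  have hδ2 : 0 ≤ δ ^ 2 := sq_nonneg δ
  set θ : ℝ := δ / ((P * n : ℕ) : ℝ) with hθ
  have hθ0 : 0 ≤ θ := by positivity
  have hθn : ‖((θ : ℂ) * Complex.I)‖ = θ := by
    rw [norm_mul, Complex.norm_I, mul_one, Complex.norm_real, Real.norm_eq_abs, abs_of_nonneg hθ0]
  have hθPn : θ * ((P * n : ℕ) : ℝ) = δ := by
    rw [hθ]
    have : ((P * n : ℕ) : ℝ) ≠ 0 := by
      rw [Nat.cast_mul]; positivity
    field_simp
  have hfh : FH g := hg.fh
  refine ⟨cyc w b v p P δ g (P * n), Good.cyc hg hw hv p P δ (P * n),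
    fun k hk hkv => cyc_fixed w b v p P δ g (P * n) hk hkv, ?_, ?_, ?_⟩
  · intro l
    have e := h1 δ hδ0 hδ1 g l
    have hd := n2_DD_le hfh p P hw hv hvw l
    have e2 : n2 ((cyc w b v p P δ g (P * n) (v l) : A) - g (v l)) ≤
        C1 * δ ^ 2 + θ * (Real.sqrt P * p.nrm) := by
      have e3 : (cyc w b v p P δ g (P * n) (v l) : A) - g (v l) =
          ((cyc w b v p P δ g (P * n) (v l) : A) - ((g (v l) : A) +
        ((θ : ℂ) * Complex.I) • ((g (v l) : A) * DD w b v p P g l))) +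
          ((θ : ℂ) * Complex.I) • ((g (v l) : A) * DD w b v p P g l) := by abel
      rw [e3]
      refine (n2_add_le _ _).trans (add_le_add ((n2_le_norm _).trans e) ?_)
      rw [n2_smul, hθn, n2_unitary_mul (g (v l)).2]
      exact mul_le_mul_of_nonneg_left hd hθ0
    have e4 : θ * (Real.sqrt P * p.nrm) = δ * (p.nrm / (n * Real.sqrt P)) := by
      rw [hθ]
      push_cast
      field_simp
      rw [Real.sq_sqrt hP'.le]
    have e5 : (C1 + C2 + C3 + p.sup ^ 2 * Real.exp p.sup) * δ ^ 2 =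
        C1 * δ ^ 2 + (C2 + C3 + p.sup ^ 2 * Real.exp p.sup) * δ ^ 2 := by ring
    have e6 : 0 ≤ (C2 + C3 + p.sup ^ 2 * Real.exp p.sup) * δ ^ 2 := by positivity
    linarith
  · have e := h2 δ hδ0 hδ1 g
    have hd := n2_RY_le hfh p P hw hv hvw
    have e2 : n2 ((cyc w b v p P δ g (P * n) b : A) - g b) ≤
        C2 * δ ^ 2 + θ * (2 * (Real.sqrt n * P * p.nrm)) := by
      have e3 : (cyc w b v p P δ g (P * n) b : A) - g b =
          ((cyc w b v p P δ g (P * n) b : A) - ((g b : A) + ((θ : ℂ) * Complex.I) •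
          (RY w b v p P g * (g b : A) - (g b : A) * RY w b v p P g))) +
          ((θ : ℂ) * Complex.I) • (RY w b v p P g * (g b : A) - (g b : A) * RY w b v p P g) := by
        abel
      rw [e3]
      refine (n2_add_le _ _).trans (add_le_add ((n2_le_norm _).trans e) ?_)
      rw [n2_smul, hθn]
      refine mul_le_mul_of_nonneg_left ?_ hθ0
      refine (n2_sub_le _ _).trans ?_
      rw [n2_unitary_mul (g b).2, n2_mul_unitary _ (g b).2]
      linarith
    have e4 : θ * (2 * (Real.sqrt n * P * p.nrm)) = δ * (2 * p.nrm / Real.sqrt n) := by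
      rw [hθ]
      push_cast
      field_simp
      rw [Real.sq_sqrt hn.le]
    have e5 : (C1 + C2 + C3 + p.sup ^ 2 * Real.exp p.sup) * δ ^ 2 =
        C2 * δ ^ 2 + (C1 + C3 + p.sup ^ 2 * Real.exp p.sup) * δ ^ 2 := by ring
    have e6 : 0 ≤ (C1 + C3 + p.sup ^ 2 * Real.exp p.sup) * δ ^ 2 := by positivity
    linarith
  · have e := h3 δ hδ0 hδ1 g
    have hd := n2_RX_le hfh p P hw hv hvw
    have hu := p.norm_u_sub_le hδ0 hδ1 (g b)
    set X : unitary A := evu g (EW w v (P * n)) with hX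
    set X' : unitary A := evu (cyc w b v p P δ g (P * n)) (EW w v (P * n)) with hX'
    have hθc : ((θ : ℂ) * Complex.I) * ((P * n : ℕ) : ℂ) = (δ : ℂ) * Complex.I := by
      have : ((θ : ℂ)) * ((P * n : ℕ) : ℂ) = (δ : ℂ) := by
        rw [← hθPn]; push_cast; ring
      rw [← this]; ring
    have e2 : n2 ((X' : A) - (p.u δ (g b) : A) * X) ≤
        C3 * δ ^ 2 + ((p.sup ^ 2 * Real.exp p.sup) * δ ^ 2 + θ * (Real.sqrt n * P * p.nrm)) := by
      have e3 : (X' : A) - (p.u δ (g b) : A) * X =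
          ((X' : A) - ((X : A) + ((θ : ℂ) * Complex.I) •
          ((((P * n : ℕ) : ℂ) • p.val (g b) + RX w b v p P g) * (X : A)))) +
          (- (((p.u δ (g b) : A) - (1 + (δ : ℂ) • (Complex.I • p.val (g b)))) * X) +
          ((θ : ℂ) * Complex.I) • (RX w b v p P g * (X : A))) := by
        have e4 : ((θ : ℂ) * Complex.I) •
          ((((P * n : ℕ) : ℂ) • p.val (g b) + RX w b v p P g) * (X : A)) =
          (δ : ℂ) • (Complex.I • (p.val (g b) * (X : A))) +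
            ((θ : ℂ) * Complex.I) • (RX w b v p P g * (X : A)) := by
          rw [add_mul, smul_add, smul_mul_assoc, smul_smul, hθc, ← smul_smul]
        rw [e4]
        have e5 : ((p.u δ (g b) : A) - (1 + (δ : ℂ) • (Complex.I • p.val (g b)))) * X =
          (p.u δ (g b) : A) * X - (X : A) - (δ : ℂ) • (Complex.I • (p.val (g b) * (X : A))) := by
          rw [sub_mul, add_mul, one_mul, smul_mul_assoc, smul_mul_assoc]
          abel
        rw [e5]
        abel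
      rw [e3]
      refine (n2_add_le _ _).trans (add_le_add ((n2_le_norm _).trans e) ?_)
      refine (n2_add_le _ _).trans (add_le_add ?_ ?_)
      · rw [n2_neg, n2_mul_unitary _ X.2]
        exact (n2_le_norm _).trans hu
      · rw [n2_smul, hθn, n2_mul_unitary _ X.2]
        exact mul_le_mul_of_nonneg_left hd hθ0
    have e4 : θ * (Real.sqrt n * P * p.nrm) = δ * (p.nrm / Real.sqrt n) := by
      rw [hθ]
      push_cast
      field_simp
      rw [Real.sq_sqrt hn.le]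
    have e5 : (C1 + C2 + C3 + p.sup ^ 2 * Real.exp p.sup) * δ ^ 2 =
        C3 * δ ^ 2 + (p.sup ^ 2 * Real.exp p.sup) * δ ^ 2 + (C1 + C2) * δ ^ 2 := by ring
    have e6 : 0 ≤ (C1 + C2) * δ ^ 2 := by positivity
    linarith

/-- `u` is a one parameter group -/
theorem Trig.u_add (p : Trig) (s t : ℝ) (y : unitary A) : p.u (s + t) y = p.u s y * p.u t y := by
  unfold Trig.u
  rw [add_smul]
  refine Commute.expUnitary_add ?_
  simp only [selfAdjoint.val_smul]
  exact ((Commute.refl (p.val y)).smul_left s).smul_right t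

/-- dependence of `u` on the unitary, in the 2-norm -/
theorem Trig.n2_u_sub (p : Trig) : ∃ C : ℝ, 0 ≤ C ∧ ∀ (δ : ℝ), 0 ≤ δ → δ ≤ 1 → ∀ x y : unitary A,
    n2 ((p.u δ x : A) - p.u δ y) ≤ δ * (p.lip * n2 ((x : A) - y)) + C * δ ^ 2 := by
  refine ⟨2 * (p.sup ^ 2 * Real.exp p.sup), by positivity, ?_⟩
  intro δ h0 h1 x y
  have hx := p.norm_u_sub_le h0 h1 x
  have hy := p.norm_u_sub_le h0 h1 y
  have hl := p.n2_val_sub_le x y
  have e : (p.u δ x : A) - p.u δ y =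
      ((p.u δ x : A) - (1 + (δ : ℂ) • (Complex.I • p.val x))) +
      (-((p.u δ y : A) - (1 + (δ : ℂ) • (Complex.I • p.val y))) +
        (δ : ℂ) • (Complex.I • (p.val x - p.val y))) := by
    rw [smul_sub, smul_sub]
    abel
  rw [e]
  have e1 := n2_add_le ((p.u δ x : A) - (1 + (δ : ℂ) • (Complex.I • p.val x)))
    (-((p.u δ y : A) - (1 + (δ : ℂ) • (Complex.I • p.val y))) +
        (δ : ℂ) • (Complex.I • (p.val x - p.val y)))
  have e2 := n2_add_le (-((p.u δ y : A) - (1 + (δ : ℂ) • (Complex.I • p.val y))))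
        ((δ : ℂ) • (Complex.I • (p.val x - p.val y)))
  rw [n2_neg] at e2
  have e3 : n2 ((δ : ℂ) • (Complex.I • (p.val x - p.val y))) ≤ δ * (p.lip * n2 ((x : A) - y)) := by
    rw [n2_smul, n2_I_smul, Complex.norm_real, Real.norm_eq_abs, abs_of_nonneg h0]
    exact mul_le_mul_of_nonneg_left hl h0
  have e4 := (n2_le_norm _).trans hx
  have e5 := (n2_le_norm _).trans hy
  linarith

private theorem u_zero' (p : Trig) (y : unitary A) : p.u 0 y = 1 := by
  have h := Trig.u_add p 0 0 y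
  rw [add_zero] at h
  exact (mul_eq_left.1 h.symm)

/-- `k` cycles of angle `δ`, `k δ ≤ 1` -/
private theorem flow_aux (w b : ι) (v : Fin n → ι) (p : Trig) (P : ℕ)
    (C1 C2 δ : ℝ) (hC1 : 0 ≤ C1) (h0 : 0 ≤ δ) (hlip : 0 ≤ p.lip) (hnrm : 0 ≤ p.nrm)
    (hcyc : ∀ (g : ι → unitary A), Good g →
      ∃ g' : ι → unitary A, Good g' ∧ (∀ k, k ≠ b → (∀ l, v l ≠ k) → g' k = g k) ∧
        (∀ l, n2 ((g' (v l) : A) - g (v l)) ≤ δ * (p.nrm / (n * Real.sqrt P)) + C1 * δ ^ 2) ∧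
        n2 ((g' b : A) - g b) ≤ δ * (2 * p.nrm / Real.sqrt n) + C1 * δ ^ 2 ∧
        n2 ((evu g' (EW w v (P * n)) : A) - (p.u δ (g b) : A) * evu g (EW w v (P * n))) ≤
          δ * (p.nrm / Real.sqrt n) + C1 * δ ^ 2)
    (hu : ∀ x y : unitary A,
      n2 ((p.u δ x : A) - p.u δ y) ≤ δ * (p.lip * n2 ((x : A) - y)) + C2 * δ ^ 2)
    (g : ι → unitary A) (hg : Good g) (k : ℕ) (hk : k * δ ≤ 1) :
    ∃ g' : ι → unitary A, Good g' ∧ (∀ j, j ≠ b → (∀ l, v l ≠ j) → g' j = g j) ∧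
      (∀ l, n2 ((g' (v l) : A) - g (v l)) ≤ k * (δ * (p.nrm / (n * Real.sqrt P)) + C1 * δ ^ 2)) ∧
      n2 ((g' b : A) - g b) ≤ k * (δ * (2 * p.nrm / Real.sqrt n) + C1 * δ ^ 2) ∧
      n2 ((evu g' (EW w v (P * n)) : A) - (p.u (k * δ) (g b) : A) * evu g (EW w v (P * n))) ≤
        k * (δ * (p.nrm / Real.sqrt n) + C1 * δ ^ 2 +
          (δ * (p.lip * (2 * p.nrm / Real.sqrt n + C1 * δ)) + C2 * δ ^ 2)) := by
  induction k with
  | zero =>
    refine ⟨g, hg, fun _ _ _ => rfl, fun l => by simp, by simp, ?_⟩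
    simp [u_zero']
  | succ k ih =>
    have hk' : (k : ℝ) * δ ≤ 1 := by
      push_cast at hk; nlinarith
    obtain ⟨g1, hg1, hf1, hv1, hb1, hX1⟩ := ih hk'
    obtain ⟨g2, hg2, hf2, hv2, hb2, hX2⟩ := hcyc g1 hg1
    refine ⟨g2, hg2, fun j hj hl => (hf2 j hj hl).trans (hf1 j hj hl), fun l => ?_, ?_, ?_⟩
    · have h := (n2_triangle (g2 (v l) : A) (g1 (v l)) (g (v l))).trans (add_le_add (hv2 l) (hv1 l))
      push_cast
      linarith
    · have h := (n2_triangle (g2 b : A) (g1 b) (g b)).trans (add_le_add hb2 hb1)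
      push_cast
      linarith
    · have hYb : n2 ((g1 b : A) - g b) ≤ 2 * p.nrm / Real.sqrt n + C1 * δ := by
        refine hb1.trans ?_
        have e : (k : ℝ) * (δ * (2 * p.nrm / Real.sqrt n) + C1 * δ ^ 2) =
            (k * δ) * (2 * p.nrm / Real.sqrt n + C1 * δ) := by ring
        rw [e]
        have h3 : 0 ≤ 2 * p.nrm / Real.sqrt n + C1 * δ := by positivity
        nlinarith
      have e1 : (((k + 1 : ℕ) : ℝ)) * δ = δ + k * δ := by push_cast; ring
      rw [e1, Trig.u_add]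
      set X0 := evu g (EW w v (P * n)) with hX0
      set Xk := evu g1 (EW w v (P * n)) with hXk
      have t1 : n2 ((p.u δ (g1 b) : A) * Xk - (p.u δ (g b) : A) * Xk) ≤
          δ * (p.lip * (2 * p.nrm / Real.sqrt n + C1 * δ)) + C2 * δ ^ 2 := by
        rw [← sub_mul, n2_mul_unitary _ (Subtype.prop Xk)]
        refine (hu _ _).trans ?_
        gcongr
      have t2 : n2 ((p.u δ (g b) : A) * Xk -
          (((p.u δ (g b) * p.u (k * δ) (g b) : unitary A)) : A) * X0) ≤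
          k * (δ * (p.nrm / Real.sqrt n) + C1 * δ ^ 2 +
          (δ * (p.lip * (2 * p.nrm / Real.sqrt n + C1 * δ)) + C2 * δ ^ 2)) := by
        have e2 : (p.u δ (g b) : A) * Xk -
          (((p.u δ (g b) * p.u (k * δ) (g b) : unitary A)) : A) * X0 =
          (p.u δ (g b) : A) * (Xk - (p.u (k * δ) (g b) : A) * X0) := by
          rw [mul_sub, ← mul_assoc]; rfl
        rw [e2, n2_unitary_mul (Subtype.prop (p.u δ (g b)))]
        exact hX1
      have t3 := n2_triangle ((evu g2 (EW w v (P * n)) : unitary A) : A)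
        ((p.u δ (g1 b) : A) * Xk)
        ((((p.u δ (g b) * p.u (k * δ) (g b) : unitary A)) : A) * X0)
      have t4 := n2_triangle ((p.u δ (g1 b) : A) * Xk) ((p.u δ (g b) : A) * Xk)
        ((((p.u δ (g b) * p.u (k * δ) (g b) : unitary A)) : A) * X0)
      refine (t3.trans (add_le_add hX2 (t4.trans (add_le_add t1 t2)))).trans (le_of_eq ?_)
      push_cast
      ring

/-- THE FLOW: `K → ∞` cycles of angle `1/K`. -/
theorem flow (w b : ι) (v : Fin n → ι) (hw : w ≠ b) (hv : ∀ l, v l ≠ b) (hvw : ∀ l, v l ≠ w)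
    (hinj : Function.Injective v) (p : Trig) (P : ℕ) (hP : 0 < P) (ε : ℝ) (hε : 0 < ε)
    (g : ι → unitary A) (hg : Good g) :
    ∃ g' : ι → unitary A, Good g' ∧ (∀ k, k ≠ b → (∀ l, v l ≠ k) → g' k = g k) ∧
      (∀ l, n2 ((g' (v l) : A) - g (v l)) ≤ p.nrm / (n * Real.sqrt P) + ε) ∧
      n2 ((evu g' (EW w v (P * n)) : A) - (p.u 1 (g b) : A) * evu g (EW w v (P * n))) ≤
        (2 * p.lip + 1) * p.nrm / Real.sqrt n + ε := by
  obtain ⟨C1, hC1, h1⟩ := cycle2 (A := A) w b v hw hv hvw hinj p P hP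
  obtain ⟨C2, hC2, h2⟩ := Trig.n2_u_sub (A := A) p
  have hlip : 0 ≤ p.lip := by
    unfold Trig.lip Finsupp.sum
    positivity
  have hnrm : 0 ≤ p.nrm := Real.sqrt_nonneg _
  obtain ⟨K, hK⟩ := exists_nat_gt ((C1 + p.lip * C1 + C2) / ε)
  set δ : ℝ := 1 / ((K : ℝ) + 1) with hδ
  have hδ0 : 0 < δ := by positivity
  have hδ1 : δ ≤ 1 := by
    rw [hδ, div_le_one (by positivity)]
    have : (0 : ℝ) ≤ K := Nat.cast_nonneg K
    linarith
  have hKδ : ((K + 1 : ℕ) : ℝ) * δ = 1 := by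
    rw [hδ]; push_cast; field_simp
  have herr : δ * (C1 + p.lip * C1 + C2) ≤ ε := by
    rw [div_lt_iff₀ hε] at hK
    rw [hδ, one_div, inv_mul_le_iff₀ (by positivity)]
    nlinarith
  obtain ⟨g', hg', hf, hvl, hb, hX⟩ := flow_aux w b v p P C1 C2 δ hC1 hδ0.le hlip hnrm
    (fun g hg => h1 δ hδ0.le hδ1 g hg) (fun x y => h2 δ hδ0.le hδ1 x y) g hg (K + 1) hKδ.le
  refine ⟨g', hg', hf, fun l => (hvl l).trans ?_, ?_⟩
  · have e : ((K + 1 : ℕ) : ℝ) * (δ * (p.nrm / (n * Real.sqrt P)) + C1 * δ ^ 2) =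
        (((K + 1 : ℕ) : ℝ) * δ) * (p.nrm / (n * Real.sqrt P) + C1 * δ) := by ring
    rw [e, hKδ, one_mul]
    have h3 : 0 ≤ p.lip * C1 := by positivity
    nlinarith
  · rw [hKδ] at hX
    refine hX.trans ?_
    have e : ((K + 1 : ℕ) : ℝ) * (δ * (p.nrm / Real.sqrt n) + C1 * δ ^ 2 +
          (δ * (p.lip * (2 * p.nrm / Real.sqrt n + C1 * δ)) + C2 * δ ^ 2)) =
        (((K + 1 : ℕ) : ℝ) * δ) * ((2 * p.lip + 1) * p.nrm / Real.sqrt n +
          δ * (C1 + p.lip * C1 + C2)) := by ring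
    rw [e, hKδ, one_mul]
    linarith

end Crest.Agent.FGF.Cap
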