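import Crest.Agent.FGF.CapOrtho

/-! # Row 134, module Capture: calculus of uniform `O(δ^k)` -/

set_option autoImplicit false

namespace Crest.Agent.FGF.Cap

open Crest.Agent.GenII1 Filter Topology

variable {A : Type} [CStarAlgebra A] {X : Type}

/-- `f δ x = O(δ^k)` uniformly in `x`, for `0 ≤ δ ≤ 1` -/
def Ok (k : ℕ) (f : ℝ → X → A) : Prop :=
  ∃ C : ℝ, 0 ≤ C ∧ ∀ δ : ℝ, 0 ≤ δ → δ ≤ 1 → ∀ x, ‖f δ x‖ ≤ C * δ ^ k

theorem Ok.congr {k : ℕ} {f g : ℝ → X → A} (h : Ok k f) (e : ∀ δ x, f δ x = g δ x) : Ok k g := by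
  have : f = g := by
    funext δ x
    exact e δ x
  rwa [← this]

theorem Ok.zero (k : ℕ) : Ok k (fun (_ : ℝ) (_ : X) => (0 : A)) :=
  ⟨0, le_rfl, fun δ _ _ x => by simp⟩

theorem Ok.add {k : ℕ} {f g : ℝ → X → A} (hf : Ok k f) (hg : Ok k g) :
    Ok k (fun δ x => f δ x + g δ x) := by
  obtain ⟨C, hC, h⟩ := hf
  obtain ⟨C', hC', h'⟩ := hg
  refine ⟨C + C', add_nonneg hC hC', fun δ h0 h1 x => ?_⟩
  refine (norm_add_le _ _).trans ?_
  rw [add_mul]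
  exact add_le_add (h δ h0 h1 x) (h' δ h0 h1 x)

theorem Ok.neg {k : ℕ} {f : ℝ → X → A} (hf : Ok k f) : Ok k (fun δ x => - f δ x) := by
  obtain ⟨C, hC, h⟩ := hf
  exact ⟨C, hC, fun δ h0 h1 x => by rw [norm_neg]; exact h δ h0 h1 x⟩

theorem Ok.sub {k : ℕ} {f g : ℝ → X → A} (hf : Ok k f) (hg : Ok k g) :
    Ok k (fun δ x => f δ x - g δ x) :=
  (hf.add hg.neg).congr fun δ x => (sub_eq_add_neg _ _).symm

theorem Ok.mul {k l : ℕ} {f g : ℝ → X → A} (hf : Ok k f) (hg : Ok l g) :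
    Ok (k + l) (fun δ x => f δ x * g δ x) := by
  obtain ⟨C, hC, h⟩ := hf
  obtain ⟨C', hC', h'⟩ := hg
  refine ⟨C * C', mul_nonneg hC hC', fun δ h0 h1 x => ?_⟩
  refine (norm_mul_le _ _).trans ?_
  calc ‖f δ x‖ * ‖g δ x‖ ≤ (C * δ ^ k) * (C' * δ ^ l) :=
        mul_le_mul (h δ h0 h1 x) (h' δ h0 h1 x) (norm_nonneg _) (by positivity)
    _ = C * C' * δ ^ (k + l) := by rw [pow_add]; ring

theorem Ok.mono {k l : ℕ} (hkl : k ≤ l) {f : ℝ → X → A} (hf : Ok l f) : Ok k f := by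
  obtain ⟨C, hC, h⟩ := hf
  refine ⟨C, hC, fun δ h0 h1 x => (h δ h0 h1 x).trans ?_⟩
  exact mul_le_mul_of_nonneg_left (pow_le_pow_of_le_one h0 h1 hkl) hC

theorem Ok.star {k : ℕ} {f : ℝ → X → A} (hf : Ok k f) : Ok k (fun δ x => star (f δ x)) := by
  obtain ⟨C, hC, h⟩ := hf
  exact ⟨C, hC, fun δ h0 h1 x => by rw [norm_star]; exact h δ h0 h1 x⟩

theorem Ok.unit (u : ℝ → X → unitary A) : Ok 0 (fun δ x => (u δ x : A)) :=
  ⟨1, zero_le_one, fun δ _ _ x => by simpa using Trig_norm_unitary_le (u δ x)⟩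

theorem Ok.sum {k : ℕ} {κ : Type} (s : Finset κ) {f : κ → ℝ → X → A} (hf : ∀ i ∈ s, Ok k (f i)) :
    Ok k (fun δ x => ∑ i ∈ s, f i δ x) := by
  classical
  induction s using Finset.induction_on with
  | empty => simpa using Ok.zero (A := A) (X := X) k
  | insert a s ha ih =>
    have h1 := (hf a (Finset.mem_insert_self a s)).add
      (ih fun i hi => hf i (Finset.mem_insert_of_mem hi))
    exact h1.congr fun δ x => (Finset.sum_insert (f := fun i => f i δ x) ha).symm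

/-- the scalar `i δ / T` -/
noncomputable def smc (T : ℕ) (δ : ℝ) : ℂ := ((δ / (T : ℝ) : ℝ) : ℂ) * Complex.I

theorem norm_smc_le {T : ℕ} (hT : 0 < T) {δ : ℝ} (h0 : 0 ≤ δ) : ‖smc T δ‖ ≤ δ := by
  unfold smc
  have : (1 : ℝ) ≤ T := by exact_mod_cast hT
  rw [norm_mul, Complex.norm_I, mul_one, Complex.norm_real, Real.norm_eq_abs,
    abs_of_nonneg (by positivity)]
  exact div_le_self h0 this

theorem star_smc (T : ℕ) (δ : ℝ) : star (smc T δ) = - smc T δ := by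
  unfold smc
  simp

theorem Ok.sm {T : ℕ} (hT : 0 < T) {k : ℕ} {f : ℝ → X → A} (hf : Ok k f) :
    Ok (k + 1) (fun δ x => smc T δ • f δ x) := by
  obtain ⟨C, hC, h⟩ := hf
  refine ⟨C, hC, fun δ h0 h1 x => ?_⟩
  rw [norm_smul]
  calc ‖smc T δ‖ * ‖f δ x‖ ≤ δ * (C * δ ^ k) :=
        mul_le_mul (norm_smc_le hT h0) (h δ h0 h1 x) (norm_nonneg _) h0
    _ = C * δ ^ (k + 1) := by rw [pow_succ]; ring

end Crest.Agent.FGF.Cap
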