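import Crest.Agent.FGF.CapFlow

/-! # Row 134, module Capture: Step 1 (one target) -/

set_option autoImplicit false

namespace Crest.Agent.FGF.Cap

open Crest.Agent.GenII1 Filter Topology

/-- STEP 1. With `g₁ = update g b (g b * X(g)⁻¹)` (`Good.mul_word`), `flow` applied to `g₁` gives
`X(g') ≈ exp(i p(Y)) X(g) ≈ Y X(g) = g b`, `Y = g₁ b` a Haar unitary (`fh_haar`), `p` from
`exists_trigU (η/3)`, `n` large, `P` large. -/
theorem capture_one (η : ℝ) (hη : 0 < η) : ∃ n0 : ℕ, ∀ n, n0 ≤ n → ∀ [NeZero n]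
    (ι : Type) [DecidableEq ι] (w b : ι) (v : Fin n → ι), w ≠ b → (∀ l, v l ≠ b) → (∀ l, v l ≠ w) →
    Function.Injective v → ∀ (A : Type) [CStarAlgebra A] [FinVN A] (g : ι → unitary A), Good g →
    ∀ ε : ℝ, 0 < ε → ∃ g' : ι → unitary A, Good g' ∧ (∀ k, k ≠ b → (∀ l, v l ≠ k) → g' k = g k) ∧
      (∀ l, n2 ((g' (v l) : A) - g (v l)) ≤ ε) ∧
      ∃ P : ℕ, n2 ((evu g' (EW w v (P * n)) : A) - g b) ≤ η := by
  obtain ⟨p, hp⟩ := exists_trigU (η / 3) (by positivity)
  obtain ⟨n0, hn0⟩ := exists_nat_gt (((2 * p.lip + 1) * p.nrm / (η / 3)) ^ 2)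
  refine ⟨n0 + 1, fun n hn _ ι _ w b v hw hv hvw hinj A _ _ g hg ε hε => ?_⟩
  have hnpos : (0 : ℝ) < n := by
    have : 0 < n := by omega
    exact_mod_cast this
  have hnrm : 0 ≤ p.nrm := Real.sqrt_nonneg _
  have hlip : 0 ≤ p.lip := by
    unfold Trig.lip
    exact Finset.sum_nonneg (fun k _ => by positivity)
  -- n is large
  have hlarge : (2 * p.lip + 1) * p.nrm / Real.sqrt n ≤ η / 3 := by
    have h1 : (2 * p.lip + 1) * p.nrm / (η / 3) ≤ Real.sqrt n := by
      apply Real.le_sqrt_of_sq_le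
      have h2 : (n0 : ℝ) ≤ n := by exact_mod_cast (by omega : n0 ≤ n)
      linarith
    rw [div_le_iff₀ (by positivity)] at h1
    rw [div_le_iff₀ (Real.sqrt_pos.2 hnpos)]
    linarith
  -- P is large
  obtain ⟨P0, hP0⟩ := exists_nat_gt ((p.nrm / (n * (ε / 2))) ^ 2)
  set P : ℕ := P0 + 1 with hPdef
  have hP : 0 < P := by omega
  have hPpos : (0 : ℝ) < P := by exact_mod_cast hP
  have hPl : p.nrm / (n * Real.sqrt P) ≤ ε / 2 := by
    have h1 : p.nrm / (n * (ε / 2)) ≤ Real.sqrt P := by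
      apply Real.le_sqrt_of_sq_le
      have h2 : (P0 : ℝ) ≤ P := by exact_mod_cast (by omega : P0 ≤ P)
      linarith
    rw [div_le_iff₀ (by positivity)] at h1
    rw [div_le_iff₀ (by positivity)]
    nlinarith
  -- the word
  have hEoff : EW w v (P * n) ∈ Off b := EW_off w b v hw hv _
  set E : FreeGroup ι := EW w v (P * n) with hE
  set g₁ : ι → unitary A := Function.update g b (g b * evu g E⁻¹) with hg₁
  have hgood : Good g₁ := hg.mul_word (Subgroup.inv_mem _ hEoff)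
  have hE1 : evu g₁ E = evu g E := ev_update_off g _ hEoff
  have hb : g₁ b = g b * evu g E⁻¹ := by simp [hg₁]
  have hbE : g₁ b * evu g E = g b := by
    rw [hb, map_inv, inv_mul_cancel_right]
  have hne : ∀ k, k ≠ b → g₁ k = g k := fun k hk => by simp [hg₁, hk]
  obtain ⟨g', hg', hfix, hsl, hX⟩ := flow w b v hw hv hvw hinj p P hP (min (ε / 2) (η / 3))
    (by positivity) g₁ hgood
  refine ⟨g', hg', fun k hkb hkv => ?_, fun l => ?_, P, ?_⟩
  · rw [hfix k hkb hkv, hne k hkb]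
  · have h1 := hsl l
    rw [hne (v l) (hv l)] at h1
    have h2 := min_le_left (ε / 2) (η / 3)
    linarith
  · have hhaar : ∀ k : ℤ, k ≠ 0 → τ ((g₁ b ^ k : unitary A) : A) = 0 := by
      intro k hk
      have h1 := hgood.fh (FreeGroup.of b ^ k) (by
        intro h
        have h2 := congrArg (fun x => Multiplicative.toAdd (FreeGroup.lift
          (fun _ : ι => Multiplicative.ofAdd (1 : ℤ)) x)) h
        simp at h2
        exact hk h2)
      rw [ev_eq, map_zpow, evu_of] at h1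
      exact h1
    have h1 := hp A (g₁ b) hhaar
    rw [← hE, hE1] at hX
    have h3 := min_le_right (ε / 2) (η / 3)
    have h4 : n2 ((p.u 1 (g₁ b) : A) * evu g E - g b) ≤ η / 3 := by
      have e : (g b : A) = (g₁ b : A) * (evu g E : A) := by
        rw [← hbE]; rfl
      rw [e, ← sub_mul, n2_mul_unitary _ (evu g E).2]
      exact h1
    calc n2 ((evu g' E : A) - g b) ≤ n2 ((evu g' E : A) - (p.u 1 (g₁ b) : A) * evu g E) +
        n2 ((p.u 1 (g₁ b) : A) * evu g E - g b) := n2_triangle _ _ _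
      _ ≤ ((2 * p.lip + 1) * p.nrm / Real.sqrt n + min (ε / 2) (η / 3)) + η / 3 := add_le_add hX h4
      _ ≤ η := by linarith

end Crest.Agent.FGF.Cap
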