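import Crest.Agent.FGF.CapTrig

/-! # Row 134, module C: 2-norm identities for conjugates of `H = p(Y)` by words -/

set_option autoImplicit false

namespace Crest.Agent.FGF.Cap

open Crest.Agent.GenII1 Filter Topology

variable {A : Type} [CStarAlgebra A] [FinVN A] {ι : Type}

/-- lamplighter permutation of the letter `b` -/
private noncomputable def lampB (ι : Type) : Equiv.Perm (FreeGroup ι × (FreeGroup ι → ℤ)) := by
  classical
  exact
  { toFun := fun x => (x.1, x.2 + Pi.single x.1 1)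
    invFun := fun x => (x.1, x.2 - Pi.single x.1 1)
    left_inv := fun x => by simp
    right_inv := fun x => by simp }

private noncomputable def lampA {ι : Type} (a : FreeGroup ι) :
    Equiv.Perm (FreeGroup ι × (FreeGroup ι → ℤ)) where
  toFun := fun x => (x.1 * a⁻¹, x.2)
  invFun := fun x => (x.1 * a, x.2)
  left_inv := fun x => by simp
  right_inv := fun x => by simp

open Classical in
private noncomputable def lamp {ι : Type} (b : ι) :
    FreeGroup ι →* Equiv.Perm (FreeGroup ι × (FreeGroup ι → ℤ)) :=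
  FreeGroup.lift (fun i => if i = b then lampB ι else lampA (FreeGroup.of i))

private theorem lamp_off {ι : Type} {b : ι} {U : FreeGroup ι} (hU : U ∈ Off b) :
    ∀ x : FreeGroup ι × (FreeGroup ι → ℤ), lamp b U x = (x.1 * U⁻¹, x.2) := by
  refine Subgroup.closure_induction (fun y hy => ?_) ?_ (fun y z _ _ hy hz => ?_)
    (fun y _ hy => ?_) hU
  · obtain ⟨a, ha, rfl⟩ := hy
    intro x
    have : a ≠ b := ha
    simp [lamp, this, lampA]
  · intro x; simp
  · intro x
    rw [map_mul, Equiv.Perm.mul_apply, hz, hy]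
    simp [mul_assoc]
  · intro x
    rw [map_inv, Equiv.Perm.inv_def, Equiv.symm_apply_eq, hy]
    simp

private theorem lamp_b {ι : Type} (b : ι) (k : ℤ) (x : FreeGroup ι × (FreeGroup ι → ℤ)) :
    ((lamp b (FreeGroup.of b ^ k) x).1 = x.1) ∧
      ∀ y, (lamp b (FreeGroup.of b ^ k) x).2 y = x.2 y + (by classical exact if y = x.1 then k else 0) := by
  classical
  have h1 : lamp b (FreeGroup.of b) = lampB ι := by simp [lamp]
  rw [map_zpow, h1]
  induction k using Int.induction_on generalizing x with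
  | zero => simp
  | succ n ih =>
    rw [zpow_add_one, Equiv.Perm.mul_apply]
    obtain ⟨h2, h3⟩ := ih (lampB ι x)
    refine ⟨by rw [h2]; rfl, fun y => ?_⟩
    rw [h3]
    simp only [lampB, Equiv.coe_fn_mk, Pi.add_apply, Pi.single_apply]
    split_ifs <;> ring
  | pred n ih =>
    rw [zpow_sub_one, Equiv.Perm.mul_apply]
    obtain ⟨h2, h3⟩ := ih ((lampB ι)⁻¹ x)
    refine ⟨by rw [h2]; rfl, fun y => ?_⟩
    rw [h3]
    have e : (lampB ι)⁻¹ x = (x.1, x.2 - Pi.single x.1 1) := rfl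
    rw [e]
    simp only [Pi.sub_apply, Pi.single_apply]
    split_ifs <;> ring

/-- the word `U b^k U⁻¹ V b^m V⁻¹` is not trivial -/
theorem ortho_word_ne {ι : Type} {b : ι} {U V : FreeGroup ι} (hU : U ∈ Off b) (hV : V ∈ Off b)
    (hne : U ≠ V) {k m : ℤ} (hk : k ≠ 0) :
    U * FreeGroup.of b ^ k * U⁻¹ * (V * FreeGroup.of b ^ m * V⁻¹) ≠ 1 := by
  classical
  intro h
  have h1 := congrArg (fun w => (lamp b w (1, 0)).2 U) h
  simp only [map_mul, map_one, Equiv.Perm.mul_apply, Equiv.Perm.one_apply, Pi.zero_apply] at h1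
  rw [lamp_off hU, lamp_off (inv_mem hV), lamp_off hV] at h1
  obtain ⟨h2, h3⟩ := lamp_b b m ((1 : FreeGroup ι) * V⁻¹⁻¹, (0 : FreeGroup ι → ℤ))
  set y := lamp b (FreeGroup.of b ^ m) ((1 : FreeGroup ι) * V⁻¹⁻¹, (0 : FreeGroup ι → ℤ)) with hy
  rw [lamp_off (inv_mem hU)] at h1
  obtain ⟨h4, h5⟩ := lamp_b b k (y.1 * V⁻¹ * U⁻¹⁻¹, y.2)
  dsimp only at h1
  rw [h5, h3, h2] at h1
  simp [hne] at h1
  exact hk h1

/-- a generator of a free Haar family is a Haar unitary -/
theorem fh_haar {g : ι → unitary A} (hg : FH g) (b : ι) {k : ℤ} (hk : k ≠ 0) :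
    τ (((g b) ^ k : unitary A) : A) = 0 := by
  have h1 : (FreeGroup.of b) ^ k ≠ 1 := by
    intro h
    let φ : FreeGroup ι →* Multiplicative ℤ := FreeGroup.lift (fun _ : ι => Multiplicative.ofAdd (1 : ℤ))
    have h2 : φ (FreeGroup.of b) ^ k = 1 := by
      rw [← map_zpow, h, map_one]
    have h3 : φ (FreeGroup.of b) = Multiplicative.ofAdd (1 : ℤ) := FreeGroup.lift_apply_of
    rw [h3] at h2
    have h4 := congrArg Multiplicative.toAdd h2
    rw [toAdd_zpow, toAdd_ofAdd, toAdd_one, smul_eq_mul, mul_one] at h4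
    exact hk h4
  have h2 := hg _ h1
  rw [ev_eq] at h2
  rwa [map_zpow, evu_of] at h2

theorem fh_n2_val {g : ι → unitary A} (hg : FH g) (b : ι) (p : Trig) : n2 (p.val (g b)) = p.nrm :=
  p.n2_val fun _ hk => fh_haar hg b hk

/-- `⟨U H U⋆, V H V⋆⟩ = 0` for distinct words `U ≠ V` not involving `b`, `H = p(g b)`:
expand `H = ∑_{k ≠ 0} c_k Y^k`; the word `(V⁻¹U) Y^k (V⁻¹U)⁻¹ Y^m` is not trivial for `k, m ≠ 0`
(`V⁻¹ U ≠ 1` does not involve `Y`). -/
theorem fh_tau_conj {g : ι → unitary A} (hg : FH g) {b : ι} (p : Trig) {U V : FreeGroup ι}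
    (hU : U ∈ Off b) (hV : V ∈ Off b) (hne : U ≠ V) :
    τ (star ((evu g U : A) * p.val (g b) * star (evu g U : A)) *
      ((evu g V : A) * p.val (g b) * star (evu g V : A))) = 0 := by
  have h1 : star ((evu g U : A) * p.val (g b) * star (evu g U : A)) =
      (evu g U : A) * p.val (g b) * star (evu g U : A) := by
    rw [star_mul, star_mul, star_star, (p.val_sa (g b)).star_eq, mul_assoc]
  rw [h1]
  unfold Trig.val
  unfold Finsupp.sum
  simp only [Finset.mul_sum, Finset.sum_mul, map_sum]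
  refine Finset.sum_eq_zero fun m _ => Finset.sum_eq_zero fun k hk => ?_
  have hk0 : k ≠ 0 := by
    rintro rfl
    exact (Finsupp.mem_support_iff.1 hk) p.c_zero
  have h2 := hg _ (ortho_word_ne hU hV hne (k := k) (m := m) hk0)
  rw [ev_eq] at h2
  have h3 : ((evu g (U * FreeGroup.of b ^ k * U⁻¹ * (V * FreeGroup.of b ^ m * V⁻¹)) : unitary A) : A)
      = (evu g U : A) * (((g b) ^ k : unitary A) : A) * star (evu g U : A) *
        ((evu g V : A) * (((g b) ^ m : unitary A) : A) * star (evu g V : A)) := by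
    rw [map_mul, map_mul, map_mul, map_mul, map_mul, map_inv, map_inv, map_zpow, map_zpow, evu_of]
    rfl
  rw [h3] at h2
  simp only [mul_smul_comm, smul_mul_assoc, map_smul, h2, smul_zero]

/-- Pythagoras -/
theorem fh_n2_sum_conj {g : ι → unitary A} (hg : FH g) {b : ι} (p : Trig) {κ : Type}
    (S : Finset κ) (G : κ → FreeGroup ι) (hG : ∀ k ∈ S, G k ∈ Off b)
    (hinj : ∀ k ∈ S, ∀ l ∈ S, G k = G l → k = l) :
    n2 (∑ k ∈ S, (evu g (G k) : A) * p.val (g b) * star (evu g (G k) : A)) =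
      Real.sqrt S.card * p.nrm := by
  have hsq : n2 (∑ k ∈ S, (evu g (G k) : A) * p.val (g b) * star (evu g (G k) : A)) ^ 2 =
      S.card * p.nrm ^ 2 := by
    rw [n2_sq, star_sum, Finset.sum_mul, map_sum, Complex.re_sum]
    have h1 : ∀ k ∈ S, (τ (star ((evu g (G k) : A) * p.val (g b) * star (evu g (G k) : A)) *
        ∑ l ∈ S, (evu g (G l) : A) * p.val (g b) * star (evu g (G l) : A))).re = p.nrm ^ 2 := by
      intro k hk
      rw [Finset.mul_sum, map_sum, Finset.sum_eq_single k]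
      · rw [← n2_sq]
        congr 1
        have h2 : star (evu g (G k) : A) = ((evu g (G k))⁻¹ : unitary A) := rfl
        rw [h2, n2_mul_unitary _ (Subtype.prop _), n2_unitary_mul (Subtype.prop _), fh_n2_val hg]
      · intro l hl hlk
        exact fh_tau_conj hg p (hG k hk) (hG l hl) (fun h => hlk (hinj k hk l hl h).symm)
      · intro h; exact absurd hk h
    rw [Finset.sum_congr rfl h1, Finset.sum_const, nsmul_eq_mul]
  have h0 : 0 ≤ Real.sqrt S.card * p.nrm := by
    unfold Trig.nrm; positivity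
  refine (sq_eq_sq₀ (n2_nonneg _) h0).1 ?_
  rw [hsq, mul_pow, Real.sq_sqrt (by positivity)]

section long
variable {n : ℕ} [NeZero n] {w b : ι} {v : Fin n → ι}

/-- `U_{st} H U_{st}⋆`, `U_{st} = E_s E_t⁻¹` -/
noncomputable def UH (w b : ι) (v : Fin n → ι) (p : Trig) (g : ι → unitary A) (s t : ℕ) : A :=
  (evu g (EW w v s * (EW w v t)⁻¹) : A) * p.val (g b) * star (evu g (EW w v s * (EW w v t)⁻¹) : A)

/-- the cross terms `R = ∑_{s ≠ t, same slot} U_{st} H U_{st}⋆` (times run over `1..P n`, written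
`t + 1` with `t < P n`; slot of time `t + 1` is `v_{t mod n}`) -/
noncomputable def RX (w b : ι) (v : Fin n → ι) (p : Trig) (P : ℕ) (g : ι → unitary A) : A :=
  ∑ st ∈ (Finset.range (P * n) ×ˢ Finset.range (P * n)).filter
      (fun st : ℕ × ℕ => st.1 ≠ st.2 ∧ Fin.ofNat n st.1 = Fin.ofNat n st.2),
    UH w b v p g (st.1 + 1) (st.2 + 1)

/-- the part `s < t` -/
noncomputable def RY (w b : ι) (v : Fin n → ι) (p : Trig) (P : ℕ) (g : ι → unitary A) : A :=
  ∑ st ∈ (Finset.range (P * n) ×ˢ Finset.range (P * n)).filter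
      (fun st : ℕ × ℕ => st.1 < st.2 ∧ Fin.ofNat n st.1 = Fin.ofNat n st.2),
    UH w b v p g (st.1 + 1) (st.2 + 1)

/-- direction of the slot `l`: `∑_{t : slot l} E_t⋆ H E_t` -/
noncomputable def DD (w b : ι) (v : Fin n → ι) (p : Trig) (P : ℕ) (g : ι → unitary A) (l : Fin n) :
    A :=
  ∑ t ∈ (Finset.range (P * n)).filter (fun t => Fin.ofNat n t = l),
    star (evu g (EW w v (t + 1)) : A) * p.val (g b) * (evu g (EW w v (t + 1)) : A)

private theorem trig_nrm_nonneg (p : Trig) : 0 ≤ p.nrm := Real.sqrt_nonneg _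

private theorem n2_pairs_le {g : ι → unitary A} (hg : FH g) (p : Trig) (P : ℕ) (hw : w ≠ b)
    (hv : ∀ l, v l ≠ b) (hvw : ∀ l, v l ≠ w) (S : Finset (ℕ × ℕ))
    (hS : S ⊆ (Finset.range (P * n) ×ˢ Finset.range (P * n)).filter
      (fun st : ℕ × ℕ => st.1 ≠ st.2 ∧ Fin.ofNat n st.1 = Fin.ofNat n st.2)) :
    n2 (∑ st ∈ S, UH w b v p g (st.1 + 1) (st.2 + 1)) ≤ Real.sqrt n * P * p.nrm := by
  have h1 := fh_n2_sum_conj hg (b := b) p S
    (fun st => EW w v (st.1 + 1) * (EW w v (st.2 + 1))⁻¹)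
    (fun st _ => mul_mem (EW_off w b v hw hv _) (inv_mem (EW_off w b v hw hv _)))
    (fun st hst st' _ h => by
      have h2 := (Finset.mem_filter.1 (hS hst)).2.1
      have h3 := EW_diff_inj w v hvw (fun h4 => h2 (by omega)) h
      exact Prod.ext (by omega) (by omega))
  have h2 : (∑ st ∈ S, UH w b v p g (st.1 + 1) (st.2 + 1)) =
      ∑ st ∈ S, (evu g (EW w v (st.1 + 1) * (EW w v (st.2 + 1))⁻¹) : A) * p.val (g b) *
        star (evu g (EW w v (st.1 + 1) * (EW w v (st.2 + 1))⁻¹) : A) := rfl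
  rw [h2, h1]
  refine mul_le_mul_of_nonneg_right ?_ (trig_nrm_nonneg p)
  have h3 : (S.card : ℝ) ≤ n * (P : ℝ) ^ 2 := by
    exact_mod_cast (Finset.card_le_card hS).trans (card_pairs P)
  calc Real.sqrt S.card ≤ Real.sqrt (n * (P : ℝ) ^ 2) := Real.sqrt_le_sqrt h3
    _ = Real.sqrt n * P := by
      rw [Real.sqrt_mul (by positivity), Real.sqrt_sq (by positivity)]

theorem n2_RX_le {g : ι → unitary A} (hg : FH g) (p : Trig) (P : ℕ) (hw : w ≠ b)
    (hv : ∀ l, v l ≠ b) (hvw : ∀ l, v l ≠ w) :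
    n2 (RX w b v p P g) ≤ Real.sqrt n * P * p.nrm :=
  n2_pairs_le hg p P hw hv hvw _ (Finset.Subset.refl _)

theorem n2_RY_le {g : ι → unitary A} (hg : FH g) (p : Trig) (P : ℕ) (hw : w ≠ b)
    (hv : ∀ l, v l ≠ b) (hvw : ∀ l, v l ≠ w) :
    n2 (RY w b v p P g) ≤ Real.sqrt n * P * p.nrm := by
  refine n2_pairs_le hg p P hw hv hvw _ (fun st h => ?_)
  rw [Finset.mem_filter] at h ⊢
  exact ⟨h.1, h.2.1.ne, h.2.2⟩

theorem n2_DD_le {g : ι → unitary A} (hg : FH g) (p : Trig) (P : ℕ) (hw : w ≠ b)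
    (hv : ∀ l, v l ≠ b) (hvw : ∀ l, v l ≠ w) (l : Fin n) :
    n2 (DD w b v p P g l) ≤ Real.sqrt P * p.nrm := by
  have h1 := fh_n2_sum_conj hg (b := b) p
    ((Finset.range (P * n)).filter (fun t => Fin.ofNat n t = l))
    (fun t => (EW w v (t + 1))⁻¹)
    (fun t _ => inv_mem (EW_off w b v hw hv _))
    (fun t _ t' _ h => by
      have h3 := EW_inj w v hvw (inv_injective h)
      omega)
  have h2 : DD w b v p P g l =
      ∑ t ∈ (Finset.range (P * n)).filter (fun t => Fin.ofNat n t = l),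
        (evu g ((EW w v (t + 1))⁻¹) : A) * p.val (g b) * star (evu g ((EW w v (t + 1))⁻¹) : A) := by
    unfold DD
    refine Finset.sum_congr rfl fun t _ => ?_
    have h3 : (evu g ((EW w v (t + 1))⁻¹) : A) = star (evu g (EW w v (t + 1)) : A) := by
      rw [map_inv]; rfl
    rw [h3, star_star]
  rw [h2, h1, card_slot]

end long

end Crest.Agent.FGF.Cap
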