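import Crest.Agent.FGF.Defs

/-! # Row 134: free Haar families and freeness (`GenII1.IsFree`).

* `MR.isFree_oth`: a member of a free Haar family is free from the star algebra generated by the
  others;
* `MR.isFree_cl`: freeness passes to the 2-norm closure of the subalgebra;
* `MR.fh_of_isFree`: conversely, freeness of one member from an algebra containing the others, plus
  freeness of the others, gives a free Haar family;
* `MR.mul_right`: the exact move (right multiplication of one member by a unitary in the 2-norm
  closure of the algebra generated by the others).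

Everything is stated with `FreeGroup.lift`. -/

set_option autoImplicit false
set_option linter.unusedSectionVars false

namespace Crest.Agent.FGF.MR

open Crest.Agent.GenII1 Filter Topology FreeGroup

variable {A : Type*} [CStarAlgebra A] {ι : Type*}

/-! ### words as lists -/

/-- product of the letters of a word -/
def evL (g : ι → unitary A) (L : List (ι × Bool)) : A := (L.map fun x => pw (g x.1 : A) x.2).prod

@[simp] theorem evL_nil (g : ι → unitary A) : evL g [] = 1 := rfl

theorem evL_append (g : ι → unitary A) (L K : List (ι × Bool)) :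
    evL g (L ++ K) = evL g L * evL g K := by
  simp [evL]

theorem evL_single (g : ι → unitary A) (a : ι) (ε : Bool) :
    evL g [(a, ε)] = pw (g a : A) ε := by
  simp [evL]

theorem evL_cons (g : ι → unitary A) (x : ι × Bool) (L : List (ι × Bool)) :
    evL g (x :: L) = pw (g x.1 : A) x.2 * evL g L := by
  simp [evL]

theorem lift_eq_evL (g : ι → unitary A) (L : List (ι × Bool)) :
    ((FreeGroup.lift g (FreeGroup.mk L) : unitary A) : A) = evL g L := by
  rw [FreeGroup.lift_mk]
  induction L with
  | nil => simp
  | cons x L ih =>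
    rw [List.map_cons, List.prod_cons, evL_cons, ← ih, Submonoid.coe_mul]
    congr 1
    rcases x with ⟨i, b⟩
    cases b
    · rfl
    · rfl

theorem lift_toWord [DecidableEq ι] (g : ι → unitary A) (h : FreeGroup ι) :
    ((FreeGroup.lift g h : unitary A) : A) = evL g h.toWord := by
  rw [← lift_eq_evL, FreeGroup.mk_toWord]

theorem evL_mem_unitary (g : ι → unitary A) (L : List (ι × Bool)) : evL g L ∈ unitary A := by
  rw [← lift_eq_evL]; exact SetLike.coe_mem _

theorem evL_eq_of_mk_eq (g : ι → unitary A) {L K : List (ι × Bool)}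
    (h : FreeGroup.mk L = FreeGroup.mk K) : evL g L = evL g K := by
  rw [← lift_eq_evL, ← lift_eq_evL, h]

theorem star_evL (g : ι → unitary A) (L : List (ι × Bool)) :
    star (evL g L) = evL g (invRev L) := by
  rw [← lift_eq_evL, ← lift_eq_evL, ← FreeGroup.inv_mk, map_inv (FreeGroup.lift g)]
  rfl

/-- the letter `a` does not occur -/
def NoL (a : ι) (L : List (ι × Bool)) : Prop := ∀ x ∈ L, x.1 ≠ a

theorem NoL.nil {a : ι} : NoL a [] := fun _ h => by simp at h

theorem NoL.append {a : ι} {L K : List (ι × Bool)} (hL : NoL a L) (hK : NoL a K) :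
    NoL a (L ++ K) := by
  intro x hx
  rcases List.mem_append.1 hx with h | h
  · exact hL x h
  · exact hK x h

theorem NoL.invRev {a : ι} {L : List (ι × Bool)} (hL : NoL a L) : NoL a (FreeGroup.invRev L) := by
  intro x hx
  rw [FreeGroup.invRev, List.mem_reverse, List.mem_map] at hx
  obtain ⟨y, hy, rfl⟩ := hx
  exact hL y hy

theorem NoL.reduce [DecidableEq ι] {a : ι} {L : List (ι × Bool)} (hL : NoL a L) :
    NoL a (FreeGroup.reduce L) := fun x hx => hL x (FreeGroup.reduce.red.sublist.subset hx)

theorem isReduced_reduce [DecidableEq ι] (L : List (ι × Bool)) : IsReduced (FreeGroup.reduce L) := by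
  rw [← FreeGroup.toWord_mk]; exact FreeGroup.isReduced_toWord

theorem mk_ne_one {L : List (ι × Bool)} (hL : IsReduced L) (hne : L ≠ []) :
    FreeGroup.mk L ≠ 1 := by
  classical
  intro h
  have h1 : (FreeGroup.mk L).toWord = [] := by rw [h, FreeGroup.toWord_one]
  rw [FreeGroup.toWord_mk, hL.reduce_eq] at h1
  exact hne h1

/-- concatenation after an `a`-letter -/
theorem isReduced_snoc {a : ι} {ε ε' : Bool} {L K : List (ι × Bool)}
    (hL : IsReduced (L ++ [(a, ε)])) (hK : IsReduced K) (hn : NoL a K)
    (h : K ≠ [] ∨ ε' = ε) : IsReduced (L ++ [(a, ε)] ++ K ++ [(a, ε')]) := by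
  rcases K.eq_nil_or_concat with rfl | ⟨K', y, rfl⟩
  · have hε : ε' = ε := by
      rcases h with h | h
      · exact absurd rfl h
      · exact h
    subst hε
    rw [List.append_nil]
    refine List.IsChain.append hL (List.isChain_singleton _) ?_
    intro x hx y hy
    simp only [List.getLast?_append, List.getLast?_singleton, Option.some_or,
      Option.mem_def, Option.some.injEq] at hx
    simp only [List.head?_cons, Option.mem_def, Option.some.injEq] at hy
    subst hx; subst hy
    intro _; rfl
  · refine List.IsChain.append (List.IsChain.append hL hK ?_) (List.isChain_singleton _) ?_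
    · intro x hx z hz
      simp only [List.getLast?_append, List.getLast?_singleton, Option.some_or,
        Option.mem_def, Option.some.injEq] at hx
      subst hx
      intro he
      have := hn z (List.mem_of_mem_head? hz)
      exact absurd he.symm this
    · intro x hx z hz
      simp only [List.head?_cons, Option.mem_def, Option.some.injEq] at hz
      subst hz
      intro he
      have hx' : x = y := by
        have : (L ++ [(a, ε)] ++ K'.concat y).getLast? = some y := by
          rw [List.concat_eq_append, ← List.append_assoc, List.getLast?_append,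
            List.getLast?_singleton, Option.some_or]
        rw [this] at hx
        simpa using hx.symm
      subst hx'
      exact absurd he (hn x (by simp))

theorem isReduced_snoc' {a : ι} {ε : Bool} {K : List (ι × Bool)}
    (hK : IsReduced K) (hn : NoL a K) : IsReduced (K ++ [(a, ε)]) := by
  refine List.IsChain.append hK (List.isChain_singleton _) ?_
  intro x hx z hz
  simp only [List.head?_cons, Option.mem_def, Option.some.injEq] at hz
  subst hz
  intro he
  exact absurd he (hn x (List.mem_of_mem_getLast? hx))

theorem isReduced_app {a : ι} {ε : Bool} {L K : List (ι × Bool)}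
    (hL : IsReduced (L ++ [(a, ε)])) (hK : IsReduced K) (hn : NoL a K) :
    IsReduced (L ++ [(a, ε)] ++ K) := by
  refine List.IsChain.append hL hK ?_
  intro x hx z hz
  simp only [List.getLast?_append, List.getLast?_singleton, Option.some_or,
    Option.mem_def, Option.some.injEq] at hx
  subst hx
  intro he
  exact absurd he.symm (hn z (List.mem_of_mem_head? hz))

/-! ### the algebra generated by the other members -/

/-- star algebra generated by the members different from `g a` -/
noncomputable def oth (g : ι → unitary A) (a : ι) : StarSubalgebra ℂ A :=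
  StarAlgebra.adjoin ℂ (Set.range fun i : {i // i ≠ a} => (g i : A))

theorem evL_mem {g : ι → unitary A} {a : ι} {B : StarSubalgebra ℂ A}
    (hB : ∀ i, i ≠ a → (g i : A) ∈ B) {K : List (ι × Bool)} (hK : NoL a K) : evL g K ∈ B := by
  induction K with
  | nil => exact one_mem B
  | cons x K ih =>
    rw [evL_cons]
    have hx : x.1 ≠ a := hK x (by simp)
    refine mul_mem ?_ (ih fun y hy => hK y (List.mem_cons_of_mem _ hy))
    rcases x with ⟨i, b⟩
    cases b
    · exact star_mem (hB i hx)
    · exact hB i hx

theorem mem_oth (g : ι → unitary A) (a : ι) {i : ι} (hi : i ≠ a) : (g i : A) ∈ oth g a :=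
  StarAlgebra.subset_adjoin ℂ _ ⟨⟨i, hi⟩, rfl⟩

/-- words without the letter `a` -/
def W0 (g : ι → unitary A) (a : ι) : Set A :=
  {w | ∃ K : List (ι × Bool), IsReduced K ∧ NoL a K ∧ w = evL g K}

theorem W0_of_NoL (g : ι → unitary A) {a : ι} {K : List (ι × Bool)} (hK : NoL a K) :
    evL g K ∈ W0 g a := by
  classical
  refine ⟨FreeGroup.reduce K, isReduced_reduce K, hK.reduce, ?_⟩
  apply evL_eq_of_mk_eq
  exact (FreeGroup.reduce.self).symm

theorem oth_le_span (g : ι → unitary A) (a : ι) {x : A} (hx : x ∈ oth g a) :
    x ∈ Submodule.span ℂ (W0 g a) := by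
  unfold oth at hx
  induction hx using StarAlgebra.adjoin_induction with
  | mem x hx =>
    obtain ⟨⟨i, hi⟩, rfl⟩ := hx
    refine Submodule.subset_span ?_
    have : ((g i : unitary A) : A) = evL g [(i, true)] := by rw [evL_single]; rfl
    show (g i : A) ∈ W0 g a
    rw [this]
    exact W0_of_NoL g (fun y hy => by
      rw [List.mem_singleton] at hy; subst hy; exact hi)
  | algebraMap r =>
    rw [Algebra.algebraMap_eq_smul_one]
    exact Submodule.smul_mem _ _ (Submodule.subset_span ⟨[], IsReduced.nil, NoL.nil, rfl⟩)
  | add x y _ _ hx hy => exact Submodule.add_mem _ hx hy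
  | mul x y hx0 hy0 hx hy =>
    clear hx0 hy0
    induction hx using Submodule.span_induction with
    | mem w hw =>
      induction hy using Submodule.span_induction with
      | mem v hv =>
        obtain ⟨K, _, hK2, rfl⟩ := hw
        obtain ⟨K', _, hK2', rfl⟩ := hv
        rw [← evL_append]
        exact Submodule.subset_span (W0_of_NoL g (hK2.append hK2'))
      | zero => rw [mul_zero]; exact Submodule.zero_mem _
      | add v v' _ _ h h' => rw [mul_add]; exact Submodule.add_mem _ h h'
      | smul r v _ h => rw [mul_smul_comm]; exact Submodule.smul_mem _ _ h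
    | zero => rw [zero_mul]; exact Submodule.zero_mem _
    | add v v' _ _ h h' => rw [add_mul]; exact Submodule.add_mem _ h h'
    | smul r v _ h => rw [smul_mul_assoc]; exact Submodule.smul_mem _ _ h
  | star x hx0 hx =>
    clear hx0
    induction hx using Submodule.span_induction with
    | mem w hw =>
      obtain ⟨K, _, hK2, rfl⟩ := hw
      rw [star_evL]
      exact Submodule.subset_span (W0_of_NoL g hK2.invRev)
    | zero => rw [star_zero]; exact Submodule.zero_mem _
    | add v v' _ _ h h' => rw [star_add]; exact Submodule.add_mem _ h h'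
    | smul r v _ h => rw [star_smul]; exact Submodule.smul_mem _ _ h

/-- reduced words ending with the letter `a^ε` -/
def W1 (g : ι → unitary A) (a : ι) (ε : Bool) : Set A :=
  {w | ∃ L : List (ι × Bool), IsReduced (L ++ [(a, ε)]) ∧ w = evL g (L ++ [(a, ε)])}

section tr
variable [TracialC A]

/-- raw free Haar condition -/
def RawFH (g : ι → unitary A) : Prop :=
  ∀ h : FreeGroup ι, h ≠ 1 → τ ((FreeGroup.lift g h : unitary A) : A) = 0

theorem RawFH.evL {g : ι → unitary A} (hg : RawFH g) {L : List (ι × Bool)} (hL : IsReduced L)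
    (hne : L ≠ []) : τ (MR.evL g L) = 0 := by
  rw [← lift_eq_evL]; exact hg _ (mk_ne_one hL hne)

/-- non-empty words without the letter `a` -/
def W0' (g : ι → unitary A) (a : ι) : Set A :=
  {w | ∃ K : List (ι × Bool), IsReduced K ∧ NoL a K ∧ K ≠ [] ∧ w = MR.evL g K}

/-- centered elements of `oth` are combinations of non-empty words -/
theorem oth_center {g : ι → unitary A} (hg : RawFH g) (a : ι) {x : A} (hx : x ∈ oth g a)
    (h0 : τ x = 0) : x ∈ Submodule.span ℂ (W0' g a) := by
  have key : ∀ y ∈ Submodule.span ℂ (W0 g a),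
      y - (τ y) • (1 : A) ∈ Submodule.span ℂ (W0' g a) := by
    intro y hy
    induction hy using Submodule.span_induction with
    | mem w hw =>
      obtain ⟨K, hK1, hK2, rfl⟩ := hw
      by_cases hK : K = []
      · subst hK
        rw [evL_nil, τ_one, one_smul, sub_self]; exact Submodule.zero_mem _
      · rw [hg.evL hK1 hK, zero_smul, sub_zero]
        exact Submodule.subset_span ⟨K, hK1, hK2, hK, rfl⟩
    | zero => simp
    | add v v' _ _ h h' =>
      have e : v + v' - (τ (v + v')) • (1 : A) = (v - (τ v) • (1 : A)) + (v' - (τ v') • (1 : A)) := by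
        rw [map_add, add_smul]; abel
      rw [e]; exact Submodule.add_mem _ h h'
    | smul r v _ h =>
      have e : r • v - (τ (r • v)) • (1 : A) = r • (v - (τ v) • (1 : A)) := by
        rw [map_smul, smul_eq_mul, mul_smul, smul_sub]
      rw [e]; exact Submodule.smul_mem _ _ h
  have := key x (oth_le_span g a hx)
  rwa [h0, zero_smul, sub_zero] at this

theorem RW_span {g : ι → unitary A} (hg : RawFH g) (a : ι) {ε : Bool} {y : A}
    (hy : RW (oth g a).toSubalgebra (g a : A) ε y) : y ∈ Submodule.span ℂ (W1 g a ε) := by
  have mulspan : ∀ (S T U : Set A) (z : A), (∀ s ∈ S, ∀ t ∈ T, s * t * z ∈ Submodule.span ℂ U) →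
      ∀ s ∈ Submodule.span ℂ S, ∀ t ∈ Submodule.span ℂ T, s * t * z ∈ Submodule.span ℂ U := by
    intro S T U z h s hs t ht
    induction hs using Submodule.span_induction with
    | mem w hw =>
      induction ht using Submodule.span_induction with
      | mem v hv => exact h w hw v hv
      | zero => rw [mul_zero, zero_mul]; exact Submodule.zero_mem _
      | add v v' _ _ h h' => rw [mul_add, add_mul]; exact Submodule.add_mem _ h h'
      | smul r v _ h => rw [mul_smul_comm, smul_mul_assoc]; exact Submodule.smul_mem _ _ h
    | zero => rw [zero_mul, zero_mul]; exact Submodule.zero_mem _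
    | add v v' _ _ h h' => rw [add_mul, add_mul]; exact Submodule.add_mem _ h h'
    | smul r v _ h => rw [smul_mul_assoc, smul_mul_assoc]; exact Submodule.smul_mem _ _ h
  induction hy with
  | base ε b hb =>
    have h1 := oth_le_span g a hb
    clear hb
    induction h1 using Submodule.span_induction with
    | mem w hw =>
      obtain ⟨K, hK1, hK2, rfl⟩ := hw
      refine Submodule.subset_span ⟨K, isReduced_snoc' hK1 hK2, ?_⟩
      rw [evL_append, evL_single]
    | zero => rw [zero_mul]; exact Submodule.zero_mem _
    | add v v' _ _ h h' => rw [add_mul]; exact Submodule.add_mem _ h h'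
    | smul r v _ h => rw [smul_mul_assoc]; exact Submodule.smul_mem _ _ h
  | same ε y b _ hb ih =>
    refine mulspan _ _ _ _ ?_ y ih b (oth_le_span g a hb)
    rintro s ⟨L, hL, rfl⟩ t ⟨K, hK1, hK2, rfl⟩
    refine Submodule.subset_span ⟨L ++ [(a, ε)] ++ K, isReduced_snoc hL hK1 hK2 (Or.inr rfl), ?_⟩
    simp only [evL_append, evL_single]
  | flip ε y b _ hb h0 ih =>
    refine mulspan _ _ _ _ ?_ y ih b (oth_center hg a hb h0)
    rintro s ⟨L, hL, rfl⟩ t ⟨K, hK1, hK2, hK3, rfl⟩
    refine Submodule.subset_span ⟨L ++ [(a, ε)] ++ K, isReduced_snoc hL hK1 hK2 (Or.inl hK3), ?_⟩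
    simp only [evL_append, evL_single]

/-- a member of a free Haar family is free from the star algebra generated by the others -/
theorem isFree_oth {g : ι → unitary A} (hg : RawFH g) (a : ι) :
    IsFree (oth g a).toSubalgebra (g a : A) := by
  refine ⟨(g a).2, fun ε y b hy hb => ?_⟩
  have h1 := RW_span hg a hy
  have h2 := oth_le_span g a hb
  clear hy hb
  induction h1 using Submodule.span_induction with
  | mem w hw =>
    induction h2 using Submodule.span_induction with
    | mem v hv =>
      obtain ⟨L, hL, rfl⟩ := hw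
      obtain ⟨K, hK1, hK2, rfl⟩ := hv
      rw [← evL_append]
      exact hg.evL (isReduced_app hL hK1 hK2) (by simp)
    | zero => rw [mul_zero, map_zero]
    | add v v' _ _ h h' => rw [mul_add, map_add, h, h', add_zero]
    | smul r v _ h => rw [mul_smul_comm, map_smul, h, smul_zero]
  | zero => rw [zero_mul, map_zero]
  | add v v' _ _ h h' => rw [add_mul, map_add, h, h', add_zero]
  | smul r v _ h => rw [smul_mul_assoc, map_smul, h, smul_zero]

/-- converse: if `g a` is free from a star algebra `B` containing the other members, and words in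
the other members have trace zero, then `g` is a free Haar family -/
theorem fh_of_isFree {g : ι → unitary A} (a : ι) (B : StarSubalgebra ℂ A)
    (hB : ∀ i, i ≠ a → (g i : A) ∈ B)
    (h0 : ∀ K : List (ι × Bool), IsReduced K → NoL a K → K ≠ [] → τ (MR.evL g K) = 0)
    (hf : IsFree B.toSubalgebra (g a : A)) : RawFH g := by
  have main : ∀ L : List (ι × Bool), IsReduced L → NoL a L ∨
      ∃ (L' : List (ι × Bool)) (ε : Bool) (K : List (ι × Bool)), L = L' ++ [(a, ε)] ++ K ∧ NoL a K ∧
        RW B.toSubalgebra (g a : A) ε (MR.evL g (L' ++ [(a, ε)])) := by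
    intro L
    induction L using List.reverseRecOn with
    | nil => exact fun _ => Or.inl NoL.nil
    | append_singleton L x ih =>
      intro hred
      have hL : IsReduced L := List.IsChain.left_of_append hred
      rcases x with ⟨i, ε'⟩
      by_cases hi : i = a
      · subst hi
        right
        refine ⟨L, ε', [], by simp, NoL.nil, ?_⟩
        rw [evL_append, evL_single]
        rcases ih hL with hn | ⟨L', ε, K, rfl, hK, hRW⟩
        · exact RW.base ε' _ (evL_mem hB hn)
        · rw [evL_append]
          by_cases hε : ε' = ε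
          · subst hε
            exact RW.same _ _ _ hRW (evL_mem hB hK)
          · have hε' : ε' = !ε := by cases ε <;> cases ε' <;> simp_all
            subst hε'
            refine RW.flip _ _ _ hRW (evL_mem hB hK) ?_
            have hKr : IsReduced K := List.IsChain.right_of_append hL
            refine h0 K hKr hK ?_
            rintro rfl
            rw [List.append_nil] at hred
            have hh := (List.isChain_append.1 hred).2.2 (i, ε) (by simp) (i, !ε) (by simp) rfl
            simp at hh
      · rcases ih hL with hn | ⟨L', ε, K, rfl, hK, hRW⟩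
        · exact Or.inl (hn.append (fun y hy => by
            rw [List.mem_singleton] at hy; subst hy; exact hi))
        · exact Or.inr ⟨L', ε, K ++ [(i, ε')], by simp, hK.append (fun y hy => by
            rw [List.mem_singleton] at hy; subst hy; exact hi), hRW⟩
  classical
  intro h hne
  rw [lift_toWord]
  have hr : IsReduced h.toWord := FreeGroup.isReduced_toWord
  have hne' : h.toWord ≠ [] := fun e => hne (FreeGroup.toWord_eq_nil_iff.1 e)
  rcases main _ hr with hn | ⟨L', ε, K, e, hK, hRW⟩
  · exact h0 _ hr hn hne'
  · rw [e, evL_append]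
    exact hf.zero ε _ _ hRW (evL_mem hB hK)

end tr

/-! ### 2-norm closures -/

section fin
variable [FinVN A]

/-- bounded approximation inside `N` itself -/
theorem approx_N {N : StarSubalgebra ℂ A} {x : A} (hx : L2mem N x) :
    ∃ (b : ℕ → A) (C : ℝ), (∀ n, b n ∈ N) ∧ (∀ n, ‖b n‖ ≤ C) ∧ TL b x := by
  obtain ⟨b, C, h1, h2, h3⟩ := exists_bounded_approx hx
  have h4 : ∀ n : ℕ, ∃ a ∈ N, ‖b n - a‖ < 1 / ((n : ℝ) + 1) := by
    intro n
    have hb' : b n ∈ closure (N : Set A) := h1 n
    rw [Metric.mem_closure_iff] at hb'
    obtain ⟨a, ha, h⟩ := hb' (1 / ((n : ℝ) + 1)) (by positivity)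
    exact ⟨a, ha, by rwa [dist_eq_norm] at h⟩
  choose a ha hab using h4
  refine ⟨a, C + 1, ha, fun n => ?_, ?_⟩
  · have e : a n = b n - (b n - a n) := by abel
    rw [e]
    refine (norm_sub_le _ _).trans (add_le_add (h2 n) ((hab n).le.trans ?_))
    rw [div_le_one (by positivity)]
    have := Nat.cast_nonneg (α := ℝ) n
    linarith
  · have h5 : Tendsto (fun n : ℕ => 1 / ((n : ℝ) + 1) + n2 (b n - x)) atTop (𝓝 0) := by
      simpa using (tendsto_one_div_add_atTop_nhds_zero_nat (𝕜 := ℝ)).add h3
    refine squeeze_zero (fun n => n2_nonneg _) (fun n => ?_) h5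
    refine (n2_triangle (a n) (b n) x).trans (add_le_add ?_ le_rfl)
    rw [n2_sub_comm]
    exact (n2_le_norm _).trans (hab n).le

theorem norm_one_le : ‖(1 : A)‖ ≤ 1 := norm_unitary_le (one_mem (unitary A))

theorem norm_pw_le {c : A} (hc : c ∈ unitary A) (ε : Bool) : ‖pw c ε‖ ≤ 1 := by
  cases ε
  · exact norm_unitary_le (Unitary.star_mem hc)
  · exact norm_unitary_le hc

/-- centered bounded approximation -/
theorem approx_N0 {N : StarSubalgebra ℂ A} {x : A} (hx : L2mem N x) (h0 : τ x = 0) :
    ∃ (b : ℕ → A) (C : ℝ), (∀ n, b n ∈ N) ∧ (∀ n, τ (b n) = 0) ∧ (∀ n, ‖b n‖ ≤ C) ∧ TL b x := by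
  obtain ⟨b, C, h1, h2, h3⟩ := approx_N hx
  refine ⟨fun n => b n - (τ (b n)) • (1 : A), C + C, fun n => ?_, fun n => fr_center_τ _,
    fun n => ?_, ?_⟩
  · exact sub_mem (h1 n) (N.smul_mem (one_mem N) _)
  · refine (norm_sub_le _ _).trans (add_le_add (h2 n) ?_)
    rw [norm_smul]
    have e1 : ‖τ (b n)‖ ≤ C := (norm_τ_le _).trans (h2 n)
    calc ‖τ (b n)‖ * ‖(1 : A)‖ ≤ ‖τ (b n)‖ * 1 :=
          mul_le_mul_of_nonneg_left norm_one_le (norm_nonneg _)
      _ ≤ C := by rw [mul_one]; exact e1
  · have h4 : TL (fun n => (τ (b n)) • (1 : A)) 0 := by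
      have h5 : Tendsto (fun n => ‖τ (b n)‖) atTop (𝓝 0) := by
        have := (TL.τ h3).norm
        rwa [h0, norm_zero] at this
      refine h5.congr (fun n => ?_)
      rw [sub_zero, n2_smul, n2_one, mul_one]
    have := TL.sub h3 h4
    rwa [sub_zero] at this

theorem RW_approx {N : StarSubalgebra ℂ A} {c : A} (hc : c ∈ unitary A) {ε : Bool} {y : A}
    (hy : RW (fg_cl N).toSubalgebra c ε y) :
    ∃ (f : ℕ → A) (C : ℝ), (∀ n, RW N.toSubalgebra c ε (f n)) ∧ (∀ n, ‖f n‖ ≤ C) ∧ TL f y := by
  induction hy with
  | base ε b hb =>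
    obtain ⟨f, C, h1, h2, h3⟩ := approx_N (fg_mem_cl.1 hb)
    refine ⟨fun n => f n * pw c ε, C * 1, fun n => RW.base ε _ (h1 n), fun n => ?_,
      TL.mul_const _ h3⟩
    exact (_root_.norm_mul_le _ _).trans (mul_le_mul (h2 n) (norm_pw_le hc ε) (norm_nonneg _)
      ((norm_nonneg _).trans (h2 0)))
  | same ε y b _ hb ih =>
    obtain ⟨f, C, h1, h2, h3⟩ := approx_N (fg_mem_cl.1 hb)
    obtain ⟨k, D, k1, k2, k3⟩ := ih
    have hC : 0 ≤ C := (norm_nonneg _).trans (h2 0)
    have hD : 0 ≤ D := (norm_nonneg _).trans (k2 0)
    refine ⟨fun n => k n * f n * pw c ε, D * C * 1, fun n => RW.same ε _ _ (k1 n) (h1 n),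
      fun n => ?_, TL.mul_const _ (TL.mul k3 h3 k2)⟩
    exact (_root_.norm_mul_le _ _).trans (mul_le_mul ((_root_.norm_mul_le _ _).trans
      (mul_le_mul (k2 n) (h2 n) (norm_nonneg _) hD)) (norm_pw_le hc ε) (norm_nonneg _)
      (mul_nonneg hD hC))
  | flip ε y b _ hb h0 ih =>
    obtain ⟨f, C, h1, h1', h2, h3⟩ := approx_N0 (fg_mem_cl.1 hb) h0
    obtain ⟨k, D, k1, k2, k3⟩ := ih
    have hC : 0 ≤ C := (norm_nonneg _).trans (h2 0)
    have hD : 0 ≤ D := (norm_nonneg _).trans (k2 0)
    refine ⟨fun n => k n * f n * pw c (!ε), D * C * 1,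
      fun n => RW.flip ε _ _ (k1 n) (h1 n) (h1' n), fun n => ?_,
      TL.mul_const _ (TL.mul k3 h3 k2)⟩
    exact (_root_.norm_mul_le _ _).trans (mul_le_mul ((_root_.norm_mul_le _ _).trans
      (mul_le_mul (k2 n) (h2 n) (norm_nonneg _) hD)) (norm_pw_le hc (!ε)) (norm_nonneg _)
      (mul_nonneg hD hC))

/-- freeness passes to the 2-norm closure -/
theorem isFree_cl {N : StarSubalgebra ℂ A} {c : A} (h : IsFree N.toSubalgebra c) :
    IsFree (fg_cl N).toSubalgebra c := by
  refine ⟨h.hu, fun ε y b hy hb => ?_⟩
  obtain ⟨f, C, h1, h2, h3⟩ := RW_approx h.hu hy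
  obtain ⟨k, D, k1, k2, k3⟩ := approx_N (fg_mem_cl.1 hb)
  have h4 := (TL.mul h3 k3 h2).τ
  have h5 : (fun n => τ (f n * k n)) = fun _ => (0 : ℂ) := by
    funext n
    exact h.zero ε _ _ (h1 n) (k1 n)
  rw [h5] at h4
  exact tendsto_nhds_unique h4 tendsto_const_nhds

theorem fg_cl_mono {N P : StarSubalgebra ℂ A} (h : N ≤ P) : fg_cl N ≤ fg_cl P :=
  fg_cl_le (fg_cl_closed P) (h.trans (fg_le_cl P))

theorem topologicalClosure_le_cl (N : StarSubalgebra ℂ A) : N.topologicalClosure ≤ fg_cl N :=
  StarSubalgebra.topologicalClosure_minimal (fg_le_cl N) (fg_cl_closed N).isClosed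

/-- a member of a free Haar family is free from the 2-closed algebra generated by the others -/
theorem isFree_cl_oth {g : ι → unitary A} (hg : RawFH g) (a : ι) :
    IsFree (fg_cl (oth g a)).toSubalgebra (g a : A) := isFree_cl (isFree_oth hg a)

theorem evL_congr {g g' : ι → unitary A} {K : List (ι × Bool)} (h : ∀ x ∈ K, g x.1 = g' x.1) :
    evL g K = evL g' K := by
  unfold evL
  congr 1
  refine List.map_congr_left fun x hx => ?_
  rw [h x hx]

/-- exact move: right multiplication of one member by a unitary of the 2-closed algebra generated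
by the others -/
theorem mul_right [DecidableEq ι] {g : ι → unitary A} (hg : RawFH g) (a : ι) (u : unitary A)
    (hu : (u : A) ∈ fg_cl (oth g a)) : RawFH (Function.update g a (g a * u)) := by
  have hu' : star (u : A) ∈ fg_cl (oth g a) := star_mem hu
  have hf := (isFree_cl_oth hg a).mul_right u.2 hu hu'
  refine fh_of_isFree a (fg_cl (oth g a)) (fun i hi => ?_) (fun K hK1 hK2 hK3 => ?_) ?_
  · rw [Function.update_of_ne hi]
    exact fg_le_cl _ (mem_oth g a hi)
  · have e : evL (Function.update g a (g a * u)) K = evL g K :=
      evL_congr fun x hx => Function.update_of_ne (hK2 x hx) _ _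
    rw [e]
    exact hg.evL hK1 hK3
  · rw [Function.update_self]
    exact hf

/-- the algebra generated by a family is contained in the closed algebra generated by the moved
family -/
theorem gen_mul_right [DecidableEq ι] (g : ι → unitary A) (a : ι) (u : unitary A)
    (hu : (u : A) ∈ fg_cl (oth g a)) :
    fg_cl (StarAlgebra.adjoin ℂ (Set.range fun i => (g i : A))) ≤
      fg_cl (StarAlgebra.adjoin ℂ
        (Set.range fun i => ((Function.update g a (g a * u) i : unitary A) : A))) := by
  set P := StarAlgebra.adjoin ℂ
        (Set.range fun i => ((Function.update g a (g a * u) i : unitary A) : A)) with hP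
  have hmem : ∀ i, ((Function.update g a (g a * u) i : unitary A) : A) ∈ P := fun i =>
    StarAlgebra.subset_adjoin ℂ _ ⟨i, rfl⟩
  have hoth : oth g a ≤ P := by
    refine StarAlgebra.adjoin_le ?_
    rintro _ ⟨⟨i, hi⟩, rfl⟩
    have := hmem i
    rwa [Function.update_of_ne hi] at this
  have huP : (u : A) ∈ fg_cl P := fg_cl_mono hoth hu
  refine fg_cl_le (fg_cl_closed P) (StarAlgebra.adjoin_le ?_)
  rintro _ ⟨i, rfl⟩
  by_cases hi : i = a
  · subst hi
    have h1 := fg_le_cl P (hmem i)
    rw [Function.update_self] at h1
    have h2 := mul_mem h1 (star_mem huP)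
    have e : ((g i * u : unitary A) : A) * star (u : A) = (g i : A) := by
      rw [Submonoid.coe_mul, mul_assoc, Unitary.mul_star_self_of_mem u.2, mul_one]
    rw [e] at h2
    exact h2
  · have := hmem i
    rw [Function.update_of_ne hi] at this
    exact fg_le_cl P this

/-- adding a Haar unitary which is free from an algebra containing the family -/
theorem fh_option {g : ι → unitary A} (hg : RawFH g) (B : StarSubalgebra ℂ A)
    (hB : ∀ i, (g i : A) ∈ B) (y : unitary A) (hy : IsFree B.toSubalgebra (y : A)) :
    RawFH (fun o : Option ι => o.elim y g) := by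
  refine fh_of_isFree none B (fun i hi => ?_) (fun K hK1 hK2 hK3 => ?_) hy
  · cases i with
    | none => exact absurd rfl hi
    | some i => exact hB i
  · have hex : ∃ K' : List (ι × Bool), K = K'.map (fun x => (some x.1, x.2)) := by
      clear hK1 hK3
      induction K with
      | nil => exact ⟨[], rfl⟩
      | cons x K ih =>
        obtain ⟨K', rfl⟩ := ih fun z hz => hK2 z (List.mem_cons_of_mem _ hz)
        rcases x with ⟨o, b⟩
        cases o with
        | none => exact absurd rfl (hK2 (none, b) (by simp))
        | some i => exact ⟨(i, b) :: K', rfl⟩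
    obtain ⟨K', rfl⟩ := hex
    have e : evL (fun o : Option ι => o.elim y g) (K'.map (fun x => (some x.1, x.2))) =
        evL g K' := by
      unfold evL
      rw [List.map_map]
      rfl
    rw [e]
    refine hg.evL ?_ (fun h => hK3 (by rw [h]; rfl))
    unfold FreeGroup.IsReduced at hK1 ⊢
    rw [List.isChain_map] at hK1
    refine hK1.imp ?_
    intro x z h hxz
    exact h (by simp [hxz])

end fin

end Crest.Agent.FGF.MR

/-! ### the statements used by the other modules -/

namespace Crest.Agent.FGF

open Crest.Agent.GenII1 Filter Topology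

variable {M : Type*} [CStarAlgebra M] [FinVN M] {ι : Type*}

/-- a member of a free Haar family is free from the 2-closed algebra generated by the others -/
theorem FH_isFree (g : ι → unitary M) (hg : FH g) (l : ι) :
    IsFree (vn (Set.range fun i : {i // i ≠ l} => (g i : M))).toSubalgebra (g l : M) :=
  MR.isFree_cl_oth (g := g) hg l

/-- adding a Haar unitary which is free from an algebra containing the family -/
theorem FH_option (g : ι → unitary M) (hg : FH g) (B : StarSubalgebra ℂ M)
    (hB : ∀ i, (g i : M) ∈ B) (y : unitary M) (hy : IsFree B.toSubalgebra (y : M)) :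
    FH (fun o : Option ι => o.elim y g) :=
  MR.fh_option (g := g) hg B hB y hy

/-- exact move: right multiplication of one member by a unitary of the algebra of the others -/
theorem FH_update [DecidableEq ι] (g : ι → unitary M) (hg : FH g) (l : ι) (u : unitary M)
    (hu : (u : M) ∈ vn (Set.range fun i : {i // i ≠ l} => (g i : M))) :
    FH (Function.update g l (g l * u)) :=
  MR.mul_right (g := g) hg l u hu

/-- the exact move does not change the generated algebra (one inclusion) -/
theorem vn_gens_update [DecidableEq ι] (g : ι → unitary M) (l : ι) (u : unitary M)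
    (hu : (u : M) ∈ vn (Set.range fun i : {i // i ≠ l} => (g i : M))) :
    vn (gens g) ≤ vn (gens (Function.update g l (g l * u))) :=
  MR.gen_mul_right g l u hu

theorem Good.mul_right' [DecidableEq ι] {g : ι → unitary M} (hg : Good g) (l : ι) (u : unitary M)
    (hu : (u : M) ∈ vn (Set.range fun i : {i // i ≠ l} => (g i : M))) :
    Good (Function.update g l (g l * u)) := by
  refine ⟨FH_update g hg.fh l u hu, ?_⟩
  rw [gen_iff, eq_top_iff, ← (gen_iff g).1 hg.gen]
  exact vn_gens_update g l u hu

end Crest.Agent.FGF
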