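import Crest.Agent.GenII1.Basic

/-! # Row 134, module C: approximation of a Haar unitary `y` by `exp (i p (y))`, `p` a real
trigonometric polynomial without constant term. -/

set_option autoImplicit false

namespace Crest.Agent.FGF.TrigApprox

open Crest.Agent.GenII1 MeasureTheory Filter Topology AddCircle

noncomputable section

local instance factTwoPi : Fact (0 < 2 * Real.pi) := ⟨Real.two_pi_pos⟩

/-- the circle `ℝ / 2π` -/
abbrev TT : Type := AddCircle (2 * Real.pi)

variable {A : Type*} [CStarAlgebra A]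

/-- powers of the unitary `(y, z)` of `A × C(T)` -/
def EE' (y : unitary A) (k : ℤ) : A × C(TT, ℂ) := (((y ^ k : unitary A) : A), fourier k)

theorem EE'_add (y : unitary A) (k l : ℤ) : EE' y (k + l) = EE' y k * EE' y l := by
  refine Prod.ext ?_ ?_
  · change ((y ^ (k + l) : unitary A) : A) = ((y ^ k : unitary A) : A) * ((y ^ l : unitary A) : A)
    rw [zpow_add]; rfl
  · change fourier (k + l) = fourier k * fourier l
    ext t
    exact fourier_add

theorem EE'_star (y : unitary A) (k : ℤ) : star (EE' y k) = EE' y (-k) := by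
  refine Prod.ext ?_ ?_
  · change star ((y ^ k : unitary A) : A) = ((y ^ (-k) : unitary A) : A)
    rw [zpow_neg]
    rfl
  · change star (fourier k) = fourier (-k)
    ext t
    exact (fourier_neg).symm

theorem EE'_zero (y : unitary A) : EE' y 0 = 1 := by
  refine Prod.ext ?_ ?_
  · change ((y ^ (0 : ℤ) : unitary A) : A) = 1
    rw [zpow_zero]; rfl
  · change fourier 0 = 1
    ext t
    exact fourier_zero

/-- the star algebra of Laurent polynomials in `(y, z)` -/
def LP (y : unitary A) : StarSubalgebra ℂ (A × C(TT, ℂ)) where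
  carrier := Submodule.span ℂ (Set.range (EE' y))
  zero_mem' := Submodule.zero_mem _
  add_mem' := fun h h' => Submodule.add_mem _ h h'
  one_mem' := by
    rw [← EE'_zero y]
    exact Submodule.subset_span ⟨0, rfl⟩
  mul_mem' := by
    intro a b ha hb
    have h1 : a * b ∈ Submodule.span ℂ (Set.range (EE' y)) * Submodule.span ℂ (Set.range (EE' y)) :=
      Submodule.mul_mem_mul ha hb
    rw [Submodule.span_mul_span] at h1
    refine Submodule.span_mono ?_ h1
    rintro _ ⟨_, ⟨k, rfl⟩, _, ⟨l, rfl⟩, rfl⟩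
    exact ⟨k + l, EE'_add y k l⟩
  algebraMap_mem' := by
    intro r
    rw [Algebra.algebraMap_eq_smul_one, ← EE'_zero y]
    exact Submodule.smul_mem _ _ (Submodule.subset_span ⟨0, rfl⟩)
  star_mem' := by
    intro a ha
    change star a ∈ Submodule.span ℂ (Set.range (EE' y))
    induction ha using Submodule.span_induction with
    | mem x hx =>
      obtain ⟨k, rfl⟩ := hx
      rw [EE'_star]
      exact Submodule.subset_span ⟨-k, rfl⟩
    | zero => rw [star_zero]; exact Submodule.zero_mem _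
    | add x y _ _ h1 h2 => rw [star_add]; exact Submodule.add_mem _ h1 h2
    | smul c x _ h => rw [star_smul]; exact Submodule.smul_mem _ _ h

theorem mem_LP {y : unitary A} {x : A × C(TT, ℂ)} :
    x ∈ LP y ↔ x ∈ Submodule.span ℂ (Set.range (EE' y)) := Iff.rfl

section
variable [FinVN A]

/-- `toL2` as a continuous linear map -/
def toL2C : A →L[ℂ] L2 A := LinearMap.mkContinuous (toL2 : A ≃ₗ[ℂ] L2 A).toLinearMap 1
  (fun x => by rw [one_mul]; exact n2_le_norm x)

theorem norm_toL2C (x : A) : ‖toL2C x‖ = n2 x := rfl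

/-- continuous functions to `L²` -/
abbrev JJ : C(TT, ℂ) →L[ℂ] Lp ℂ 2 (haarAddCircle (T := 2 * Real.pi)) :=
  ContinuousMap.toLp 2 haarAddCircle ℂ

theorem inner_EE' (y : unitary A) (hy : ∀ k : ℤ, k ≠ 0 → τ ((y ^ k : unitary A) : A) = 0)
    (k l : ℤ) : inner ℂ (toL2C (EE' y k).1) (toL2C (EE' y l).1) =
      inner ℂ (JJ (EE' y k).2) (JJ (EE' y l).2) := by
  have h1 : inner ℂ (toL2C (EE' y k).1) (toL2C (EE' y l).1) =
      τ (star ((y ^ k : unitary A) : A) * ((y ^ l : unitary A) : A)) := rfl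
  have h2 : star ((y ^ k : unitary A) : A) * ((y ^ l : unitary A) : A) =
      ((y ^ (-k + l) : unitary A) : A) := by
    rw [zpow_add, zpow_neg]; rfl
  have h3 : inner ℂ (JJ (EE' y k).2) (JJ (EE' y l).2) = if k = l then (1 : ℂ) else 0 :=
    (orthonormal_iff_ite.1 (orthonormal_fourier (T := 2 * Real.pi))) k l
  rw [h1, h2, h3]
  split_ifs with h
  · subst h
    rw [neg_add_cancel, zpow_zero]
    exact τ_one
  · exact hy _ (by omega)

theorem inner_LP (y : unitary A) (hy : ∀ k : ℤ, k ≠ 0 → τ ((y ^ k : unitary A) : A) = 0)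
    {a b : A × C(TT, ℂ)} (ha : a ∈ Submodule.span ℂ (Set.range (EE' y)))
    (hb : b ∈ Submodule.span ℂ (Set.range (EE' y))) :
    inner ℂ (toL2C a.1) (toL2C b.1) = inner ℂ (JJ a.2) (JJ b.2) := by
  induction ha using Submodule.span_induction with
  | mem x hx =>
    obtain ⟨k, rfl⟩ := hx
    induction hb using Submodule.span_induction with
    | mem x hx =>
      obtain ⟨l, rfl⟩ := hx
      exact inner_EE' y hy k l
    | zero => simp
    | add u v _ _ h1 h2 =>
      rw [Prod.fst_add, Prod.snd_add, map_add, map_add, inner_add_right, inner_add_right, h1, h2]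
    | smul c x _ h =>
      rw [Prod.smul_fst, Prod.smul_snd, map_smul, map_smul, inner_smul_right, inner_smul_right, h]
  | zero => simp
  | add u v _ _ h1 h2 =>
    rw [Prod.fst_add, Prod.snd_add, map_add, map_add, inner_add_left, inner_add_left, h1, h2]
  | smul c x _ h =>
    rw [Prod.smul_fst, Prod.smul_snd, map_smul, map_smul, inner_smul_left, inner_smul_left, h]

theorem n2_LP (y : unitary A) (hy : ∀ k : ℤ, k ≠ 0 → τ ((y ^ k : unitary A) : A) = 0)
    {a : A × C(TT, ℂ)} (ha : a ∈ (LP y).topologicalClosure) : n2 a.1 = ‖JJ a.2‖ := by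
  have hcl : IsClosed {a : A × C(TT, ℂ) | ‖toL2C a.1‖ = ‖JJ a.2‖} :=
    isClosed_eq ((toL2C.continuous.comp continuous_fst).norm)
      ((JJ.continuous.comp continuous_snd).norm)
  have hsub : ((LP y : StarSubalgebra ℂ (A × C(TT, ℂ))) : Set (A × C(TT, ℂ))) ⊆
      {a : A × C(TT, ℂ) | ‖toL2C a.1‖ = ‖JJ a.2‖} := by
    intro a ha
    have h := inner_LP y hy (mem_LP.1 ha) (mem_LP.1 ha)
    rw [inner_self_eq_norm_sq_to_K, inner_self_eq_norm_sq_to_K] at h
    have h2 : ‖toL2C a.1‖ ^ 2 = ‖JJ a.2‖ ^ 2 := by exact_mod_cast h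
    exact (sq_eq_sq₀ (norm_nonneg _) (norm_nonneg _)).1 h2
  exact closure_minimal hsub hcl ha

omit [FinVN A] in
theorem exp_mem_closure (S : StarSubalgebra ℂ (A × C(TT, ℂ))) {x : A × C(TT, ℂ)}
    (hx : x ∈ S) : NormedSpace.exp x ∈ S.topologicalClosure := by
  have h := NormedSpace.exp_series_hasSum_exp' (𝕂 := ℂ) x
  refine S.isClosed_topologicalClosure.mem_of_tendsto h.tendsto_sum_nat
    (Eventually.of_forall fun n => ?_)
  exact sum_mem fun i _ => S.topologicalClosure.smul_mem (pow_mem (S.le_topologicalClosure hx) i) _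

omit [FinVN A] in
theorem fst_exp' (x : A × C(TT, ℂ)) : (NormedSpace.exp x).1 = NormedSpace.exp x.1 := by
  have h := (NormedSpace.exp_series_hasSum_exp' (𝕂 := ℂ) x).map
    (AddMonoidHom.fst A C(TT, ℂ)) continuous_fst
  refine h.unique ?_
  have h2 := NormedSpace.exp_series_hasSum_exp' (𝕂 := ℂ) x.1
  exact h2

omit [FinVN A] in
theorem snd_exp' (x : A × C(TT, ℂ)) : (NormedSpace.exp x).2 = NormedSpace.exp x.2 := by
  have h := (NormedSpace.exp_series_hasSum_exp' (𝕂 := ℂ) x).map
    (AddMonoidHom.snd A C(TT, ℂ)) continuous_snd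
  refine h.unique ?_
  have h2 := NormedSpace.exp_series_hasSum_exp' (𝕂 := ℂ) x.2
  exact h2

theorem exp_eval (g : C(TT, ℂ)) (t : TT) : (NormedSpace.exp g) t = Complex.exp (g t) := by
  have h := (NormedSpace.exp_series_hasSum_exp' (𝕂 := ℂ) g).map
    (ContinuousMap.evalCLM ℂ t : C(TT, ℂ) →L[ℂ] ℂ) (ContinuousLinearMap.continuous _)
  rw [Complex.exp_eq_exp_ℂ]
  refine h.unique ?_
  have h2 := NormedSpace.exp_series_hasSum_exp' (𝕂 := ℂ) (g t)
  exact h2

/-- the sawtooth `x` on `(-π, π]` -/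
def saw : TT → ℂ := AddCircle.liftIoc (2 * Real.pi) (-Real.pi) (fun x => (x : ℂ))

theorem saw_spec (t : TT) : ∃ s : ℝ, saw t = s ∧ (fourier 1 : C(TT, ℂ)) t = Complex.exp (Complex.I * s) := by
  refine ⟨(AddCircle.equivIoc (2 * Real.pi) (-Real.pi) t : ℝ), rfl, ?_⟩
  conv_lhs => rw [← AddCircle.coe_equivIoc (p := 2 * Real.pi) (a := -Real.pi) (y := t)]
  rw [fourier_coe_apply]
  congr 1
  have : (Real.pi : ℂ) ≠ 0 := by exact_mod_cast Real.pi_ne_zero
  push_cast
  field_simp

theorem memLp_saw : MemLp saw 2 (haarAddCircle (T := 2 * Real.pi)) := by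
  rw [memLp_haarAddCircle_iff]
  refine MemLp.memLp_liftIoc ?_
  refine MemLp.of_bound (Complex.continuous_ofReal.aestronglyMeasurable) Real.pi ?_
  refine (ae_restrict_iff' measurableSet_Ioc).2 (Eventually.of_forall fun x hx => ?_)
  rw [Complex.norm_real, Real.norm_eq_abs, abs_le]
  exact ⟨hx.1.le, by linarith [hx.2]⟩

/-- Fourier coefficients of the sawtooth -/
def cc (k : ℤ) : ℂ := fourierCoeff saw k

theorem cc_zero : cc 0 = 0 := by
  rw [cc, fourierCoeff_eq_intervalIntegral saw 0 (-Real.pi)]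
  have h1 : ∫ x in (-Real.pi)..(-Real.pi) + 2 * Real.pi,
      (fourier (-0) : C(TT, ℂ)) (x : TT) • saw (x : TT) =
      ∫ x in (-Real.pi)..(-Real.pi) + 2 * Real.pi, ((x : ℝ) : ℂ) := by
    refine intervalIntegral.integral_congr_ae (Eventually.of_forall fun x hx => ?_)
    rw [Set.uIoc_of_le (by linarith [Real.pi_pos])] at hx
    rw [neg_zero, fourier_zero, one_smul]
    exact AddCircle.liftIoc_coe_apply hx
  rw [h1, intervalIntegral.integral_ofReal, integral_id]
  simp
  ring

theorem cc_neg (k : ℤ) : cc (-k) = (starRingEnd ℂ) (cc k) := by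
  rw [cc, cc, fourierCoeff, fourierCoeff, ← integral_conj]
  refine integral_congr_ae (Eventually.of_forall fun t => ?_)
  obtain ⟨s, hs, _⟩ := saw_spec t
  simp only [smul_eq_mul, map_mul, hs, Complex.conj_ofReal]
  rw [fourier_neg (n := -k)]

theorem norm_exp_sub (r s : ℝ) : ‖Complex.exp (Complex.I * r) - Complex.exp (Complex.I * s)‖ ≤
    ‖(r : ℂ) - s‖ := by
  have h1 : Complex.exp (Complex.I * r) - Complex.exp (Complex.I * s) =
      Complex.exp (Complex.I * s) * (Complex.exp (Complex.I * ((r - s : ℝ) : ℂ)) - 1) := by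
    rw [mul_sub, mul_one, ← Complex.exp_add]
    congr 2
    push_cast; ring
  have h2 : ‖Complex.exp (Complex.I * s)‖ = 1 := by
    rw [mul_comm]; exact Complex.norm_exp_ofReal_mul_I s
  rw [h1, norm_mul, h2, one_mul]
  refine Real.norm_exp_I_mul_ofReal_sub_one_le.trans ?_
  rw [← Complex.ofReal_sub, Complex.norm_real]

/-- the trigonometric polynomial with coefficients `c` at `(y, z)` -/
def PP' (c : ℤ →₀ ℂ) (y : unitary A) : A × C(TT, ℂ) := c.sum fun k z => z • EE' y k

omit [FinVN A] in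
theorem PP'_fst (c : ℤ →₀ ℂ) (y : unitary A) :
    (PP' c y).1 = c.sum fun k z => z • ((y ^ k : unitary A) : A) := by
  simp only [PP', Finsupp.sum, Prod.fst_sum, Prod.smul_fst, EE']

omit [FinVN A] in
theorem PP'_snd (c : ℤ →₀ ℂ) (y : unitary A) :
    (PP' c y).2 = c.sum fun k z => z • (fourier k : C(TT, ℂ)) := by
  simp only [PP', Finsupp.sum, Prod.snd_sum, Prod.smul_snd, EE']

omit [FinVN A] in
theorem PP'_mem (c : ℤ →₀ ℂ) (y : unitary A) : PP' c y ∈ LP y := by
  refine sum_mem fun k _ => ?_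
  exact Submodule.smul_mem _ _ (Submodule.subset_span ⟨k, rfl⟩)

/-- real valuedness -/
theorem fsum_real (c : ℤ →₀ ℂ) (hc : ∀ k, c (-k) = (starRingEnd ℂ) (c k)) (t : TT) :
    ∃ r : ℝ, (c.sum fun k z => z • (fourier k : C(TT, ℂ))) t = r := by
  rw [← Complex.conj_eq_iff_real]
  have h1 : (c.sum fun k z => z • (fourier k : C(TT, ℂ))) t =
      c.sum fun k z => z * (fourier k : C(TT, ℂ)) t := by
    rw [Finsupp.sum, ContinuousMap.sum_apply]
    rfl
  rw [h1]
  have h2 : (starRingEnd ℂ) (c.sum fun k z => z * (fourier k : C(TT, ℂ)) t) =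
      c.sum fun k z => (starRingEnd ℂ) z * (fourier (-k) : C(TT, ℂ)) t := by
    rw [Finsupp.sum, map_sum]
    refine Finset.sum_congr rfl fun k _ => ?_
    change _ = (starRingEnd ℂ) (c k) * (fourier (-k) : C(TT, ℂ)) t
    rw [map_mul, fourier_neg]
  rw [h2]
  rw [Finsupp.sum, Finsupp.sum]
  have hs : ∀ k, k ∈ c.support ↔ -k ∈ c.support := by
    intro k
    rw [Finsupp.mem_support_iff, Finsupp.mem_support_iff, hc, Ne, Ne,
      map_eq_zero_iff _ (RingHom.injective _)]
  refine Finset.sum_bij (fun k _ => -k) (fun k hk => (hs k).1 hk) (fun a _ b _ h => neg_injective h)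
    (fun b hb => ⟨-b, (hs b).1 hb, neg_neg b⟩) fun k _ => ?_
  rw [hc]

end

/-- core statement -/
theorem core (η : ℝ) (hη : 0 < η) : ∃ c : ℤ →₀ ℂ, c 0 = 0 ∧
    (∀ k, c (-k) = (starRingEnd ℂ) (c k)) ∧
    ∀ (A : Type*) [CStarAlgebra A] [FinVN A] (y : unitary A),
      (∀ k : ℤ, k ≠ 0 → τ ((y ^ k : unitary A) : A) = 0) →
      n2 (NormedSpace.exp (Complex.I • c.sum fun k z => z • ((y ^ k : unitary A) : A)) - (y : A))
        ≤ η := by
  classical
  let f : Lp ℂ 2 (haarAddCircle (T := 2 * Real.pi)) := memLp_saw.toLp saw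
  have hf : (f : TT → ℂ) =ᵐ[haarAddCircle] saw := memLp_saw.coeFn_toLp
  have hsum := hasSum_fourier_series_L2 f
  have hcoef : ∀ k, fourierCoeff (f : TT → ℂ) k = cc k := by
    intro k
    rw [fourierCoeff_congr_ae hf]; rfl
  simp only [hcoef] at hsum
  obtain ⟨F0, hF0⟩ := (Metric.tendsto_atTop.1 hsum) η hη
  let F : Finset ℤ := F0 ∪ F0.image (fun k => -k)
  have hFsym : ∀ k, k ∈ F ↔ -k ∈ F := by
    intro k
    simp only [F, Finset.mem_union, Finset.mem_image]
    constructor
    · rintro (h | ⟨a, ha, rfl⟩)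
      · exact Or.inr ⟨k, h, rfl⟩
      · left; rw [neg_neg]; exact ha
    · rintro (h | ⟨a, ha, h⟩)
      · exact Or.inr ⟨-k, h, neg_neg k⟩
      · left; rw [← neg_injective h]; exact ha
  let c : ℤ →₀ ℂ := Finsupp.onFinset F (fun k => if k ∈ F then cc k else 0) (by
    intro k hk
    by_contra h
    exact hk (if_neg h))
  have hc : ∀ k, c k = if k ∈ F then cc k else 0 := fun k => rfl
  have hcneg : ∀ k, c (-k) = (starRingEnd ℂ) (c k) := by
    intro k
    rw [hc, hc]
    by_cases h : k ∈ F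
    · rw [if_pos h, if_pos ((hFsym k).1 h), cc_neg]
    · rw [if_neg h, if_neg (fun h' => h ((hFsym k).2 h')), map_zero]
  refine ⟨c, ?_, hcneg, ?_⟩
  · rw [hc]
    split_ifs
    · exact cc_zero
    · rfl
  intro A _ _ y hy
  have hJ : ‖(JJ (c.sum fun k z => z • (fourier k : C(TT, ℂ))) : Lp ℂ 2 (haarAddCircle (T := 2 * Real.pi))) - f‖ < η := by
    have h1 := hF0 F Finset.subset_union_left
    rw [dist_eq_norm] at h1
    have h2 : (JJ (c.sum fun k z => z • (fourier k : C(TT, ℂ)))) =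
        ∑ k ∈ F, cc k • (fourierLp (T := 2 * Real.pi) 2 k) := by
      have h3 : (c.sum fun k z => z • (fourier k : C(TT, ℂ))) =
          ∑ k ∈ F, c k • (fourier k : C(TT, ℂ)) :=
        Finsupp.sum_of_support_subset c Finsupp.support_onFinset_subset _
          (fun k _ => zero_smul ℂ _)
      rw [h3, map_sum]
      refine Finset.sum_congr rfl fun k hk => ?_
      rw [hc, if_pos hk, map_smul]
    rw [h2]
    exact h1
  let X : A × C(TT, ℂ) := NormedSpace.exp (Complex.I • PP' c y) - EE' y 1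
  have hX : X ∈ (LP y).topologicalClosure := by
    refine sub_mem (exp_mem_closure _ ((LP y).smul_mem (PP'_mem c y) _)) ?_
    exact (LP y).le_topologicalClosure (Submodule.subset_span ⟨1, rfl⟩)
  have h1 := n2_LP y hy hX
  have e1 : X.1 = NormedSpace.exp (Complex.I • c.sum fun k z => z • ((y ^ k : unitary A) : A)) -
      (y : A) := by
    change (NormedSpace.exp (Complex.I • PP' c y)).1 - (EE' y 1).1 = _
    rw [fst_exp', Prod.smul_fst, PP'_fst]
    congr 1
    change ((y ^ (1 : ℤ) : unitary A) : A) = y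
    rw [zpow_one]
  have e2 : X.2 = NormedSpace.exp (Complex.I • c.sum fun k z => z • (fourier k : C(TT, ℂ))) -
      fourier 1 := by
    change (NormedSpace.exp (Complex.I • PP' c y)).2 - (EE' y 1).2 = _
    rw [snd_exp', Prod.smul_snd, PP'_snd]
    rfl
  rw [← e1, h1]
  refine le_trans ?_ hJ.le
  refine Lp.norm_le_norm_of_ae_le ?_
  have a1 := ContinuousMap.coeFn_toLp (p := 2) (𝕜 := ℂ) (haarAddCircle (T := 2 * Real.pi)) X.2
  have a2 := ContinuousMap.coeFn_toLp (p := 2) (𝕜 := ℂ) (haarAddCircle (T := 2 * Real.pi))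
    (c.sum fun k z => z • (fourier k : C(TT, ℂ)))
  have a3 := Lp.coeFn_sub (JJ (c.sum fun k z => z • (fourier k : C(TT, ℂ)))) f
  filter_upwards [a1, a2, a3, hf] with t h1 h2 h3 h4
  rw [h1, h3, Pi.sub_apply, h2, h4, e2]
  obtain ⟨r, hr⟩ := fsum_real c hcneg t
  obtain ⟨s, hs, hs'⟩ := saw_spec t
  have h5 : (NormedSpace.exp (Complex.I • c.sum fun k z => z • (fourier k : C(TT, ℂ)))) t =
      Complex.exp (Complex.I * r) := by
    rw [exp_eval]
    change Complex.exp (Complex.I * (c.sum fun k z => z • (fourier k : C(TT, ℂ))) t) = _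
    rw [hr]
  rw [ContinuousMap.sub_apply, h5, hs', hr, hs]
  exact norm_exp_sub r s

end

end Crest.Agent.FGF.TrigApprox
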