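import Crest.Agent.FGF.CapWords
import Crest.Agent.FGF.TrigApprox
import Crest.Agent.FGF.MulRight

/-! # Row 134, module C: real trigonometric polynomials of a unitary and the elementary move -/

set_option autoImplicit false

namespace Crest.Agent.FGF.Cap

open Crest.Agent.GenII1 Filter Topology

variable {A : Type} [CStarAlgebra A]

/-- real trigonometric polynomial without constant term -/
structure Trig where
  c : ℤ →₀ ℂ
  c_zero : c 0 = 0
  c_neg : ∀ k, c (-k) = (starRingEnd ℂ) (c k)

/-- value at a unitary -/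
noncomputable def Trig.val (p : Trig) (y : unitary A) : A :=
  p.c.sum fun k z => z • ((y ^ k : unitary A) : A)

theorem Trig.val_sa (p : Trig) (y : unitary A) : IsSelfAdjoint (p.val y) := by
  unfold Trig.val IsSelfAdjoint Finsupp.sum
  rw [star_sum]
  refine Finset.sum_nbij' (fun k => -k) (fun k => -k) ?_ ?_ ?_ ?_ ?_
  · intro k hk
    rw [Finsupp.mem_support_iff] at hk ⊢
    rw [p.c_neg]
    exact fun h => hk ((map_eq_zero _).1 h)
  · intro k hk
    rw [Finsupp.mem_support_iff] at hk ⊢
    rw [p.c_neg]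
    exact fun h => hk ((map_eq_zero _).1 h)
  · intro k _
    exact neg_neg k
  · intro k _
    exact neg_neg k
  · intro k _
    show star (p.c k • ((y ^ k : unitary A) : A)) = p.c (-k) • ((y ^ (-k) : unitary A) : A)
    rw [p.c_neg, star_smul, zpow_neg, ← Unitary.star_eq_inv, Unitary.coe_star]
    rfl

/-- `∑ |k| |c_k|` (Lipschitz constant) -/
noncomputable def Trig.lip (p : Trig) : ℝ := p.c.sum fun k z => |(k : ℝ)| * ‖z‖

/-- `∑ |c_k|` (bound of the operator norm) -/
noncomputable def Trig.sup (p : Trig) : ℝ := p.c.sum fun _ z => ‖z‖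

/-- the `ℓ²` norm of the coefficients = `n2` of the value at a Haar unitary -/
noncomputable def Trig.nrm (p : Trig) : ℝ := Real.sqrt (p.c.sum fun _ z => ‖z‖ ^ 2)

theorem Trig_norm_unitary_le (u : unitary A) : ‖(u : A)‖ ≤ 1 := by
  have h := CStarRing.norm_star_mul_self (x := (u : A))
  rw [Unitary.coe_star_mul_self] at h
  have h1 : ‖(1 : A)‖ ≤ 1 := by
    have := CStarRing.norm_star_mul_self (x := (1 : A))
    rw [star_one, one_mul] at this
    nlinarith [norm_nonneg (1 : A)]
  nlinarith [norm_nonneg (u : A)]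

theorem Trig.norm_val_le (p : Trig) (y : unitary A) : ‖p.val y‖ ≤ p.sup := by
  unfold Trig.val Trig.sup Finsupp.sum
  refine (norm_sum_le _ _).trans (Finset.sum_le_sum fun k _ => ?_)
  rw [norm_smul]
  exact mul_le_of_le_one_right (norm_nonneg _) (Trig_norm_unitary_le _)

private theorem Trig_npow_sub_le (x y : unitary A) (n : ℕ) :
    ‖((x ^ n : unitary A) : A) - ((y ^ n : unitary A) : A)‖ ≤ n * ‖(x : A) - y‖ := by
  induction n with
  | zero => simp
  | succ n ih =>
    have e : ((x ^ (n + 1) : unitary A) : A) - ((y ^ (n + 1) : unitary A) : A) =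
        ((x ^ n : unitary A) : A) * ((x : A) - y) +
          (((x ^ n : unitary A) : A) - ((y ^ n : unitary A) : A)) * y := by
      rw [pow_succ, pow_succ]
      push_cast
      noncomm_ring
    rw [e]
    refine (norm_add_le _ _).trans ?_
    have h1 : ‖((x ^ n : unitary A) : A) * ((x : A) - y)‖ ≤ ‖(x : A) - y‖ :=
      (norm_mul_le _ _).trans (mul_le_of_le_one_left (norm_nonneg _) (Trig_norm_unitary_le _))
    have h2 : ‖(((x ^ n : unitary A) : A) - ((y ^ n : unitary A) : A)) * y‖ ≤
        n * ‖(x : A) - y‖ :=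
      ((norm_mul_le _ _).trans
        (mul_le_of_le_one_right (norm_nonneg _) (Trig_norm_unitary_le _))).trans ih
    rw [Nat.cast_succ, add_mul, one_mul]
    linarith

private theorem Trig_zpow_neg_coe (x : unitary A) (n : ℕ) :
    ((x ^ (-(n : ℤ)) : unitary A) : A) = star ((x ^ n : unitary A) : A) := by
  rw [zpow_neg, ← Unitary.star_eq_inv, Unitary.coe_star, zpow_natCast]

private theorem Trig_zpow_sub_le (x y : unitary A) (k : ℤ) :
    ‖((x ^ k : unitary A) : A) - ((y ^ k : unitary A) : A)‖ ≤ |(k : ℝ)| * ‖(x : A) - y‖ := by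
  obtain ⟨n, rfl | rfl⟩ := k.eq_nat_or_neg
  · have := Trig_npow_sub_le x y n
    simpa using this
  · rw [Trig_zpow_neg_coe, Trig_zpow_neg_coe, ← star_sub, norm_star]
    have := Trig_npow_sub_le x y n
    simpa using this

/-- operator norm Lipschitz estimate -/
theorem Trig.norm_val_sub_le (p : Trig) (x y : unitary A) :
    ‖p.val x - p.val y‖ ≤ p.lip * ‖(x : A) - y‖ := by
  unfold Trig.val Trig.lip Finsupp.sum
  rw [← Finset.sum_sub_distrib, Finset.sum_mul]
  refine (norm_sum_le _ _).trans (Finset.sum_le_sum fun k _ => ?_)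
  rw [← smul_sub, norm_smul]
  have := Trig_zpow_sub_le x y k
  nlinarith [norm_nonneg (p.c k)]

/-- conjugation -/
theorem Trig.val_conj (p : Trig) (u y : unitary A) :
    p.val (u * y * u⁻¹) = (u : A) * p.val y * star (u : A) := by
  unfold Trig.val Finsupp.sum
  rw [Finset.mul_sum, Finset.sum_mul]
  refine Finset.sum_congr rfl fun k _ => ?_
  show p.c k • (((u * y * u⁻¹) ^ k : unitary A) : A) =
    (u : A) * (p.c k • ((y ^ k : unitary A) : A)) * star (u : A)
  rw [conj_zpow, mul_smul_comm, smul_mul_assoc, ← Unitary.star_eq_inv]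
  push_cast
  rfl

/-- `p (y)` commutes with `y` -/
theorem Trig.val_comm (p : Trig) (y : unitary A) : p.val y * (y : A) = y * p.val y := by
  unfold Trig.val Finsupp.sum
  rw [Finset.mul_sum, Finset.sum_mul]
  refine Finset.sum_congr rfl fun k _ => ?_
  rw [mul_smul_comm, smul_mul_assoc]
  congr 1
  have : y ^ k * y = y * y ^ k := ((Commute.refl y).zpow_left k).eq
  have h2 := congrArg (fun z : unitary A => (z : A)) this
  simpa using h2

/-- the unitary `exp (i θ p(y))` -/
noncomputable def Trig.u (p : Trig) (θ : ℝ) (y : unitary A) : unitary A :=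
  selfAdjoint.expUnitary (θ • (⟨p.val y, p.val_sa y⟩ : selfAdjoint A))

theorem Trig.u_coe (p : Trig) (θ : ℝ) (y : unitary A) :
    (p.u θ y : A) = NormedSpace.exp (Complex.I • ((θ : ℂ) • p.val y)) := by
  unfold Trig.u
  rw [selfAdjoint.expUnitary_coe, Complex.coe_smul]
  rfl

private theorem Trig_exp_sub_le (x : A) :
    ‖NormedSpace.exp x - (1 + x)‖ ≤ ‖x‖ ^ 2 * Real.exp ‖x‖ := by
  have h1 : HasSum (fun n : ℕ => ((n + 2).factorial⁻¹ : ℂ) • x ^ (n + 2))
      (NormedSpace.exp x - (1 + x)) := by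
    have h2 := NormedSpace.exp_series_hasSum_exp' (𝕂 := ℂ) x
    have h3 := (hasSum_nat_add_iff' 2).2 h2
    simpa [Finset.sum_range_succ] using h3
  have h4 : HasSum (fun n : ℕ => ‖x‖ ^ 2 * (‖x‖ ^ n / n.factorial)) (‖x‖ ^ 2 * Real.exp ‖x‖) := by
    have := NormedSpace.expSeries_div_hasSum_exp (‖x‖)
    rw [← Real.exp_eq_exp_ℝ] at this
    exact this.mul_left _
  refine h1.norm_le_of_bounded h4 fun n => ?_
  rw [norm_smul]
  have h5 : ‖x ^ (n + 2)‖ ≤ ‖x‖ ^ (n + 2) := norm_pow_le' x (by omega)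
  have h6 : ‖((n + 2).factorial⁻¹ : ℂ)‖ ≤ (n.factorial : ℝ)⁻¹ := by
    rw [norm_inv, Complex.norm_natCast]
    exact inv_anti₀ (by exact_mod_cast n.factorial_pos)
      (by exact_mod_cast Nat.factorial_le (by omega))
  calc ‖((n + 2).factorial⁻¹ : ℂ)‖ * ‖x ^ (n + 2)‖ ≤ (n.factorial : ℝ)⁻¹ * ‖x‖ ^ (n + 2) :=
        mul_le_mul h6 h5 (norm_nonneg _) (by positivity)
    _ = ‖x‖ ^ 2 * (‖x‖ ^ n / n.factorial) := by rw [pow_add]; ring

theorem Trig_sup_nonneg (p : Trig) : 0 ≤ p.sup := by
  unfold Trig.sup Finsupp.sum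
  positivity

/-- first order expansion -/
theorem Trig.norm_u_sub_le (p : Trig) {θ : ℝ} (h0 : 0 ≤ θ) (h1 : θ ≤ 1) (y : unitary A) :
    ‖(p.u θ y : A) - (1 + (θ : ℂ) • (Complex.I • p.val y))‖ ≤ (p.sup ^ 2 * Real.exp p.sup) * θ ^ 2 := by
  rw [Trig.u_coe, smul_comm]
  have hs := Trig_sup_nonneg p
  have h2 : ‖(θ : ℂ) • (Complex.I • p.val y)‖ ≤ p.sup * θ := by
    rw [norm_smul, norm_smul, Complex.norm_real, Complex.norm_I, one_mul, Real.norm_eq_abs,
      abs_of_nonneg h0, mul_comm]
    exact mul_le_mul_of_nonneg_right (p.norm_val_le y) h0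
  refine (Trig_exp_sub_le _).trans ?_
  have h3 : ‖(θ : ℂ) • (Complex.I • p.val y)‖ ≤ p.sup := h2.trans (mul_le_of_le_one_right hs h1)
  calc ‖(θ : ℂ) • (Complex.I • p.val y)‖ ^ 2 * Real.exp ‖(θ : ℂ) • (Complex.I • p.val y)‖
      ≤ (p.sup * θ) ^ 2 * Real.exp p.sup :=
        mul_le_mul (pow_le_pow_left₀ (norm_nonneg _) h2 2) (Real.exp_le_exp.2 h3)
          (Real.exp_pos _).le (by positivity)
    _ = (p.sup ^ 2 * Real.exp p.sup) * θ ^ 2 := by ring

section
variable [FinVN A]

private theorem Trig_npow_n2_sub_le (x y : unitary A) (n : ℕ) :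
    n2 (((x ^ n : unitary A) : A) - ((y ^ n : unitary A) : A)) ≤ n * n2 ((x : A) - y) := by
  induction n with
  | zero => simp
  | succ n ih =>
    have e : ((x ^ (n + 1) : unitary A) : A) - ((y ^ (n + 1) : unitary A) : A) =
        ((x ^ n : unitary A) : A) * ((x : A) - y) +
          (((x ^ n : unitary A) : A) - ((y ^ n : unitary A) : A)) * y := by
      rw [pow_succ, pow_succ]
      push_cast
      noncomm_ring
    rw [e]
    refine (n2_add_le _ _).trans ?_
    rw [n2_unitary_mul (x ^ n : unitary A).2, n2_mul_unitary _ y.2, Nat.cast_succ, add_mul, one_mul]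
    linarith

private theorem Trig_zpow_n2_sub_le (x y : unitary A) (k : ℤ) :
    n2 (((x ^ k : unitary A) : A) - ((y ^ k : unitary A) : A)) ≤ |(k : ℝ)| * n2 ((x : A) - y) := by
  obtain ⟨n, rfl | rfl⟩ := k.eq_nat_or_neg
  · have := Trig_npow_n2_sub_le x y n
    simpa using this
  · rw [Trig_zpow_neg_coe, Trig_zpow_neg_coe, ← star_sub, n2_star]
    have := Trig_npow_n2_sub_le x y n
    simpa using this

/-- 2-norm Lipschitz estimate -/
theorem Trig.n2_val_sub_le (p : Trig) (x y : unitary A) :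
    n2 (p.val x - p.val y) ≤ p.lip * n2 ((x : A) - y) := by
  unfold Trig.val Trig.lip Finsupp.sum
  rw [← Finset.sum_sub_distrib, Finset.sum_mul]
  refine (n2_sum_le _ _).trans (Finset.sum_le_sum fun k _ => ?_)
  rw [← smul_sub, n2_smul]
  have := Trig_zpow_n2_sub_le x y k
  nlinarith [norm_nonneg (p.c k)]

theorem Trig.n2_val (p : Trig) {y : unitary A} (hy : ∀ k : ℤ, k ≠ 0 → τ ((y ^ k : unitary A) : A) = 0) :
    n2 (p.val y) = p.nrm := by
  unfold Trig.nrm
  rw [← Real.sqrt_sq (n2_nonneg _)]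
  congr 1
  rw [n2_sq]
  unfold Trig.val Finsupp.sum
  rw [star_sum, Finset.sum_mul, map_sum, Complex.re_sum]
  refine Finset.sum_congr rfl fun j _ => ?_
  rw [Finset.mul_sum, map_sum, Finset.sum_eq_single j]
  · rw [star_smul, smul_mul_smul_comm, Unitary.coe_star_mul_self, map_smul, τ_one]
    simp only [smul_eq_mul, mul_one, Complex.star_def, ← Complex.normSq_eq_conj_mul_self,
      Complex.ofReal_re, Complex.normSq_eq_norm_sq]
  · intro k _ hkj
    rw [star_smul, smul_mul_smul_comm, map_smul]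
    have e : star ((y ^ j : unitary A) : A) * ((y ^ k : unitary A) : A) =
        ((y ^ (k - j) : unitary A) : A) := by
      rw [← Unitary.coe_star, Unitary.star_eq_inv, ← Submonoid.coe_mul, ← zpow_neg, ← zpow_add]
      congr 2
      ring
    rw [e, hy _ (sub_ne_zero.2 hkj), smul_zero]
  · intro hj
    rw [Finsupp.notMem_support_iff] at hj
    rw [hj]
    simp

theorem Trig.u_mem (p : Trig) (θ : ℝ) {ι : Type} (g : ι → unitary A) (b : ι) :
    (p.u θ (g b) : A) ∈ (alg (fun _ : Unit => g b)).topologicalClosure := by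
  set S := (alg (fun _ : Unit => g b)).topologicalClosure with hS
  have hgm : ((g b : unitary A) : A) ∈ alg (fun _ : Unit => g b) :=
    StarAlgebra.subset_adjoin ℂ _ ⟨(), rfl⟩
  have hpow : ∀ k : ℤ, ((g b ^ k : unitary A) : A) ∈ alg (fun _ : Unit => g b) := by
    intro k
    obtain ⟨n, rfl | rfl⟩ := k.eq_nat_or_neg
    · rw [zpow_natCast]
      push_cast
      exact pow_mem hgm n
    · rw [Trig_zpow_neg_coe]
      push_cast
      exact star_mem (pow_mem hgm n)
  have hev : p.val (g b) ∈ alg (fun _ : Unit => g b) := by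
    unfold Trig.val Finsupp.sum
    exact sum_mem fun k _ => SMulMemClass.smul_mem _ (hpow k)
  have hX : Complex.I • ((θ : ℂ) • p.val (g b)) ∈ alg (fun _ : Unit => g b) :=
    SMulMemClass.smul_mem _ (SMulMemClass.smul_mem _ hev)
  rw [Trig.u_coe]
  have h2 := NormedSpace.exp_series_hasSum_exp' (𝕂 := ℂ) (Complex.I • ((θ : ℂ) • p.val (g b)))
  have hcl : IsClosed (S : Set A) := (alg (fun _ : Unit => g b)).isClosed_topologicalClosure
  refine hcl.mem_of_tendsto h2 (Eventually.of_forall fun s => ?_)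
  refine (alg (fun _ : Unit => g b)).le_topologicalClosure ?_
  exact sum_mem fun n _ => SMulMemClass.smul_mem _ (pow_mem hX n)

/-- for every `η` there is a real trigonometric polynomial `p` without constant term with
`‖exp(i p(y)) - y‖₂ ≤ η` for every Haar unitary `y` (in any finite von Neumann algebra).
[`p` = partial sum of the Fourier series of the sawtooth `x` on `(-π, π)`:
`‖e^{ip} - e^{ix}‖_{L²} ≤ ‖p - x‖_{L²}`; the 2-norm of a continuous function of a Haar unitary is
the `L²(T)` norm (Laurent polynomials + uniform approximation of `exp`).] -/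
theorem exists_trigU (η : ℝ) (hη : 0 < η) : ∃ p : Trig, ∀ (A : Type) [CStarAlgebra A]
    [FinVN A] (y : unitary A), (∀ k : ℤ, k ≠ 0 → τ ((y ^ k : unitary A) : A) = 0) →
      n2 ((p.u 1 y : A) - y) ≤ η := by
  obtain ⟨c, h0, h1, h2⟩ := TrigApprox.core η hη
  refine ⟨⟨c, h0, h1⟩, fun A _ _ y hy => ?_⟩
  rw [Trig.u_coe]
  have h3 := h2 A y hy
  simpa only [Complex.ofReal_one, one_smul, Trig.val] using h3

end

/-! ## the elementary move -/

/-- `v_a ↦ v_a exp(iθ p(E⁻¹ Y E))`, `Y ↦ E(v') E⁻¹ Y E E(v')⁻¹` (`Y = g b`). -/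
noncomputable def move {ι : Type} [DecidableEq ι] (p : Trig) (a b : ι) (E : FreeGroup ι) (θ : ℝ)
    (g : ι → unitary A) : ι → unitary A :=
  let y : unitary A := (evu g E)⁻¹ * g b * evu g E
  let g' := Function.update g a (g a * p.u θ y)
  Function.update g' b (evu g' E * y * (evu g' E)⁻¹)

/-- right multiplication of one generator by a unitary of the C*-algebra generated by the
others keeps a good family good. -/
theorem Good.mul_right [FinVN A] {ι : Type} [DecidableEq ι] {g : ι → unitary A} (hg : Good g)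
    (a : ι) (u : unitary A)
    (hu : (u : A) ∈ (alg (fun j : {j : ι // j ≠ a} => g j)).topologicalClosure) :
    Good (Function.update g a (g a * u)) := by
  have hu' : (u : A) ∈ vn (Set.range fun i : {i // i ≠ a} => (g i : A)) :=
    MR.topologicalClosure_le_cl _ hu
  refine ⟨FH_update g hg.fh a u hu', ?_⟩
  rw [eq_top_iff, ← hg.gen]
  exact vn_gens_update g a u hu'

theorem Good.move [FinVN A] {ι : Type} [DecidableEq ι] {g : ι → unitary A} (hg : Good g) (p : Trig)
    {a b : ι} (hab : a ≠ b) {E : FreeGroup ι} (hE : E ∈ Off b) (θ : ℝ) :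
    Good (Cap.move p a b E θ g) := by
  set y : unitary A := (evu g E)⁻¹ * g b * evu g E with hy
  have h1 : Good (Function.update g b y) := by
    have h := hg.conj (b := b) (inv_mem hE)
    have e : evu g E⁻¹ * g b * (evu g E⁻¹)⁻¹ = y := by
      rw [map_inv, inv_inv]
    rwa [e] at h
  set g1 := Function.update g b y with hg1
  have h1b : g1 b = y := Function.update_self _ _ _
  have h1a : g1 a = g a := Function.update_of_ne hab _ _
  have h2 : Good (Function.update g1 a (g1 a * p.u θ (g1 b))) := by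
    refine h1.mul_right a _ ?_
    have h3 := p.u_mem θ g1 b
    refine StarSubalgebra.topologicalClosure_mono ?_ h3
    refine StarAlgebra.adjoin_mono ?_
    rintro _ ⟨_, rfl⟩
    exact ⟨⟨b, hab.symm⟩, rfl⟩
  rw [h1a, h1b] at h2
  set g' := Function.update g a (g a * p.u θ y) with hg'
  have e2 : Function.update g1 a (g a * p.u θ y) = Function.update g' b y := by
    rw [hg1, hg', Function.update_comm hab]
  rw [e2] at h2
  have h3 := h2.conj (b := b) hE
  rw [ev_update_off g' y hE, Function.update_self, Function.update_idem] at h3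
  exact h3

end Crest.Agent.FGF.Cap
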