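import Crest.Agent.FGF.CapDefs

/-! # Row 134, module C: words and families (group theoretic moves) -/

set_option autoImplicit false

namespace Crest.Agent.FGF.Cap

open Crest.Agent.GenII1 Filter Topology

variable {A : Type} [CStarAlgebra A]

/-- the words not involving the letter `b` -/
def Off {ι : Type} (b : ι) : Subgroup (FreeGroup ι) := Subgroup.closure (FreeGroup.of '' {b}ᶜ)

theorem of_mem_off {ι : Type} {b k : ι} (h : k ≠ b) : FreeGroup.of k ∈ Off b :=
  Subgroup.subset_closure ⟨k, h, rfl⟩

/-- evaluation is compatible with substitution of words -/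
theorem ev_words {ι κ : Type} (g : ι → unitary A) (f : κ → FreeGroup ι) (h : FreeGroup κ) :
    evu (fun k => evu g (f k)) h = evu g (FreeGroup.lift f h) := by
  have h1 : evu (fun k => evu g (f k)) = (evu g).comp (FreeGroup.lift f) := by
    refine FreeGroup.ext_hom _ _ fun k => ?_
    simp
  rw [h1]
  rfl

/-- evaluation of a word not involving `b` does not depend on `g b` -/
theorem ev_update_off {ι : Type} [DecidableEq ι] (g : ι → unitary A) {b : ι} (x : unitary A)
    {E : FreeGroup ι} (hE : E ∈ Off b) : evu (Function.update g b x) E = evu g E := by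
  unfold Off at hE
  induction hE using Subgroup.closure_induction with
  | mem y hy =>
    obtain ⟨k, hk, rfl⟩ := hy
    rw [evu_of, evu_of, Function.update_of_ne hk]
  | one => rw [map_one, map_one]
  | mul y z _ _ h1 h2 => rw [map_mul, map_mul, h1, h2]
  | inv y _ h1 => rw [map_inv, map_inv, h1]

/-- words not involving `b` are fixed by a substitution of the letter `b` -/
theorem lift_update_off {ι : Type} [DecidableEq ι] {b : ι} (x : FreeGroup ι)
    {E : FreeGroup ι} (hE : E ∈ Off b) :
    FreeGroup.lift (Function.update FreeGroup.of b x) E = E := by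
  unfold Off at hE
  induction hE using Subgroup.closure_induction with
  | mem y hy =>
    obtain ⟨k, hk, rfl⟩ := hy
    rw [FreeGroup.lift_apply_of, Function.update_of_ne hk]
  | one => rw [map_one]
  | mul y z _ _ h1 h2 => rw [map_mul, h1, h2]
  | inv y _ h1 => rw [map_inv, h1]

section
variable [FinVN A]

theorem fh_of_words {ι κ : Type} {g : ι → unitary A} (hg : FH g) (f : κ → FreeGroup ι)
    (hf : Function.Injective (FreeGroup.lift f)) : FH (fun k => evu g (f k)) := by
  intro h hh
  have h1 : ev (fun k => evu g (f k)) h = ev g (FreeGroup.lift f h) := ev_words g f h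
  rw [h1]
  refine hg _ fun h0 => hh (hf ?_)
  rw [h0, map_one]

omit [FinVN A] in
/-- `evu g h` is in the generated star algebra -/
theorem ev_mem_alg {ι : Type} (g : ι → unitary A) (h : FreeGroup ι) : (evu g h : A) ∈ alg g := by
  induction h using FreeGroup.induction_on with
  | C1 => rw [map_one]; exact one_mem _
  | of k => rw [evu_of]; exact StarAlgebra.subset_adjoin ℂ _ ⟨k, rfl⟩
  | inv_of k h1 =>
    rw [map_inv]
    have h2 : (((evu g (FreeGroup.of k))⁻¹ : unitary A) : A) =
        star ((evu g (FreeGroup.of k) : unitary A) : A) := by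
      rw [← Unitary.star_eq_inv]; rfl
    rw [h2]
    exact star_mem h1
  | mul x y h1 h2 =>
    rw [map_mul]
    exact mul_mem h1 h2

theorem gen_of_words {ι κ : Type} {g : ι → unitary A} (hg : vn (gens g) = ⊤) (f : κ → FreeGroup ι)
    (hf : Function.Surjective (FreeGroup.lift f)) : vn (gens fun k => evu g (f k)) = ⊤ := by
  have h1 : alg g ≤ alg (fun k => evu g (f k)) := by
    refine StarAlgebra.adjoin_le ?_
    rintro _ ⟨k, rfl⟩
    obtain ⟨h, hh⟩ := hf (FreeGroup.of k)
    have h2 : evu (fun k => evu g (f k)) h = g k := by rw [ev_words, hh, evu_of]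
    show ((g k : unitary A) : A) ∈ alg (fun k => evu g (f k))
    rw [← h2]
    exact ev_mem_alg _ h
  rw [eq_top_iff, ← hg]
  intro x hx ε hε
  obtain ⟨a, ha, h2⟩ := hx ε hε
  exact ⟨a, h1 ha, h2⟩

omit [FinVN A] in
/-- a substitution of one letter -/
theorem ev_update_word {ι : Type} [DecidableEq ι] (g : ι → unitary A) (b : ι)
    (W : FreeGroup ι) : Function.update g b (evu g W) =
      fun k => evu g (Function.update FreeGroup.of b W k) := by
  funext k
  by_cases h : k = b
  · subst h; simp
  · rw [Function.update_of_ne h, Function.update_of_ne h, evu_of]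

theorem Good.update_word {ι : Type} [DecidableEq ι] {g : ι → unitary A} (hg : Good g) {b : ι}
    (W W' : FreeGroup ι) (h1 : FreeGroup.lift (Function.update FreeGroup.of b W) W' = FreeGroup.of b)
    (h2 : FreeGroup.lift (Function.update FreeGroup.of b W') W = FreeGroup.of b) :
    Good (Function.update g b (evu g W)) := by
  have key : ∀ W W' : FreeGroup ι,
      FreeGroup.lift (Function.update FreeGroup.of b W) W' = FreeGroup.of b →
      Function.LeftInverse (FreeGroup.lift (Function.update FreeGroup.of b W))
        (FreeGroup.lift (Function.update FreeGroup.of b W')) := by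
    intro W W' h1 h
    have h3 : (FreeGroup.lift (Function.update FreeGroup.of b W)).comp
        (FreeGroup.lift (Function.update FreeGroup.of b W')) = MonoidHom.id _ := by
      refine FreeGroup.ext_hom _ _ fun k => ?_
      by_cases hk : k = b
      · subst hk
        simpa using h1
      · simp [Function.update_of_ne hk]
    have h4 := DFunLike.congr_fun h3 h
    simpa using h4
  rw [ev_update_word]
  exact ⟨fh_of_words hg.fh _ (key W' W h2).injective,
    gen_of_words hg.gen _ (key W W' h1).surjective⟩

/-- conjugation of one generator by a word in the others -/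
theorem Good.conj {ι : Type} [DecidableEq ι] {g : ι → unitary A} (hg : Good g) {b : ι}
    {E : FreeGroup ι} (hE : E ∈ Off b) :
    Good (Function.update g b (evu g E * g b * (evu g E)⁻¹)) := by
  have h := hg.update_word (b := b) (E * FreeGroup.of b * E⁻¹) (E⁻¹ * FreeGroup.of b * E) ?_ ?_
  · rwa [map_mul, map_mul, map_inv, evu_of] at h
  · rw [map_mul, map_mul, map_inv, lift_update_off _ hE, FreeGroup.lift_apply_of,
      Function.update_self]
    group
  · rw [map_mul, map_mul, map_inv, lift_update_off _ hE, FreeGroup.lift_apply_of,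
      Function.update_self]
    group

/-- right multiplication of one generator by a word in the others -/
theorem Good.mul_word {ι : Type} [DecidableEq ι] {g : ι → unitary A} (hg : Good g) {b : ι}
    {E : FreeGroup ι} (hE : E ∈ Off b) :
    Good (Function.update g b (g b * evu g E)) := by
  have h := hg.update_word (b := b) (FreeGroup.of b * E) (FreeGroup.of b * E⁻¹) ?_ ?_
  · rwa [map_mul, evu_of] at h
  · rw [map_mul, map_inv, lift_update_off _ hE, FreeGroup.lift_apply_of, Function.update_self]
    group
  · rw [map_mul, lift_update_off _ hE, FreeGroup.lift_apply_of, Function.update_self]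
    group

end

/-! ## the long word -/

section long
variable {ι : Type} {n : ℕ} [NeZero n]

/-- the slot used at time `t` -/
def slot (v : Fin n → ι) (t : ℕ) : ι := v (Fin.ofNat n t)

/-- prefixes of the long word: `E (t+1) = E t * w^(t+1) * v_{t mod n}` -/
def EW (w : ι) (v : Fin n → ι) : ℕ → FreeGroup ι
  | 0 => 1
  | t + 1 => EW w v t * FreeGroup.of w ^ (t + 1) * FreeGroup.of (slot v t)

theorem EW_off (w b : ι) (v : Fin n → ι) (hw : w ≠ b) (hv : ∀ l, v l ≠ b) (t : ℕ) :
    EW w v t ∈ Off b := by
  induction t with
  | zero => exact Subgroup.one_mem _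
  | succ t ih =>
    rw [EW]
    exact Subgroup.mul_mem _ (Subgroup.mul_mem _ ih (Subgroup.pow_mem _ (of_mem_off hw) _))
      (of_mem_off (hv _))

open Classical in
/-- the degree in the letter `w` -/
noncomputable def degW (w : ι) : FreeGroup ι →* Multiplicative ℤ :=
  FreeGroup.lift (fun k => Multiplicative.ofAdd (if k = w then (1 : ℤ) else 0))

open Classical in
/-- the degree in the letters different from `w` -/
noncomputable def degV (w : ι) : FreeGroup ι →* Multiplicative ℤ :=
  FreeGroup.lift (fun k => Multiplicative.ofAdd (if k = w then (0 : ℤ) else 1))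

theorem degV_EW (w : ι) (v : Fin n → ι) (hw : ∀ l, v l ≠ w) (t : ℕ) :
    Multiplicative.toAdd (degV w (EW w v t)) = t := by
  induction t with
  | zero => simp [EW]
  | succ t ih =>
    rw [EW, MonoidHom.map_mul, MonoidHom.map_mul, MonoidHom.map_pow, toAdd_mul, toAdd_mul, toAdd_pow, ih]
    have h1 : slot v t ≠ w := hw _
    simp [degV, h1]

theorem degW_EW (w : ι) (v : Fin n → ι) (hw : ∀ l, v l ≠ w) (t : ℕ) :
    2 * Multiplicative.toAdd (degW w (EW w v t)) = (t : ℤ) * (t + 1) := by
  induction t with
  | zero => simp [EW]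
  | succ t ih =>
    rw [EW, MonoidHom.map_mul, MonoidHom.map_mul, MonoidHom.map_pow, toAdd_mul, toAdd_mul, toAdd_pow, mul_add, mul_add, ih]
    have h1 : slot v t ≠ w := hw _
    simp [degW, h1]
    ring

/-- the group elements `E_s E_t⁻¹`, `s ≠ t`, are pairwise distinct (abelianise: the `v`-degree of
`E_s E_t⁻¹` is `s - t`, the `w`-degree is `(s(s+1) - t(t+1))/2`). -/
theorem EW_diff_inj (w : ι) (v : Fin n → ι) (hw : ∀ l, v l ≠ w) {s t s' t' : ℕ} (hst : s ≠ t)
    (h : EW w v s * (EW w v t)⁻¹ = EW w v s' * (EW w v t')⁻¹) : s = s' ∧ t = t' := by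
  have h1 := congrArg (fun x => Multiplicative.toAdd (degV w x)) h
  have h2 := congrArg (fun x => 2 * Multiplicative.toAdd (degW w x)) h
  simp only [MonoidHom.map_mul, MonoidHom.map_inv, toAdd_mul, toAdd_inv, mul_add, mul_neg, degV_EW w v hw,
    degW_EW w v hw] at h1 h2
  have h3 : (s : ℤ) - t ≠ 0 := by
    intro h0
    apply hst
    have : (s : ℤ) = t := by linarith
    exact_mod_cast this
  have h4 : ((s : ℤ) - t) * (s + t + 1) = ((s : ℤ) - t) * (s' + t' + 1) := by
    have : (s : ℤ) - t = s' - t' := by linarith
    calc ((s : ℤ) - t) * (s + t + 1) = (s' - t') * (s' + t' + 1) := by linarith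
      _ = _ := by rw [this]
  have h5 := mul_left_cancel₀ h3 h4
  constructor
  · have : (s : ℤ) = s' := by linarith
    exact_mod_cast this
  · have : (t : ℤ) = t' := by linarith
    exact_mod_cast this

theorem EW_inj (w : ι) (v : Fin n → ι) (hw : ∀ l, v l ≠ w) {s t : ℕ}
    (h : EW w v s = EW w v t) : s = t := by
  have h1 := congrArg (fun x => Multiplicative.toAdd (degV w x)) h
  simp only [degV_EW w v hw] at h1
  exact_mod_cast h1

theorem card_slot (P : ℕ) (l : Fin n) :
    ((Finset.range (P * n)).filter (fun t => Fin.ofNat n t = l)).card = P := by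
  have hn : 0 < n := Nat.pos_of_ne_zero (NeZero.ne n)
  have : ((Finset.range (P * n)).filter (fun t => Fin.ofNat n t = l)) =
      (Finset.range P).image (fun p => p * n + (l : ℕ)) := by
    ext t
    simp only [Finset.mem_filter, Finset.mem_range, Finset.mem_image, Fin.ext_iff,
      Fin.val_ofNat]
    constructor
    · rintro ⟨h1, h2⟩
      refine ⟨t / n, ?_, ?_⟩
      · rw [Nat.div_lt_iff_lt_mul hn]; exact h1
      · rw [← h2, mul_comm]; exact Nat.div_add_mod t n
    · rintro ⟨p, hp, rfl⟩
      have hl := l.isLt
      constructor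
      · calc p * n + (l : ℕ) < p * n + n := by omega
          _ = (p + 1) * n := by ring
          _ ≤ P * n := Nat.mul_le_mul_right _ hp
      · rw [mul_comm, Nat.mul_add_mod, Nat.mod_eq_of_lt hl]
  rw [this, Finset.card_image_of_injective, Finset.card_range]
  intro p q hpq
  have h1 : p * n = q * n := by simpa using hpq
  exact Nat.eq_of_mul_eq_mul_right hn h1

/-- counting: pairs of times in `[0, P n)` with the same slot -/
theorem card_pairs (P : ℕ) :
    ((Finset.range (P * n) ×ˢ Finset.range (P * n)).filter
      (fun st : ℕ × ℕ => st.1 ≠ st.2 ∧ Fin.ofNat n st.1 = Fin.ofNat n st.2)).card ≤ n * P ^ 2 := by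
  classical
  have hsub : ((Finset.range (P * n) ×ˢ Finset.range (P * n)).filter
      (fun st : ℕ × ℕ => st.1 ≠ st.2 ∧ Fin.ofNat n st.1 = Fin.ofNat n st.2)) ⊆
      (Finset.univ : Finset (Fin n)).biUnion (fun l =>
        ((Finset.range (P * n)).filter (fun t => Fin.ofNat n t = l)) ×ˢ
        ((Finset.range (P * n)).filter (fun t => Fin.ofNat n t = l))) := by
    rintro ⟨s, t⟩ hst
    simp only [Finset.mem_filter, Finset.mem_product] at hst
    simp only [Finset.mem_biUnion, Finset.mem_univ, true_and, Finset.mem_product,
      Finset.mem_filter]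
    exact ⟨Fin.ofNat n s, ⟨hst.1.1, rfl⟩, ⟨hst.1.2, hst.2.2.symm⟩⟩
  calc _ ≤ _ := Finset.card_le_card hsub
    _ ≤ ∑ l : Fin n, (((Finset.range (P * n)).filter (fun t => Fin.ofNat n t = l)) ×ˢ
        ((Finset.range (P * n)).filter (fun t => Fin.ofNat n t = l))).card :=
      Finset.card_biUnion_le
    _ = ∑ l : Fin n, P ^ 2 := by
      refine Finset.sum_congr rfl (fun l _ => ?_)
      rw [Finset.card_product, card_slot, sq]
    _ = n * P ^ 2 := by simp

end long

end Crest.Agent.FGF.Cap
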