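import Crest.Agent.FGF.SemiCPev

/-! MODULE Semi (row 134), chunk ANTI -/

set_option autoImplicit false
set_option linter.unusedSectionVars false

namespace Crest.Agent.FGF

open Crest.Agent.GenII1 Filter Topology MeasureTheory

variable {M : Type} [CStarAlgebra M] [FinVN M]

theorem semiAnti_pevM (c : ℕ × ℕ →₀ ℂ) {r x : M} (h1 : r * x = -(x * r))
    (h2 : r * star x = -(star x * r)) : r * pevM c x = pevM c (-x) * r := by
  have e1 : SemiconjBy r x (-x) := by
    show r * x = -x * r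
    rw [h1, neg_mul]
  have e2 : SemiconjBy r (star x) (star (-x)) := by
    show r * star x = star (-x) * r
    rw [h2, star_neg, neg_mul]
  unfold pevM
  rw [Finsupp.mul_sum, Finsupp.sum_mul]
  refine Finsupp.sum_congr fun ab _ => ?_
  rw [mul_smul_comm, smul_mul_assoc]
  congr 1
  exact ((e1.pow_right ab.1).mul_right (e2.pow_right ab.2)).eq

/-- ANTICOMMUTATION: an element anticommuting with `x` and `star x` anticommutes with odd
functions of `x` (symmetric law).
Proof: `r * pevM c x = Φ (fun z => pev c (-z)) * r` for polynomials (`r x^a x*^b = (-1)^{a+b} x^a x*^b r`);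
approximate `g` in `L²(μ)` by `pev c` (`exists_pev_L2`), then `g ∘ neg` is approximated by
`pev c ∘ neg` (`hsym`, `integral_map`); `n2_mul_le_left/right`; so `r * Φ g = Φ (g ∘ neg) * r`,
and `Φ (g ∘ neg) = - Φ g` by `congr_ae`. -/
theorem Calc.anti {x : M} {μ : Measure ℂ} {Φ : (ℂ → ℂ) → M} (hL : Law x μ) (hΦ : Calc x μ Φ)
    (hsym : μ.map (fun z => -z) = μ) (r : M) (h1 : r * x = -(x * r))
    (h2 : r * star x = -(star x * r)) (g : ℂ → ℂ) (hg : BM μ g)
    (hodd : ∀ᵐ z ∂μ, g (-z) = -g z) : r * Φ g = -(Φ g * r) := by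
  have := hL.prob
  obtain ⟨R, hR⟩ := hL.supp
  obtain ⟨C, hC⟩ := hg.2
  have hid := hL.BM_id
  have hneg : BM μ (fun z : ℂ => (-1 : ℂ) * z) := (BM.const (-1)).mul hid
  have hnegΦ : Φ (fun z : ℂ => (-1 : ℂ) * z) = -x := by
    rw [hΦ.smul hL (-1) (fun z => z) hid, hΦ.id hL, neg_one_smul]
  have hgn : BM μ (fun z => g (-z)) := by
    refine ⟨hg.1.comp measurable_neg, C, ?_⟩
    filter_upwards [hodd, hC] with z h3 h4
    rw [h3, norm_neg]
    exact h4
  have hgΦ : Φ (fun z => g (-z)) = -Φ g := by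
    have e1 : BM μ (fun z => (-1 : ℂ) * g z) := (BM.const (-1)).mul hg
    rw [hΦ.congr_ae hL _ _ hgn e1 (by
      filter_upwards [hodd] with z hz
      rw [hz, neg_one_mul]), hΦ.smul hL (-1) g hg, neg_one_smul]
  have key : GenII1.n2 (r * Φ g - Φ (fun z => g (-z)) * r) = 0 := by
    refine le_antisymm (le_of_forall_pos_lt_add fun ε hε => ?_) (n2_nonneg _)
    set δ : ℝ := ε / (2 * (‖r‖ + 1)) with hδ
    have hδ0 : 0 < δ := by positivity
    obtain ⟨c, hc⟩ := exists_pev_L2 μ R hR g hg δ hδ0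
    obtain ⟨b1, e1⟩ := Calc.pev hL hΦ (fun z => z) hid c
    obtain ⟨b2, e2⟩ := Calc.pev hL hΦ (fun z => (-1 : ℂ) * z) hneg c
    rw [hΦ.id hL] at e1
    rw [hnegΦ] at e2
    have e3 : r * Φ (fun z => FGF.pev c z) = Φ (fun z => FGF.pev c ((-1 : ℂ) * z)) * r := by
      rw [e1, e2]
      exact semiAnti_pevM c h1 h2
    have e4 : r * Φ g - Φ (fun z => g (-z)) * r =
        r * (Φ g - Φ (fun z => FGF.pev c z)) +
          (Φ (fun z => FGF.pev c ((-1 : ℂ) * z)) - Φ (fun z => g (-z))) * r := by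
      rw [mul_sub, sub_mul, e3]
      abel
    have n1 : GenII1.n2 (Φ g - Φ (fun z => FGF.pev c z)) < δ := by
      have h3 := hΦ.n2 _ (hg.sub b1)
      rw [hΦ.sub hL _ _ hg b1] at h3
      refine lt_of_pow_lt_pow_left₀ 2 hδ0.le ?_
      rw [h3]
      refine lt_of_eq_of_lt ?_ hc
      congr 1
      funext z
      rw [norm_sub_rev]
    have n2' : GenII1.n2 (Φ (fun z => FGF.pev c ((-1 : ℂ) * z)) - Φ (fun z => g (-z))) < δ := by
      have h3 := hΦ.n2 _ (b2.sub hgn)
      rw [hΦ.sub hL _ _ b2 hgn] at h3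
      refine lt_of_pow_lt_pow_left₀ 2 hδ0.le ?_
      rw [h3]
      refine lt_of_eq_of_lt ?_ hc
      have h4 : ∫ z, ‖FGF.pev c z - g z‖ ^ 2 ∂(μ.map (fun z => -z)) =
          ∫ z, ‖FGF.pev c (-z) - g (-z)‖ ^ 2 ∂μ :=
        integral_map measurable_neg.aemeasurable
          ((((continuous_pev c).measurable.sub hg.1).norm.pow_const 2).aestronglyMeasurable)
      rw [hsym] at h4
      rw [h4]
      congr 1
      funext z
      rw [neg_one_mul]
    rw [e4, zero_add]
    have m1 := n2_mul_le_left r (Φ g - Φ (fun z => FGF.pev c z))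
    have m2 := n2_mul_le_right (Φ (fun z => FGF.pev c ((-1 : ℂ) * z)) - Φ (fun z => g (-z))) r
    have m3 := n2_add_le (r * (Φ g - Φ (fun z => FGF.pev c z)))
      ((Φ (fun z => FGF.pev c ((-1 : ℂ) * z)) - Φ (fun z => g (-z))) * r)
    have hr := norm_nonneg r
    have m4 : δ * (2 * (‖r‖ + 1)) = ε := by rw [hδ]; field_simp
    have p1 : ‖r‖ * GenII1.n2 (Φ g - Φ (fun z => FGF.pev c z)) ≤ ‖r‖ * δ :=
      mul_le_mul_of_nonneg_left n1.le hr
    have p2 : GenII1.n2 (Φ (fun z => FGF.pev c ((-1 : ℂ) * z)) - Φ (fun z => g (-z))) * ‖r‖ ≤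
        δ * ‖r‖ := mul_le_mul_of_nonneg_right n2'.le hr
    nlinarith
  have h5 := sub_eq_zero.1 (eq_zero_of_n2 key)
  rw [h5, hgΦ, neg_mul]

end Crest.Agent.FGF
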