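import Crest.Agent.FGF.SemiCPev

/-! MODULE Semi (row 134), chunk GEN -/

set_option autoImplicit false
set_option linter.unusedSectionVars false

namespace Crest.Agent.FGF

open Crest.Agent.GenII1 Filter Topology MeasureTheory

variable {M : Type} [CStarAlgebra M] [FinVN M]

/-- GENERATION: `Φ (k ∘ h) ∈ vn {Φ h}`.
Proof: `ν = μ.map h` has bounded support; `exists_pev_L2` for `ν` and `k` gives `c` with
`∫ ‖pev c - k‖² ∂ν < ε²`; `Φ (pev c ∘ h) = pevM c (Φ h) ∈ adjoin {Φ h}` and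
`n2 (Φ (k ∘ h) - Φ (pev c ∘ h))² = ∫ ‖k ∘ h - pev c ∘ h‖² ∂μ` (`Calc.n2`, `Calc.sub`,
`integral_map`). -/
theorem Calc.gen {x : M} {μ : Measure ℂ} {Φ : (ℂ → ℂ) → M} (hL : Law x μ) (hΦ : Calc x μ Φ)
    (h k : ℂ → ℂ) (hh : BM μ h) (hk : BM (μ.map h) k) : Φ (fun z => k (h z)) ∈ vn {Φ h} := by
  have := hL.prob
  have : IsProbabilityMeasure (μ.map h) := Measure.isProbabilityMeasure_map hh.1.aemeasurable
  obtain ⟨R, hR⟩ := hh.2
  have hR' : ∀ᵐ z ∂(μ.map h), ‖z‖ ≤ R := by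
    rw [ae_map_iff hh.1.aemeasurable (measurableSet_le measurable_norm measurable_const)]
    exact hR
  obtain ⟨C, hC⟩ := hk.2
  have hkh : BM μ (fun z => k (h z)) :=
    ⟨hk.1.comp hh.1, C, ae_of_ae_map hh.1.aemeasurable hC⟩
  intro ε hε
  obtain ⟨c, hc⟩ := exists_pev_L2 (μ.map h) R hR' k hk ε hε
  obtain ⟨h1, h2⟩ := Calc.pev hL hΦ h hh c
  refine ⟨Φ (fun z => FGF.pev c (h z)), ?_, ?_⟩
  · rw [h2]
    exact pevM_mem c _ _ (StarAlgebra.subset_adjoin ℂ _ rfl)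
  · have h3 := hΦ.n2 _ (hkh.sub h1)
    rw [hΦ.sub hL _ _ hkh h1] at h3
    have h4 : ∫ z, ‖k (h z) - FGF.pev c (h z)‖ ^ 2 ∂μ =
        ∫ z, ‖FGF.pev c z - k z‖ ^ 2 ∂(μ.map h) := by
      have h5 : ∫ z, ‖FGF.pev c z - k z‖ ^ 2 ∂(μ.map h) =
          ∫ z, ‖FGF.pev c (h z) - k (h z)‖ ^ 2 ∂μ :=
        integral_map hh.1.aemeasurable
          ((((continuous_pev c).measurable.sub hk.1).norm.pow_const 2).aestronglyMeasurable)
      rw [h5]
      congr 1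
      funext z
      rw [norm_sub_rev]
    rw [h4] at h3
    refine lt_of_pow_lt_pow_left₀ 2 hε.le ?_
    rw [h3]
    exact hc

end Crest.Agent.FGF
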