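import Crest.Agent.FGF.SemiRho

/-! MODULE Semi (row 134), chunk INTY -/

set_option autoImplicit false
set_option linter.unusedSectionVars false

namespace Crest.Agent.FGF

open Crest.Agent.GenII1 Filter Topology MeasureTheory

theorem SemiIntY_deriv (n : ℕ) (hn : 0 < n) (x : ℝ) :
    HasDerivAt (fun ψ : ℝ => Complex.exp (Complex.I * (n : ℂ) *
      ((2 * ψ + Real.sin (2 * ψ) : ℝ) : ℂ)) / (2 * Real.pi * Complex.I * n))
      (((2 / Real.pi * Real.cos x ^ 2 : ℝ) : ℂ) *
        Complex.exp (Complex.I * (n : ℂ) * ((2 * x + Real.sin (2 * x) : ℝ) : ℂ))) x := by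
  have h1 : HasDerivAt (fun ψ : ℝ => 2 * ψ + Real.sin (2 * ψ)) (2 * 1 + Real.cos (2 * x) * (2 * 1)) x := by
    have ha : HasDerivAt (fun ψ : ℝ => 2 * ψ) (2 * 1) x := (hasDerivAt_id x).const_mul 2
    exact ha.add ha.sin
  have h2 := (h1.ofReal_comp.const_mul (Complex.I * (n : ℂ))).cexp.div_const
    (2 * Real.pi * Complex.I * n)
  refine h2.congr_deriv ?_
  have hpi : (Real.pi : ℂ) ≠ 0 := by exact_mod_cast Real.pi_ne_zero
  have hn' : (n : ℂ) ≠ 0 := by exact_mod_cast hn.ne'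
  rw [Real.cos_two_mul]
  push_cast
  field_simp
  ring

/-- `Y` is Haar.
Proof: on `(0, π/2)` put `θ = 2ψ + sin 2ψ`, `dθ = 4 cos² ψ dψ`, so
`∫_0^{π/2} exp(i n θ) (2/π) cos² ψ dψ = [exp(i n θ) / (2π i n)]_0^{π/2} = ((-1)^n - 1)/(2π i n)` by
the fundamental theorem of calculus; the other half is `(-1)^n` times the same
(`ψ ↦ -ψ`, `Y (-ψ) = - Y ψ`), and the sum is `((-1)^n + 1) ((-1)^n - 1)/(2π i n) = 0`. -/
theorem integral_Y_pow (n : ℕ) (hn : 0 < n) : ∫ ψ, Y ψ ^ n ∂ρ = 0 := by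
  rw [integral_ρ]
  set F : ℝ → ℂ := fun ψ => ((2 / Real.pi * Real.cos ψ ^ 2 : ℝ) : ℂ) * Y ψ ^ n with hF
  have hFm : Measurable F := by
    have := measurable_Y
    rw [hF]
    fun_prop
  have hFb : ∀ ψ, ‖F ψ‖ ≤ 2 / Real.pi := by
    intro ψ
    rw [hF]
    simp only [norm_mul, norm_pow]
    have h1 : ‖Y ψ‖ ^ n ≤ 1 := pow_le_one₀ (norm_nonneg _) (norm_Y_le ψ)
    have h2 : ‖((2 / Real.pi * Real.cos ψ ^ 2 : ℝ) : ℂ)‖ ≤ 2 / Real.pi := by
      rw [Complex.norm_real, Real.norm_eq_abs, abs_of_nonneg (by positivity)]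
      have := Real.cos_sq_le_one ψ
      have hp : 0 < 2 / Real.pi := by positivity
      nlinarith
    calc _ ≤ (2 / Real.pi) * 1 := mul_le_mul h2 h1 (by positivity) (by positivity)
      _ = _ := by ring
  have hint : ∀ a b : ℝ, IntervalIntegrable F volume a b := by
    intro a b
    rw [intervalIntegrable_iff]
    refine Measure.integrableOn_of_bounded (M := 2 / Real.pi) ?_ hFm.aestronglyMeasurable ?_
    · simp [Set.uIoc]
    · exact Eventually.of_forall hFb
  have hneg : ∀ ψ, F (-ψ) = (-1) ^ n * F ψ := by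
    intro ψ
    simp only [hF, Y_neg, Real.cos_neg]
    rw [neg_pow]
    ring
  have hleft : ∫ ψ in (-(Real.pi / 2))..0, F ψ = (-1) ^ n * ∫ ψ in (0:ℝ)..(Real.pi / 2), F ψ := by
    have h := intervalIntegral.integral_comp_neg (f := F) (a := 0) (b := Real.pi / 2)
    simp only [neg_zero] at h
    rw [← h, ← intervalIntegral.integral_const_mul]
    simp only [hneg]
  have hsum : ∫ ψ in (-(Real.pi / 2))..(Real.pi / 2), F ψ =
      ((-1) ^ n + 1) * ∫ ψ in (0:ℝ)..(Real.pi / 2), F ψ := by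
    rw [← intervalIntegral.integral_add_adjacent_intervals (hint _ 0) (hint 0 _), hleft]
    ring
  have hright : ∫ ψ in (0:ℝ)..(Real.pi / 2), F ψ =
      ((-1) ^ n - 1) / (2 * Real.pi * Complex.I * n) := by
    have hc : ∫ ψ in (0:ℝ)..(Real.pi / 2), F ψ = ∫ ψ in (0:ℝ)..(Real.pi / 2),
        (((2 / Real.pi * Real.cos ψ ^ 2 : ℝ) : ℂ) *
        Complex.exp (Complex.I * (n : ℂ) * ((2 * ψ + Real.sin (2 * ψ) : ℝ) : ℂ))) := by
      refine intervalIntegral.integral_congr_ae (Eventually.of_forall ?_)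
      intro x hx
      rw [Set.uIoc_of_le (by positivity)] at hx
      have hx0 : 0 < x := hx.1
      simp only [hF, Y, Real.sign_of_pos hx0, abs_of_pos hx0]
      rw [mul_pow, ← Complex.exp_nat_mul]
      congr 1
      push_cast
      rw [one_pow, one_mul]
      congr 1
      ring
    rw [hc, intervalIntegral.integral_eq_sub_of_hasDerivAt
      (f := fun ψ : ℝ => Complex.exp (Complex.I * (n : ℂ) *
      ((2 * ψ + Real.sin (2 * ψ) : ℝ) : ℂ)) / (2 * Real.pi * Complex.I * n))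
      (fun x _ => SemiIntY_deriv n hn x)]
    · have h1 : Complex.exp (Complex.I * (n : ℂ) *
          ((2 * (Real.pi / 2) + Real.sin (2 * (Real.pi / 2)) : ℝ) : ℂ)) = (-1) ^ n := by
        rw [show 2 * (Real.pi / 2) = Real.pi by ring, Real.sin_pi, add_zero,
          show Complex.I * (n : ℂ) * (Real.pi : ℂ) = (n : ℂ) * (Real.pi * Complex.I) by ring,
          Complex.exp_nat_mul, Complex.exp_pi_mul_I]
      have h0 : Complex.exp (Complex.I * (n : ℂ) *
          ((2 * (0:ℝ) + Real.sin (2 * (0:ℝ)) : ℝ) : ℂ)) = 1 := by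
        simp
      rw [h1, h0]
      ring
    · apply Continuous.intervalIntegrable
      fun_prop
  rw [hsum, hright]
  rcases Nat.even_or_odd n with h | h
  · rw [h.neg_one_pow]; simp
  · rw [h.neg_one_pow]; simp

end Crest.Agent.FGF
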