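import Crest.Agent.FGF.SemiInv

/-! MODULE Semi (row 134), chunk LAWS -/

set_option autoImplicit false
set_option linter.unusedSectionVars false

namespace Crest.Agent.FGF

open Crest.Agent.GenII1 Filter Topology MeasureTheory

/-- the semicircle law on `ℂ` -/
noncomputable def scLaw : Measure ℂ := ρ.map S

/-- the Haar law on `ℂ` -/
noncomputable def haarLaw : Measure ℂ := ρ.map Y

instance isProb_scLaw : IsProbabilityMeasure scLaw :=
  Measure.isProbabilityMeasure_map measurable_S.aemeasurable

instance isProb_haarLaw : IsProbabilityMeasure haarLaw :=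
  Measure.isProbabilityMeasure_map measurable_Y.aemeasurable

/-- `Measure.map_map` and `ρ_symm` -/
theorem scLaw_symm : scLaw.map (fun z => -z) = scLaw := by
  unfold scLaw
  rw [Measure.map_map measurable_neg measurable_S]
  have h : (fun z : ℂ => -z) ∘ S = S ∘ (fun ψ : ℝ => -ψ) := by
    funext ψ
    simp only [Function.comp_apply, S_neg]
  rw [h, ← Measure.map_map measurable_S measurable_neg, ρ_symm]

theorem haarLaw_symm : haarLaw.map (fun z => -z) = haarLaw := by
  unfold haarLaw
  rw [Measure.map_map measurable_neg measurable_Y]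
  have h : (fun z : ℂ => -z) ∘ Y = Y ∘ (fun ψ : ℝ => -ψ) := by
    funext ψ
    simp only [Function.comp_apply, Y_neg]
  rw [h, ← Measure.map_map measurable_Y measurable_neg, ρ_symm]

theorem SemiLaws_ρ_ac : ρ ≪ (volume : Measure ℝ) :=
  (withDensity_absolutelyContinuous _ _).trans Measure.absolutelyContinuous_restrict

theorem haarLaw_ae : ∀ᵐ z ∂haarLaw, ‖z‖ = 1 ∧ z.re ≠ 0 := by
  unfold haarLaw
  have hms : MeasurableSet {z : ℂ | ‖z‖ = 1 ∧ z.re ≠ 0} := by
    apply MeasurableSet.inter
    · exact measurableSet_eq_fun measurable_norm measurable_const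
    · exact (measurableSet_eq_fun Complex.measurable_re measurable_const).compl
  rw [ae_map_iff measurable_Y.aemeasurable hms]
  set D : Set ℝ := {ψ | ψ ∈ Set.Ioo (-(Real.pi / 2)) (Real.pi / 2) ∧ ψ ≠ 0} with hD
  have hfin : (D ∩ Y ⁻¹' {Complex.I, -Complex.I}).Finite := by
    apply Set.Finite.of_finite_image (f := Y)
    · exact (Set.toFinite ({Complex.I, -Complex.I} : Set ℂ)).subset (by
        rintro _ ⟨ψ, ⟨-, h⟩, rfl⟩
        exact h)
    · exact Y_injOn.mono Set.inter_subset_left
  have hnull : ρ (D ∩ Y ⁻¹' {Complex.I, -Complex.I}) = 0 :=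
    SemiLaws_ρ_ac (hfin.measure_zero volume)
  have hae : ∀ᵐ ψ ∂ρ, ψ ∉ (D ∩ Y ⁻¹' {Complex.I, -Complex.I}) := by
    rw [ae_iff]
    convert hnull using 2
    ext x
    exact not_not
  filter_upwards [hae, ρ_ae_mem] with ψ h1 h2
  refine ⟨norm_Y h2.2, fun h0 => h1 ⟨h2, ?_⟩⟩
  have hn := norm_Y h2.2
  have hsq : (Y ψ).re * (Y ψ).re + (Y ψ).im * (Y ψ).im = 1 := by
    have := Complex.normSq_eq_norm_sq (Y ψ)
    rw [hn, Complex.normSq_apply] at this
    simpa using this
  rw [h0] at hsq
  have him : (Y ψ).im = 1 ∨ (Y ψ).im = -1 := by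
    have : ((Y ψ).im - 1) * ((Y ψ).im + 1) = 0 := by nlinarith
    rcases mul_eq_zero.1 this with h | h
    · left; linarith
    · right; linarith
  rcases him with h | h
  · left
    apply Complex.ext
    · simp [h0]
    · simp [h]
  · right
    simp only [Set.mem_singleton_iff]
    apply Complex.ext
    · simp [h0]
    · simp [h]

theorem scLaw_ae : ∀ᵐ z ∂scLaw, ‖z‖ ≤ 2 ∧ star z = z := by
  unfold scLaw
  have hms : MeasurableSet {z : ℂ | ‖z‖ ≤ 2 ∧ star z = z} := by
    apply MeasurableSet.inter
    · exact measurableSet_le measurable_norm measurable_const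
    · exact (isClosed_eq continuous_star continuous_id).measurableSet
  rw [ae_map_iff measurable_S.aemeasurable hms]
  filter_upwards with ψ
  refine ⟨norm_S_le ψ, ?_⟩
  unfold S
  exact Complex.conj_ofReal _

end Crest.Agent.FGF
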