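import Crest.Agent.FGF.SemiLaw
import Crest.Agent.FGF.SemiLaws
import Crest.Agent.FGF.SemiIntY

/-! MODULE Semi (row 134), chunk LH -/

set_option autoImplicit false
set_option linter.unusedSectionVars false

namespace Crest.Agent.FGF

open Crest.Agent.GenII1 Filter Topology MeasureTheory

variable {M : Type} [CStarAlgebra M] [FinVN M]

theorem semiLH_τ (y : unitary M) (hy : Haar y) (n : ℕ) :
    τ ((y : M) ^ n) = ∫ ψ, Y ψ ^ n ∂ρ := by
  rcases Nat.eq_zero_or_pos n with rfl | hn
  · simp [τ_one]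
  · rw [hy n hn, integral_Y_pow n hn]

theorem semiLH_pow (y : unitary M) (n b : ℕ) : (y : M) ^ (n + b) * star (y : M) ^ b = (y : M) ^ n := by
  have h1 : (y : M) ^ b * star (y : M) ^ b = 1 := by
    have h := Unitary.coe_mul_star_self (y ^ b)
    rw [SubmonoidClass.coe_pow, star_pow] at h
    exact h
  rw [pow_add, mul_assoc, h1, mul_one]

theorem semiLH_pow' (y : unitary M) (n a : ℕ) :
    (y : M) ^ a * star (y : M) ^ (n + a) = star ((y : M) ^ n) := by
  have := congrArg star (semiLH_pow y n a)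
  rw [star_mul, star_pow, star_pow, star_star] at this
  rw [← this]

theorem semiLH_Y {ψ : ℝ} (h : ψ ≠ 0) (n b : ℕ) : Y ψ ^ (n + b) * star (Y ψ) ^ b = Y ψ ^ n := by
  have h1 : Y ψ * star (Y ψ) = 1 := by
    rw [Complex.star_def, Complex.mul_conj, Complex.normSq_eq_norm_sq, norm_Y h]; simp
  rw [pow_add, mul_assoc, ← mul_pow, h1, one_pow, mul_one]

theorem semiLH_Y' {ψ : ℝ} (h : ψ ≠ 0) (n a : ℕ) :
    Y ψ ^ a * star (Y ψ) ^ (n + a) = star (Y ψ ^ n) := by
  have := congrArg star (semiLH_Y h n a)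
  rw [star_mul, star_pow, star_pow, star_star] at this
  rw [← this]

/-- Haar unitaries have law `haarLaw`.
Proof: `law_of_moments`; `τ (y^a y*^b) = [a = b]` (`Haar`, `star`), and
`∫ z^a conj z^b ∂haarLaw = ∫ Y^a conj Y^b ∂ρ = [a = b]` (`integral_map`, `|Y| = 1` a.e.,
`integral_Y_pow`). -/
theorem law_of_haar (y : unitary M) (hy : Haar y) : Law (y : M) haarLaw := by
  have hn : IsStarNormal (y : M) := by
    constructor
    have h1 : star (y : M) * (y : M) = 1 := Unitary.coe_star_mul_self y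
    have h2 : (y : M) * star (y : M) = 1 := Unitary.coe_mul_star_self y
    change star (y : M) * (y : M) = (y : M) * star (y : M)
    rw [h1, h2]
  refine law_of_moments hn (R := 1) (haarLaw_ae.mono fun z hz => hz.1.le) fun a b => ?_
  have hm : ∫ z, z ^ a * star z ^ b ∂haarLaw = ∫ ψ, Y ψ ^ a * star (Y ψ) ^ b ∂ρ := by
    rw [haarLaw, integral_map measurable_Y.aemeasurable]
    exact (((continuous_id.pow a).mul ((continuous_star.comp continuous_id).pow b))
      |>.aestronglyMeasurable)
  rw [hm]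
  rcases le_total b a with hab | hab
  · obtain ⟨n, rfl⟩ := Nat.exists_eq_add_of_le' hab
    rw [semiLH_pow, semiLH_τ y hy]
    refine integral_congr_ae ?_
    filter_upwards [ρ_ae_mem] with ψ hψ
    exact (semiLH_Y hψ.2 n b).symm
  · obtain ⟨n, rfl⟩ := Nat.exists_eq_add_of_le' hab
    rw [semiLH_pow', τ_star, semiLH_τ y hy, ← integral_conj]
    refine integral_congr_ae ?_
    filter_upwards [ρ_ae_mem] with ψ hψ
    exact (semiLH_Y' hψ.2 n a).symm

end Crest.Agent.FGF
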