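import Crest.Agent.FGF.SemiDefs
import Mathlib.Combinatorics.Enumerative.Catalan.Basic

/-! MODULE Semi (row 134), chunk MSC -/

set_option autoImplicit false
set_option linter.unusedSectionVars false

namespace Crest.Agent.FGF

open Crest.Agent.GenII1 Filter Topology MeasureTheory

/-- moments of the semicircle law -/
noncomputable def mSC (n : ℕ) : ℂ := if Even n then (catalan (n / 2) : ℂ) else 0

theorem SemiMSC_sum (f : ℕ → ℂ) (hf : ∀ i, f (2 * i + 1) = 0) (j : ℕ) :
    ∑ k ∈ Finset.range (2 * j + 1), f k = ∑ i ∈ Finset.range (j + 1), f (2 * i) := by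
  induction j with
  | zero => simp
  | succ j ih =>
    have e : 2 * (j + 1) + 1 = (2 * j + 1) + 1 + 1 := by ring
    rw [e, Finset.sum_range_succ, Finset.sum_range_succ, ih, hf, add_zero,
      Finset.sum_range_succ (fun i => f (2 * i)) (j + 1)]
    rfl

/-- the semicircle moments satisfy the recursion.
Proof: `n + 1` odd: both sides `0` (`k + (n-1-k) = n - 1` is odd, so one factor is `0`).
`n + 1 = 2j + 2`: `∑_{k ≤ 2j} m_k m_{2j-k} = ∑_{i ≤ j} catalan i * catalan (j - i)`
(only even `k`), which is `catalan_succ`. -/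
theorem mSC_rec (n : ℕ) :
    mSC (n + 1) = ∑ k ∈ Finset.range n, mSC k * mSC (n - 1 - k) := by
  rcases Nat.even_or_odd n with hn | hn
  · have h1 : ¬ Even (n + 1) := by
      rw [Nat.even_add_one]
      exact not_not.2 hn
    have h2 : mSC (n + 1) = 0 := by
      unfold mSC
      rw [if_neg h1]
    rw [h2]
    symm
    refine Finset.sum_eq_zero fun k hk => ?_
    have hk' := Finset.mem_range.1 hk
    rcases Nat.even_or_odd k with he | ho
    · have h3 : ¬ Even (n - 1 - k) := by
        rw [Nat.not_even_iff_odd]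
        obtain ⟨a, ha⟩ := hn
        obtain ⟨b, hb⟩ := he
        exact ⟨a - b - 1, by omega⟩
      have h4 : mSC (n - 1 - k) = 0 := by
        unfold mSC
        rw [if_neg h3]
      rw [h4, mul_zero]
    · have h4 : mSC k = 0 := by
        unfold mSC
        rw [if_neg (Nat.not_even_iff_odd.2 ho)]
      rw [h4, zero_mul]
  · obtain ⟨j, hj⟩ := hn
    subst hj
    have hm : ∀ i : ℕ, mSC (2 * i) = (catalan i : ℂ) := by
      intro i
      unfold mSC
      rw [if_pos (even_two_mul i), Nat.mul_div_cancel_left i two_pos]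
    have hE : 2 * j + 1 + 1 = 2 * (j + 1) := by ring
    have hL : mSC (2 * j + 1 + 1) = (catalan (j + 1) : ℂ) := by
      rw [hE, hm]
    rw [hL, SemiMSC_sum (fun k => mSC k * mSC (2 * j + 1 - 1 - k)) ?_ j, catalan_succ]
    · push_cast
      rw [Finset.sum_range]
      refine Finset.sum_congr rfl fun i _ => ?_
      have h5 : 2 * j - 2 * (i : ℕ) = 2 * (j - (i : ℕ)) := by omega
      rw [h5, hm, hm]
    · intro i
      have h4 : mSC (2 * i + 1) = 0 := by
        unfold mSC
        rw [if_neg (Nat.not_even_iff_odd.2 ⟨i, rfl⟩)]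
      simp only [h4, zero_mul]

theorem mSC_zero : mSC 0 = 1 := by simp [mSC]

end Crest.Agent.FGF
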