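import Crest.Agent.FGF.SemiRho
import Crest.Agent.FGF.SemiMSC

/-! MODULE Semi (row 134), chunk INTS -/

set_option autoImplicit false
set_option linter.unusedSectionVars false

namespace Crest.Agent.FGF

open Crest.Agent.GenII1 Filter Topology MeasureTheory

/-- `∫ sin^n` over `(-π/2, π/2)` -/
private noncomputable def SemiIntS_J (n : ℕ) : ℝ :=
  ∫ x in (-(Real.pi / 2))..(Real.pi / 2), Real.sin x ^ n

private theorem SemiIntS_J_rec (n : ℕ) :
    SemiIntS_J (n + 2) = ((n : ℝ) + 1) / (n + 2) * SemiIntS_J n := by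
  unfold SemiIntS_J
  rw [integral_sin_pow, Real.cos_neg, Real.cos_pi_div_two]
  simp

private theorem SemiIntS_J_zero : SemiIntS_J 0 = Real.pi := by
  unfold SemiIntS_J
  simp

private theorem SemiIntS_J_one : SemiIntS_J 1 = 0 := by
  unfold SemiIntS_J
  simp

/-- the `n`-th moment -/
private noncomputable def SemiIntS_M (n : ℕ) : ℝ :=
  2 / Real.pi * 2 ^ n * (SemiIntS_J n / (n + 2))

private theorem SemiIntS_eq (n : ℕ) : ∫ ψ, S ψ ^ n ∂ρ = (SemiIntS_M n : ℂ) := by
  rw [integral_ρ]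
  have h1 : ∀ ψ : ℝ, ((2 / Real.pi * Real.cos ψ ^ 2 : ℝ) : ℂ) * S ψ ^ n =
      ((2 / Real.pi * 2 ^ n * (Real.sin ψ ^ n - Real.sin ψ ^ (n + 2)) : ℝ) : ℂ) := by
    intro ψ
    unfold S
    rw [← Complex.ofReal_pow, ← Complex.ofReal_mul]
    congr 1
    rw [mul_pow, Real.cos_sq', pow_add]
    ring
  simp only [h1]
  rw [intervalIntegral.integral_ofReal]
  congr 1
  have hI : ∀ m : ℕ, IntervalIntegrable (fun x : ℝ => Real.sin x ^ m) volume
      (-(Real.pi / 2)) (Real.pi / 2) := fun m =>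
    (Real.continuous_sin.pow m).intervalIntegrable _ _
  rw [intervalIntegral.integral_const_mul, intervalIntegral.integral_sub (hI n) (hI (n + 2))]
  change 2 / Real.pi * 2 ^ n * (SemiIntS_J n - SemiIntS_J (n + 2)) = _
  unfold SemiIntS_M
  rw [SemiIntS_J_rec]
  have h2 : ((n : ℝ) + 2) ≠ 0 := by positivity
  field_simp
  ring

private theorem SemiIntS_M_rec (n : ℕ) :
    SemiIntS_M (n + 2) = 4 * ((n : ℝ) + 1) / (n + 4) * SemiIntS_M n := by
  unfold SemiIntS_M
  rw [SemiIntS_J_rec]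
  have h2 : ((n : ℝ) + 2) ≠ 0 := by positivity
  have h4 : ((n : ℝ) + 4) ≠ 0 := by positivity
  have h3 := Real.pi_ne_zero
  push_cast
  have h5 : ((n : ℝ) + 2 + 2) = n + 4 := by ring
  rw [h5, pow_add]
  field_simp
  ring

private theorem SemiIntS_cat (k : ℕ) :
    ((k : ℝ) + 2) * (catalan (k + 1) : ℝ) = 2 * (2 * k + 1) * (catalan k : ℝ) := by
  have h1 := succ_mul_catalan_eq_centralBinom k
  have h2 := succ_mul_catalan_eq_centralBinom (k + 1)
  have h3 := Nat.succ_mul_centralBinom_succ k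
  have h4 : (k + 1) * ((k + 2) * catalan (k + 1)) = (k + 1) * (2 * (2 * k + 1) * catalan k) := by
    rw [show k + 2 = k + 1 + 1 from rfl, h2, h3, ← h1]
    ring
  have h5 := Nat.eq_of_mul_eq_mul_left (Nat.succ_pos k) h4
  exact_mod_cast h5

private theorem SemiIntS_even (k : ℕ) : SemiIntS_M (2 * k) = (catalan k : ℝ) := by
  induction k with
  | zero =>
    unfold SemiIntS_M
    rw [mul_zero, SemiIntS_J_zero, catalan_zero]
    have h3 := Real.pi_ne_zero
    push_cast
    field_simp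
    ring
  | succ k ih =>
    rw [show 2 * (k + 1) = 2 * k + 2 from by ring, SemiIntS_M_rec, ih]
    have h1 := SemiIntS_cat k
    have h2 : ((k : ℝ) + 2) ≠ 0 := by positivity
    push_cast
    have h3 : (catalan (k + 1) : ℝ) = 2 * (2 * k + 1) * (catalan k : ℝ) / (k + 2) := by
      rw [← h1]
      field_simp
    rw [h3]
    have h4 : (2 * (k : ℝ) + 4) = 2 * (k + 2) := by ring
    rw [h4]
    field_simp
    ring

private theorem SemiIntS_odd (k : ℕ) : SemiIntS_M (2 * k + 1) = 0 := by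
  induction k with
  | zero =>
    unfold SemiIntS_M
    rw [mul_zero, zero_add, SemiIntS_J_one]
    simp
  | succ k ih =>
    rw [show 2 * (k + 1) + 1 = (2 * k + 1) + 2 from by ring, SemiIntS_M_rec, ih, mul_zero]

/-- moments of the semicircle.
Proof: `J_n = ∫_{-π/2}^{π/2} sin^n`, `J_{n+2} = (n+1)/(n+2) J_n` (`integral_sin_pow`, boundary terms
vanish), `J_0 = π`, `J_1 = 0`; the `n`-th moment is `(2/π) 2^n (J_n - J_{n+2}) = (2/π) 2^n J_n/(n+2)`;
so `m_{n+2} = 4 (n+1)/(n+4) m_n`, `m_0 = 1`, `m_1 = 0`; and `mSC` satisfies the same recursion: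
`(k+2) catalan (k+1) = 2 (2k+1) catalan k` (`succ_mul_catalan_eq_centralBinom`,
`Nat.succ_mul_centralBinom_succ`). -/
theorem integral_S_pow (n : ℕ) : ∫ ψ, S ψ ^ n ∂ρ = mSC n := by
  rw [SemiIntS_eq]
  unfold mSC
  rcases Nat.even_or_odd' n with ⟨k, rfl | rfl⟩
  · rw [SemiIntS_even, if_pos (by simp), Nat.mul_div_cancel_left k (by norm_num)]
    norm_cast
  · rw [SemiIntS_odd, if_neg (by simp)]
    norm_cast

end Crest.Agent.FGF
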