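import Crest.Agent.FGF.SemiDer
import Crest.Agent.FGF.SemiMSC

/-! MODULE Semi (row 134), semicircular = moments -/

set_option autoImplicit false
set_option linter.unusedSectionVars false

namespace Crest.Agent.FGF

open Crest.Agent.GenII1 Filter Topology MeasureTheory

/-- `s` is a standard semicircular element iff it is self-adjoint with semicircle moments.
Proof: `isSemi_iff_rec`; the recursion determines the moments (strong induction, `τ 1 = 1`),
and `mSC_rec`. -/
theorem isSemi_iff_mom {M : Type} [CStarAlgebra M] [FinVN M] (s : M) :
    IsSemi s ↔ IsSelfAdjoint s ∧ ∀ n : ℕ, τ (s ^ n) = mSC n := by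
  rw [isSemi_iff_rec]
  constructor
  · rintro ⟨hs, h⟩
    refine ⟨hs, ?_⟩
    intro n
    induction n using Nat.strong_induction_on with
    | _ n ih =>
      cases n with
      | zero => rw [pow_zero, mSC_zero]; exact τ_one
      | succ n =>
        rw [h n, mSC_rec n]
        refine Finset.sum_congr rfl fun k hk => ?_
        have hk' := Finset.mem_range.1 hk
        rw [ih k (by omega), ih (n - 1 - k) (by omega)]
  · rintro ⟨hs, h⟩
    refine ⟨hs, fun n => ?_⟩
    rw [h, mSC_rec n]
    exact Finset.sum_congr rfl fun k _ => by rw [h, h]

end Crest.Agent.FGF
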