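import Crest.Agent.FGF.SemiLaw
import Crest.Agent.FGF.SemiLaws
import Crest.Agent.FGF.SemiIntS
import Crest.Agent.FGF.SemiMom

/-! MODULE Semi (row 134), chunk LS -/

set_option autoImplicit false
set_option linter.unusedSectionVars false

namespace Crest.Agent.FGF

open Crest.Agent.GenII1 Filter Topology MeasureTheory

variable {M : Type} [CStarAlgebra M] [FinVN M]

/-- semicircular elements have law `scLaw`.
Proof: `law_of_moments`; `s` is self-adjoint, so `τ (s^a s*^b) = τ (s^(a+b)) = mSC (a+b)`
(`isSemi_iff_mom`); `∫ z^a conj z^b ∂scLaw = ∫ S^(a+b) ∂ρ` (`integral_S_pow`). -/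
theorem law_of_semi (s : M) (hs : IsSemi s) : Law s scLaw := by
  obtain ⟨hsa, hm⟩ := (isSemi_iff_mom s).1 hs
  have hS : AEMeasurable S ρ := measurable_S.aemeasurable
  have hprob : IsProbabilityMeasure scLaw := Measure.isProbabilityMeasure_map hS
  refine law_of_moments hsa.isStarNormal (R := 2) ?_ (fun a b => ?_)
  · unfold scLaw
    rw [ae_map_iff hS (measurableSet_le measurable_norm measurable_const)]
    exact Eventually.of_forall norm_S_le
  · rw [hsa.star_eq, ← pow_add, hm]
    unfold scLaw
    rw [integral_map hS (by
      refine Continuous.aestronglyMeasurable ?_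
      exact (continuous_id.pow a).mul ((continuous_star.comp continuous_id).pow b))]
    rw [← integral_S_pow]
    refine integral_congr_ae (Eventually.of_forall fun ψ => ?_)
    have h1 : star (S ψ) = S ψ := Complex.conj_ofReal _
    simp only [h1, pow_add]

end Crest.Agent.FGF
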