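import Crest.Agent.FGF.Ext
import Crest.Agent.FGF.SemiGen
import Crest.Agent.FGF.SemiAnti
import Crest.Agent.FGF.SemiLH
import Crest.Agent.FGF.SemiLS

/-! MODULE Semi: one-variable functional calculus.  `f : T → [-2,2]` measurable, odd
(`f (-z) = - f z`), a.e. injective, pushes Haar measure to the semicircle law. -/

set_option autoImplicit false
set_option linter.unusedSectionVars false

namespace Crest.Agent.FGF

open Crest.Agent.GenII1 Filter Topology MeasureTheory

/-! ### almost everywhere statements on the two laws -/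

theorem sm_ae_sc {p : ℂ → Prop} (hp : MeasurableSet {z | p z})
    (h : ∀ ψ, ψ ∈ Set.Ioo (-(Real.pi / 2)) (Real.pi / 2) → ψ ≠ 0 → p (S ψ)) :
    ∀ᵐ z ∂scLaw, p z := by
  rw [scLaw, ae_map_iff measurable_S.aemeasurable hp]
  filter_upwards [ρ_ae_mem] with ψ hψ
  exact h ψ hψ.1 hψ.2

theorem sm_ae_haar {p : ℂ → Prop} (hp : MeasurableSet {z | p z})
    (h : ∀ ψ, ψ ∈ Set.Ioo (-(Real.pi / 2)) (Real.pi / 2) → ψ ≠ 0 → p (Y ψ)) :
    ∀ᵐ z ∂haarLaw, p z := by
  rw [haarLaw, ae_map_iff measurable_Y.aemeasurable hp]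
  filter_upwards [ρ_ae_mem] with ψ hψ
  exact h ψ hψ.1 hψ.2

/-! ### Laurent polynomials -/

/-- the Laurent polynomial of a polynomial in `z, conj z` on the unit circle -/
noncomputable def lau (c : ℕ × ℕ →₀ ℂ) : ℤ →₀ ℂ :=
  c.mapDomain fun ab => (ab.1 : ℤ) - ab.2

theorem lau_M {M : Type} [CStarAlgebra M] (c : ℕ × ℕ →₀ ℂ) (y : unitary M) :
    (lau c).sum (fun j w => w • ((y ^ j : unitary M) : M)) = pevM c (y : M) := by
  rw [lau, Finsupp.sum_mapDomain_index (by intro b; simp) (by intro b m₁ m₂; rw [add_smul]), pevM]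
  refine Finsupp.sum_congr fun ab _ => ?_
  congr 1
  rw [zpow_sub, zpow_natCast, zpow_natCast, Submonoid.coe_mul]
  congr 1
  rw [← inv_pow]
  push_cast
  rw [← Unitary.star_eq_inv, Unitary.coe_star]

/-- semicircular → Haar (`y = f⁻¹(s)`), with a universal trigonometric polynomial `q ≈ f` -/
theorem exists_haar_of_semi (δ : ℝ) (hδ : 0 < δ) :
    ∃ q : ℤ →₀ ℂ, ∀ (M : Type) [CStarAlgebra M] [FinVN M] (s : M), IsSemi s →
      ∃ y : unitary M, Haar y ∧ (y : M) ∈ vn {s} ∧ s ∈ vn {(y : M)} ∧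
        n2 (s - q.sum (fun j c => c • ((y ^ j : unitary M) : M))) ≤ δ ∧
        ∀ r : M, r * s = -(s * r) → r * (y : M) = -((y : M) * r) := by
  obtain ⟨f, hf, hf2, hfs, hfY⟩ := exists_f
  obtain ⟨g, hg, hg1, hgo, hgS⟩ := exists_g
  have hfB : BM haarLaw f := ⟨hf, 2, Eventually.of_forall hf2⟩
  have hgB : BM scLaw g := ⟨hg, 1, Eventually.of_forall hg1⟩
  obtain ⟨c, hc⟩ := exists_pev_L2 haarLaw 1 (haarLaw_ae.mono fun z hz => hz.1.le) f hfB δ hδ
  refine ⟨lau c, fun M _ _ s hs => ?_⟩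
  have hL := law_of_semi s hs
  obtain ⟨Φ, hΦ⟩ := exists_calc hL
  have hg1' : ∀ᵐ z ∂scLaw, ‖g z‖ = 1 := by
    refine sm_ae_sc (measurableSet_eq_fun hg.norm measurable_const) fun ψ h1 h2 => ?_
    rw [hgS ψ h1]; exact norm_Y h2
  set y : unitary M := ⟨Φ g, hΦ.unitary hL g hgB hg1'⟩ with hy
  have hyc : (y : M) = Φ g := rfl
  have hid : Φ (fun z => z) = s := hΦ.id hL
  have hfgB : BM scLaw (fun z => f (g z)) := ⟨hf.comp hg, 2, Eventually.of_forall fun z => hf2 _⟩
  have hfg : Φ (fun z => f (g z)) = s := by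
    rw [← hid]
    refine hΦ.congr_ae hL _ _ hfgB hL.BM_id ?_
    refine sm_ae_sc (p := fun z => f (g z) = z)
      (measurableSet_eq_fun (hf.comp hg) measurable_id) fun ψ h1 h2 => ?_
    rw [hgS ψ h1, hfY ψ h1 h2]
  refine ⟨y, ?_, ?_, ?_, ?_, ?_⟩
  · intro n hn
    rw [hyc, ← (hΦ.pow hL g hgB n).2, hΦ.tr _ (hΦ.pow hL g hgB n).1, scLaw,
      integral_map measurable_S.aemeasurable (hg.pow_const n).aestronglyMeasurable]
    rw [← integral_Y_pow n hn]
    refine integral_congr_ae ?_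
    filter_upwards [ρ_ae_mem] with ψ hψ
    rw [hgS ψ hψ.1]
  · have h1 := hΦ.gen hL (fun z => z) g hL.BM_id (by rw [Measure.map_id']; exact hgB)
    rw [hid] at h1
    exact h1
  · have h1 := hΦ.gen hL g f hgB ⟨hf, 2, Eventually.of_forall hf2⟩
    rw [hfg] at h1
    exact h1
  · rw [lau_M]
    have hp := Calc.pev hL hΦ g hgB c
    have h1 := hΦ.n2 _ (hL.BM_id.sub hp.1)
    rw [hΦ.sub hL _ _ hL.BM_id hp.1, hid, hp.2] at h1
    have h2 : ∫ z, ‖z - pev c (g z)‖ ^ 2 ∂scLaw = ∫ z, ‖pev c z - f z‖ ^ 2 ∂haarLaw := by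
      have hm1 : Measurable fun z => ‖z - pev c (g z)‖ ^ 2 :=
        ((measurable_id.sub ((continuous_pev c).measurable.comp hg)).norm).pow_const 2
      have hm2 : Measurable fun z => ‖pev c z - f z‖ ^ 2 :=
        (((continuous_pev c).measurable.sub hf).norm).pow_const 2
      rw [scLaw, haarLaw, integral_map measurable_S.aemeasurable hm1.aestronglyMeasurable,
        integral_map measurable_Y.aemeasurable hm2.aestronglyMeasurable]
      refine integral_congr_ae ?_
      filter_upwards [ρ_ae_mem] with ψ hψ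
      rw [hgS ψ hψ.1, hfY ψ hψ.1 hψ.2, norm_sub_rev]
    rw [h2] at h1
    rw [← h1] at hc
    exact (lt_of_pow_lt_pow_left₀ 2 hδ.le hc).le
  · intro r hr
    refine hΦ.anti hL scLaw_symm r hr ?_ g hgB (Eventually.of_forall hgo)
    rw [hs.sa.star_eq]; exact hr

/-- Haar → semicircular (`s = f(y)`) -/
theorem exists_semi_of_haar (M : Type) [CStarAlgebra M] [FinVN M] (y : unitary M) (hy : Haar y) :
    ∃ s : M, IsSemi s ∧ s ∈ vn {(y : M)} ∧ (y : M) ∈ vn {s} ∧
      ∀ r : M, r * (y : M) = -((y : M) * r) → r * s = -(s * r) := by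
  obtain ⟨f, hf, hf2, hfs, hfY⟩ := exists_f
  obtain ⟨g, hg, hg1, hgo, hgS⟩ := exists_g
  have hfB : BM haarLaw f := ⟨hf, 2, Eventually.of_forall hf2⟩
  have hL := law_of_haar y hy
  obtain ⟨Φ, hΦ⟩ := exists_calc hL
  have hid : Φ (fun z => z) = (y : M) := hΦ.id hL
  have hgfB : BM haarLaw (fun z => g (f z)) := ⟨hg.comp hf, 1, Eventually.of_forall fun z => hg1 _⟩
  have hgf : Φ (fun z => g (f z)) = (y : M) := by
    rw [← hid]
    refine hΦ.congr_ae hL _ _ hgfB hL.BM_id ?_
    refine sm_ae_haar (p := fun z => g (f z) = z)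
      (measurableSet_eq_fun (hg.comp hf) measurable_id) fun ψ h1 h2 => ?_
    rw [hfY ψ h1 h2, hgS ψ h1]
  refine ⟨Φ f, ?_, ?_, ?_, ?_⟩
  · rw [isSemi_iff_mom]
    constructor
    · rw [IsSelfAdjoint, ← hΦ.st f hfB]
      congr 1
      funext z
      exact hfs z
    · intro n
      rw [← (hΦ.pow hL f hfB n).2, hΦ.tr _ (hΦ.pow hL f hfB n).1, haarLaw,
        integral_map measurable_Y.aemeasurable (hf.pow_const n).aestronglyMeasurable,
        ← integral_S_pow n]
      refine integral_congr_ae ?_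
      filter_upwards [ρ_ae_mem] with ψ hψ
      rw [hfY ψ hψ.1 hψ.2]
  · have h1 := hΦ.gen hL (fun z => z) f hL.BM_id (by rw [Measure.map_id']; exact hfB)
    rw [hid] at h1
    exact h1
  · have h1 := hΦ.gen hL f g hfB ⟨hg, 1, Eventually.of_forall hg1⟩
    rw [hgf] at h1
    exact h1
  · intro r hr
    refine hΦ.anti hL haarLaw_symm r hr ?_ f hfB ?_
    · have hu1 : (y : M) * star (y : M) = 1 := Unitary.mul_star_self_of_mem y.2
      have hu2 : star (y : M) * (y : M) = 1 := Unitary.star_mul_self_of_mem y.2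
      calc r * star (y : M) = (star (y : M) * (y : M)) * (r * star (y : M)) := by
            rw [hu2, one_mul]
        _ = -(star (y : M) * (-((y : M) * r)) * star (y : M)) := by noncomm_ring
        _ = -(star (y : M) * (r * (y : M)) * star (y : M)) := by rw [hr]
        _ = -(star (y : M) * r * ((y : M) * star (y : M))) := by noncomm_ring
        _ = -(star (y : M) * r) := by rw [hu1, mul_one]
    · refine sm_ae_haar (p := fun z => f (-z) = -f z)
        (measurableSet_eq_fun (hf.comp measurable_neg) hf.neg) fun ψ h1 h2 => ?_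
      rw [← Y_neg, hfY (-ψ) (by constructor <;> linarith [h1.1, h1.2]) (neg_ne_zero.2 h2),
        hfY ψ h1 h2, S_neg]

/-- Haar unitary `x` → symmetry `r = sgn (Re x)` and `Z = x²` -/
theorem exists_sym_of_haar (M : Type) [CStarAlgebra M] [FinVN M] (x : unitary M) (hx : Haar x) :
    ∃ r : M, IsSelfAdjoint r ∧ r * r = 1 ∧ r ∈ vn {(x : M)} ∧ (x : M) ∈ vn {r, (x : M) ^ 2} ∧
      ∀ k : ℤ, τ (r * ((x ^ (2 * k) : unitary M) : M)) = 0 := by
  have hL := law_of_haar x hx
  obtain ⟨Φ, hΦ⟩ := exists_calc hL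
  have hid : Φ (fun z => z) = (x : M) := hΦ.id hL
  set sg : ℂ → ℂ := fun z => ((Real.sign z.re : ℝ) : ℂ) with hsg
  have hsgm : Measurable sg := by
    have h1 : Measurable Real.sign := by
      unfold Real.sign
      exact Measurable.ite measurableSet_Iio measurable_const
        (Measurable.ite measurableSet_Ioi measurable_const measurable_const)
    exact Complex.measurable_ofReal.comp (h1.comp Complex.measurable_re)
  have hsgb : ∀ z, ‖sg z‖ ≤ 1 := by
    intro z
    simp only [hsg, Complex.norm_real]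
    rcases Real.sign_apply_eq z.re with h | h | h <;> rw [h] <;> simp
  have hsgB : BM haarLaw sg := ⟨hsgm, 1, Eventually.of_forall hsgb⟩
  have hsg2 : ∀ z : ℂ, z.re ≠ 0 → sg z * sg z = 1 := by
    intro z hz
    simp only [hsg, ← Complex.ofReal_mul]
    rcases Real.sign_apply_eq_of_ne_zero z.re hz with h | h <;> rw [h] <;> simp
  have hone : Φ (fun _ => (1 : ℂ)) = 1 := by rw [hΦ.const hL 1, one_smul]
  -- the square root
  set k : ℂ → ℂ := fun z => z ^ (2⁻¹ : ℂ) with hk
  have hkm : Measurable k := measurable_id.pow_const _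
  have hk2 : ∀ z : ℂ, z.re ≠ 0 → sg z * k (z ^ 2) = z := by
    intro z hz
    rcases lt_or_gt_of_ne hz with h | h
    · have h1 : k (z ^ 2) = -z := by
        simp only [hk]
        rw [← neg_sq z]
        exact Complex.sq_cpow_two_inv (by simpa using h)
      rw [h1]
      simp [hsg, Real.sign_of_neg h]
    · have h1 : k (z ^ 2) = z := Complex.sq_cpow_two_inv h
      rw [h1]
      simp [hsg, Real.sign_of_pos h]
  have hsqB : BM haarLaw (fun z => z ^ 2) := (hΦ.pow hL _ hL.BM_id 2).1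
  have hsqΦ : Φ (fun z => z ^ 2) = (x : M) ^ 2 := by
    rw [(hΦ.pow hL _ hL.BM_id 2).2, hid]
  have hnk : ∀ z : ℂ, z.re ≠ 0 → ‖k (z ^ 2)‖ = ‖z‖ := by
    intro z hz
    have h1 := hk2 z hz
    have h2 : ‖sg z‖ = 1 := by
      have := congrArg norm (hsg2 z hz)
      rw [norm_mul, norm_one] at this
      nlinarith [norm_nonneg (sg z)]
    calc ‖k (z ^ 2)‖ = ‖sg z‖ * ‖k (z ^ 2)‖ := by rw [h2, one_mul]
      _ = ‖z‖ := by rw [← norm_mul, h1]
  have hkB : BM (haarLaw.map (fun z => z ^ 2)) k := by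
    refine ⟨hkm, 1, ?_⟩
    have hm2 : Measurable fun z : ℂ => z ^ 2 := measurable_id'.pow_const 2
    rw [ae_map_iff hm2.aemeasurable (measurableSet_le hkm.norm measurable_const)]
    filter_upwards [haarLaw_ae] with z hz
    rw [hnk z hz.2, hz.1]
  have hkB' : BM haarLaw (fun z => k (z ^ 2)) := by
    refine ⟨hkm.comp (measurable_id.pow_const 2), 1, ?_⟩
    filter_upwards [haarLaw_ae] with z hz
    rw [hnk z hz.2, hz.1]
  refine ⟨Φ sg, ?_, ?_, ?_, ?_, ?_⟩
  · rw [IsSelfAdjoint, ← hΦ.st sg hsgB]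
    congr 1
    funext z
    simp [hsg]
  · rw [← hΦ.mul _ _ hsgB hsgB, ← hone]
    refine hΦ.congr_ae hL _ _ (hsgB.mul hsgB) (BM.const 1) ?_
    filter_upwards [haarLaw_ae] with z hz
    exact hsg2 z hz.2
  · have h1 := hΦ.gen hL (fun z => z) sg hL.BM_id (by rw [Measure.map_id']; exact hsgB)
    rw [hid] at h1
    exact h1
  · have h1 : Φ (fun z => k (z ^ 2)) ∈ vn {(x : M) ^ 2} := by
      have := hΦ.gen hL (fun z => z ^ 2) k hsqB hkB
      rwa [hsqΦ] at this
    have hmono : vn {(x : M) ^ 2} ≤ vn {Φ sg, (x : M) ^ 2} := by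
      refine fg_cl_le (fg_cl_closed _) ?_
      refine le_trans (StarAlgebra.adjoin_mono ?_) (fg_le_cl _)
      intro a ha
      exact Set.mem_insert_of_mem _ ha
    have h2 : (x : M) = Φ sg * Φ (fun z => k (z ^ 2)) := by
      rw [← hΦ.mul _ _ hsgB hkB', ← hid]
      refine hΦ.congr_ae hL _ _ hL.BM_id (hsgB.mul hkB') ?_
      filter_upwards [haarLaw_ae] with z hz
      exact (hk2 z hz.2).symm
    have h3 : Φ sg ∈ vn {Φ sg, (x : M) ^ 2} :=
      fg_le_cl _ (StarAlgebra.subset_adjoin _ _ (Set.mem_insert _ _))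
    have h4 := mul_mem h3 (hmono h1)
    rw [← h2] at h4
    exact h4
  · -- the trace of an odd function vanishes
    have hodd : ∀ h : ℂ → ℂ, BM haarLaw h → (∀ᵐ z ∂haarLaw, h (-z) = -h z) → τ (Φ h) = 0 := by
      intro h hh ho
      rw [hΦ.tr h hh]
      have e1 : ∫ z, h z ∂haarLaw = ∫ z, h (-z) ∂haarLaw := by
        conv_lhs => rw [← haarLaw_symm]
        rw [integral_map measurable_neg.aemeasurable hh.1.aestronglyMeasurable]
      have e2 : ∫ z, h (-z) ∂haarLaw = -∫ z, h z ∂haarLaw := by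
        rw [← integral_neg]
        exact integral_congr_ae ho
      rw [e2] at e1
      exact self_eq_neg.1 e1
    have hsgo : ∀ z, sg (-z) = -sg z := by
      intro z
      simp [hsg, Real.sign_neg]
    -- natural powers
    have hpow : ∀ n : ℕ, τ (Φ sg * (x : M) ^ (2 * n)) = 0 := by
      intro n
      have hp := hΦ.pow hL _ hL.BM_id (2 * n)
      rw [hid] at hp
      rw [← hp.2, ← hΦ.mul _ _ hsgB hp.1]
      refine hodd _ (hsgB.mul hp.1) (Eventually.of_forall fun z => ?_)
      simp only [Pi.mul_apply, hsgo]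
      rw [Even.neg_pow (even_two_mul n)]
      ring
    intro j
    obtain ⟨n, rfl | rfl⟩ := j.eq_nat_or_neg
    · have e : ((x ^ (2 * (n : ℤ)) : unitary M) : M) = (x : M) ^ (2 * n) := by
        rw [show (2 * (n : ℤ)) = ((2 * n : ℕ) : ℤ) by push_cast; ring, zpow_natCast]
        push_cast
        rfl
      rw [e]; exact hpow n
    · have hsa : IsSelfAdjoint (Φ sg) := by
        rw [IsSelfAdjoint, ← hΦ.st sg hsgB]
        congr 1
        funext z
        simp [hsg]
      have e : ((x ^ (2 * -(n : ℤ)) : unitary M) : M) = star ((x : M) ^ (2 * n)) := by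
        rw [show (2 * -(n : ℤ)) = -((2 * n : ℕ) : ℤ) by push_cast; ring, zpow_neg, zpow_natCast,
          ← Unitary.star_eq_inv, Unitary.coe_star]
        push_cast
        rfl
      have h5 := hpow n
      rw [e]
      have h6 : τ (Φ sg * star ((x : M) ^ (2 * n)))
          = (starRingEnd ℂ) (τ (Φ sg * (x : M) ^ (2 * n))) := by
        rw [← τ_star, star_mul, hsa.star_eq, τ_comm]
      rw [h6, h5, map_zero]

end Crest.Agent.FGF
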