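import Crest.Agent.FGF.Dict
import Crest.Agent.FGF.Semi
import Crest.Agent.FGF.CapAll

/-! MODULE Capture (lead: helper27 + helper62): Steps 0, 1, 1' of the proof. -/

set_option autoImplicit false
set_option linter.unusedSectionVars false

namespace Crest.Agent.FGF

open Crest.Agent.GenII1 Filter Topology

/-- star homomorphisms act on words -/
theorem map_evu {N M : Type} [CStarAlgebra N] [CStarAlgebra M] {ι : Type} (Φ : N →⋆ₐ[ℂ] M)
    {g : ι → unitary N} {g' : ι → unitary M} (h : ∀ i, Φ (g i) = g' i) (X : FreeGroup ι) :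
    Φ (Cap.evu g X : N) = Cap.evu g' X := by
  have hinv : ∀ (u : unitary N) (u' : unitary M), Φ (u : N) = u' →
      Φ ((u⁻¹ : unitary N) : N) = ((u'⁻¹ : unitary M) : M) := by
    intro u u' hu
    have e1 : ((u⁻¹ : unitary N) : N) = star (u : N) := rfl
    have e2 : ((u'⁻¹ : unitary M) : M) = star (u' : M) := rfl
    rw [e1, e2, map_star, hu]
  induction X using FreeGroup.induction_on with
  | C1 => simp
  | of i => simpa using h i
  | inv_of i _ =>
    rw [map_inv, map_inv, Cap.evu_of, Cap.evu_of]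
    exact hinv _ _ (h i)
  | mul x y hx hy => simp [hx, hy]

/-- STEP 1 + 1'. For every `η > 0`, if the number `n` of slots is large, all targets `y k` can be
captured up to `η` by words in `w` and slightly moved slots. -/
theorem captureAll (η : ℝ) (hη : 0 < η) : ∃ n0 : ℕ, ∀ n, n0 ≤ n →
    ∀ (κ : Type) [Fintype κ] [DecidableEq κ] (M : Type) [CStarAlgebra M] [FinVN M]
      (g : Idx n κ → unitary M), FH g → vn (gens g) = ⊤ → ∀ ε : ℝ, 0 < ε →
      ∃ β : M ≃⋆ₐ[ℂ] M, (∀ x, τ (β x) = τ x) ∧ β (g .w) = g .w ∧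
        (∀ l, n2 (β (g (.v l)) - g (.v l)) ≤ ε) ∧
        ∀ k, ∃ X ∈ slotWords n κ, n2 (β ((ev g X : unitary M) : M) - g (.y k)) ≤ η := by
  obtain ⟨n0, hn0⟩ := Cap.capture_finset η hη
  refine ⟨n0 + 1, fun n hn κ _ _ M _ _ g hg hgen ε hε => ?_⟩
  have : NeZero n := ⟨by omega⟩
  obtain ⟨g', hg', hw, hv, -, hX⟩ := hn0 n (by omega) κ M Finset.univ g ⟨hg, hgen⟩ ε hε
  obtain ⟨β, hβ, hβg⟩ := iso_of_FH g g' hg hg'.fh hgen hg'.gen
  refine ⟨β, hβ, ?_, fun l => ?_, fun k => ?_⟩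
  · rw [hβg, hw]
  · rw [hβg]; exact hv l
  · obtain ⟨X, hX1, hX2⟩ := hX k (Finset.mem_univ k)
    refine ⟨X, hX1, ?_⟩
    have e : β (Cap.evu g X : M) = Cap.evu g' X :=
      map_evu (β : M →⋆ₐ[ℂ] M) (g := g) (g' := g') hβg X
    have e2 : β ((ev g X : unitary M) : M) = Cap.evu g' X := e
    rw [e2]; exact hX2.le

end Crest.Agent.FGF
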