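import Crest.Agent.FGF.CompB1

set_option autoImplicit false
set_option linter.unusedSectionVars false

namespace Crest.Agent.FGF

open Crest.Agent.GenII1 Filter Topology

variable {N : Type} [CStarAlgebra N] [FinVN N]

/-- a member of a free Haar family is Haar -/
theorem CompB2_haar {ι : Type} (g : ι → unitary N) (hg : FH g) (i : ι) : Haar (g i) := by
  intro n hn
  have h1 : (FreeGroup.of i) ^ n ≠ (1 : FreeGroup ι) := by
    intro h
    have h3 : (FreeGroup.lift (fun _ : ι => Multiplicative.ofAdd (1 : ℤ)))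
        ((FreeGroup.of i) ^ n) = 1 := by
      rw [h]; exact MonoidHom.map_one _
    rw [MonoidHom.map_pow, FreeGroup.lift_apply_of, ← ofAdd_nsmul] at h3
    have h2 : (n • (1 : ℤ)) = 0 := Multiplicative.ofAdd.injective h3
    simp at h2
    omega
  have h2 := hg _ h1
  rw [map_pow, ev_of] at h2
  exact h2

theorem CompB2_sing_le {x : N} {S : Set N} (hx : x ∈ vn S) : vn {x} ≤ vn S :=
  vn_le (vn_closed S) (by rintro _ rfl; exact hx)

theorem CompB2_sing_mono {x : N} {S : Set N} (hx : x ∈ S) : vn {x} ≤ vn S :=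
  CompB2_sing_le (subset_vn S hx)

/-- coefficients of the rotation -/
noncomputable def CompB2_al {J : Type} [DecidableEq J] (c : ℂ) (p q : J × Bool) : ℂ :=
  if p.1 = q.1 then (if p.2 && q.2 then -c else c) else 0

theorem CompB2_sum {J : Type} [Fintype J] [DecidableEq J] {V : Type} [AddCommMonoid V]
    [Module ℂ V] (c : ℂ) (p : J × Bool) (σ : J × Bool → V) :
    ∑ q, CompB2_al c p q • σ q =
      (if p.2 then -c else c) • σ (p.1, true) + c • σ (p.1, false) := by
  rw [Fintype.sum_prod_type, Finset.sum_eq_single p.1]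
  · simp [CompB2_al]
  · intro j _ hj
    simp [CompB2_al, Ne.symm hj]
  · intro h; exact absurd (Finset.mem_univ _) h

theorem CompB2_cov {J : Type} [Fintype J] [DecidableEq J] (c : ℂ) (hc : c * c = 1 / 2)
    (p q : J × Bool) :
    ∑ i, ∑ k, CompB2_al c p i * CompB2_al c q k * (if i = k then (1 : ℂ) else 0) =
      if p = q then 1 else 0 := by
  have e : ∀ i, ∑ k, CompB2_al c p i * CompB2_al c q k * (if i = k then (1 : ℂ) else 0) =
      CompB2_al c p i • CompB2_al c q i := by
    intro i
    simp [mul_ite, Finset.sum_ite_eq]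
  rw [Finset.sum_congr rfl fun i _ => e i, CompB2_sum]
  obtain ⟨j, b⟩ := p
  obtain ⟨j', b'⟩ := q
  by_cases hj : j' = j
  · subst hj
    cases b <;> cases b' <;> simp [CompB2_al] <;> linear_combination 2 * hc
  · have h' : ¬ j = j' := fun h => hj h.symm
    simp [CompB2_al, hj, h']

/-- CHUNK R134-P-B2.  PROOF: `s_j` from `exists_semi_of_haar (a j)`; `s (j,false) = s_j`,
`s (j,true) = r s_j r` satisfy SD over `vn {Z}` by `SD_of_FH` (index types `Unit`, `J × Bool`);
`p_j = (s_j + r s_j r)/√2`, `q_j = (s_j - r s_j r)/√2` satisfy SD over `vn {Z}` by `SD_lin`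
(covariance again the identity matrix), `r p_j = p_j r`, `r q_j = - q_j r`; semicircular by
`SD.isSemi`; `C_j, D_j` from `exists_haar_of_semi 1`; `FH_of_SD` with `g0 = fun _ : Unit => Z`. -/
theorem stepB {J : Type} [Fintype J] [DecidableEq J] (r : unitary N) (hr : r * r = 1)
    (Z : unitary N) (a : J → unitary N) (hFH : FH (zab Z a r)) :
    ∃ C D : J → unitary N, (∀ j, r * C j = C j * r) ∧
      (∀ j, (r : N) * (D j : N) = -((D j : N) * (r : N))) ∧
      FH (Sum.elim (fun _ : Unit => Z) (fun p : J × Bool => if p.2 then D p.1 else C p.1)) ∧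
      (∀ j, (C j : N) ∈ vn {(a j : N), (r : N) * a j * r}) ∧
      (∀ j, (D j : N) ∈ vn {(a j : N), (r : N) * a j * r}) ∧
      (∀ j, (a j : N) ∈ vn {(C j : N), (D j : N)}) := by
  -- basic facts on `r`
  have hrr : (r : N) * (r : N) = 1 := by
    have := congrArg (Subtype.val) hr
    simpa using this
  have hrsa : IsSelfAdjoint (r : N) := by
    have h1 : star (r : N) * (r : N) = 1 := Unitary.star_mul_self_of_mem r.2
    calc star (r : N) = star (r : N) * ((r : N) * (r : N)) := by rw [hrr, mul_one]
      _ = (star (r : N) * (r : N)) * (r : N) := by rw [mul_assoc]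
      _ = (r : N) := by rw [h1, one_mul]
  -- the semicirculars
  have hHa : ∀ j, Haar (a j) := fun j => by
    have := CompB2_haar (zab Z a r) hFH (.inr (j, false))
    simpa [zab] using this
  choose s hs hsv hav _ using fun j => exists_semi_of_haar N (a j) (hHa j)
  obtain ⟨σ, hσf, hσt⟩ : ∃ σ : J × Bool → N, (∀ j, σ (j, false) = s j) ∧
      (∀ j, σ (j, true) = (r : N) * s j * r) :=
    ⟨fun p => if p.2 then (r : N) * s p.1 * r else s p.1, fun j => rfl, fun j => rfl⟩
  have hσs : ∀ p, IsSemi (σ p) := by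
    rintro ⟨j, _ | _⟩
    · rw [hσf]; exact hs j
    · rw [hσt]; exact (hs j).conj_sym r hr
  have hσv : ∀ p, σ p ∈ vn {(zab Z a r (.inr p) : N)} := by
    rintro ⟨j, _ | _⟩
    · rw [hσf]; exact hsv j
    · rw [hσt]; exact vn_conj_sym (hsv j) r hr
  have hSD := SD_of_FH (zab Z a r) hFH σ hσs hσv
  -- the rotation
  obtain ⟨c, hc, hcs⟩ : ∃ c : ℂ, c * c = 1 / 2 ∧ star c = c := by
    refine ⟨((√2)⁻¹ : ℝ), ?_, by simp⟩
    rw [← Complex.ofReal_mul, ← mul_inv, Real.mul_self_sqrt (by norm_num)]
    norm_num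
  obtain ⟨t, ht⟩ : ∃ t : J × Bool → N, t = fun p => ∑ q, CompB2_al c p q • σ q := ⟨_, rfl⟩
  have hSDt : SD (vn (Set.range fun i => (zab Z a r (.inl i) : N)) : Set N) t := by
    have h1 := SD_lin _ σ _ hSD (CompB2_al (J := J) c)
    have h2 : (fun p q : J × Bool => ∑ i, ∑ k, CompB2_al c p i * CompB2_al c q k *
        (if i = k then (1 : ℂ) else 0)) = fun p q => if p = q then 1 else 0 := by
      funext p q
      exact CompB2_cov c hc p q
    rw [h2] at h1
    rw [ht]
    exact h1
  have htf : ∀ j, t (j, false) = c • ((r : N) * s j * r) + c • s j := by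
    intro j
    have h1 : t (j, false) = ∑ q, CompB2_al c (j, false) q • σ q := by rw [ht]
    rw [h1, CompB2_sum, hσt, hσf]
    simp
  have htt : ∀ j, t (j, true) = -(c • ((r : N) * s j * r)) + c • s j := by
    intro j
    have h1 : t (j, true) = ∑ q, CompB2_al c (j, true) q • σ q := by rw [ht]
    rw [h1, CompB2_sum, hσt, hσf]
    simp
  have hrsr : ∀ j, (r : N) * ((r : N) * s j * r) = s j * r := by
    intro j
    rw [← mul_assoc, ← mul_assoc, hrr, one_mul]
  have hrsr' : ∀ j, ((r : N) * s j * r) * r = (r : N) * s j := by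
    intro j
    rw [mul_assoc, hrr, mul_one]
  have hcomm : ∀ j, (r : N) * t (j, false) = t (j, false) * r := by
    intro j
    rw [htf, mul_add, add_mul, mul_smul_comm, mul_smul_comm, smul_mul_assoc, smul_mul_assoc,
      hrsr, hrsr', add_comm]
  have hanti : ∀ j, (r : N) * t (j, true) = -(t (j, true) * r) := by
    intro j
    rw [htt, mul_add, add_mul, mul_neg, neg_mul, mul_smul_comm, mul_smul_comm, smul_mul_assoc,
      smul_mul_assoc, hrsr, hrsr', neg_add, neg_neg, add_comm]
  have hσsa : ∀ j, IsSelfAdjoint ((r : N) * s j * r) := fun j => hσt j ▸ (hσs (j, true)).sa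
  have htsa : ∀ p, IsSelfAdjoint (t p) := by
    have hcc : ∀ x : N, IsSelfAdjoint x → IsSelfAdjoint (c • x) := by
      intro x hx
      rw [IsSelfAdjoint, star_smul, hcs, hx.star_eq]
    rintro ⟨j, _ | _⟩
    · rw [htf]
      exact (hcc _ (hσsa j)).add (hcc _ (hs j).sa)
    · rw [htt]
      exact (hcc _ (hσsa j)).neg.add (hcc _ (hs j).sa)
  have htS : ∀ p, IsSemi (t p) := fun p =>
    SD.isSemi _ (fun z => algebraMap_mem _ z) t hSDt p (htsa p)
  -- the Haar unitaries
  obtain ⟨q, hq⟩ := exists_haar_of_semi 1 one_pos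
  choose y hyH hyv htv _ hyanti using fun p => hq N (t p) (htS p)
  have hσmem : ∀ j, (t (j, false) ∈ vn {(a j : N), (r : N) * a j * r}) ∧
      (t (j, true) ∈ vn {(a j : N), (r : N) * a j * r}) := by
    intro j
    have h1 : s j ∈ vn {(a j : N), (r : N) * a j * r} :=
      CompB2_sing_mono (Set.mem_insert _ _) (hsv j)
    have h2 : (r : N) * s j * r ∈ vn {(a j : N), (r : N) * a j * r} :=
      CompB2_sing_mono (Set.mem_insert_of_mem _ (Set.mem_singleton _)) (vn_conj_sym (hsv j) r hr)
    constructor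
    · rw [htf]
      exact add_mem (SMulMemClass.smul_mem c h2) (SMulMemClass.smul_mem c h1)
    · rw [htt]
      exact add_mem (neg_mem (SMulMemClass.smul_mem c h2)) (SMulMemClass.smul_mem c h1)
  refine ⟨fun j => y (j, false), fun j => y (j, true), ?_, ?_, ?_, ?_, ?_, ?_⟩
  · intro j
    apply Subtype.ext
    change (r : N) * (y (j, false) : N) = (y (j, false) : N) * (r : N)
    exact comm_of_vn hrsa (S := {t (j, false)}) (by rintro _ rfl; exact hcomm j) (hyv (j, false))
  · intro j
    exact hyanti (j, true) r (hanti j)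
  · have h0 : FH (fun _ : Unit => Z) :=
      FH_comp (zab Z a r) hFH (Sum.inl : Unit → Unit ⊕ (J × Bool)) Sum.inl_injective
    have h1 := FH_of_SD (fun _ : Unit => Z) h0
      (vn (Set.range fun i => (zab Z a r (.inl i) : N)))
      (fun i => subset_vn _ (Set.mem_range_self i)) t htsa hSDt y hyH hyv
    have h2 : (fun p : J × Bool => if p.2 then y (p.1, true) else y (p.1, false)) = y := by
      funext ⟨j, b⟩
      cases b <;> rfl
    rw [h2]
    exact h1
  · intro j
    exact CompB2_sing_le (hσmem j).1 (hyv (j, false))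
  · intro j
    exact CompB2_sing_le (hσmem j).2 (hyv (j, true))
  · intro j
    have h1 : t (j, false) ∈ vn {(y (j, false) : N), (y (j, true) : N)} :=
      CompB2_sing_mono (Set.mem_insert _ _) (htv (j, false))
    have h2 : t (j, true) ∈ vn {(y (j, false) : N), (y (j, true) : N)} :=
      CompB2_sing_mono (Set.mem_insert_of_mem _ (Set.mem_singleton _)) (htv (j, true))
    have h3 : s j = c • (t (j, false) + t (j, true)) := by
      rw [htf, htt]
      have : c • ((r : N) * s j * r) + c • s j + (-(c • ((r : N) * s j * r)) + c • s j) =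
          (2 * c) • s j := by
        rw [two_mul, add_smul]; abel
      rw [this, smul_smul]
      have : c * (2 * c) = 1 := by linear_combination 2 * hc
      rw [this, one_smul]
    have h4 : s j ∈ vn {(y (j, false) : N), (y (j, true) : N)} := by
      rw [h3]
      exact SMulMemClass.smul_mem c (add_mem h1 h2)
    exact CompB2_sing_le h4 (hav j)

end Crest.Agent.FGF
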