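import Crest.Agent.FGF.CompF0

set_option autoImplicit false
set_option linter.unusedSectionVars false

namespace Crest.Agent.FGF

open Crest.Agent.GenII1 Filter Topology

variable {N : Type} [CStarAlgebra N] [FinVN N]

variable {S0 S1 : Type} {g : Option (S0 ⊕ S1) → unitary N} {r : N}

/-- span of the words -/
noncomputable def wspan {ι : Type} (g : ι → unitary N) : Submodule ℂ N :=
  Submodule.span ℂ (Set.range fun h : FreeGroup ι => ((ev g h : unitary N) : N))

theorem wspan_word {ι : Type} (g : ι → unitary N) (h : FreeGroup ι) :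
    ((ev g h : unitary N) : N) ∈ wspan g := Submodule.subset_span ⟨h, rfl⟩

theorem wspan_mul {ι : Type} (g : ι → unitary N) {a b : N} (ha : a ∈ wspan g)
    (hb : b ∈ wspan g) : a * b ∈ wspan g := by
  induction ha, hb using Submodule.span_induction₂ with
  | mem_mem x y hx hy =>
    obtain ⟨h, rfl⟩ := hx
    obtain ⟨k, rfl⟩ := hy
    refine Submodule.subset_span ⟨h * k, ?_⟩
    simp
  | zero_left y hy => rw [zero_mul]; exact Submodule.zero_mem _
  | zero_right x hx => rw [mul_zero]; exact Submodule.zero_mem _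
  | add_left x y z _ _ _ h1 h2 => rw [add_mul]; exact Submodule.add_mem _ h1 h2
  | add_right x y z _ _ _ h1 h2 => rw [mul_add]; exact Submodule.add_mem _ h1 h2
  | smul_left r x y _ _ h1 => rw [smul_mul_assoc]; exact Submodule.smul_mem _ _ h1
  | smul_right r x y _ _ h1 => rw [mul_smul_comm]; exact Submodule.smul_mem _ _ h1

theorem wspan_star {ι : Type} (g : ι → unitary N) {a : N} (ha : a ∈ wspan g) :
    star a ∈ wspan g := by
  induction ha using Submodule.span_induction with
  | mem x hx =>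
    obtain ⟨h, rfl⟩ := hx
    refine Submodule.subset_span ⟨h⁻¹, ?_⟩
    simp only [map_inv]; rfl
  | zero => rw [star_zero]; exact Submodule.zero_mem _
  | add x y _ _ h1 h2 => rw [star_add]; exact Submodule.add_mem _ h1 h2
  | smul r x _ h1 => rw [star_smul]; exact Submodule.smul_mem _ _ h1

theorem Sit.word_sign (h : Sit g r) (W : FreeGroup (Option (S0 ⊕ S1))) :
    ∃ c : ℂ, r * ((ev g W : unitary N) : N) = (c • ((ev g W : unitary N) : N)) * r := by
  have hl : ∀ i, ∃ c : ℂ, (c = 1 ∨ c = -1) ∧ r * (g i : N) = (c • (g i : N)) * r := by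
    rintro (_ | (s | s))
    · exact ⟨-1, Or.inr rfl, by rw [h.oddx]; simp⟩
    · exact ⟨1, Or.inl rfl, by rw [h.ev0]; simp⟩
    · exact ⟨-1, Or.inr rfl, by rw [h.odd]; simp⟩
  induction W using FreeGroup.induction_on with
  | C1 => exact ⟨1, by simp⟩
  | of i => 
    obtain ⟨c, _, hc⟩ := hl i
    exact ⟨c, by simpa using hc⟩
  | inv_of i _ =>
    obtain ⟨c, hc1, hc⟩ := hl i
    refine ⟨c, ?_⟩
    rw [map_inv, ev_of]
    have e1 : ((g i : N)) * ((g i)⁻¹ : unitary N) = 1 := by
      rw [← Submonoid.coe_mul, mul_inv_cancel]; rfl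
    have e2 : ((g i)⁻¹ : unitary N) * ((g i : N)) = 1 := by
      rw [← Submonoid.coe_mul, inv_mul_cancel]; rfl
    have hcc : c * c = 1 := by rcases hc1 with rfl | rfl <;> simp
    have e3 : (((g i)⁻¹ : unitary N) : N) * (r * (g i : N)) * ((g i)⁻¹ : unitary N) =
        c • (r * ((g i)⁻¹ : unitary N)) := by
      rw [hc, smul_mul_assoc, mul_smul_comm, smul_mul_assoc, ← mul_assoc, e2, one_mul]
    have e4 : (((g i)⁻¹ : unitary N) : N) * (r * (g i : N)) * ((g i)⁻¹ : unitary N) =
        (((g i)⁻¹ : unitary N) : N) * r := by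
      rw [mul_assoc, mul_assoc r, e1, mul_one]
    rw [e4] at e3
    rw [smul_mul_assoc, e3, smul_smul, hcc, one_smul]
  | mul a b ha hb =>
    obtain ⟨c, hc⟩ := ha
    obtain ⟨d, hd⟩ := hb
    refine ⟨c * d, ?_⟩
    rw [map_mul, Submonoid.coe_mul, ← mul_assoc, hc, mul_assoc (c • _), hd]
    simp only [smul_mul_assoc, mul_smul_comm, smul_smul, mul_assoc, mul_comm d c]

theorem Sit.wspan_move (h : Sit g r) {a : N} (ha : a ∈ wspan g) :
    ∃ a' ∈ wspan g, r * a = a' * r := by
  induction ha using Submodule.span_induction with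
  | mem x hx =>
    obtain ⟨W, rfl⟩ := hx
    obtain ⟨c, hc⟩ := h.word_sign W
    exact ⟨_, Submodule.smul_mem _ c (wspan_word g W), hc⟩
  | zero => exact ⟨0, Submodule.zero_mem _, by simp⟩
  | add x y _ _ h1 h2 =>
    obtain ⟨a, ha, h1⟩ := h1
    obtain ⟨b, hb, h2⟩ := h2
    exact ⟨a + b, Submodule.add_mem _ ha hb, by rw [mul_add, h1, h2, add_mul]⟩
  | smul c x _ h1 =>
    obtain ⟨a, ha, h1⟩ := h1
    exact ⟨c • a, Submodule.smul_mem _ c ha, by rw [mul_smul_comm, h1, smul_mul_assoc]⟩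

/-- elements `a + b r` -/
noncomputable def Sit.wr (h : Sit g r) : StarSubalgebra ℂ N where
  carrier := {y | ∃ a ∈ wspan g, ∃ b ∈ wspan g, y = a + b * r}
  mul_mem' := by
    rintro _ _ ⟨a, ha, b, hb, rfl⟩ ⟨c, hc, d, hd, rfl⟩
    obtain ⟨c', hc', h1⟩ := h.wspan_move hc
    obtain ⟨d', hd', h2⟩ := h.wspan_move hd
    refine ⟨a * c + b * d', Submodule.add_mem _ (wspan_mul g ha hc) (wspan_mul g hb hd'),
      a * d + b * c', Submodule.add_mem _ (wspan_mul g ha hd) (wspan_mul g hb hc'), ?_⟩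
    have e1 : b * r * c = b * c' * r := by rw [mul_assoc, h1, mul_assoc]
    have e2 : b * r * (d * r) = b * d' := by
      rw [mul_assoc, ← mul_assoc r, h2, mul_assoc d', h.sq, mul_one]
    rw [add_mul, mul_add, mul_add, e1, e2, add_mul, ← mul_assoc a]
    abel
  add_mem' := by
    rintro _ _ ⟨a, ha, b, hb, rfl⟩ ⟨c, hc, d, hd, rfl⟩
    refine ⟨a + c, Submodule.add_mem _ ha hc, b + d, Submodule.add_mem _ hb hd, ?_⟩
    rw [add_mul]; abel
  algebraMap_mem' c := by
    refine ⟨c • 1, Submodule.smul_mem _ c ?_, 0, Submodule.zero_mem _, ?_⟩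
    · simpa using wspan_word g 1
    · rw [Algebra.algebraMap_eq_smul_one, zero_mul, add_zero]
  star_mem' := by
    rintro _ ⟨a, ha, b, hb, rfl⟩
    obtain ⟨b', hb', h1⟩ := h.wspan_move (wspan_star g hb)
    refine ⟨star a, wspan_star g ha, b', hb', ?_⟩
    rw [star_add, star_mul, h.sa.star_eq, h1]

/-- CHUNK R134-P-F3. Every element of `N` is 2-approximable by `P + P' r`, with `P, P'` linear
combinations of words `ev g W`.  PROOF: the set of such elements is a star subalgebra (`r P = P^σ r`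
with `σ` = sign by parity) containing `gens g ∪ {r}`. -/
theorem Sit.approx (h : Sit g r) (y : N) (ε : ℝ) (hε : 0 < ε) :
    ∃ P P' : FreeGroup (Option (S0 ⊕ S1)) →₀ ℂ,
      n2 (y - (P.sum (fun W c => c • ((ev g W : unitary N) : N)) +
        P'.sum (fun W c => c • ((ev g W : unitary N) : N)) * r)) < ε := by
  have hy : y ∈ vn (gens g ∪ {r}) := by rw [h.gen]; trivial
  obtain ⟨z, hz, h1⟩ := (fg_mem_cl.1 hy) ε hε
  have hle : StarAlgebra.adjoin ℂ (gens g ∪ {r}) ≤ h.wr := by
    apply StarAlgebra.adjoin_le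
    rintro x (⟨i, rfl⟩ | hx)
    · refine ⟨g i, by simpa using wspan_word g (FreeGroup.of i), 0, Submodule.zero_mem _, ?_⟩
      rw [zero_mul, add_zero]
    · rw [Set.mem_singleton_iff] at hx
      subst hx
      refine ⟨0, Submodule.zero_mem _, 1, by simpa using wspan_word g 1, ?_⟩
      rw [one_mul, zero_add]
  obtain ⟨a, ha, b, hb, rfl⟩ := hle hz
  obtain ⟨P, rfl⟩ := Finsupp.mem_span_range_iff_exists_finsupp.1 ha
  obtain ⟨P', rfl⟩ := Finsupp.mem_span_range_iff_exists_finsupp.1 hb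
  exact ⟨P, P', h1⟩

end Crest.Agent.FGF
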