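import Crest.Agent.FGF.CompF2
import Crest.Agent.FGF.CompF3

set_option autoImplicit false
set_option linter.unusedSectionVars false

namespace Crest.Agent.FGF

open Crest.Agent.GenII1 Filter Topology

variable {N : Type} [CStarAlgebra N] [FinVN N]

variable {S0 S1 : Type} {g : Option (S0 ⊕ S1) → unitary N} {r : N}

theorem CompF4_r_p0 (h : Sit g r) : r * p0 r = p0 r := by
  unfold p0
  rw [mul_smul_comm, mul_add, mul_one, h.sq, add_comm]

theorem CompF4_ee0 (b : Fin 2) :
    ee g r 0 b = p0 r * (((g none)⁻¹ ^ (b : ℕ) : unitary N) : N) := by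
  unfold ee
  simp

theorem CompF4_ee0' (a : Fin 2) :
    ee g r a 0 = ((g none ^ (a : ℕ) : unitary N) : N) * p0 r := by
  unfold ee
  simp

theorem CompF4_p0_x (h : Sit g r) : p0 r * (g none : N) = (g none : N) * (1 - p0 r) := by
  unfold p0
  rw [smul_mul_assoc, add_mul, one_mul, h.oddx, mul_sub, mul_one, mul_smul_comm, mul_add, mul_one,
    smul_add, smul_add, smul_neg]
  have e : (g none : N) = (2⁻¹ : ℂ) • (g none : N) + (2⁻¹ : ℂ) • (g none : N) := by
    rw [← add_smul]; norm_num
  nth_rewrite 3 [e]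
  abel

theorem CompF4_p0_sq (h : Sit g r) : p0 r * p0 r = p0 r := by
  have h1 : (1 + r) * p0 r = (2 : ℂ) • p0 r := by
    rw [add_mul, one_mul, CompF4_r_p0 h, two_smul]
  have h2 : p0 r * p0 r = (2⁻¹ : ℂ) • ((1 + r) * p0 r) := by
    rw [← smul_mul_assoc]; rfl
  rw [h2, h1, smul_smul]
  norm_num

/-- the (unnormalised) expectation onto the relative commutant -/
noncomputable def CompF4_E (g : Option (S0 ⊕ S1) → unitary N) (r : N) (y : N) : N :=
  ∑ a : Fin 2, ee g r a 0 * y * ee g r 0 a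

theorem CompF4_E_add (y z : N) : CompF4_E g r (y + z) = CompF4_E g r y + CompF4_E g r z := by
  unfold CompF4_E
  rw [← Finset.sum_add_distrib]
  exact Finset.sum_congr rfl fun a _ => by rw [mul_add, add_mul]

theorem CompF4_E_sub (y z : N) : CompF4_E g r (y - z) = CompF4_E g r y - CompF4_E g r z := by
  unfold CompF4_E
  rw [← Finset.sum_sub_distrib]
  exact Finset.sum_congr rfl fun a _ => by rw [mul_sub, sub_mul]

theorem CompF4_E_smul (c : ℂ) (y : N) : CompF4_E g r (c • y) = c • CompF4_E g r y := by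
  unfold CompF4_E
  rw [Finset.smul_sum]
  exact Finset.sum_congr rfl fun a _ => by rw [mul_smul_comm, smul_mul_assoc]

theorem CompF4_E_n2 (g : Option (S0 ⊕ S1) → unitary N) (r : N) :
    ∃ C : ℝ, 0 < C ∧ ∀ y, n2 (CompF4_E g r y) ≤ C * n2 y := by
  refine ⟨(∑ a : Fin 2, ‖ee g r a 0‖ * ‖ee g r 0 a‖) + 1, by positivity, fun y => ?_⟩
  unfold CompF4_E
  refine (n2_sum_le _ _).trans ?_
  have h1 : ∀ a ∈ (Finset.univ : Finset (Fin 2)), n2 (ee g r a 0 * y * ee g r 0 a) ≤
      ‖ee g r a 0‖ * ‖ee g r 0 a‖ * n2 y := by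
    intro a _
    refine (n2_mul_le_right _ _).trans ?_
    have := mul_le_mul_of_nonneg_right (n2_mul_le_left (ee g r a 0) y) (norm_nonneg (ee g r 0 a))
    nlinarith
  refine (Finset.sum_le_sum h1).trans ?_
  rw [← Finset.sum_mul, add_mul, one_mul]
  have := n2_nonneg y
  linarith

theorem CompF4_E_comm (h : Sit g r) (y : N) (hy : ∀ a b, ee g r a b * y = y * ee g r a b) :
    CompF4_E g r y = y := by
  unfold CompF4_E
  have h1 : ∀ a ∈ (Finset.univ : Finset (Fin 2)), ee g r a 0 * y * ee g r 0 a =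
      y * ee g r a a := by
    intro a _
    rw [hy a 0, mul_assoc, h.mu.mul, if_pos rfl]
  rw [Finset.sum_congr rfl h1, ← Finset.mul_sum, h.mu.sum, mul_one]

theorem CompF4_E_r (h : Sit g r) (w : N) : CompF4_E g r (w * r) = CompF4_E g r w := by
  unfold CompF4_E
  refine Finset.sum_congr rfl fun a _ => ?_
  rw [← mul_assoc, mul_assoc _ r, CompF4_ee0, ← mul_assoc r, CompF4_r_p0 h]

theorem CompF4_kEl_mem (h : Sit g r) (k : FreeGroup (KL S0 S1)) :
    kEl g r k ∈ vn (gens fun k : KL S0 S1 => kU h (FreeGroup.of k)) := by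
  have h1 : ev (fun k : KL S0 S1 => kU h (FreeGroup.of k)) =
      MonoidHom.mk' (kU h) (fun a b => Subtype.ext (kEl_mul h a b)) := by
    apply FreeGroup.ext_hom
    intro k
    simp
  have h2 : ev (fun k : KL S0 S1 => kU h (FreeGroup.of k)) k = kU h k := by
    rw [h1]; rfl
  have h3 := ev_mem_vn (fun k : KL S0 S1 => kU h (FreeGroup.of k)) k
  rw [h2] at h3
  exact h3

theorem CompF4_E_word (h : Sit g r) (W : FreeGroup (Option (S0 ⊕ S1))) :
    CompF4_E g r ((ev g W : unitary N) : N) ∈
      vn (gens fun k : KL S0 S1 => kU h (FreeGroup.of k)) := by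
  obtain ⟨k, hk | hk⟩ := kHom_cover W
  · rw [hk]
    exact CompF4_kEl_mem h k
  · have h0 : CompF4_E g r ((ev g W : unitary N) : N) = 0 := by
      unfold CompF4_E
      refine Finset.sum_eq_zero fun a _ => ?_
      rw [hk, map_mul, ev_of, Submonoid.coe_mul, CompF4_ee0, CompF4_ee0']
      have h1 : p0 r * ((g none : N) * ((ev g (kHom k) : unitary N) : N)) * p0 r = 0 := by
        rw [← mul_assoc, CompF4_p0_x h, mul_assoc _ _ (p0 r), ← h.comm_even k,
          mul_assoc (g none : N), ← mul_assoc (1 - p0 r), sub_mul, one_mul, CompF4_p0_sq h,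
          sub_self, zero_mul, mul_zero]
      calc _ = ((g none ^ (a : ℕ) : unitary N) : N) *
            (p0 r * ((g none : N) * ((ev g (kHom k) : unitary N) : N)) * p0 r) *
              (((g none)⁻¹ ^ (a : ℕ) : unitary N) : N) := by
            simp only [mul_assoc]
        _ = 0 := by rw [h1, mul_zero, zero_mul]
    rw [h0]
    exact zero_mem _

theorem CompF4_E_sum (h : Sit g r) (P : FreeGroup (Option (S0 ⊕ S1)) →₀ ℂ) :
    CompF4_E g r (P.sum (fun W c => c • ((ev g W : unitary N) : N))) ∈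
      vn (gens fun k : KL S0 S1 => kU h (FreeGroup.of k)) := by
  induction P using Finsupp.induction_linear with
  | zero =>
    rw [Finsupp.sum_zero_index]
    have : CompF4_E g r (0 : N) = 0 := by simp [CompF4_E]
    rw [this]
    exact zero_mem _
  | add P Q hP hQ =>
    rw [Finsupp.sum_add_index' (by simp) (by intros; rw [add_smul]), CompF4_E_add]
    exact add_mem hP hQ
  | single W c =>
    rw [Finsupp.sum_single_index (by simp), CompF4_E_smul]
    exact (vn _).smul_mem (CompF4_E_word h W) c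

/-- CHUNK R134-P-F4. The relative commutant of the matrix units is generated by the `kEl`.
PROOF: `y = ∑ a, e_{a0} (e00 y e00) e_{0a}`, `n2 (y - ∑ a e_{a0} (e00 y' e00) e_{0a}) ≤ 2 n2 (y - y')`;
for `y' = P + P' r` (`Sit.approx`) `e00 y' e00 = e00 (P + P') e00` (`r e00 = e00`), for a word `W = kHom k`
`∑ a e_{a0} e00 W e00 e_{0a} = kEl k`, for `W = x * kHom k` it is 0 (`kHom_cover`). -/
theorem Sit.relcomm (h : Sit g r) (y : N) (hy : ∀ a b, ee g r a b * y = y * ee g r a b) :
    y ∈ vn (gens fun k : KL S0 S1 => kU h (FreeGroup.of k)) := by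
  apply mem_vn_of_L2mem
  intro ε hε
  obtain ⟨C, hC, hE⟩ := CompF4_E_n2 g r
  obtain ⟨P, P', hP⟩ := h.approx y (ε / C) (by positivity)
  refine ⟨CompF4_E g r (P.sum (fun W c => c • ((ev g W : unitary N) : N)) +
        P'.sum (fun W c => c • ((ev g W : unitary N) : N)) * r), ?_, ?_⟩
  · rw [CompF4_E_add, CompF4_E_r h]
    exact add_mem (CompF4_E_sum h P) (CompF4_E_sum h P')
  · have h1 : y - CompF4_E g r (P.sum (fun W c => c • ((ev g W : unitary N) : N)) +
        P'.sum (fun W c => c • ((ev g W : unitary N) : N)) * r) =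
        CompF4_E g r (y - (P.sum (fun W c => c • ((ev g W : unitary N) : N)) +
        P'.sum (fun W c => c • ((ev g W : unitary N) : N)) * r)) := by
      rw [CompF4_E_sub, CompF4_E_comm h y hy]
    rw [h1]
    refine (hE _).trans_lt ?_
    rw [lt_div_iff₀ hC] at hP
    linarith

end Crest.Agent.FGF
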