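import Crest.Agent.FGF.CompA3
import Crest.Agent.FGF.CompB2
import Crest.Agent.FGF.CompF4

/-! MODULE Comp (lead: helper42): Step 2(c), `L(F_m) = M₂(L(F_{4m-3}))`, `m ≥ 2`. -/

set_option autoImplicit false
set_option linter.unusedSectionVars false

namespace Crest.Agent.FGF

open Crest.Agent.GenII1 Filter Topology

variable {N : Type} [CStarAlgebra N] [FinVN N]

/-- the commutant of a star-closed set is 2-closed -/
theorem tclosed_centralizer (S : Set N) : TClosed (StarSubalgebra.centralizer ℂ S) := by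
  intro f g C hf hC hlim
  have hlim' : TL f g := hlim
  rw [StarSubalgebra.mem_centralizer_iff]
  intro s hs
  have h1 : ∀ n, s * f n = f n * s := fun n => ((StarSubalgebra.mem_centralizer_iff ℂ).1 (hf n) s hs).1
  have h2 : ∀ n, star s * f n = f n * star s :=
    fun n => ((StarSubalgebra.mem_centralizer_iff ℂ).1 (hf n) s hs).2
  refine ⟨?_, ?_⟩
  · exact TL.unique (hlim'.const_mul s) ((hlim'.mul_const s).congr' (Filter.Eventually.of_forall fun n => (h1 n).symm))
  · exact TL.unique (hlim'.const_mul (star s)) ((hlim'.mul_const (star s)).congr' (Filter.Eventually.of_forall fun n => (h2 n).symm))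

/-- elements of `vn {x}`, `x` unitary, commute with `x` -/
theorem comm_of_mem_vn_unitary (x : unitary N) {y : N} (hy : y ∈ vn {(x : N)}) :
    (x : N) * y = y * (x : N) := by
  have h : vn {(x : N)} ≤ StarSubalgebra.centralizer ℂ {(x : N)} := by
    apply vn_le (tclosed_centralizer _)
    intro z hz
    rw [Set.mem_singleton_iff] at hz
    subst hz
    rw [SetLike.mem_coe, StarSubalgebra.mem_centralizer_iff]
    intro s hs
    rw [Set.mem_singleton_iff] at hs
    subst hs
    refine ⟨rfl, ?_⟩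
    rw [Unitary.coe_star_mul_self, Unitary.mul_star_self_of_mem x.2]
  have := h hy
  rw [StarSubalgebra.mem_centralizer_iff] at this
  exact (this _ (Set.mem_singleton _)).1

section
variable {μ : ℕ}

/-- reindexing: `none ↦ D_0`, even letters `Z, C_j`, odd letters `D_{j+1}` -/
def fIdx : Option ((Unit ⊕ Fin (μ + 1)) ⊕ Fin μ) → Unit ⊕ (Fin (μ + 1) × Bool)
  | none => .inr (0, true)
  | some (.inl (.inl u)) => .inl u
  | some (.inl (.inr j)) => .inr (j, false)
  | some (.inr j) => .inr (j.succ, true)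

theorem fIdx_injective : Function.Injective (fIdx (μ := μ)) := by
  rintro (_ | ((u | j) | j)) (_ | ((u' | j') | j')) h <;> simp [fIdx] at h ⊢
  · exact (Fin.succ_ne_zero _ h.symm).elim
  · exact h
  · exact h

theorem card_KL : Fintype.card (KL (Unit ⊕ Fin (μ + 1)) (Fin μ)) = 4 * (μ + 2) - 3 := by
  simp only [KL, Fintype.card_option, Fintype.card_prod, Fintype.card_sum, Fintype.card_unit,
    Fintype.card_fin, Fintype.card_bool]
  omega
end

/-- STEP 2(c) -/
theorem FH_M2 {N N₁ : Type} [CStarAlgebra N] [FinVN N] [CStarAlgebra N₁] [FinVN N₁] (m : ℕ)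
    (hm : 2 ≤ m) (g : Fin m → unitary N) (hg : FH g) (hgen : vn (gens g) = ⊤)
    (g₁ : Fin (4 * m - 3) → unitary N₁) (hg₁ : FH g₁) (hgen₁ : vn (gens g₁) = ⊤) :
    ∃ (e : Fin 2 → Fin 2 → N) (j : N₁ →⋆ₐ[ℂ] N), IsM2 e j := by
  obtain ⟨μ, rfl⟩ : ∃ μ, m = μ + 2 := ⟨m - 2, by omega⟩
  -- the first letter and the others
  have hg' : FH (fun o : Option (Fin (μ + 1)) => o.elim (g 0) (fun j : Fin (μ + 1) => g (Fin.succ j))) := by
    have h1 := FH_comp g hg (fun o : Option (Fin (μ + 1)) => o.elim 0 Fin.succ) (by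
      rintro (_ | j) (_ | j') h
      · rfl
      · exact (Fin.succ_ne_zero _ h.symm).elim
      · exact (Fin.succ_ne_zero _ h).elim
      · simp only [Option.elim] at h
        rw [Fin.succ_inj] at h
        rw [h])
    have e : (fun o : Option (Fin (μ + 1)) => g (o.elim 0 Fin.succ)) =
        (fun o : Option (Fin (μ + 1)) => o.elim (g 0) (fun j : Fin (μ + 1) => g (Fin.succ j))) := by
      funext o; cases o <;> rfl
    rw [← e]; exact h1
  obtain ⟨r, hr, hrx, hxr, hzab, htr⟩ := stepA (g 0) (fun j : Fin (μ + 1) => g (Fin.succ j)) hg'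
  obtain ⟨C, D, hC, hD, hFH, hCv, hDv, hav⟩ := stepB r hr (g 0 * g 0) (fun j : Fin (μ + 1) => g (Fin.succ j)) hzab
  set Z : unitary N := g 0 * g 0 with hZ
  set fam : Unit ⊕ (Fin (μ + 1) × Bool) → unitary N :=
    Sum.elim (fun _ : Unit => Z) (fun p : Fin (μ + 1) × Bool => if p.2 then D p.1 else C p.1) with hfam
  set G : Option ((Unit ⊕ Fin (μ + 1)) ⊕ Fin μ) → unitary N := fun k => fam (fIdx k) with hG
  have hGFH : FH G := FH_comp fam hFH fIdx fIdx_injective
  have hrsa : IsSelfAdjoint (r : N) := by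
    have h1 : star (r : N) * ((r : N) * (r : N)) = (r : N) := by
      rw [← mul_assoc, Unitary.coe_star_mul_self, one_mul]
    have h2 : (r : N) * (r : N) = 1 := by
      have := congrArg (fun u : unitary N => (u : N)) hr
      simpa using this
    rw [h2, mul_one] at h1
    exact h1
  have hr2 : (r : N) * (r : N) = 1 := by
    have := congrArg (fun u : unitary N => (u : N)) hr
    simpa using this
  have hxc : (g 0 : N) * (r : N) = (r : N) * (g 0 : N) := comm_of_mem_vn_unitary (g 0) hrx
  -- membership of the letters in `vn (gens (zab ..))`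
  set V : StarSubalgebra ℂ N := vn (gens (zab Z (fun j => g (Fin.succ j)) r)) with hV
  have hZV : (Z : N) ∈ V := subset_vn _ ⟨.inl (), rfl⟩
  have haV : ∀ j : Fin (μ + 1), ((g j.succ : unitary N) : N) ∈ V := fun j =>
    subset_vn _ ⟨.inr (j, false), by simp [zab]⟩
  have hbV : ∀ j : Fin (μ + 1), (r : N) * ((g j.succ : unitary N) : N) * (r : N) ∈ V := fun j =>
    subset_vn _ ⟨.inr (j, true), by simp [zab]⟩
  have hpair : ∀ j : Fin (μ + 1),
      vn {((g j.succ : unitary N) : N), (r : N) * ((g j.succ : unitary N) : N) * (r : N)} ≤ V := by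
    intro j
    apply vn_le (vn_closed _)
    rintro z (rfl | hz)
    · exact haV j
    · rw [Set.mem_singleton_iff] at hz
      subst hz
      exact hbV j
  have hCV : ∀ j, (C j : N) ∈ V := fun j => hpair j (hCv j)
  have hDV : ∀ j, (D j : N) ∈ V := fun j => hpair j (hDv j)
  have hGV : ∀ k, (G k : N) ∈ V := by
    rintro (_ | ((u | j) | j))
    · exact hDV 0
    · exact hZV
    · exact hCV j
    · exact hDV j.succ
  -- the other direction
  set W : StarSubalgebra ℂ N := vn (gens G ∪ {(r : N)}) with hW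
  have hrW : (r : N) ∈ W := subset_vn _ (Or.inr rfl)
  have hGW : ∀ k, (G k : N) ∈ W := fun k => subset_vn _ (Or.inl ⟨k, rfl⟩)
  have hCW : ∀ j, (C j : N) ∈ W := fun j => hGW (some (.inl (.inr j)))
  have hDW : ∀ j, (D j : N) ∈ W := by
    intro j
    refine Fin.cases ?_ (fun i => ?_) j
    · exact hGW none
    · exact hGW (some (.inr i))
  have hZW : (Z : N) ∈ W := hGW (some (.inl (.inl ())))
  have hxW : (g 0 : N) ∈ W := by
    refine (vn_le (vn_closed _) ?_ : vn {(r : N), (g 0 : N) ^ 2} ≤ W) hxr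
    rintro z (rfl | hz)
    · exact hrW
    · rw [Set.mem_singleton_iff] at hz
      subst hz
      have : (g 0 : N) ^ 2 = (Z : N) := by rw [hZ, pow_two]; rfl
      rw [SetLike.mem_coe, this]
      exact hZW
  have haW : ∀ j : Fin (μ + 1), ((g j.succ : unitary N) : N) ∈ W := by
    intro j
    refine (vn_le (vn_closed _) ?_ : vn {(C j : N), (D j : N)} ≤ W) (hav j)
    rintro z (rfl | hz)
    · exact hCW j
    · rw [Set.mem_singleton_iff] at hz
      subst hz
      exact hDW j
  have hsit : Sit G (r : N) := by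
    refine ⟨hGFH, hrsa, hr2, ?_, ?_, ?_, ?_, ?_⟩
    · rintro (u | j)
      · change (r : N) * (Z : N) = (Z : N) * (r : N)
        rw [hZ]
        change (r : N) * ((g 0 : N) * (g 0 : N)) = ((g 0 : N) * (g 0 : N)) * (r : N)
        rw [← mul_assoc, ← hxc, mul_assoc, ← hxc, ← mul_assoc]
      · have := congrArg (fun u : unitary N => (u : N)) (hC j)
        exact this
    · intro j
      exact hD j.succ
    · exact hD 0
    · intro y hy
      refine htr y ((vn_le (vn_closed _) ?_ : vn (gens G) ≤ V) hy)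
      rintro z ⟨k, rfl⟩
      exact hGV k
    · rw [eq_top_iff, ← hgen]
      apply vn_le (vn_closed _)
      rintro z ⟨i, rfl⟩
      refine Fin.cases ?_ (fun i => ?_) i
      · exact hxW
      · exact haW i
  -- the relative commutant
  let E : Fin (4 * (μ + 2) - 3) ≃ KL (Unit ⊕ Fin (μ + 1)) (Fin μ) :=
    (Fintype.equivFinOfCardEq card_KL).symm
  set K : KL (Unit ⊕ Fin (μ + 1)) (Fin μ) → unitary N := fun k => kU hsit (FreeGroup.of k) with hK
  have hK1 : FH (fun i => K (E i)) := FH_comp K hsit.FH_kU E E.injective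
  have hgK : gens (fun i => K (E i)) = gens K := by
    ext z
    constructor
    · rintro ⟨i, rfl⟩; exact ⟨E i, rfl⟩
    · rintro ⟨k, rfl⟩; exact ⟨E.symm k, by simp⟩
  obtain ⟨Φ, hΦ, hΦg, hΦs⟩ := emb_of_FH g₁ (fun i => K (E i)) hg₁ hK1 hgen₁
  refine ⟨ee G (r : N), Φ, hsit.mu, hΦ, ?_, ?_⟩
  · -- image of `Φ` commutes with the matrix units
    intro x a b
    have h1 : ∀ x : N₁, Φ x ∈ StarSubalgebra.centralizer ℂ
        (Set.range fun p : Fin 2 × Fin 2 => ee G (r : N) p.1 p.2) := by
      have h2 : TClosed ((StarSubalgebra.centralizer ℂ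
        (Set.range fun p : Fin 2 × Fin 2 => ee G (r : N) p.1 p.2)).comap Φ) := by
        intro f y C hf hC hlim
        rw [StarSubalgebra.mem_comap]
        refine tclosed_centralizer _ (fun n => Φ (f n)) (Φ y) C (fun n => hf n) (fun n => ?_) ?_
        · exact (NonUnitalStarAlgHom.norm_apply_le Φ (f n)).trans (hC n)
        · refine hlim.congr (fun n => ?_)
          rw [← map_sub, n2_map Φ hΦ]
      have h3 : vn (gens g₁) ≤ (StarSubalgebra.centralizer ℂ
        (Set.range fun p : Fin 2 × Fin 2 => ee G (r : N) p.1 p.2)).comap Φ := by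
        apply vn_le h2
        rintro z ⟨i, rfl⟩
        rw [SetLike.mem_coe, StarSubalgebra.mem_comap, hΦg, StarSubalgebra.mem_centralizer_iff]
        rintro _ ⟨p, rfl⟩
        refine ⟨kEl_comm hsit _ _ _, ?_⟩
        simp only [hsit.mu.st]
        exact kEl_comm hsit _ _ _
      intro x
      have hx : x ∈ vn (gens g₁) := by rw [hgen₁]; trivial
      exact h3 hx
    have h4 := (StarSubalgebra.mem_centralizer_iff ℂ).1 (h1 x) _ ⟨(a, b), rfl⟩
    exact h4.1
  · intro y hy
    refine hΦs y ?_
    rw [hgK]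
    exact hsit.relcomm y hy

end Crest.Agent.FGF
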