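import Mathlib.GroupTheory.FreeGroup.Basic
import Mathlib.Tactic.NoncommRing
import Mathlib.Tactic.Group
import Mathlib.Data.ZMod.Basic
import Mathlib.Algebra.Group.TypeTags.Basic

/-! MODULE Comp, part G (helper42): the index-2 subgroup of a free group (letters
`Option (S0 ⊕ S1)`: `none = x` odd, `S0` even, `S1` odd) is free on
`x², s, x s x⁻¹ (s ∈ S0), s x⁻¹, x s (s ∈ S1)`. -/

set_option autoImplicit false

namespace Crest.Agent.FGF

variable {S0 S1 : Type}

/-- letters of the index-2 subgroup -/
abbrev KL (S0 S1 : Type) : Type := Option ((S0 ⊕ S1) × Bool)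

/-- the letters of the index-2 subgroup as words -/
def kImg : KL S0 S1 → FreeGroup (Option (S0 ⊕ S1))
  | none => FreeGroup.of none * FreeGroup.of none
  | some (.inl s, false) => FreeGroup.of (some (.inl s))
  | some (.inl s, true) => FreeGroup.of none * FreeGroup.of (some (.inl s)) * (FreeGroup.of none)⁻¹
  | some (.inr s, false) => FreeGroup.of (some (.inr s)) * (FreeGroup.of none)⁻¹
  | some (.inr s, true) => FreeGroup.of none * FreeGroup.of (some (.inr s))

def kHom : FreeGroup (KL S0 S1) →* FreeGroup (Option (S0 ⊕ S1)) := FreeGroup.lift kImg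

@[simp] theorem kHom_of (k : KL S0 S1) : kHom (FreeGroup.of k) = kImg k := by simp [kHom]

end Crest.Agent.FGF
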