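import Crest.Agent.FGF.DictSF

/-! MODULE Dict (row 134): freeness implies Schwinger-Dyson (one variable). -/

set_option autoImplicit false
set_option linter.unusedSectionVars false

namespace Crest.Agent.FGF

open Crest.Agent.GenII1 Filter Topology Polynomial

variable {M : Type} [CStarAlgebra M] [FinVN M]

theorem pmul_assoc (p p' p'' : M × (M → M → ℂ)) : pmul (pmul p p') p'' = pmul p (pmul p' p'') := by
  refine Prod.ext (mul_assoc _ _ _) ?_
  funext x y
  simp only [pmul, mul_assoc]
  ring

theorem d6_thp_add_left (s : M) (q : ℂ[X]) (x x' y : M) :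
    thp s q (x + x') y = thp s q x y + thp s q x' y := by
  unfold thp Polynomial.sum
  rw [← Finset.sum_add_distrib]
  refine Finset.sum_congr rfl fun n _ => ?_
  rw [← mul_add, ← Finset.sum_add_distrib]
  refine congrArg (fun t : ℂ => q.coeff n * t) (Finset.sum_congr rfl fun i _ => ?_)
  rw [add_mul, map_add, add_mul]

theorem d6_thp_smul_left (s : M) (q : ℂ[X]) (c : ℂ) (x y : M) :
    thp s q (c • x) y = c * thp s q x y := by
  unfold thp Polynomial.sum
  rw [Finset.mul_sum]
  refine Finset.sum_congr rfl fun n _ => ?_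
  rw [mul_left_comm, Finset.mul_sum]
  refine congrArg (fun t : ℂ => q.coeff n * t) (Finset.sum_congr rfl fun i _ => ?_)
  rw [smul_mul_assoc, map_smul, smul_eq_mul, mul_assoc]

theorem d6_Th_add_left (s : M) (l : List (ℂ[X] × M)) (x x' y : M) :
    Th s l (x + x') y = Th s l x y + Th s l x' y := by
  induction l generalizing x x' with
  | nil => simp
  | cons p l ih =>
    obtain ⟨q, b⟩ := p
    rw [Th_cons, Th_cons, Th_cons, d6_thp_add_left, add_mul, ih]
    ring

theorem d6_Th_smul_left (s : M) (l : List (ℂ[X] × M)) (c : ℂ) (x y : M) :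
    Th s l (c • x) y = c * Th s l x y := by
  induction l generalizing x with
  | nil => simp
  | cons p l ih =>
    obtain ⟨q, b⟩ := p
    rw [Th_cons, Th_cons, d6_thp_smul_left, smul_mul_assoc, ih]
    ring

theorem d6_redSpan_left (B : Subalgebra ℂ M) (s : M) (p : M × (M → M → ℂ))
    (hp : p ∈ redSpan (B : Set M) s) :
    (∀ x x' y, p.2 (x + x') y = p.2 x y + p.2 x' y) ∧ (∀ (c : ℂ) x y, p.2 (c • x) y = c * p.2 x y) := by
  induction hp using Submodule.span_induction with
  | mem p hp =>
    obtain ⟨b0, hb0, l, hl, rfl⟩ := hp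
    constructor
    · intro x x' y
      simp only [wp]
      rw [add_mul, d6_Th_add_left]
    · intro c x y
      simp only [wp]
      rw [smul_mul_assoc, d6_Th_smul_left]
  | zero =>
    constructor
    · intro x x' y; simp
    · intro c x y; simp
  | add p q _ _ hp hq =>
    constructor
    · intro x x' y
      show p.2 (x + x') y + q.2 (x + x') y = (p.2 x y + q.2 x y) + (p.2 x' y + q.2 x' y)
      rw [hp.1, hq.1]; ring
    · intro c x y
      show p.2 (c • x) y + q.2 (c • x) y = c * (p.2 x y + q.2 x y)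
      rw [hp.2, hq.2]; ring
  | smul a p _ hp =>
    constructor
    · intro x x' y
      show a * p.2 (x + x') y = a * p.2 x y + a * p.2 x' y
      rw [hp.1]; ring
    · intro c x y
      show a * p.2 (c • x) y = c * (a * p.2 x y)
      rw [hp.2]; ring

/-- CHUNK R134-D6 (part 1).  `pmul (b, 0) (wp s b0 l) = wp s (b * b0) l`, and `pmul (b,0)` is
linear in the second argument (`Submodule.span_induction`). -/
theorem redSpan_mul_base (B : Subalgebra ℂ M) (s b : M) (hb : b ∈ B) (p : M × (M → M → ℂ))
    (hp : p ∈ redSpan (B : Set M) s) : pmul (b, fun _ _ => 0) p ∈ redSpan (B : Set M) s := by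
  induction hp using Submodule.span_induction with
  | mem p hp =>
    obtain ⟨b0, hb0, l, hl, rfl⟩ := hp
    refine Submodule.subset_span ⟨b * b0, B.mul_mem hb hb0, l, hl, ?_⟩
    refine Prod.ext ?_ ?_
    · simp only [pmul, wp, mul_assoc]
    · funext x y
      simp only [pmul, wp, mul_assoc, zero_add]
  | zero =>
    have : pmul (b, fun _ _ => (0 : ℂ)) (0 : M × (M → M → ℂ)) = 0 := by
      refine Prod.ext (by simp [pmul]) ?_
      funext x y
      simp [pmul]
    rw [this]; exact Submodule.zero_mem _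
  | add p q _ _ hp hq =>
    have : pmul (b, fun _ _ => (0 : ℂ)) (p + q) =
        pmul (b, fun _ _ => (0 : ℂ)) p + pmul (b, fun _ _ => (0 : ℂ)) q := by
      refine Prod.ext (by simp [pmul, mul_add]) ?_
      funext x y
      simp [pmul]
    rw [this]; exact Submodule.add_mem _ hp hq
  | smul a p _ hp =>
    have : pmul (b, fun _ _ => (0 : ℂ)) (a • p) = a • pmul (b, fun _ _ => (0 : ℂ)) p := by
      refine Prod.ext (by simp [pmul]) ?_
      funext x y
      simp [pmul]
    rw [this]; exact Submodule.smul_mem _ _ hp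

/-- CHUNK R134-D6 (part 2).  Left multiplication by `(s, τ ⊗ τ)`.
PROOF.  By linearity take `p = wp s b0 l`.  `b0 = b0c + β0 • 1` (`β0 = τ b0`, `b0c` centred in `B`).
`l = []`: the product is `wp s 1 [(X, b0)]` (`τ s = 0`, so `[(X,b0)]` is good; `thp_X_mul`, or
`thp s X x y = τ x * τ y`).  `l ≠ []`, `l = (q₁,b₁)::l'`: the `b0c`-part is `wp s 1 ((X,b0c)::l)`;
the `β0`-part is `β0 •` the pair of `s q₁(s) b₁ ⋯`, which is the block word `(X * q₁, b₁)::l'`
(`thp_X_mul`); write `X * q₁ = r + C ρ` with `r` centred (`aeval_center`): it equals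
`wp s 1 ((r,b₁)::l') + ρ • wp s b₁ l'` (`thp_add`, `thp_C`), and `l'` is empty or good. -/
theorem redSpan_mul_var (B : Subalgebra ℂ M) (s : M) (hs : τ s = 0) (p : M × (M → M → ℂ))
    (hp : p ∈ redSpan (B : Set M) s) :
    pmul (s, fun x y => (1 : ℂ) * (τ x * τ y)) p ∈ redSpan (B : Set M) s := by
  have thpX : ∀ x y : M, thp s X x y = τ x * τ y := by
    intro x y
    have h1 := thp_X_mul s 1 x y
    rw [mul_one, ← C_1, thp_C] at h1
    simpa using h1
  have hX0 : τ (aeval s (X : ℂ[X])) = 0 := by rw [aeval_X]; exact hs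
  have hadd : ∀ p q : M × (M → M → ℂ), pmul (s, fun x y => (1 : ℂ) * (τ x * τ y)) (p + q) =
      pmul (s, fun x y => (1 : ℂ) * (τ x * τ y)) p +
        pmul (s, fun x y => (1 : ℂ) * (τ x * τ y)) q := by
    intro p q
    refine Prod.ext (by simp [pmul, mul_add]) ?_
    funext x y
    simp only [pmul, Prod.fst_add, Prod.snd_add, Pi.add_apply, add_mul, map_add]
    ring
  have hsmul : ∀ (a : ℂ) (p : M × (M → M → ℂ)), pmul (s, fun x y => (1 : ℂ) * (τ x * τ y)) (a • p) =
      a • pmul (s, fun x y => (1 : ℂ) * (τ x * τ y)) p := by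
    intro a p
    refine Prod.ext (by simp [pmul]) ?_
    funext x y
    simp only [pmul, Prod.smul_fst, Prod.smul_snd, Pi.smul_apply, smul_mul_assoc, map_smul,
      smul_eq_mul]
    ring
  induction hp using Submodule.span_induction with
  | mem p hp =>
    obtain ⟨b0, hb0, l, hl, rfl⟩ := hp
    rcases l with _ | ⟨⟨q1, b1⟩, l'⟩
    · refine Submodule.subset_span ⟨1, B.one_mem, [(X, b0)], Or.inr ⟨hX0, hb0⟩, ?_⟩
      refine Prod.ext ?_ ?_
      · simp [pmul, wp]
      · funext x y
        simp [pmul, wp, thpX]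
    · have hg : GLw (B : Set M) s ((q1, b1) :: l') := by
        rcases hl with h | h
        · exact absurd h (by simp)
        · exact h
      have hb1 : b1 ∈ B := hg.mem (q1, b1) (by simp)
      -- the decomposition of `b0`
      have hdec : wp s b0 ((q1, b1) :: l') =
          wp s (b0 - τ b0 • (1 : M)) ((q1, b1) :: l') + τ b0 • wp s 1 ((q1, b1) :: l') := by
        refine Prod.ext ?_ ?_
        · simp only [wp, Prod.fst_add, Prod.smul_fst, sub_mul, smul_mul_assoc]
          abel
        · funext x y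
          simp only [wp, Prod.snd_add, Prod.smul_snd, Pi.add_apply, Pi.smul_apply, smul_eq_mul]
          rw [← d6_Th_smul_left, ← d6_Th_add_left]
          congr 1
          rw [mul_sub, mul_smul_comm]
          abel
      rw [hdec, hadd, hsmul]
      refine Submodule.add_mem _ ?_ (Submodule.smul_mem _ _ ?_)
      · -- the centred part
        have hc : τ (b0 - τ b0 • (1 : M)) = 0 := by
          rw [map_sub, map_smul, τ_one]; simp
        have hcB : b0 - τ b0 • (1 : M) ∈ B := B.sub_mem hb0 (B.smul_mem B.one_mem _)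
        refine Submodule.subset_span ⟨1, B.one_mem, (X, b0 - τ b0 • (1 : M)) :: (q1, b1) :: l',
          Or.inr ⟨hX0, hcB, hc, hg⟩, ?_⟩
        refine Prod.ext ?_ ?_
        · simp only [pmul, wp, zw_cons, aeval_X, one_mul, mul_assoc]
        · funext x y
          simp only [pmul, wp, zw_cons, Th_cons, aeval_X, one_mul, mul_one, mul_assoc, thpX]
      · -- the scalar part
        set ρ : ℂ := τ (aeval s (X * q1)) with hρ
        have hr : τ (aeval s (X * q1 - C ρ)) = 0 := aeval_center s (X * q1)
        have hsum : pmul (s, fun x y => (1 : ℂ) * (τ x * τ y)) (wp s 1 ((q1, b1) :: l')) =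
            wp s 1 ((X * q1 - C ρ, b1) :: l') + ρ • wp s b1 l' := by
          refine Prod.ext ?_ ?_
          · simp only [pmul, wp, zw_cons, Prod.fst_add, Prod.smul_fst, map_sub, map_mul, aeval_X,
              aeval_C, Algebra.algebraMap_eq_smul_one, sub_mul, smul_mul_assoc, one_mul, mul_assoc]
            abel
          · funext x y
            have e1 : thp s (X * q1 - C ρ) x (b1 * zw s l' * y) =
                τ x * τ (aeval s q1 * (b1 * zw s l' * y)) + thp s q1 (x * s) (b1 * zw s l' * y) := by
              have h1 : thp s (X * q1) x (b1 * zw s l' * y) =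
                  thp s (X * q1 - C ρ) x (b1 * zw s l' * y) + thp s (C ρ) x (b1 * zw s l' * y) := by
                rw [← thp_add, sub_add_cancel]
              rw [thp_C, add_zero] at h1
              rw [← h1, thp_X_mul]
            have e2 : Th s l' (x * (aeval s (X * q1 - C ρ) * b1)) y + ρ * Th s l' (x * b1) y =
                Th s l' (x * s * (aeval s q1 * b1)) y := by
              rw [← d6_Th_smul_left, ← d6_Th_add_left]
              congr 1
              simp only [map_sub, map_mul, aeval_X, aeval_C, Algebra.algebraMap_eq_smul_one,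
                sub_mul, mul_sub, smul_mul_assoc, mul_smul_comm, one_mul, mul_assoc]
              abel
            simp only [pmul, wp, zw_cons, Th_cons, Prod.snd_add, Prod.smul_snd, Pi.add_apply,
              Pi.smul_apply, smul_eq_mul, one_mul, mul_one]
            rw [e1, add_assoc (τ x * τ (aeval s q1 * (b1 * zw s l' * y)) + _), e2]
            simp only [mul_assoc]
            ring
        rw [hsum]
        refine Submodule.add_mem _ (Submodule.subset_span ?_)
          (Submodule.smul_mem _ _ (Submodule.subset_span ?_))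
        · refine ⟨1, B.one_mem, _, Or.inr ?_, rfl⟩
          cases l' with
          | nil => exact ⟨hr, hb1⟩
          | cons p' l' => exact ⟨hr, hg.2.1, hg.2.2.1, hg.2.2.2⟩
        · refine ⟨b1, hb1, l', ?_, rfl⟩
          cases l' with
          | nil => exact Or.inl rfl
          | cons p' l' => exact Or.inr hg.2.2.2
  | zero =>
    have : pmul (s, fun x y => (1 : ℂ) * (τ x * τ y)) (0 : M × (M → M → ℂ)) = 0 := by
      refine Prod.ext (by simp [pmul]) ?_
      funext x y
      simp [pmul]
    rw [this]; exact Submodule.zero_mem _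
  | add p q _ _ hp hq =>
    rw [hadd]; exact Submodule.add_mem _ hp hq
  | smul a p _ hp =>
    rw [hsmul]; exact Submodule.smul_mem _ _ hp

/-- CHUNK R134-D6 (part 3).  Induction on `Der`; `mul` uses `pmul_assoc`. -/
theorem redSpan_mul_der (B : Subalgebra ℂ M) (s : M) (hs : τ s = 0) {z : M} {Θ : M → M → ℂ}
    (hz : Der (B : Set M) (fun _ : Unit => s) (fun _ => 1) z Θ) :
    ∀ p ∈ redSpan (B : Set M) s, pmul (z, Θ) p ∈ redSpan (B : Set M) s := by
  induction hz with
  | base d hd => intro p hp; exact redSpan_mul_base B s d hd p hp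
  | var j => intro p hp; exact redSpan_mul_var B s hs p hp
  | add z z' Θ Θ' _ _ ih ih' =>
    intro p hp
    have hlin := (d6_redSpan_left B s p hp).1
    have : pmul (z + z', fun x y => Θ x y + Θ' x y) p = pmul (z, Θ) p + pmul (z', Θ') p := by
      refine Prod.ext (by simp [pmul, add_mul]) ?_
      funext x y
      simp only [pmul, Prod.snd_add, Pi.add_apply, mul_add, hlin]
      ring
    rw [this]
    exact Submodule.add_mem _ (ih p hp) (ih' p hp)
  | smul a z Θ _ ih =>
    intro p hp
    have hlin := (d6_redSpan_left B s p hp).2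
    have : pmul (a • z, fun x y => a * Θ x y) p = a • pmul (z, Θ) p := by
      refine Prod.ext (by simp [pmul]) ?_
      funext x y
      simp only [pmul, Prod.smul_snd, Pi.smul_apply, smul_eq_mul, mul_smul_comm, hlin]
      ring
    rw [this]
    exact Submodule.smul_mem _ _ (ih p hp)
  | mul z z' Θ Θ' _ _ ih ih' =>
    intro p hp
    have h1 := ih _ (ih' p hp)
    rw [← pmul_assoc] at h1
    exact h1

/-- a good block word is an alternating word -/
theorem GLw.altW (B : Subalgebra ℂ M) (s : M) (l : List (ℂ[X] × M)) (h : GLw (B : Set M) s l) :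
    AltW (cent (Algebra.adjoin ℂ {s} : Set M)) (cent (B : Set M)) (B : Set M) (zw s l) := by
  induction l with
  | nil => exact absurd h (by simp [GLw])
  | cons p l ih =>
    obtain ⟨q, e⟩ := p
    cases l with
    | nil =>
      have h0 : zw s [(q, e)] = aeval s q * e := by simp
      rw [h0]
      exact AltW.last _ _ ⟨Polynomial.aeval_mem_adjoin_singleton ℂ s, h.1⟩ h.2
    | cons p' l =>
      obtain ⟨h1, h2, h3, h4⟩ := h
      exact AltW.cons _ _ _ ⟨Polynomial.aeval_mem_adjoin_singleton ℂ s, h1⟩ ⟨h2, h3⟩ (ih h4)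

theorem GLw.tau_mul {B : Subalgebra ℂ M} {s : M} (h : Free1 (Algebra.adjoin ℂ {s} : Set M) (B : Set M))
    {l : List (ℂ[X] × M)} (hl : GLw (B : Set M) s l) {b : M} (hb : b ∈ B) :
    τ (b * zw s l) = 0 := by
  have hne : l ≠ [] := by
    rintro rfl
    exact absurd hl (by simp [GLw])
  rw [τ_comm, ← zw_lm s l hne b]
  exact h _ (GLw.altW B s _ (GLw_lm B s l hl hb))

theorem GLw.tau {B : Subalgebra ℂ M} {s : M} (h : Free1 (Algebra.adjoin ℂ {s} : Set M) (B : Set M))
    {l : List (ℂ[X] × M)} (hl : GLw (B : Set M) s l) : τ (zw s l) = 0 :=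
  h _ (GLw.altW B s _ hl)

/-- change the first polynomial of a good word -/
theorem GLw.change {B : Set M} {s : M} {q r : ℂ[X]} {b : M} {l : List (ℂ[X] × M)}
    (hl : GLw B s ((q, b) :: l)) (hr : τ (aeval s r) = 0) : GLw B s ((r, b) :: l) := by
  cases l with
  | nil => exact ⟨hr, hl.2⟩
  | cons p l => exact ⟨hr, hl.2⟩

/-- a polynomial block in front of the tail of a good word factorises -/
theorem GLw.tau_block {B : Subalgebra ℂ M} {s : M}
    (h : Free1 (Algebra.adjoin ℂ {s} : Set M) (B : Set M)) {q : ℂ[X]} {b : M}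
    {l : List (ℂ[X] × M)} (hl : GLw (B : Set M) s ((q, b) :: l)) (Q : ℂ[X]) :
    τ (aeval s Q * b * zw s l) = τ (aeval s Q) * τ (b * zw s l) := by
  have h1 := GLw.tau h (GLw.change hl (aeval_center s Q))
  rw [zw_cons, map_sub, aeval_C, Algebra.algebraMap_eq_smul_one, sub_mul, sub_mul, map_sub,
    smul_mul_assoc, smul_mul_assoc, one_mul, map_smul, smul_eq_mul, sub_eq_zero] at h1
  exact h1

/-- a centred coefficient in front of an empty or good word: any polynomial block has trace `0` -/
theorem GLw.tau_block0 {B : Subalgebra ℂ M} {s : M}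
    (h : Free1 (Algebra.adjoin ℂ {s} : Set M) (B : Set M)) {b : M} (hb : b ∈ B) (hb0 : τ b = 0)
    {l : List (ℂ[X] × M)} (hl : l = [] ∨ GLw (B : Set M) s l) (Q : ℂ[X]) :
    τ (aeval s Q * b * zw s l) = 0 := by
  have hg : GLw (B : Set M) s ((0, b) :: l) := by
    cases l with
    | nil => exact ⟨by simp, hb⟩
    | cons p l =>
      rcases hl with hl | hl
      · exact absurd hl (by simp)
      · exact ⟨by simp, hb, hb0, hl⟩
  rw [GLw.tau_block h hg Q]
  have : τ (b * zw s l) = 0 := by
    rcases hl with rfl | hl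
    · simpa using hb0
    · exact GLw.tau_mul h hl hb
  rw [this, mul_zero]

/-- CHUNK R134-D7.  The Schwinger-Dyson equation for a reduced block word.
PROOF.  `l = []`: `τ (s * b0) = 0 = Th..`: `s * b0` is an alternating word (`τ s = 0`,
`AltW.last`).
`l = (q₁,b₁)::l'` good.  Words `zw s l` of good lists and `zw s l * b` (`zw_lm`) have trace `0`
(they are alternating words: prove `GLw B s l → AltW (cent (adjoin s)) (cent B) B (zw s l)` first).
LHS `τ (s * (b0 * zw s l))`, `b0 = b0c + β0`: the `b0c` part is an alternating word: `0`.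
`β0 τ (s q₁(s) b₁ zw l')`: `s q₁(s) = r(s) + ρ`, `ρ = τ (s q₁(s))`: the `r`-part is `0`; rest
`β0 ρ τ (b₁ * zw s l')`, which is `0` if `l' ≠ []` (rotate: `τ (zw (lm l' b₁)) = 0`).
RHS `Th s l b0 1 = thp s q₁ (1*b0) (b₁ * zw s l' * 1) + Th s l' (..) 1`.
First term: `τ (b0 * s^i) = τ b0 * τ (s^i)` and `τ (s^i * (b₁ * zw s l')) = τ (s^i) * τ (b₁ * zw s l')`
(split `X^i = centred + constant`), so by `thp_factor2` it is
`β0 * thp s q₁ 1 1 * τ (b₁ * zw s l')`, equal to LHS since `thp s q₁ 1 1 = τ (s q₁(s)) = ρ`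
(`IsSemi.poly`).
Second term is `0` by `Th_zero`: `l' = l₁ ++ (q,b)::l₂`, so `b₁` is centred;
`τ (b0 q₁ b₁ zw l₁ s^i)`: split `X^i = r + C ν`: the `ν` part is
`ν τ (q₁ b₁ zw l₁ b0)`: good word with last coefficient times `b0`: `0`.  The `r` part is
`τ (r(s) b0 q₁(s) b₁ zw l₁)`, split `b0 = b0c + β0`: the `b0c` part is an alternating word `(r,b0c)::
(q₁,b₁)::l₁`: `0`; the `β0` part: `r q₁ = r' + C κ`: `(r',b₁)::l₁`: `0`, and `κ τ (b₁ zw l₁) = 0`
(`τ b₁ = 0` if `l₁ = []`, rotate otherwise). -/
theorem fs_reduced (B : Subalgebra ℂ M) (s : M) (hs : IsSemi s)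
    (h : Free1 (Algebra.adjoin ℂ {s} : Set M) (B : Set M)) (b0 : M) (hb0 : b0 ∈ B)
    (l : List (ℂ[X] × M)) (hl : l = [] ∨ GLw (B : Set M) s l) :
    τ (s * (wp s b0 l).1) = (wp s b0 l).2 1 1 := by
  have hs0 : τ s = 0 := by
    have := hs.sd () 1 (fun _ _ => 0) (Der.base 1 ⟨1, by simp⟩)
    simpa using this
  have hsP : s ∈ cent (Algebra.adjoin ℂ {s} : Set M) :=
    ⟨Algebra.subset_adjoin (Set.mem_singleton s), hs0⟩
  have hc : b0 - τ b0 • (1 : M) ∈ cent (B : Set M) := by
    refine ⟨B.sub_mem hb0 (B.smul_mem B.one_mem _), ?_⟩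
    rw [map_sub, map_smul, τ_one]
    simp
  have hb0' : b0 = (b0 - τ b0 • (1 : M)) + τ b0 • (1 : M) := by simp
  cases l with
  | nil =>
    have h1 : τ (s * b0) = 0 := h _ (AltW.last s b0 hsP hb0)
    simpa [wp] using h1
  | cons p l =>
    obtain ⟨q1, b1⟩ := p
    have hl' : GLw (B : Set M) s ((q1, b1) :: l) := by
      rcases hl with hl | hl
      · exact absurd hl (by simp)
      · exact hl
    have hb1 : b1 ∈ B := hl'.mem (q1, b1) (by simp)
    -- the left hand side
    have hL : τ (s * (b0 * zw s ((q1, b1) :: l))) =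
        τ b0 * (τ (s * aeval s q1) * τ (b1 * zw s l)) := by
      have e1 : s * (b0 * zw s ((q1, b1) :: l)) =
          s * (b0 - τ b0 • (1 : M)) * zw s ((q1, b1) :: l) +
            τ b0 • (aeval s (X * q1) * b1 * zw s l) := by
        rw [map_mul, aeval_X, zw_cons]
        simp only [mul_sub, sub_mul, mul_assoc, mul_smul_comm, smul_mul_assoc, one_mul]
        simp
      rw [e1, map_add, h _ (AltW.cons s _ _ hsP hc (GLw.altW B s _ hl')), zero_add, map_smul,
        GLw.tau_block h hl' (X * q1), map_mul, aeval_X, smul_eq_mul]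
    -- the first term of the right hand side
    have hR1 : thp s q1 (1 * b0) (b1 * zw s l * 1) =
        τ b0 * thp s q1 1 1 * τ (b1 * zw s l) := by
      refine thp_factor2 s q1 _ _ _ _ ?_ ?_
      · intro i _
        have h1 : τ (aeval s (X ^ i - C (τ (aeval s (X ^ i : ℂ[X])))) * b0) = 0 :=
          h _ (AltW.last _ _ ⟨Polynomial.aeval_mem_adjoin_singleton ℂ s, aeval_center s _⟩ hb0)
        rw [map_sub, aeval_C, Algebra.algebraMap_eq_smul_one, sub_mul, map_sub,
          smul_mul_assoc, one_mul, map_smul, smul_eq_mul, sub_eq_zero, map_pow, aeval_X] at h1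
        rw [one_mul, τ_comm, h1, mul_comm]
      · intro i _
        have h1 := GLw.tau_block h hl' (X ^ i)
        rw [map_pow, aeval_X] at h1
        rw [mul_one, ← h1, mul_assoc]
    -- the second term
    have hR2 : Th s l (1 * b0 * (aeval s q1 * b1)) 1 = 0 := by
      refine Th_zero s l _ _ ?_
      intro l1 q b l2 he i _
      have hne : l ≠ [] := by rw [he]; simp
      have hpre : GLw (B : Set M) s ((q1, b1) :: l1) := by
        rcases GLw.prefix (l1 := (q1, b1) :: l1) (l2 := l2) (q := q) (b := b) hl'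
          (by rw [he]; rfl) with h1 | h1
        · exact absurd h1 (by simp)
        · exact h1
      have hb10 : τ b1 = 0 := by
        cases l with
        | nil => exact absurd rfl hne
        | cons p l => exact hl'.2.2.1
      have hlg : GLw (B : Set M) s l := by
        cases l with
        | nil => exact absurd rfl hne
        | cons p l => exact hl'.2.2.2
      have hl1 : l1 = [] ∨ GLw (B : Set M) s l1 := GLw.prefix hlg he
      set ν := τ (aeval s (X ^ i : ℂ[X])) with hν
      have hRc : aeval s (X ^ i - C ν) ∈ cent (Algebra.adjoin ℂ {s} : Set M) :=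
        ⟨Polynomial.aeval_mem_adjoin_singleton ℂ s, aeval_center s _⟩
      have e1 : s ^ i * (1 * b0 * (aeval s q1 * b1) * zw s l1) =
          aeval s (X ^ i - C ν) * (b0 - τ b0 • (1 : M)) * zw s ((q1, b1) :: l1) +
            τ b0 • (aeval s ((X ^ i - C ν) * q1) * b1 * zw s l1) +
            ν • (b0 * zw s ((q1, b1) :: l1)) := by
        rw [map_mul, map_sub, map_pow, aeval_X, aeval_C, zw_cons, Algebra.algebraMap_eq_smul_one]
        simp only [mul_sub, sub_mul, mul_assoc, mul_smul_comm, smul_mul_assoc, one_mul, smul_sub]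
        module
      rw [τ_comm, e1, map_add, map_add, map_smul, map_smul,
        h _ (AltW.cons _ _ _ hRc hc (GLw.altW B s _ hpre)), GLw.tau_mul h hpre hb0,
        GLw.tau_block0 h hb1 hb10 hl1]
      simp
    have hR : (wp s b0 ((q1, b1) :: l)).2 1 1 =
        thp s q1 (1 * b0) (b1 * zw s l * 1) + Th s l (1 * b0 * (aeval s q1 * b1)) 1 := rfl
    have hW : (wp s b0 ((q1, b1) :: l)).1 = b0 * zw s ((q1, b1) :: l) := rfl
    rw [hW, hR, hL, hR1, hR2, add_zero, ← hs.poly q1]
    ring

/-- freeness implies Schwinger-Dyson -/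
theorem SD1_of_free (B : Subalgebra ℂ M) (s : M) (hs : IsSemi s)
    (h : Free1 (Algebra.adjoin ℂ {s} : Set M) (B : Set M)) : SD1 (B : Set M) s := by
  intro i z Θ hz
  have hs0 : τ s = 0 := by
    have := hs.sd () 1 (fun _ _ => 0) (Der.base 1 ⟨1, by simp⟩)
    simpa using this
  have h1 : ((1 : M), fun _ _ => (0 : ℂ)) ∈ redSpan (B : Set M) s := by
    refine Submodule.subset_span ⟨1, B.one_mem, [], Or.inl rfl, ?_⟩
    refine Prod.ext (by simp [wp]) ?_
    funext x y
    simp [wp]
  have h2 := redSpan_mul_der B s hs0 hz _ h1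
  have h3 : ∀ p ∈ redSpan (B : Set M) s, τ (s * p.1) = p.2 1 1 := by
    intro p hp
    induction hp using Submodule.span_induction with
    | mem p hp =>
      obtain ⟨b0, hb0, l, hl, rfl⟩ := hp
      exact fs_reduced B s hs h b0 hb0 l hl
    | zero => simp
    | add p q _ _ hp hq =>
      rw [Prod.fst_add, mul_add, map_add, hp, hq]; rfl
    | smul a p _ hp =>
      rw [Prod.smul_fst, mul_smul_comm, map_smul, hp]; rfl
  have h4 := h3 _ h2
  simpa [pmul] using h4

end Crest.Agent.FGF
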