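import Crest.Agent.FGF.DictBase

/-! MODULE Dict (row 134): families and one variable. -/

set_option autoImplicit false
set_option linter.unusedSectionVars false

namespace Crest.Agent.FGF

open Crest.Agent.GenII1 Filter Topology Polynomial

variable {M : Type} [CStarAlgebra M] [FinVN M]

theorem SD1.mono {B B' : Set M} {s : M} (h : SD1 B' s) (hB : B ⊆ B') : SD1 B s := by
  intro i z Θ hz
  refine h i z Θ ?_
  change Der B (fun _ : Unit => s) (fun _ => (1 : ℂ)) z Θ at hz
  change Der B' (fun _ : Unit => s) (fun _ => (1 : ℂ)) z Θ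
  induction hz with
  | base d hd => exact Der.base d (hB hd)
  | var j => exact Der.var j
  | add z z' Θ Θ' _ _ ih ih' => exact Der.add z z' Θ Θ' ih ih'
  | smul a z Θ _ ih => exact Der.smul a z Θ ih
  | mul z z' Θ Θ' _ _ ih ih' => exact Der.mul z z' Θ Θ' ih ih'

/-- elements of the algebra generated by `D` and the other variables have derivation `0` -/
theorem der_others {κ : Type} [DecidableEq κ] (D : Subalgebra ℂ M) (s : κ → M) (k : κ) {b : M}
    (hb : b ∈ Algebra.adjoin ℂ ((D : Set M) ∪ s '' {j | j ≠ k})) :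
    Der (D : Set M) s (fun j => if k = j then 1 else 0) b (fun _ _ => 0) := by
  induction hb using Algebra.adjoin_induction with
  | mem x hx =>
    rcases hx with hx | ⟨j, hj, rfl⟩
    · exact Der.base x hx
    · have := Der.var (D := (D : Set M)) (s := s) (c := fun j => if k = j then 1 else 0) j
      have e : (fun x y : M => (if k = j then (1 : ℂ) else 0) * (τ x * τ y)) = fun _ _ => 0 := by
        funext x y
        rw [if_neg (fun h => hj h.symm), zero_mul]
      rw [e] at this
      exact this
  | algebraMap r => exact Der.base _ (D.algebraMap_mem r)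
  | add x y _ _ hx hy => simpa using Der.add _ _ _ _ hx hy
  | mul x y _ _ hx hy => simpa using Der.mul _ _ _ _ hx hy

theorem SD.sd1 {κ : Type} [DecidableEq κ] (D : Subalgebra ℂ M) (s : κ → M)
    (h : SD (D : Set M) s) (k : κ) :
    SD1 (Algebra.adjoin ℂ ((D : Set M) ∪ s '' {j | j ≠ k}) : Set M) (s k) := by
  intro i z Θ hz
  refine h k z Θ ?_
  change Der _ (fun _ : Unit => s k) (fun _ => (1 : ℂ)) z Θ at hz
  change Der (D : Set M) s (fun j => if k = j then 1 else 0) z Θ
  induction hz with
  | base d hd => exact der_others D s k hd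
  | var j =>
    have := Der.var (D := (D : Set M)) (s := s) (c := fun j => if k = j then 1 else 0) k
    simpa using this
  | add z z' Θ Θ' _ _ ih ih' => exact Der.add z z' Θ Θ' ih ih'
  | smul a z Θ _ ih => exact Der.smul a z Θ ih
  | mul z z' Θ Θ' _ _ ih ih' => exact Der.mul z z' Θ Θ' ih ih'

theorem SD_of_sd1 {κ : Type} [DecidableEq κ] (D : Set M) (s : κ → M) (B : κ → Set M)
    (hD : ∀ k, D ⊆ B k) (hs : ∀ k j, j ≠ k → s j ∈ B k) (h : ∀ k, SD1 (B k) (s k)) :
    SD D s := by
  intro k z Θ hz
  refine h k () z Θ ?_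
  change Der D s (fun j => if k = j then 1 else 0) z Θ at hz
  change Der (B k) (fun _ : Unit => s k) (fun _ => (1 : ℂ)) z Θ
  induction hz with
  | base d hd => exact Der.base d (hD k hd)
  | var j =>
    by_cases hjk : k = j
    · subst hjk
      have := Der.var (D := B k) (s := fun _ : Unit => s k) (c := fun _ => (1 : ℂ)) ()
      simpa using this
    · have := Der.base (s := fun _ : Unit => s k) (c := fun _ => (1 : ℂ)) (s j)
        (hs k j (fun h => hjk h.symm))
      simpa [hjk] using this
  | add z z' Θ Θ' _ _ ih ih' => exact Der.add z z' Θ Θ' ih ih'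
  | smul a z Θ _ ih => exact Der.smul a z Θ ih
  | mul z z' Θ Θ' _ _ ih ih' => exact Der.mul z z' Θ Θ' ih ih'

end Crest.Agent.FGF
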