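import Crest.Agent.FGF.DictBase

/-! MODULE Dict (row 134): `Free1` under 2-norm closures; relation with `GenII1.IsFree`. -/

set_option autoImplicit false
set_option linter.unusedSectionVars false

namespace Crest.Agent.FGF

open Crest.Agent.GenII1 Filter Topology Polynomial

variable {M : Type} [CStarAlgebra M] [FinVN M]

/-- CHUNK R134-D1 (part 1).  An element of the 2-closure with trace zero is a 2-norm limit of
elements of the algebra with trace zero.
PROOF.  `a ∈ fg_cl P` is `L2mem P a`; take `a' ∈ P` with `n2 (a - a') < ε / 2` and replace it by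
`a'' = a' - τ a' • 1`; `|τ a'| = |τ (a' - a)| ≤ n2 (a - a')` and `n2 1 = 1`, so
`n2 (a - a'') < ε`. -/
theorem cent_approx (P : StarSubalgebra ℂ M) {a : M} (ha : a ∈ cent (fg_cl P : Set M)) {ε : ℝ}
    (hε : 0 < ε) : ∃ a' ∈ cent (P : Set M), n2 (a - a') < ε := by
  obtain ⟨haP, hτ⟩ := ha
  obtain ⟨a', ha', h1⟩ := (fg_mem_cl.1 haP) (ε / 2) (by linarith)
  have hal : τ (algebraMap ℂ M (τ a')) = τ a' := by
    rw [Algebra.algebraMap_eq_smul_one, map_smul, τ_one, smul_eq_mul, mul_one]
  refine ⟨a' - algebraMap ℂ M (τ a'), ⟨sub_mem ha' (algebraMap_mem P _), ?_⟩, ?_⟩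
  · rw [map_sub, hal, sub_self]
  · have e : a - (a' - algebraMap ℂ M (τ a')) = (a - a') + algebraMap ℂ M (τ a') := by abel
    rw [e]
    refine (n2_add_le _ _).trans_lt ?_
    have h2 : n2 (algebraMap ℂ M (τ a')) = ‖τ a'‖ := by
      rw [Algebra.algebraMap_eq_smul_one, n2_smul, n2_one, mul_one]
    have h3 : ‖τ a'‖ ≤ n2 (a - a') := by
      have h4 : τ (a - a') = - τ a' := by rw [map_sub, hτ, zero_sub]
      have := norm_τ_le_n2 (a - a')
      rwa [h4, norm_neg] at this
    rw [h2]
    linarith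

/-- CHUNK R134-D1 (part 2).  PROOF.  Induction on the alternating word (for all `ε`).
`cons a b z`: first choose (IH) an alternating word `z'` over `P, B` with
`(‖a‖*‖b‖+1) * n2 (z - z') < ε/3`, then `b' ∈ cent B` with `(‖a‖+1) * (‖z'‖+1) * n2 (b - b') < ε/3`,
then `a' ∈ cent P` with `(‖b'‖ * ‖z'‖+1) * n2 (a - a') < ε/3`; use
`a*b*z - a'*b'*z' = a*b*(z - z') + a*(b-b')*z' + (a-a')*b'*z'` and `n2_mul_le_left`,
`n2_mul_le_right`, `norm_mul_le`.  `last a e` is the same with two factors. -/
theorem AltW.approx (P B : StarSubalgebra ℂ M) {z : M}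
    (hz : AltW (cent (fg_cl P : Set M)) (cent (fg_cl B : Set M)) (fg_cl B : Set M) z) {ε : ℝ}
    (hε : 0 < ε) :
    ∃ z', AltW (cent (P : Set M)) (cent (B : Set M)) (B : Set M) z' ∧ n2 (z - z') < ε := by
  induction hz generalizing ε with
  | last a e ha he =>
    obtain ⟨e', he', h1⟩ := (fg_mem_cl.1 he) (ε / (2 * (‖a‖ + 1))) (by positivity)
    obtain ⟨a', ha', h2⟩ := cent_approx P ha (ε := ε / (2 * (‖e'‖ + 1))) (by positivity)
    refine ⟨a' * e', AltW.last a' e' ha' he', ?_⟩
    have e0 : a * e - a' * e' = a * (e - e') + (a - a') * e' := by noncomm_ring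
    rw [e0]
    have h3 : n2 (a * (e - e')) < ε / 2 := by
      refine (n2_mul_le_left _ _).trans_lt ?_
      rw [lt_div_iff₀ (by positivity)] at h1
      have := n2_nonneg (e - e')
      nlinarith [norm_nonneg a]
    have h4 : n2 ((a - a') * e') < ε / 2 := by
      refine (n2_mul_le_right _ _).trans_lt ?_
      rw [lt_div_iff₀ (by positivity)] at h2
      have := n2_nonneg (a - a')
      nlinarith [norm_nonneg e']
    exact (n2_add_le _ _).trans_lt (by linarith)
  | cons a b z ha hb _ ih =>
    obtain ⟨z', hz', h1⟩ := ih (ε := ε / (3 * (‖a * b‖ + 1))) (by positivity)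
    obtain ⟨b', hb', h2⟩ := cent_approx B hb (ε := ε / (3 * (‖a‖ * ‖z'‖ + 1))) (by positivity)
    obtain ⟨a', ha', h3⟩ := cent_approx P ha (ε := ε / (3 * (‖b' * z'‖ + 1))) (by positivity)
    refine ⟨a' * b' * z', AltW.cons a' b' z' ha' hb' hz', ?_⟩
    have e0 : a * b * z - a' * b' * z' =
        (a * b) * (z - z') + a * (b - b') * z' + (a - a') * (b' * z') := by noncomm_ring
    rw [e0]
    have h4 : n2 ((a * b) * (z - z')) < ε / 3 := by
      refine (n2_mul_le_left _ _).trans_lt ?_
      rw [lt_div_iff₀ (by positivity)] at h1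
      have := n2_nonneg (z - z')
      nlinarith [norm_nonneg (a * b)]
    have h5 : n2 (a * (b - b') * z') < ε / 3 := by
      refine (n2_mul_le_right _ _).trans_lt ?_
      have h6 := n2_mul_le_left a (b - b')
      rw [lt_div_iff₀ (by positivity)] at h2
      have := n2_nonneg (b - b')
      have h7 : n2 (a * (b - b')) * ‖z'‖ ≤ ‖a‖ * n2 (b - b') * ‖z'‖ :=
        mul_le_mul_of_nonneg_right h6 (norm_nonneg _)
      nlinarith [mul_nonneg (norm_nonneg a) (norm_nonneg z')]
    have h8 : n2 ((a - a') * (b' * z')) < ε / 3 := by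
      refine (n2_mul_le_right _ _).trans_lt ?_
      rw [lt_div_iff₀ (by positivity)] at h3
      have := n2_nonneg (a - a')
      nlinarith [norm_nonneg (b' * z')]
    have h9 := n2_add_le ((a * b) * (z - z') + a * (b - b') * z') ((a - a') * (b' * z'))
    have h10 := n2_add_le ((a * b) * (z - z')) (a * (b - b') * z')
    linarith

/-- freeness passes to the 2-norm closures (part 3 of R134-D1: `|τ z| = |τ (z - z')| ≤ n2 (z-z') < ε`
for all `ε`). -/
theorem Free1.closure (P B : StarSubalgebra ℂ M) (h : Free1 (P : Set M) (B : Set M)) :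
    Free1 (fg_cl P : Set M) (fg_cl B : Set M) := by
  intro z hz
  by_contra hne
  have hpos : 0 < ‖τ z‖ := norm_pos_iff.2 hne
  obtain ⟨z', hz', h1⟩ := AltW.approx P B hz hpos
  have h2 : τ (z - z') = τ z := by rw [map_sub, h z' hz', sub_zero]
  have h3 := norm_τ_le_n2 (z - z')
  rw [h2] at h3
  linarith

theorem dictD2_RW_bot {y w : M} {ε : Bool} (h : RW (⊥ : Subalgebra ℂ M) y ε w) :
    ∃ (c : ℂ) (n : ℕ), w = c • pw y ε ^ (n + 1) := by
  induction h with
  | base ε b hb =>
    obtain ⟨c, rfl⟩ := Algebra.mem_bot.1 hb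
    exact ⟨c, 0, by rw [Algebra.algebraMap_eq_smul_one, smul_mul_assoc, one_mul, zero_add, pow_one]⟩
  | same ε w b _ hb ih =>
    obtain ⟨c, rfl⟩ := Algebra.mem_bot.1 hb
    obtain ⟨c', n, rfl⟩ := ih
    refine ⟨c * c', n + 1, ?_⟩
    rw [Algebra.algebraMap_eq_smul_one, mul_smul_comm, mul_one, smul_mul_assoc, smul_mul_assoc,
      ← pow_succ, smul_smul]
  | flip ε w b _ hb h0 ih =>
    obtain ⟨c, rfl⟩ := Algebra.mem_bot.1 hb
    rw [Algebra.algebraMap_eq_smul_one, map_smul, τ_one, smul_eq_mul, mul_one] at h0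
    subst h0
    exact ⟨0, 0, by simp⟩

/-- CHUNK R134-D2 (part 1).  PROOF.  `StarAlgebra.adjoin_induction`-like: the set of all
`algebraMap r + a'` with `a'` in the span of the `(pw y ε)^(n+1)` is a star subalgebra containing
`y` (products of powers: `y^m (y⋆)^n` is a power again since `y` is unitary; equal exponents give
`1`). -/
theorem adjoin_unitary_span (y : unitary M) {a : M} (ha : a ∈ StarAlgebra.adjoin ℂ {(y : M)}) :
    ∃ r : ℂ, ∃ a' ∈ Submodule.span ℂ {z : M | ∃ (n : ℕ) (ε : Bool), z = pw (y : M) ε ^ (n + 1)},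
      a = algebraMap ℂ M r + a' := by
  have h1 : a ∈ adj (⊥ : Subalgebra ℂ M) (y : M) := by
    have h2 : a ∈ (StarAlgebra.adjoin ℂ {(y : M)}).toSubalgebra := ha
    rw [StarAlgebra.adjoin_toSubalgebra] at h2
    refine Algebra.adjoin_mono ?_ h2
    rintro x (hx | hx)
    · rw [Set.mem_singleton_iff] at hx
      exact Or.inr (Or.inl hx)
    · rw [Set.mem_star, Set.mem_singleton_iff] at hx
      refine Or.inr (Or.inr ?_)
      rw [Set.mem_singleton_iff, ← hx, star_star]
  obtain ⟨b, hb, z', hz', h⟩ := adj_span ⊥ y.2 h1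
  obtain ⟨r, rfl⟩ := Algebra.mem_bot.1 hb
  refine ⟨r, z', ?_, h⟩
  refine Submodule.span_le.2 ?_ hz'
  rintro w ⟨ε, w', b', hw', hb', rfl⟩
  obtain ⟨c, n, rfl⟩ := dictD2_RW_bot hw'
  obtain ⟨c', rfl⟩ := Algebra.mem_bot.1 hb'
  rw [Algebra.algebraMap_eq_smul_one, mul_smul_comm, mul_one]
  exact Submodule.smul_mem _ _ (Submodule.smul_mem _ _ (Submodule.subset_span ⟨n, ε, rfl⟩))

theorem dictD2_RW_pow {B : Subalgebra ℂ M} {c : M} (ε : Bool) (n : ℕ) :
    RW B c ε (pw c ε ^ (n + 1)) := by
  induction n with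
  | zero =>
    have := RW.base (B := B) (c := c) ε 1 B.one_mem
    simpa using this
  | succ n ih =>
    have := RW.same ε _ 1 ih B.one_mem
    rwa [mul_one, ← pow_succ] at this

theorem dictD2_RW_append {B : Subalgebra ℂ M} {c : M} {ε₀ : Bool} {y₀ b₀ : M}
    (h : RW B c ε₀ y₀) (hb : b₀ ∈ B) (h0 : τ b₀ = 0) (ε : Bool) (n : ℕ) :
    RW B c ε (y₀ * b₀ * pw c ε ^ (n + 1)) := by
  induction n with
  | zero =>
    rw [zero_add, pow_one]
    by_cases he : ε = ε₀
    · subst he
      exact RW.same ε y₀ b₀ h hb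
    · have he' : ε = !ε₀ := by cases ε <;> cases ε₀ <;> simp_all
      subst he'
      exact RW.flip ε₀ y₀ b₀ h hb h0
  | succ n ih =>
    have := RW.same ε _ 1 ih B.one_mem
    rwa [mul_one, mul_assoc, ← pow_succ] at this

/-- CHUNK R134-D2 (part 2).  PROOF.  Induction on the alternating word from the left, with the
statement "for all `ε₀ y₀ b₀` with `RW B c ε₀ y₀`, `b₀ ∈ B`, `τ b₀ = 0`: `τ (y₀ * b₀ * z) = 0`, and
`τ z = 0`": a power `(pw c ε)^(n+1)` is appended to a reduced word with `RW.same`/`RW.flip` (for the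
first letter; `τ b₀ = 0` so both are allowed) and `RW.same` with coefficient `1` (for the other
letters); at the end use `IsFree.zero`. -/
theorem altW_pow_zero (B : StarSubalgebra ℂ M) (y : unitary M)
    (h : IsFree B.toSubalgebra (y : M)) {z : M}
    (hz : AltW {z : M | ∃ (n : ℕ) (ε : Bool), z = pw (y : M) ε ^ (n + 1)} (cent (B : Set M))
      (B : Set M) z) : τ z = 0 := by
  suffices H : (∀ (ε₀ : Bool) (y₀ b₀ : M), RW B.toSubalgebra (y : M) ε₀ y₀ → b₀ ∈ B → τ b₀ = 0 →
      τ (y₀ * b₀ * z) = 0) ∧ τ z = 0 from H.2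
  induction hz with
  | last a e ha he =>
    obtain ⟨n, ε, rfl⟩ := ha
    constructor
    · intro ε₀ y₀ b₀ hy₀ hb₀ h0
      rw [← mul_assoc]
      exact h.zero ε _ e (dictD2_RW_append hy₀ hb₀ h0 ε n) he
    · exact h.zero ε _ e (dictD2_RW_pow ε n) he
  | cons a b z ha hb _ ih =>
    obtain ⟨n, ε, rfl⟩ := ha
    constructor
    · intro ε₀ y₀ b₀ hy₀ hb₀ h0
      rw [← mul_assoc, ← mul_assoc]
      exact ih.1 ε _ b (dictD2_RW_append hy₀ hb₀ h0 ε n) hb.1 hb.2
    · exact ih.1 ε _ b (dictD2_RW_pow ε n) hb.1 hb.2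

/-- multilinearity (part 3 of R134-D2): `τ = 0` on alternating words with first entries in `A0`
passes to the span of `A0`.  PROOF.  Prove `z ∈ Submodule.span ℂ {w | AltW A0 B0 B1 w}` by
induction on `AltW`, using `Submodule.span_induction` for `a`. -/
theorem altW_span {A0 B0 B1 : Set M} (h : ∀ z, AltW A0 B0 B1 z → τ z = 0) {z : M}
    (hz : AltW (Submodule.span ℂ A0 : Set M) B0 B1 z) : τ z = 0 := by
  have key : z ∈ Submodule.span ℂ {w : M | AltW A0 B0 B1 w} := by
    induction hz with
    | last a e ha he =>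
      refine Submodule.span_induction (p := fun a _ => a * e ∈ Submodule.span ℂ {w : M | AltW A0 B0 B1 w})
        ?_ ?_ ?_ ?_ ha
      · intro a ha
        exact Submodule.subset_span (AltW.last a e ha he)
      · rw [zero_mul]; exact Submodule.zero_mem _
      · intro x y _ _ hx hy
        rw [add_mul]; exact Submodule.add_mem _ hx hy
      · intro c x _ hx
        rw [smul_mul_assoc]; exact Submodule.smul_mem _ _ hx
    | cons a b z ha hb _ ih =>
      refine Submodule.span_induction
        (p := fun a _ => a * b * z ∈ Submodule.span ℂ {w : M | AltW A0 B0 B1 w}) ?_ ?_ ?_ ?_ ha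
      · intro a ha
        refine Submodule.span_induction
          (p := fun z _ => a * b * z ∈ Submodule.span ℂ {w : M | AltW A0 B0 B1 w}) ?_ ?_ ?_ ?_ ih
        · intro z hz
          exact Submodule.subset_span (AltW.cons a b z ha hb hz)
        · rw [mul_zero]; exact Submodule.zero_mem _
        · intro x y _ _ hx hy
          rw [mul_add]; exact Submodule.add_mem _ hx hy
        · intro c x _ hx
          rw [mul_smul_comm]; exact Submodule.smul_mem _ _ hx
      · rw [zero_mul, zero_mul]; exact Submodule.zero_mem _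
      · intro x y _ _ hx hy
        rw [add_mul, add_mul]; exact Submodule.add_mem _ hx hy
      · intro c x _ hx
        rw [smul_mul_assoc, smul_mul_assoc]; exact Submodule.smul_mem _ _ hx
  refine Submodule.span_induction (p := fun z _ => τ z = 0) ?_ ?_ ?_ ?_ key
  · intro z hz
    exact h z hz
  · exact map_zero _
  · intro x y _ _ hx hy
    rw [map_add, hx, hy, add_zero]
  · intro c x _ hx
    rw [map_smul, hx, smul_zero]

/-- CHUNK R134-D2 (part 4).  PROOF.  By `Free1.closure` and `Free1.mono` it is enough to treat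
`Free1 (StarAlgebra.adjoin ℂ {y}) B`; a centred element of `StarAlgebra.adjoin ℂ {y}` is in the span
of the powers by `adjoin_unitary_span` (`τ` of a power is `0` by `IsFree.zero` with coefficients
`1`, so `r = 0`); conclude with `altW_span`, `altW_pow_zero`. -/
theorem free1_of_isFree (B : StarSubalgebra ℂ M) (y : unitary M)
    (h : IsFree B.toSubalgebra (y : M)) : Free1 (vn {(y : M)} : Set M) (B : Set M) := by
  have h1 : Free1 ((StarAlgebra.adjoin ℂ {(y : M)} : StarSubalgebra ℂ M) : Set M) (B : Set M) := by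
    intro z hz
    refine altW_span (fun z hz => altW_pow_zero B y h hz) (hz.mono ?_ le_rfl le_rfl)
    rintro a ⟨ha, ha0⟩
    obtain ⟨r, a', ha', rfl⟩ := adjoin_unitary_span y ha
    have h2 : τ a' = 0 := by
      refine Submodule.span_induction (p := fun z _ => τ z = 0) ?_ ?_ ?_ ?_ ha'
      · rintro z ⟨n, ε, rfl⟩
        have := h.zero ε _ 1 (dictD2_RW_pow ε n) (B.toSubalgebra.one_mem)
        rwa [mul_one] at this
      · exact map_zero _
      · intro x y _ _ hx hy
        rw [map_add, hx, hy, add_zero]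
      · intro c x _ hx
        rw [map_smul, hx, smul_zero]
    rw [map_add, h2, add_zero, Algebra.algebraMap_eq_smul_one, map_smul, τ_one, smul_eq_mul,
      mul_one] at ha0
    rw [ha0, map_zero, zero_add]
    exact ha'
  exact (h1.closure).mono le_rfl (fg_le_cl B)

/-- prefixes `b₀ a₁ b₁ ⋯ a_k b_k` -/
inductive D3PreW (B : StarSubalgebra ℂ M) (P0 : Set M) : M → Prop
  | base (b0 : M) (hb : b0 ∈ B) : D3PreW B P0 b0
  | step (p a b : M) (hp : D3PreW B P0 p) (ha : a ∈ P0) (hb : b ∈ cent (B : Set M)) :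
      D3PreW B P0 (p * a * b)

theorem AltW.D3_mul_right {B : StarSubalgebra ℂ M} {A0 B0 : Set M} {z : M}
    (hz : AltW A0 B0 (B : Set M) z) {b : M} (hb : b ∈ B) : AltW A0 B0 (B : Set M) (z * b) := by
  induction hz with
  | last a e ha he =>
    rw [mul_assoc]
    exact AltW.last a _ ha (mul_mem (S := StarSubalgebra ℂ M) he hb)
  | cons a b' z ha hb' _ ih =>
    rw [mul_assoc]
    exact AltW.cons a b' _ ha hb' ih

theorem D3_zero {B : StarSubalgebra ℂ M} {P0 : Set M}
    (h : ∀ z, AltW P0 (cent (B : Set M)) (B : Set M) z → τ z = 0) {p : M}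
    (hp : D3PreW B P0 p) : ∀ z, AltW P0 (cent (B : Set M)) (B : Set M) z → τ (p * z) = 0 := by
  induction hp with
  | base b0 hb =>
    intro z hz
    rw [τ_comm]
    exact h _ (hz.D3_mul_right hb)
  | step p a b _ ha hb ih =>
    intro z hz
    have := ih _ (AltW.cons a b z ha hb hz)
    rw [mul_assoc p a b, mul_assoc p (a * b) z]
    exact this

theorem D3_pw_mem (y : unitary M) (hy : Haar y) (ε : Bool) (n : ℕ) :
    pw (y : M) ε ^ (n + 1) ∈ cent (vn {(y : M)} : Set M) := by
  have hmem : (y : M) ∈ vn {(y : M)} := fg_le_cl _ (StarAlgebra.subset_adjoin ℂ _ rfl)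
  cases ε with
  | true =>
    refine ⟨?_, hy (n + 1) (Nat.succ_pos n)⟩
    exact pow_mem hmem (n + 1)
  | false =>
    refine ⟨?_, ?_⟩
    · exact pow_mem (star_mem hmem) (n + 1)
    · rw [pw_false, ← star_pow, τ_star, hy (n + 1) (Nat.succ_pos n), map_zero]

/-- CHUNK R134-D3.  PROOF.  Let `Pw = {pw y ε ^ (n+1)}`.  Show by induction on `RW B y ε w`: for every
`e ∈ B`, `w * e` is in the span of `{b₀ * z | b₀ ∈ B, AltW Pw (cent B) B z}` - better: in the span
of `{b₀ * z | z a word a₁ b₁ ⋯ a_k, a_j ∈ Pw, b_j ∈ cent B, the last `a_k` of sign `ε`}` (define an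
inductive predicate appending on the right): `same`: `w * b * pw y ε` with `b = τ b • 1 + b₀`:
the constant merges the last power, the centred part appends; `flip`: append.  Then
`τ (b₀ * z' * e) = τ (z' * (e * b₀)) = 0` since `z' * (e * b₀)` is an alternating word, powers of a
Haar unitary are centred elements of `vn {y}` (`Haar` for positive powers; for powers of `star y`
take stars/conjugates: `τ (star a) = conj (τ a)`). -/
theorem isFree_of_free1 (B : StarSubalgebra ℂ M) (y : unitary M) (hy : Haar y)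
    (h : Free1 (vn {(y : M)} : Set M) (B : Set M)) : IsFree B.toSubalgebra (y : M) := by
  set P0 : Set M := cent (vn {(y : M)} : Set M) with hP0
  set G : Bool → Set M := fun ε => {w | ∃ (p : M) (n : ℕ), D3PreW B P0 p ∧
    w = p * pw (y : M) ε ^ (n + 1)} with hG
  have key : ∀ ε w, RW B.toSubalgebra (y : M) ε w → w ∈ Submodule.span ℂ (G ε) := by
    intro ε w hw
    induction hw with
    | base ε b hb =>
      exact Submodule.subset_span ⟨b, 0, D3PreW.base b hb, by rw [zero_add, pow_one]⟩
    | same ε w b hw hb ih =>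
      clear hw
      induction ih using Submodule.span_induction with
      | mem v hv =>
        obtain ⟨p, n, hp, rfl⟩ := hv
        have e : p * pw (y : M) ε ^ (n + 1) * b * pw (y : M) ε =
            p * pw (y : M) ε ^ (n + 1) * (b - (τ b) • (1 : M)) * pw (y : M) ε ^ (0 + 1) +
            (τ b) • (p * pw (y : M) ε ^ (n + 1 + 1)) := by
          rw [zero_add, pow_one, mul_sub, sub_mul, mul_smul_comm, mul_one, smul_mul_assoc,
            mul_assoc p _ (pw (y : M) ε), ← pow_succ, sub_add_cancel]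
        rw [e]
        refine Submodule.add_mem _ (Submodule.subset_span ⟨_, 0, D3PreW.step p _ _ hp
          (D3_pw_mem y hy ε n) ⟨?_, fr_center_τ b⟩, rfl⟩)
          (Submodule.smul_mem _ _ (Submodule.subset_span ⟨p, n + 1, hp, rfl⟩))
        exact fr_center_mem B.toSubalgebra hb
      | zero => rw [zero_mul, zero_mul]; exact Submodule.zero_mem _
      | add v v' _ _ h h' => rw [add_mul, add_mul]; exact Submodule.add_mem _ h h'
      | smul r v _ h => rw [smul_mul_assoc, smul_mul_assoc]; exact Submodule.smul_mem _ _ h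
    | flip ε w b hw hb h0 ih =>
      clear hw
      induction ih using Submodule.span_induction with
      | mem v hv =>
        obtain ⟨p, n, hp, rfl⟩ := hv
        exact Submodule.subset_span ⟨p * pw (y : M) ε ^ (n + 1) * b, 0, D3PreW.step p _ _ hp
          (D3_pw_mem y hy ε n) ⟨hb, h0⟩, by rw [zero_add, pow_one]⟩
      | zero => rw [zero_mul, zero_mul]; exact Submodule.zero_mem _
      | add v v' _ _ h h' => rw [add_mul, add_mul]; exact Submodule.add_mem _ h h'
      | smul r v _ h => rw [smul_mul_assoc, smul_mul_assoc]; exact Submodule.smul_mem _ _ h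
  refine ⟨y.2, fun ε w e hw he => ?_⟩
  have h1 := key ε w hw
  clear hw
  induction h1 using Submodule.span_induction with
  | mem v hv =>
    obtain ⟨p, n, hp, rfl⟩ := hv
    rw [mul_assoc]
    exact D3_zero h hp _ (AltW.last _ e (D3_pw_mem y hy ε n) he)
  | zero => rw [zero_mul, map_zero]
  | add v v' _ _ h h' => rw [add_mul, map_add, h, h', add_zero]
  | smul r v _ h => rw [smul_mul_assoc, map_smul, h, smul_zero]

end Crest.Agent.FGF
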