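import Crest.Agent.FGF.Defs

/-! Row 134, module Dict: linear transformations of Schwinger-Dyson families (helper26). -/

set_option autoImplicit false
set_option linter.unusedSectionVars false

namespace Crest.Agent.FGF

open Crest.Agent.GenII1 Filter Topology

variable {M : Type} [CStarAlgebra M] [FinVN M]

private theorem dl_congr {κ : Type} {D : Set M} {s : κ → M} {c : κ → ℂ} {z z' : M}
    {Θ Θ' : M → M → ℂ} (h : Der D s c z Θ) (hz : z = z') (hΘ : ∀ x y, Θ x y = Θ' x y) :
    Der D s c z' Θ' := by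
  have e : Θ = Θ' := funext fun x => funext fun y => hΘ x y
  subst hz; subst e; exact h

private theorem dl_sum {κ : Type} (D : Set M) (s : κ → M) (c α : κ → ℂ) (i₀ : κ)
    (S : Finset κ) : Der D s c (∑ j ∈ S, α j • s j)
      (fun x y => ∑ j ∈ S, α j * (c j * (τ x * τ y))) := by
  classical
  induction S using Finset.induction_on with
  | empty =>
    refine dl_congr (Der.smul 0 _ _ (Der.var (D := D) (s := s) (c := c) i₀)) (by simp) ?_
    intro x y; simp
  | insert a S ha ih =>
    refine dl_congr (Der.add _ _ _ _ (Der.smul (α a) _ _ (Der.var (D := D) (s := s) (c := c) a)) ih)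
      (by rw [Finset.sum_insert ha]) ?_
    intro x y
    rw [Finset.sum_insert ha]

/-- linear transformations of Schwinger-Dyson families -/
theorem SD_lin' {κ κ' : Type} [Fintype κ] (D : Set M) (s : κ → M) (c : κ → κ → ℂ)
    (hs : SDc D s c) (α : κ' → κ → ℂ) :
    SDc D (fun a => ∑ i, α a i • s i) (fun a b => ∑ i, ∑ j, α a i * α b j * c i j) := by
  intro a z Θ h
  have key : ∃ Θ' : κ → M → M → ℂ, (∀ i, Der D s (c i) z (Θ' i)) ∧
      ∀ x y, Θ x y = ∑ i, α a i * Θ' i x y := by
    induction h with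
    | base d hd => exact ⟨fun _ _ _ => 0, fun i => Der.base d hd, fun x y => by simp⟩
    | var b =>
      refine ⟨fun i x y => ∑ j, α b j * (c i j * (τ x * τ y)),
        fun i => dl_sum D s (c i) (α b) i Finset.univ, fun x y => ?_⟩
      simp only [Finset.mul_sum, Finset.sum_mul]
      exact Finset.sum_congr rfl fun i _ => Finset.sum_congr rfl fun j _ => by ring
    | add z z' Θ Θ' _ _ h1 h2 =>
      obtain ⟨T1, h1, e1⟩ := h1
      obtain ⟨T2, h2, e2⟩ := h2
      refine ⟨fun i x y => T1 i x y + T2 i x y, fun i => Der.add _ _ _ _ (h1 i) (h2 i),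
        fun x y => ?_⟩
      simp only [e1, e2]
      rw [← Finset.sum_add_distrib]
      exact Finset.sum_congr rfl fun i _ => by ring
    | smul r z Θ _ h1 =>
      obtain ⟨T1, h1, e1⟩ := h1
      refine ⟨fun i x y => r * T1 i x y, fun i => Der.smul r _ _ (h1 i), fun x y => ?_⟩
      simp only [e1]
      rw [Finset.mul_sum]
      exact Finset.sum_congr rfl fun i _ => by ring
    | mul z z' Θ Θ' _ _ h1 h2 =>
      obtain ⟨T1, h1, e1⟩ := h1
      obtain ⟨T2, h2, e2⟩ := h2
      refine ⟨fun i x y => T1 i x (z' * y) + T2 i (x * z) y,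
        fun i => Der.mul _ _ _ _ (h1 i) (h2 i), fun x y => ?_⟩
      simp only [e1, e2]
      rw [← Finset.sum_add_distrib]
      exact Finset.sum_congr rfl fun i _ => by ring
  obtain ⟨Θ', h1, h2⟩ := key
  rw [h2, Finset.sum_mul, map_sum]
  refine Finset.sum_congr rfl fun i _ => ?_
  rw [smul_mul_assoc, map_smul, smul_eq_mul, hs i z (Θ' i) (h1 i)]

/-- members of a free semicircular family are semicircular -/
theorem SD.isSemi' {κ : Type} [DecidableEq κ] (D : Set M) (hD : ∀ z : ℂ, algebraMap ℂ M z ∈ D)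
    (s : κ → M) (hs : SD D s) (k : κ) (hk : IsSelfAdjoint (s k)) : IsSemi (s k) := by
  refine ⟨hk, fun _ z Θ h => hs k z Θ ?_⟩
  induction h with
  | base d hd =>
    obtain ⟨r, rfl⟩ := hd
    exact Der.base _ (hD r)
  | var _ =>
    refine dl_congr (Der.var (D := D) (s := s) (c := fun j => if k = j then 1 else 0) k) rfl ?_
    intro x y; simp
  | add z z' Θ Θ' _ _ h1 h2 => exact Der.add _ _ _ _ h1 h2
  | smul r z Θ _ h1 => exact Der.smul _ _ _ h1
  | mul z z' Θ Θ' _ _ h1 h2 => exact Der.mul _ _ _ _ h1 h2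

end Crest.Agent.FGF
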