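import Crest.Agent.FGF.Ext
import Crest.Agent.FGF.MulRight
import Crest.Agent.FGF.DictFree
import Crest.Agent.FGF.DictFS
import Crest.Agent.FGF.DictFam
import Crest.Agent.FGF.DictLin

/-! MODULE Dict (lead: helper7): free Haar families, freeness (`GenII1.IsFree`) and
Schwinger-Dyson relations. -/

set_option autoImplicit false
set_option linter.unusedSectionVars false

namespace Crest.Agent.FGF

open Crest.Agent.GenII1 Filter Topology

variable {M : Type} [CStarAlgebra M] [FinVN M]

/-! `FH_isFree`, `FH_option`, `FH_update` are proved in `FGF.MulRight`. -/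

/-- a semicircular family in the algebras of a free Haar family satisfies Schwinger-Dyson over the
algebra generated by the rest -/
theorem SD_of_FH {ι κ : Type} [DecidableEq κ] (g : ι ⊕ κ → unitary M) (hg : FH g) (s : κ → M)
    (hs : ∀ k, IsSemi (s k)) (hsv : ∀ k, s k ∈ vn {(g (.inr k) : M)}) :
    SD (vn (Set.range fun i => (g (.inl i) : M)) : Set M) s := by
  set V : κ → StarSubalgebra ℂ M :=
    fun k => vn (Set.range fun i : {i // i ≠ (Sum.inr k : ι ⊕ κ)} => (g i : M)) with hV
  refine SD_of_sd1 _ s (fun k => (V k : Set M)) ?_ ?_ ?_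
  · intro k
    refine vn_mono ?_
    rintro _ ⟨i, rfl⟩
    exact ⟨⟨.inl i, by simp⟩, rfl⟩
  · intro k j hj
    refine vn_mono ?_ (hsv j)
    rintro _ rfl
    exact ⟨⟨.inr j, by simpa using hj⟩, rfl⟩
  · intro k
    have h1 := free1_of_isFree (V k) (g (.inr k)) (FH_isFree g hg (.inr k))
    refine SD1_of_free (V k).toSubalgebra (s k) (hs k) (h1.mono ?_ (fun _ h => h))
    have h2 : Algebra.adjoin ℂ {s k} ≤ (vn {(g (.inr k) : M)}).toSubalgebra := by
      refine Algebra.adjoin_le ?_
      rintro _ rfl
      exact hsv k
    exact h2

/-- Schwinger-Dyson over `D`: each variable is free from the 2-closed algebra generated by `D` and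
the others -/
theorem SD.free1 {κ : Type} [DecidableEq κ] (D : StarSubalgebra ℂ M) (s : κ → M)
    (hsa : ∀ k, IsSelfAdjoint (s k)) (hs : SD (D : Set M) s) (k : κ) :
    Free1 (vn {s k} : Set M) (vn ((D : Set M) ∪ s '' {j | j ≠ k}) : Set M) := by
  have h1 := free_of_SD1 _ (s k) (SD.sd1 D.toSubalgebra s hs k)
  have e1 : ((StarAlgebra.adjoin ℂ {s k} : StarSubalgebra ℂ M) : Set M) ⊆
      (Algebra.adjoin ℂ {s k} : Set M) := by
    intro x hx
    have hx' : x ∈ (StarAlgebra.adjoin ℂ {s k}).toSubalgebra := hx
    rw [StarAlgebra.adjoin_toSubalgebra] at hx'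
    have e : ({s k} ∪ star {s k} : Set M) = {s k} := by
      rw [Set.star_singleton, (hsa k).star_eq, Set.union_self]
    rw [e] at hx'
    exact hx'
  have e2 : ((StarAlgebra.adjoin ℂ ((D : Set M) ∪ s '' {j | j ≠ k}) : StarSubalgebra ℂ M) : Set M) ⊆
      (Algebra.adjoin ℂ ((D.toSubalgebra : Set M) ∪ s '' {j | j ≠ k}) : Set M) := by
    intro x hx
    have hx' : x ∈ (StarAlgebra.adjoin ℂ ((D : Set M) ∪ s '' {j | j ≠ k})).toSubalgebra := hx
    rw [StarAlgebra.adjoin_toSubalgebra] at hx'
    refine Algebra.adjoin_mono ?_ hx'
    rintro y (hy | hy)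
    · exact hy
    · rcases hy with hy | ⟨j, hj, hj'⟩
      · left
        have : star y ∈ D := hy
        simpa using star_mem this
      · right
        refine ⟨j, hj, ?_⟩
        have := congrArg star hj'
        rw [star_star, (hsa j).star_eq] at this
        exact this
  exact Free1.closure _ _ (h1.mono e1 e2)

/-- Schwinger-Dyson implies freeness: Haar unitaries in the algebras generated by the members of a
free semicircular family over `D`, together with a free Haar family in `D`, form a free Haar
family. -/
theorem FH_of_SD {ι κ : Type} [DecidableEq κ] [Fintype κ] (g0 : ι → unitary M) (hg0 : FH g0)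
    (D : StarSubalgebra ℂ M) (hD : ∀ i, (g0 i : M) ∈ D) (s : κ → M)
    (hsa : ∀ k, IsSelfAdjoint (s k)) (hs : SD (D : Set M) s) (y : κ → unitary M)
    (hyH : ∀ k, Haar (y k)) (hy : ∀ k, (y k : M) ∈ vn {s k}) : FH (Sum.elim g0 y) := by
  have key : ∀ S : Finset κ, FH (Sum.elim g0 (fun k : S => y k)) := by
    intro S
    induction S using Finset.induction_on with
    | empty =>
      have h1 := FH_comp g0 hg0 (fun x : ι ⊕ (∅ : Finset κ) =>
        x.elim id (fun k => absurd k.2 (Finset.notMem_empty _))) ?_
      · convert h1 using 1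
        funext x
        rcases x with i | k
        · rfl
        · exact absurd k.2 (Finset.notMem_empty _)
      · rintro (i | k) (j | k')
        · intro h; exact congrArg _ h
        · exact absurd k'.2 (Finset.notMem_empty _)
        · exact absurd k.2 (Finset.notMem_empty _)
        · exact absurd k.2 (Finset.notMem_empty _)
    | insert k S hk ih =>
      have hfree : IsFree (vn ((D : Set M) ∪ s '' {j | j ≠ k})).toSubalgebra (y k : M) := by
        refine isFree_of_free1 _ (y k) (hyH k) ((SD.free1 D s hsa hs k).mono ?_ (fun _ h => h))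
        exact vn_le_vn (by rintro _ rfl; exact hy k)
      have hopt := FH_option (Sum.elim g0 (fun k : S => y k)) ih
        (vn ((D : Set M) ∪ s '' {j | j ≠ k})) ?_ (y k) hfree
      · have h1 := FH_comp _ hopt (fun x : ι ⊕ {x // x ∈ insert k S} =>
          x.elim (fun i => some (.inl i)) (fun j : {x // x ∈ insert k S} =>
            if h : j.1 = k then none else
            some (.inr ⟨j.1, (Finset.mem_insert.1 j.2).resolve_left h⟩))) ?_
        · convert h1 using 1
          funext x
          rcases x with i | j
          · rfl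
          · by_cases h : j.1 = k
            · simp [h]
            · simp [h]
        · rintro (i | j) (i' | j') hh
          · simp only [Sum.elim_inl, Option.some.injEq, Sum.inl.injEq] at hh
            rw [hh]
          · by_cases h : j'.1 = k
            · simp [h] at hh
            · simp [h] at hh
          · by_cases h : j.1 = k
            · simp [h] at hh
            · simp [h] at hh
          · by_cases h : j.1 = k
            · by_cases h' : j'.1 = k
              · congr 1; exact Subtype.ext (h.trans h'.symm)
              · simp [h, h'] at hh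
            · by_cases h' : j'.1 = k
              · simp [h, h'] at hh
              · simp only [Sum.elim_inr, h, h', dite_false, Option.some.injEq, Sum.inr.injEq,
                  Subtype.mk.injEq] at hh
                congr 1; exact Subtype.ext hh
      · rintro (i | j)
        · exact mem_vn_of_mem (Or.inl (hD i))
        · have hjk : (j : κ) ≠ k := fun h => hk (h ▸ j.2)
          refine vn_le_vn ?_ (hy j)
          rintro _ rfl
          exact mem_vn_of_mem (Or.inr ⟨j, hjk, rfl⟩)
  have h1 := FH_comp _ (key Finset.univ) (fun x : ι ⊕ κ =>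
    x.elim Sum.inl (fun j => .inr ⟨j, Finset.mem_univ j⟩)) ?_
  · convert h1 using 1
    funext x
    rcases x with i | j <;> rfl
  · rintro (i | j) (i' | j') hh <;> simp_all

/-- linear transformations of Schwinger-Dyson families -/
theorem SD_lin {κ κ' : Type} [Fintype κ] (D : Set M) (s : κ → M) (c : κ → κ → ℂ)
    (hs : SDc D s c) (α : κ' → κ → ℂ) :
    SDc D (fun a => ∑ i, α a i • s i) (fun a b => ∑ i, ∑ j, α a i * α b j * c i j) :=
  SD_lin' D s c hs α

/-- members of a free semicircular family are semicircular -/
theorem SD.isSemi {κ : Type} [DecidableEq κ] (D : Set M) (hD : ∀ z : ℂ, algebraMap ℂ M z ∈ D)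
    (s : κ → M) (hs : SD D s) (k : κ) (hk : IsSelfAdjoint (s k)) : IsSemi (s k) :=
  SD.isSemi' D hD s hs k hk

end Crest.Agent.FGF
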