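import Crest.Agent.FGF.Util
import Crest.Agent.FGF.Dict
import Crest.Agent.FGF.Semi
import Crest.Agent.FGF.CompG0

/-! MODULE Comp, part A (helper42): `x = r √Z`, free Haar family `(Z, a_j, r a_j r)`. -/

set_option autoImplicit false
set_option linter.unusedSectionVars false

namespace Crest.Agent.FGF

open Crest.Agent.GenII1 Filter Topology

variable {N : Type} [CStarAlgebra N] [FinVN N]

/-! ### basic facts on `vn` -/

theorem vn_closed (S : Set N) : TClosed (vn S) := fg_cl_closed _

/-- a star subalgebra which is its own 2-closure in the sense of `L2mem` -/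
theorem mem_vn_of_L2mem {S : Set N} {x : N} (h : L2mem (vn S) x) : x ∈ vn S :=
  mem_of_L2mem (vn_closed S) le_rfl h

/-- words in the family: a free Haar family composed with an injective homomorphism -/
theorem FH_hom {ι κ : Type} (g : ι → unitary N) (hg : FH g)
    (ψ : FreeGroup κ →* FreeGroup ι) (hψ : Function.Injective ψ) :
    FH (fun k => ev g (ψ (FreeGroup.of k))) := by
  have e : ev (fun k => ev g (ψ (FreeGroup.of k))) = (ev g).comp ψ := by
    apply FreeGroup.ext_hom
    intro k
    simp
  intro h hh
  rw [e]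
  exact hg _ (fun h1 => hh (hψ (by rw [h1, map_one])))

theorem inv_mem_star {S : StarSubalgebra ℂ N} {u : unitary N} (hu : (u : N) ∈ S) :
    ((u⁻¹ : unitary N) : N) ∈ S := by
  have e : ((u⁻¹ : unitary N) : N) = star (u : N) := rfl
  rw [e]
  exact star_mem hu

theorem ev_mem_sub {ι : Type} (g : ι → unitary N) (S : StarSubalgebra ℂ N)
    (hS : ∀ i, (g i : N) ∈ S) (h : FreeGroup ι) : ((ev g h : unitary N) : N) ∈ S := by
  induction h using FreeGroup.induction_on with
  | C1 => simp [one_mem]
  | of i => simpa using hS i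
  | inv_of i ih => rw [map_inv]; exact inv_mem_star ih
  | mul x y hx hy => rw [map_mul, Submonoid.coe_mul]; exact mul_mem hx hy

theorem ev_mem_vn {ι : Type} (g : ι → unitary N) (h : FreeGroup ι) :
    ((ev g h : unitary N) : N) ∈ vn (gens g) :=
  ev_mem_sub g _ (fun i => subset_vn (gens g) ⟨i, rfl⟩) h

/-- the family `(Z, a_j, r a_j r)` -/
noncomputable def zab {J : Type} (Z : unitary N) (a : J → unitary N) (r : unitary N) :
    Unit ⊕ (J × Bool) → unitary N :=
  Sum.elim (fun _ => Z) (fun p => if p.2 then r * a p.1 * r else a p.1)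

end Crest.Agent.FGF
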