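import Crest.Agent.FGF.CompA0

set_option autoImplicit false
set_option linter.unusedSectionVars false

namespace Crest.Agent.FGF

open Crest.Agent.GenII1 Filter Topology

variable {N : Type} [CStarAlgebra N] [FinVN N]

/-- inverting one letter -/
theorem FH_inv_one {ι : Type} [DecidableEq ι] (g : ι → unitary N) (hg : FH g) (l : ι) :
    FH (Function.update g l (g l)⁻¹) := by
  let ψ : FreeGroup ι →* FreeGroup ι :=
    FreeGroup.lift (fun i => if i = l then (FreeGroup.of i)⁻¹ else FreeGroup.of i)
  have hψ : ψ.comp ψ = MonoidHom.id _ := by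
    apply FreeGroup.ext_hom
    intro i
    by_cases h : i = l
    · simp [ψ, h]
    · simp [ψ, h]
  have hinj : Function.Injective ψ := by
    intro a b hab
    have h1 : (ψ.comp ψ) a = (ψ.comp ψ) b := by
      simp only [MonoidHom.comp_apply, hab]
    rw [hψ] at h1
    simpa using h1
  have h := FH_hom g hg ψ hinj
  have e : (fun k => ev g (ψ (FreeGroup.of k))) = Function.update g l (g l)⁻¹ := by
    funext k
    by_cases hk : k = l
    · subst hk
      simp [ψ]
    · simp [ψ, hk]
  rwa [e] at h

/-- conjugating one member -/
theorem FH_conj_one {ι : Type} [DecidableEq ι] (g : ι → unitary N) (hg : FH g) (l : ι)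
    (u : unitary N) (hu : (u : N) ∈ vn (Set.range fun i : {i // i ≠ l} => (g i : N))) :
    FH (Function.update g l (u⁻¹ * g l * u)) := by
  have hr : ∀ x : unitary N, (fun i : {i // i ≠ l} => ((Function.update g l x i : unitary N) : N)) =
      fun i : {i // i ≠ l} => (g i : N) := by
    intro x
    funext i
    rw [Function.update_of_ne i.2]
  have h1 := FH_update g hg l u hu
  have h2 := FH_inv_one _ h1 l
  rw [Function.update_idem, Function.update_self, mul_inv_rev] at h2
  have h3 := FH_update _ h2 l u (by rw [hr]; exact hu)
  rw [Function.update_idem, Function.update_self] at h3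
  have h4 := FH_inv_one _ h3 l
  rw [Function.update_idem, Function.update_self] at h4
  have e : (u⁻¹ * (g l)⁻¹ * u)⁻¹ = u⁻¹ * g l * u := by group
  rwa [e] at h4

/-- CHUNK R134-P-A1. `u ∈ vn (g i, i ∉ T)` unitary, `T` finite: conjugating the members in `T` by
`u` gives a free Haar family.  PROOF: induction on `T`; one member `l`: `g l ↦ g l * u` by
`FH_update`; `g l ↦ u⁻¹ * g l` = inverse, `FH_update`, inverse (`FH_hom` with the automorphism of the
free group inverting the letter `l`).  Note `u ∈ vn (g i, i ≠ l)` at every stage since the members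
outside `T` never change. -/
theorem FH_conj {ι : Type} [DecidableEq ι] (g : ι → unitary N) (hg : FH g) (T : Finset ι)
    (u : unitary N) (hu : (u : N) ∈ vn (Set.range fun i : {i // i ∉ T} => (g i : N))) :
    FH (fun i => if i ∈ T then u⁻¹ * g i * u else g i) := by
  induction T using Finset.induction_on with
  | empty => simpa using hg
  | insert l T hl ih =>
    have hu' : (u : N) ∈ vn (Set.range fun i : {i // i ∉ T} => (g i : N)) := by
      refine vn_mono ?_ hu
      rintro _ ⟨i, rfl⟩
      exact ⟨⟨i.1, fun h => i.2 (Finset.mem_insert_of_mem h)⟩, rfl⟩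
    have h1 := ih hu'
    have h2 := FH_conj_one _ h1 l u (by
      refine vn_mono ?_ hu
      rintro _ ⟨i, rfl⟩
      refine ⟨⟨i.1, fun h => i.2 (by rw [h]; exact Finset.mem_insert_self _ _)⟩, ?_⟩
      have : i.1 ∉ T := fun h => i.2 (Finset.mem_insert_of_mem h)
      simp [this])
    have e : Function.update (fun i => if i ∈ T then u⁻¹ * g i * u else g i) l
        (u⁻¹ * (if l ∈ T then u⁻¹ * g l * u else g l) * u) =
        fun i => if i ∈ insert l T then u⁻¹ * g i * u else g i := by
      funext i
      by_cases hi : i = l
      · subst hi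
        simp [hl]
      · simp [hi]
    rw [← e]
    exact h2

end Crest.Agent.FGF
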