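import Crest.Agent.FGF.CompA0
import Crest.Agent.FGF.CompG

set_option autoImplicit false
set_option linter.unusedSectionVars false

namespace Crest.Agent.FGF

open Crest.Agent.GenII1 Filter Topology

variable {N : Type} [CStarAlgebra N] [FinVN N]

/-- CHUNK R134-P-A2.  `tau (y * x) = 0` for `y` in the von Neumann algebra of the even words
(index-2 subgroup), `x = g none`.  PROOF: `y` is in the 2-closure of the linear span of the words
`ev g (kHom k)` (`StarAlgebra.adjoin` of a set of unitaries closed under products and inverses is the span) and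
`tau (ev g (kHom k) * x) = 0` by `kHom_mul_ne`; use |tau (z x)| ≤ n2 z for unitary x. -/
theorem tau_even_mul {S0 S1 : Type} (g : Option (S0 ⊕ S1) → unitary N) (hg : FH g) (y : N)
    (hy : y ∈ vn (gens fun k : KL S0 S1 => ev g (kImg k))) : τ (y * (g none : N)) = 0 := by
  set W : Set N := Set.range fun k : FreeGroup (KL S0 S1) => ((ev g (kHom k) : unitary N) : N)
    with hW
  have hmul : ∀ a ∈ Submodule.span ℂ W, ∀ b ∈ Submodule.span ℂ W,
      a * b ∈ Submodule.span ℂ W := by
    intro a ha b hb
    have h := Submodule.mul_mem_mul ha hb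
    rw [Submodule.span_mul_span] at h
    refine Submodule.span_mono ?_ h
    rintro _ ⟨_, ⟨k, rfl⟩, _, ⟨l, rfl⟩, rfl⟩
    exact ⟨k * l, by simp⟩
  have hstar : ∀ a ∈ Submodule.span ℂ W, star a ∈ Submodule.span ℂ W := by
    intro a ha
    induction ha using Submodule.span_induction with
    | mem a ha =>
      obtain ⟨k, rfl⟩ := ha
      refine Submodule.subset_span ⟨k⁻¹, ?_⟩
      simp only [map_inv]
      rfl
    | zero => simp
    | add a b _ _ ha hb => rw [star_add]; exact add_mem ha hb
    | smul c a _ ha => rw [star_smul]; exact Submodule.smul_mem _ _ ha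
  let P : StarSubalgebra ℂ N :=
    { carrier := Submodule.span ℂ W
      mul_mem' := fun {a b} ha hb => hmul a ha b hb
      add_mem' := fun {a b} ha hb => add_mem ha hb
      algebraMap_mem' := fun r => by
        have h1 : (1 : N) ∈ Submodule.span ℂ W := Submodule.subset_span ⟨1, by simp⟩
        show algebraMap ℂ N r ∈ Submodule.span ℂ W
        rw [Algebra.algebraMap_eq_smul_one]
        exact Submodule.smul_mem _ _ h1
      star_mem' := fun {a} ha => hstar a ha }
  have hle : StarAlgebra.adjoin ℂ (gens fun k : KL S0 S1 => ev g (kImg k)) ≤ P := by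
    refine StarAlgebra.adjoin_le ?_
    rintro _ ⟨k, rfl⟩
    exact Submodule.subset_span ⟨FreeGroup.of k, by simp⟩
  have hz : ∀ a ∈ Submodule.span ℂ W, τ (a * (g none : N)) = 0 := by
    intro a ha
    induction ha using Submodule.span_induction with
    | mem a ha =>
      obtain ⟨k, rfl⟩ := ha
      have h1 := hg (kHom k * FreeGroup.of none) (kHom_mul_ne k)
      rw [map_mul, ev_of, Submonoid.coe_mul] at h1
      exact h1
    | zero => simp
    | add a b _ _ ha hb => rw [add_mul, map_add, ha, hb, add_zero]
    | smul c a _ ha => rw [smul_mul_assoc, map_smul, ha, smul_zero]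
  have hn : ‖τ (y * (g none : N))‖ ≤ 0 := by
    refine le_of_forall_pos_lt_add fun ε hε => ?_
    obtain ⟨a, ha, h1⟩ := hy ε hε
    have e1 : τ (y * (g none : N)) = τ ((y - a) * (g none : N)) := by
      rw [sub_mul, map_sub, hz a (hle ha), sub_zero]
    rw [e1, zero_add]
    refine (norm_τ_le_n2 _).trans_lt ?_
    rw [n2_mul_unitary _ (g none).2]
    exact h1
  exact norm_eq_zero.1 (le_antisymm hn (norm_nonneg _))

end Crest.Agent.FGF
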