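import Crest.Agent.FGF.CompA1
import Crest.Agent.FGF.CompA2

set_option autoImplicit false
set_option linter.unusedSectionVars false

namespace Crest.Agent.FGF

open Crest.Agent.GenII1 Filter Topology

variable {N : Type} [CStarAlgebra N] [FinVN N]

/-- integer powers of a unitary -/
theorem a3_span_zpow (z : unitary N) {c : N} (hc : c ∈ StarAlgebra.adjoin ℂ {(z : N)}) :
    c ∈ Submodule.span ℂ (Set.range fun k : ℤ => ((z ^ k : unitary N) : N)) := by
  induction hc using StarAlgebra.adjoin_induction with
  | mem x hx =>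
    rw [Set.mem_singleton_iff] at hx
    subst hx
    exact Submodule.subset_span ⟨1, by simp⟩
  | algebraMap r =>
    rw [Algebra.algebraMap_eq_smul_one]
    exact Submodule.smul_mem _ _ (Submodule.subset_span ⟨0, by simp⟩)
  | add x y _ _ hx hy => exact Submodule.add_mem _ hx hy
  | mul x y hx0 hy0 hx hy =>
    clear hx0 hy0
    induction hx, hy using Submodule.span_induction₂ with
    | mem_mem x y hx hy =>
      obtain ⟨k, rfl⟩ := hx
      obtain ⟨l, rfl⟩ := hy
      exact Submodule.subset_span ⟨k + l, by simp [zpow_add]⟩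
    | zero_left y hy => rw [zero_mul]; exact Submodule.zero_mem _
    | zero_right x hx => rw [mul_zero]; exact Submodule.zero_mem _
    | add_left x y z hx hy hz h1 h2 => rw [add_mul]; exact Submodule.add_mem _ h1 h2
    | add_right x y z hx hy hz h1 h2 => rw [mul_add]; exact Submodule.add_mem _ h1 h2
    | smul_left r x y hx hy h => rw [smul_mul_assoc]; exact Submodule.smul_mem _ _ h
    | smul_right r x y hx hy h => rw [mul_smul_comm]; exact Submodule.smul_mem _ _ h
  | star x hx0 hx =>
    clear hx0
    induction hx using Submodule.span_induction with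
    | mem x hx =>
      obtain ⟨k, rfl⟩ := hx
      refine Submodule.subset_span ⟨-k, ?_⟩
      have : star ((z ^ k : unitary N) : N) = (((z ^ k)⁻¹ : unitary N) : N) := rfl
      simp only [this, zpow_neg]
    | zero => rw [star_zero]; exact Submodule.zero_mem _
    | add x y hx hy h1 h2 => rw [star_add]; exact Submodule.add_mem _ h1 h2
    | smul a x hx h => rw [star_smul]; exact Submodule.smul_mem _ _ h

theorem a3_zpow_mem (z : unitary N) (k : ℤ) :
    ((z ^ k : unitary N) : N) ∈ StarAlgebra.adjoin ℂ {(z : N)} := by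
  have hz : (z : N) ∈ StarAlgebra.adjoin ℂ {(z : N)} := StarAlgebra.subset_adjoin ℂ _ rfl
  have hp : ∀ n : ℕ, ((z ^ n : unitary N) : N) ∈ StarAlgebra.adjoin ℂ {(z : N)} := by
    intro n
    rw [SubmonoidClass.coe_pow]
    exact pow_mem hz n
  cases k with
  | ofNat n => rw [Int.ofNat_eq_natCast, zpow_natCast]; exact hp n
  | negSucc n => rw [zpow_negSucc]; exact inv_mem_star (hp _)

/-- elements of the algebra of `x`: even and odd part -/
theorem a3_even_odd (x : unitary N) {p : N} (hp : p ∈ StarAlgebra.adjoin ℂ {(x : N)}) :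
    ∃ a ∈ StarAlgebra.adjoin ℂ {((x * x : unitary N) : N)},
      ∃ b ∈ StarAlgebra.adjoin ℂ {((x * x : unitary N) : N)},
        p = a + ((x⁻¹ : unitary N) : N) * b := by
  have h := a3_span_zpow x hp
  clear hp
  induction h using Submodule.span_induction with
  | mem p hp =>
    obtain ⟨k, rfl⟩ := hp
    rcases Int.even_or_odd' k with ⟨l, rfl | rfl⟩
    · refine ⟨_, a3_zpow_mem (x * x) l, 0, zero_mem _, ?_⟩
      rw [mul_zero, add_zero]
      have : (x * x) ^ l = x ^ (2 * l) := by rw [zpow_mul, zpow_two]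
      rw [this]
    · refine ⟨0, zero_mem _, _, a3_zpow_mem (x * x) (l + 1), ?_⟩
      rw [zero_add]
      have : (x * x) ^ (l + 1) = x ^ (2 * (l + 1)) := by rw [zpow_mul, zpow_two]
      rw [this, ← Submonoid.coe_mul]
      rw [← zpow_neg_one, ← zpow_add]
      congr 1
      ring
  | zero => exact ⟨0, zero_mem _, 0, zero_mem _, by simp⟩
  | add p q _ _ h1 h2 =>
    obtain ⟨a, ha, b, hb, rfl⟩ := h1
    obtain ⟨a', ha', b', hb', rfl⟩ := h2
    exact ⟨a + a', add_mem ha ha', b + b', add_mem hb hb', by rw [mul_add]; abel⟩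
  | smul c p _ h =>
    obtain ⟨a, ha, b, hb, rfl⟩ := h
    exact ⟨c • a, SMulMemClass.smul_mem c ha, c • b, SMulMemClass.smul_mem c hb, by
      rw [smul_add, mul_smul_comm]⟩

/-- `x r` lies in `vn {x²}` -/
theorem a3_mem (x : unitary N) (hx : ∀ k : ℤ, k ≠ 0 → τ ((x ^ k : unitary N) : N) = 0) (r : N)
    (hr : r ∈ vn {(x : N)}) (htr : ∀ k : ℤ, τ (r * ((x ^ (2 * k) : unitary N) : N)) = 0) :
    (x : N) * r ∈ vn {((x * x : unitary N) : N)} := by
  -- two orthogonality facts
  have h1 : ∀ c ∈ StarAlgebra.adjoin ℂ {((x * x : unitary N) : N)}, τ (r * c) = 0 := by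
    intro c hc
    have h := a3_span_zpow _ hc
    clear hc
    induction h using Submodule.span_induction with
    | mem p hp =>
      obtain ⟨k, rfl⟩ := hp
      have : (x * x) ^ k = x ^ (2 * k) := by rw [zpow_mul, zpow_two]
      simp only [this]
      exact htr k
    | zero => simp
    | add p q _ _ h1 h2 => rw [mul_add, map_add, h1, h2, add_zero]
    | smul c p _ h => rw [mul_smul_comm, map_smul, h, smul_zero]
  have h2 : ∀ c ∈ StarAlgebra.adjoin ℂ {((x * x : unitary N) : N)},
      τ (((x⁻¹ : unitary N) : N) * c) = 0 := by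
    intro c hc
    have h := a3_span_zpow _ hc
    clear hc
    induction h using Submodule.span_induction with
    | mem p hp =>
      obtain ⟨k, rfl⟩ := hp
      have : (x * x) ^ k = x ^ (2 * k) := by rw [zpow_mul, zpow_two]
      simp only [this]
      rw [← Submonoid.coe_mul, ← zpow_neg_one, ← zpow_add]
      exact hx _ (by omega)
    | zero => simp
    | add p q _ _ h1 h2 => rw [mul_add, map_add, h1, h2, add_zero]
    | smul c p _ h => rw [mul_smul_comm, map_smul, h, smul_zero]
  intro ε hε
  obtain ⟨p, hp, hlt⟩ := hr ε hε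
  obtain ⟨a, ha, b, hb, rfl⟩ := a3_even_odd x hp
  refine ⟨b, hb, ?_⟩
  have hxx : star (x : N) * (x : N) = 1 := Unitary.star_mul_self_of_mem x.2
  have hxx' : (x : N) * star (x : N) = 1 := Unitary.mul_star_self_of_mem x.2
  have hxi : ((x⁻¹ : unitary N) : N) = star (x : N) := rfl
  have horth : τ (star ((x : N) * a) * ((x : N) * r - b)) = 0 := by
    have e : star ((x : N) * a) * ((x : N) * r - b) =
        star a * r - star a * (star (x : N) * b) := by
      rw [star_mul, mul_sub]
      congr 1
      · rw [mul_assoc, ← mul_assoc (star (x : N)), hxx, one_mul]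
      · rw [mul_assoc]
    rw [e, map_sub, τ_comm, h1 _ (star_mem ha), τ_comm (star a), mul_assoc, ← hxi,
      h2 _ (mul_mem hb (star_mem ha)), sub_zero]
  have hsq : n2 (((x : N) * r - b) - (x : N) * a) ^ 2 = n2 ((x : N) * r - b) ^ 2 + n2 ((x : N) * a) ^ 2 := by
    rw [cl_n2_sub_sq]
    have : (τ (star ((x : N) * r - b) * ((x : N) * a))).re = 0 := by
      have e : star ((x : N) * r - b) * ((x : N) * a) =
          star (star ((x : N) * a) * ((x : N) * r - b)) := by
        rw [star_mul, star_star]
      rw [e, τ_star, horth]; simp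
    rw [this]; ring
  have hid : ((x : N) * r - b) - (x : N) * a = (x : N) * (r - (a + ((x⁻¹ : unitary N) : N) * b)) := by
    rw [mul_sub, mul_add, ← mul_assoc, hxi, hxx', one_mul]
    abel
  rw [hid, n2_unitary_mul x.2] at hsq
  have h3 : n2 ((x : N) * r - b) ^ 2 ≤ n2 (r - (a + ((x⁻¹ : unitary N) : N) * b)) ^ 2 := by
    rw [hsq]; nlinarith [sq_nonneg (n2 ((x : N) * a))]
  exact (abs_le_of_sq_le_sq' h3 (n2_nonneg _)).2.trans_lt hlt

/-- CHUNK R134-P-A3.  PROOF: from `exists_sym_of_haar` get `r`; `u := x r` is in `vn {Z}`, `Z = x²`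
(`r` is a 2-limit of Laurent polynomials in `x`; the even coefficients of `r` vanish, so the
approximants can be taken odd, and `x r` is a 2-limit of even ones).  `x = u r = r u`.
`(Z, a_j, x a_j x⁻¹)` is FH by `FH_hom` with `kHom` (`S0 = J`, `S1 = Empty`),
`x a_j x⁻¹ = u (r a_j r) u⁻¹`, so `FH_conj` with `u ∈ vn {Z}` gives the first claim.
For `y ∈ vn (zab)` = `vn` of the even words (since `u` is in it), `y r = y u⁻¹ x`, so
`tau_even_mul` gives the last claim. -/
theorem stepA {J : Type} [Fintype J] [DecidableEq J] (x : unitary N) (a : J → unitary N)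
    (hg : FH (fun o : Option J => o.elim x a)) :
    ∃ r : unitary N, r * r = 1 ∧ (r : N) ∈ vn {(x : N)} ∧ (x : N) ∈ vn {(r : N), (x : N) ^ 2} ∧
      FH (zab (x * x) a r) ∧ ∀ y ∈ vn (gens (zab (x * x) a r)), τ (y * (r : N)) = 0 := by
  have hx : ∀ k : ℤ, k ≠ 0 → τ ((x ^ k : unitary N) : N) = 0 := by
    intro k hk
    have h1 := hg ((FreeGroup.of none) ^ k) (by
      intro h
      have h2 := congrArg (FreeGroup.lift (fun _ : Option J => Multiplicative.ofAdd (1 : ℤ))) h
      rw [map_zpow, MonoidHom.map_one, FreeGroup.lift_apply_of, ← ofAdd_zsmul] at h2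
      simp only [smul_eq_mul, mul_one, ofAdd_eq_one] at h2
      exact hk h2)
    rw [map_zpow, ev_of] at h1
    exact h1
  obtain ⟨r0, hsa, hsq, hrm, hxm, htr⟩ := exists_sym_of_haar N x (fun n hn => by
    have := hx n (by exact_mod_cast hn.ne')
    rw [zpow_natCast, SubmonoidClass.coe_pow] at this
    exact this)
  let r : unitary N := ⟨r0, Unitary.mem_iff.2 ⟨by rw [hsa.star_eq, hsq], by rw [hsa.star_eq, hsq]⟩⟩
  have hrr : r * r = 1 := Subtype.ext hsq
  have hri : r⁻¹ = r := inv_eq_of_mul_eq_one_left hrr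
  have hum : ((x * r : unitary N) : N) ∈ vn {((x * x : unitary N) : N)} := a3_mem x hx r0 hrm htr
  set u : unitary N := x * r with hu
  -- the index-2 subgroup
  let g' : Option (J ⊕ Empty) → unitary N := fun o => o.elim x (fun s => s.elim a Empty.elim)
  have hg' : FH g' := by
    have h1 := FH_comp (fun o : Option J => o.elim x a) hg
      (fun o : Option (J ⊕ Empty) => o.elim none (fun s => s.elim some Empty.elim)) (by
        rintro (_ | (j | j)) (_ | (j' | j')) h
        · rfl
        · simp at h
        · exact j'.elim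
        · simp at h
        · simpa using h
        · exact j'.elim
        · exact j.elim
        · exact j.elim
        · exact j.elim)
    have e : (fun o : Option (J ⊕ Empty) => (o.elim none (fun s => s.elim some Empty.elim) :
        Option J).elim x a) = g' := by
      funext o
      rcases o with _ | (j | j)
      · rfl
      · rfl
      · exact j.elim
    rw [← e]; exact h1
  let g1 : KL J Empty → unitary N := fun k => ev g' (kImg k)
  have hg1 : FH g1 := by
    have h1 := FH_hom g' hg' kHom kHom_injective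
    simpa only [kHom_of] using h1
  let f : Unit ⊕ (J × Bool) → KL J Empty := Sum.elim (fun _ => none) (fun p => some (.inl p.1, p.2))
  have hf : Function.Injective f := by
    rintro (u | ⟨j, b⟩) (u' | ⟨j', b'⟩) h
    · rfl
    · simp [f] at h
    · simp [f] at h
    · simp only [f, Sum.elim_inr, Option.some.injEq, Prod.mk.injEq, Sum.inl.injEq] at h
      rw [h.1, h.2]
  have hg2 : FH (fun i => g1 (f i)) := FH_comp g1 hg1 f hf
  have e0 : g1 (f (.inl ())) = x * x := by
    simp [g1, f, kImg, g']
  have e1 : ∀ j, g1 (f (.inr (j, false))) = a j := by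
    intro j; simp [g1, f, kImg, g']
  have e2 : ∀ j, g1 (f (.inr (j, true))) = x * a j * x⁻¹ := by
    intro j; simp [g1, f, kImg, g']
  let T : Finset (Unit ⊕ (J × Bool)) :=
    Finset.univ.image (fun j : J => Sum.inr (j, true))
  have hconj := FH_conj (fun i => g1 (f i)) hg2 T u (by
    refine vn_mono ?_ hum
    rintro z hz
    rw [Set.mem_singleton_iff] at hz
    subst hz
    refine ⟨⟨.inl (), by simp [T]⟩, ?_⟩
    simp only [e0])
  have hb : ∀ j, u⁻¹ * (x * a j * x⁻¹) * u = r * a j * r := by
    intro j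
    rw [hu, mul_inv_rev, hri]
    group
  have e : (fun i => if i ∈ T then u⁻¹ * g1 (f i) * u else g1 (f i)) = zab (x * x) a r := by
    funext i
    rcases i with u0 | ⟨j, b⟩
    · have : (Sum.inl u0 : Unit ⊕ (J × Bool)) ∉ T := by simp [T]
      rw [if_neg this, zab, Sum.elim_inl]
      exact e0
    · cases b
      · have : (Sum.inr (j, false) : Unit ⊕ (J × Bool)) ∉ T := by simp [T]
        rw [if_neg this, zab, Sum.elim_inr]
        simp [e1]
      · have : (Sum.inr (j, true) : Unit ⊕ (J × Bool)) ∈ T := by simp [T]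
        rw [if_pos this, zab, Sum.elim_inr, e2, hb]
        simp
  rw [e] at hconj
  refine ⟨r, hrr, hrm, hxm, hconj, ?_⟩
  intro y hy
  -- all letters of `zab` are in the algebra of the even words
  have hZV : ((x * x : unitary N) : N) ∈ vn (gens g1) := by
    rw [← e0]; exact subset_vn _ ⟨_, rfl⟩
  have huV : (u : N) ∈ vn (gens g1) := by
    refine (vn_le (vn_closed _) ?_ : vn {((x * x : unitary N) : N)} ≤ vn (gens g1)) hum
    rintro z hz
    rw [Set.mem_singleton_iff] at hz
    subst hz
    exact hZV
  have huV' : ((u⁻¹ : unitary N) : N) ∈ vn (gens g1) := inv_mem_star huV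
  have hyV : y ∈ vn (gens g1) := by
    refine (vn_le (vn_closed _) ?_ : vn (gens (zab (x * x) a r)) ≤ vn (gens g1)) hy
    rintro z ⟨i, rfl⟩
    rcases i with u0 | ⟨j, b⟩
    · exact hZV
    · cases b
      · have : zab (x * x) a r (Sum.inr (j, false)) = g1 (f (.inr (j, false))) := by
          rw [e1]; simp [zab]
        simp only [this]
        exact subset_vn _ ⟨_, rfl⟩
      · have : zab (x * x) a r (Sum.inr (j, true)) = u⁻¹ * g1 (f (.inr (j, true))) * u := by
          rw [e2, hb]; simp [zab]
        simp only [this]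
        rw [Submonoid.coe_mul, Submonoid.coe_mul]
        exact mul_mem (mul_mem huV' (subset_vn _ ⟨_, rfl⟩)) huV
  have hfin := tau_even_mul g' hg' (y * ((u⁻¹ : unitary N) : N)) (mul_mem hyV huV')
  have e3 : (u⁻¹ : unitary N) * g' none = r := by
    change u⁻¹ * x = r
    rw [hu, mul_inv_rev, hri]
    group
  rw [mul_assoc, ← Submonoid.coe_mul, e3] at hfin
  exact hfin

end Crest.Agent.FGF
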