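import Crest.Agent.FGF.CompA0

set_option autoImplicit false
set_option linter.unusedSectionVars false

namespace Crest.Agent.FGF

open Crest.Agent.GenII1 Filter Topology

variable {N : Type} [CStarAlgebra N] [FinVN N]

private theorem b1_mul_self (r : unitary N) (hr : r * r = 1) : (r : N) * (r : N) = 1 := by
  have := congrArg (Subtype.val) hr
  simpa using this

private theorem b1_star (r : unitary N) (hr : r * r = 1) : star (r : N) = (r : N) := by
  have h1 : star (r : N) * (r : N) = 1 := Unitary.star_mul_self_of_mem r.2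
  have h2 := b1_mul_self r hr
  calc star (r : N) = star (r : N) * ((r : N) * (r : N)) := by rw [h2, mul_one]
    _ = (star (r : N) * (r : N)) * (r : N) := by rw [mul_assoc]
    _ = (r : N) := by rw [h1, one_mul]

private theorem b1_conj_conj (r : unitary N) (hr : r * r = 1) (x : N) :
    (r : N) * ((r : N) * x * r) * r = x := by
  have h2 := b1_mul_self r hr
  calc (r : N) * ((r : N) * x * r) * r = ((r : N) * r) * x * ((r : N) * r) := by
        simp only [mul_assoc]
    _ = x := by rw [h2, one_mul, mul_one]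

private theorem b1_conj_mul (r : unitary N) (hr : r * r = 1) (x y : N) :
    (r : N) * (x * y) * r = ((r : N) * x * r) * ((r : N) * y * r) := by
  have h2 := b1_mul_self r hr
  calc (r : N) * (x * y) * r = (r : N) * x * 1 * y * r := by simp only [mul_assoc, one_mul]
    _ = (r : N) * x * ((r : N) * r) * y * r := by rw [h2]
    _ = ((r : N) * x * r) * ((r : N) * y * r) := by simp only [mul_assoc]

private theorem b1_τ (r : unitary N) (hr : r * r = 1) (x : N) :
    τ ((r : N) * x * r) = τ x := by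
  have h2 := b1_mul_self r hr
  rw [mul_assoc, τ_comm, mul_assoc, h2, mul_one]

private theorem b1_der {s : N} (r : unitary N) (hr : r * r = 1) (c : Unit → ℂ) {z : N}
    {Θ : N → N → ℂ}
    (h : Der (Set.range (algebraMap ℂ N)) (fun _ : Unit => (r : N) * s * r) c z Θ) :
    ∃ Θ' : N → N → ℂ, Der (Set.range (algebraMap ℂ N)) (fun _ : Unit => s) c
      ((r : N) * z * r) Θ' ∧
      ∀ x y, Θ' x y = Θ ((r : N) * x * r) ((r : N) * y * r) := by
  induction h with
  | base d hd =>
    refine ⟨fun _ _ => 0, ?_, fun x y => rfl⟩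
    obtain ⟨a, rfl⟩ := hd
    have e : (r : N) * (algebraMap ℂ N a) * r = algebraMap ℂ N a := by
      rw [← Algebra.commutes a (r : N), mul_assoc, b1_mul_self r hr, mul_one]
    rw [e]
    exact Der.base _ ⟨a, rfl⟩
  | var j =>
    refine ⟨fun x y => c j * (τ x * τ y), ?_, fun x y => ?_⟩
    · rw [b1_conj_conj r hr]
      exact Der.var (s := fun _ : Unit => s) j
    · simp only [b1_τ r hr]
  | add z z' Θ Θ' _ _ ih ih' =>
    obtain ⟨Θ1, h1, e1⟩ := ih
    obtain ⟨Θ2, h2, e2⟩ := ih'
    refine ⟨fun x y => Θ1 x y + Θ2 x y, ?_, fun x y => ?_⟩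
    · rw [mul_add, add_mul]
      exact Der.add _ _ _ _ h1 h2
    · simp only [e1, e2]
  | smul a z Θ _ ih =>
    obtain ⟨Θ1, h1, e1⟩ := ih
    refine ⟨fun x y => a * Θ1 x y, ?_, fun x y => ?_⟩
    · rw [mul_smul_comm, smul_mul_assoc]
      exact Der.smul _ _ _ h1
    · simp only [e1]
  | mul z z' Θ Θ' _ _ ih ih' =>
    obtain ⟨Θ1, h1, e1⟩ := ih
    obtain ⟨Θ2, h2, e2⟩ := ih'
    refine ⟨fun x y => Θ1 x (((r : N) * z' * r) * y) + Θ2 (x * ((r : N) * z * r)) y, ?_,
      fun x y => ?_⟩
    · rw [b1_conj_mul r hr]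
      exact Der.mul _ _ _ _ h1 h2
    · simp only [e1, e2]
      rw [b1_conj_mul r hr ((r : N) * z' * r) y, b1_conj_conj r hr z',
        b1_conj_mul r hr x ((r : N) * z * r), b1_conj_conj r hr z]

/-- CHUNK R134-P-B1. conjugation by a symmetry preserves `IsSemi`.  PROOF: for
`Der D (r s r) c z Θ` with `D` = scalars there is `Der D s c (r z r) Θ'` with
`Θ' x y = Θ (r x r) (r y r)` (induction on `Der`), `tau (r s r z) = tau (s (r z r))`. -/
theorem IsSemi.conj_sym {s : N} (hs : IsSemi s) (r : unitary N) (hr : r * r = 1) :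
    IsSemi ((r : N) * s * r) := by
  refine ⟨?_, ?_⟩
  · have h1 := hs.sa
    rw [IsSelfAdjoint, star_mul, star_mul, b1_star r hr, h1.star_eq, mul_assoc]
  · intro i z Θ hz
    obtain ⟨Θ', h', e'⟩ := b1_der r hr _ hz
    have h2 := hs.sd i _ Θ' h'
    rw [e'] at h2
    have e1 : (r : N) * 1 * r = 1 := by rw [mul_one, b1_mul_self r hr]
    rw [e1] at h2
    rw [← h2]
    show τ ((r : N) * s * r * z) = τ (s * ((r : N) * z * r))
    have e3 : (r : N) * s * r * z = (r : N) * (s * ((r : N) * z)) := by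
      simp only [mul_assoc]
    rw [e3, τ_comm]
    congr 1
    simp only [mul_assoc]

/-- conjugation of `vn` by a symmetry.  CHUNK R134-P-B1. -/
theorem vn_conj_sym {s y : N} (hs : s ∈ vn {y}) (r : unitary N) (hr : r * r = 1) :
    (r : N) * s * r ∈ vn {(r : N) * y * r} := by
  let Φ : N →⋆ₐ[ℂ] N :=
    { toFun := fun x => (r : N) * x * r
      map_one' := by rw [mul_one, b1_mul_self r hr]
      map_mul' := fun x y => b1_conj_mul r hr x y
      map_zero' := by rw [mul_zero, zero_mul]
      map_add' := fun x y => by rw [mul_add, add_mul]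
      commutes' := fun a => by
        rw [← Algebra.commutes a (r : N), mul_assoc, b1_mul_self r hr, mul_one]
      map_star' := fun x => by
        rw [star_mul, star_mul, b1_star r hr, mul_assoc] }
  have hΦ : ∀ x, Φ x = (r : N) * x * r := fun _ => rfl
  intro ε hε
  obtain ⟨a, ha, h1⟩ := hs ε hε
  refine ⟨Φ a, ?_, ?_⟩
  · have h2 : StarSubalgebra.map Φ (StarAlgebra.adjoin ℂ {y}) = StarAlgebra.adjoin ℂ (Φ '' {y}) :=
      StarAlgHom.map_adjoin Φ {y}
    have h3 : Φ '' {y} = {(r : N) * y * r} := by rw [Set.image_singleton, hΦ]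
    rw [h3] at h2
    rw [← h2]
    exact StarSubalgebra.mem_map.2 ⟨a, ha, rfl⟩
  · have e : (r : N) * s * r - Φ a = (r : N) * (s - a) * r := by
      rw [hΦ, mul_sub, sub_mul]
    rw [e, n2_mul_unitary _ r.2, n2_unitary_mul r.2]
    exact h1

/-- the commutant of one self-adjoint element is 2-closed: CHUNK R134-P-B1 -/
theorem comm_of_vn {r : N} (hr : IsSelfAdjoint r) {S : Set N} (hS : ∀ s ∈ S, r * s = s * r) {y : N}
    (hy : y ∈ vn S) : r * y = y * r := by
  have hmem : ∀ x : N, x ∈ StarSubalgebra.centralizer ℂ ({r} : Set N) ↔ r * x = x * r := by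
    intro x
    rw [StarSubalgebra.mem_centralizer_iff]
    constructor
    · intro h
      exact (h r rfl).1
    · intro h g hg
      rw [Set.mem_singleton_iff] at hg
      subst hg
      exact ⟨h, by rw [hr.star_eq]; exact h⟩
  have hcl : TClosed (StarSubalgebra.centralizer ℂ ({r} : Set N)) := by
    intro f g C hf hC hlim
    rw [hmem]
    have h0 : Tendsto (fun n => ‖r‖ * n2 (f n - g) + n2 (f n - g) * ‖r‖) atTop (𝓝 0) := by
      have := (hlim.const_mul ‖r‖).add (hlim.mul_const ‖r‖)
      simpa using this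
    have h1 : ∀ n, n2 (r * g - g * r) ≤ ‖r‖ * n2 (f n - g) + n2 (f n - g) * ‖r‖ := by
      intro n
      have hc := (hmem _).1 (hf n)
      have : r * g - g * r = (f n - g) * r - r * (f n - g) := by
        rw [sub_mul, mul_sub, ← hc]; abel
      rw [this]
      refine (n2_sub_le _ _).trans ?_
      rw [add_comm]
      exact add_le_add (n2_mul_le_left _ _) (n2_mul_le_right _ _)
    have h2 : n2 (r * g - g * r) ≤ 0 := ge_of_tendsto' h0 h1
    have h3 := eq_zero_of_n2 (le_antisymm h2 (n2_nonneg _))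
    exact sub_eq_zero.1 h3
  have hle : vn S ≤ StarSubalgebra.centralizer ℂ ({r} : Set N) :=
    vn_le hcl (fun s hs => (hmem s).2 (hS s hs))
  exact (hmem y).1 (hle hy)

end Crest.Agent.FGF
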