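import Crest.Agent.FGF.CompA0

set_option autoImplicit false
set_option linter.unusedSectionVars false

namespace Crest.Agent.FGF

open Crest.Agent.GenII1 Filter Topology

variable {N : Type} [CStarAlgebra N] [FinVN N]

/-- the situation: a free Haar family `g` (`x = g none`), a symmetry `r` commuting with the even
letters and anticommuting with the odd ones, everything generated by `g` and `r`, and
`τ (word * r) = 0`. -/
structure Sit {S0 S1 : Type} (g : Option (S0 ⊕ S1) → unitary N) (r : N) : Prop where
  fh : FH g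
  sa : IsSelfAdjoint r
  sq : r * r = 1
  ev0 : ∀ s, r * (g (some (.inl s)) : N) = (g (some (.inl s)) : N) * r
  odd : ∀ s, r * (g (some (.inr s)) : N) = -((g (some (.inr s)) : N) * r)
  oddx : r * (g none : N) = -((g none : N) * r)
  tr : ∀ y ∈ vn (gens g), τ (y * r) = 0
  gen : vn (gens g ∪ {r}) = ⊤

variable {S0 S1 : Type} {g : Option (S0 ⊕ S1) → unitary N} {r : N}

/-- `e00 = (1+r)/2` -/
noncomputable def p0 (r : N) : N := (2⁻¹ : ℂ) • (1 + r)

/-- matrix units: `e a b = x^a p0 x^{-b}` -/
noncomputable def ee (g : Option (S0 ⊕ S1) → unitary N) (r : N) (a b : Fin 2) : N :=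
  ((g none ^ (a : ℕ) : unitary N) : N) * p0 r * (((g none)⁻¹ ^ (b : ℕ) : unitary N) : N)

/-- the word `k` of the index-2 subgroup as an element of the relative commutant:
`∑ a, x^a p0 (word) x^{-a}` -/
noncomputable def kEl (g : Option (S0 ⊕ S1) → unitary N) (r : N) (k : FreeGroup (KL S0 S1)) : N :=
  ∑ a : Fin 2, ee g r a 0 * ((ev g (kHom k) : unitary N) : N) * ee g r 0 a

end Crest.Agent.FGF
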