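import Crest.Agent.FGF.CompF0

set_option autoImplicit false
set_option linter.unusedSectionVars false

namespace Crest.Agent.FGF

open Crest.Agent.GenII1 Filter Topology

variable {N : Type} [CStarAlgebra N] [FinVN N]

variable {S0 S1 : Type} {g : Option (S0 ⊕ S1) → unitary N} {r : N}

theorem CompF1_inv_anti {u : unitary N} (h : r * (u : N) = -((u : N) * r)) :
    r * ((u⁻¹ : unitary N) : N) = -(((u⁻¹ : unitary N) : N) * r) := by
  have h1 : (u : N) * ((u⁻¹ : unitary N) : N) = 1 := by
    rw [← Submonoid.coe_mul, mul_inv_cancel]; rfl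
  have h2 : ((u⁻¹ : unitary N) : N) * (u : N) = 1 := by
    rw [← Submonoid.coe_mul, inv_mul_cancel]; rfl
  have h3 : ((u⁻¹ : unitary N) : N) * (r * (u : N)) * ((u⁻¹ : unitary N) : N) =
      ((u⁻¹ : unitary N) : N) * r := by
    rw [mul_assoc, mul_assoc, h1, mul_one]
  rw [h] at h3
  have h4 : ((u⁻¹ : unitary N) : N) * (-((u : N) * r)) * ((u⁻¹ : unitary N) : N) =
      -(r * ((u⁻¹ : unitary N) : N)) := by
    rw [mul_neg, neg_mul, ← mul_assoc, h2, one_mul]
  rw [h4] at h3
  rw [← h3, neg_neg]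

theorem CompF1_inv_comm {u : unitary N} (h : r * (u : N) = (u : N) * r) :
    r * ((u⁻¹ : unitary N) : N) = ((u⁻¹ : unitary N) : N) * r := by
  have h1 : (u : N) * ((u⁻¹ : unitary N) : N) = 1 := by
    rw [← Submonoid.coe_mul, mul_inv_cancel]; rfl
  have h2 : ((u⁻¹ : unitary N) : N) * (u : N) = 1 := by
    rw [← Submonoid.coe_mul, inv_mul_cancel]; rfl
  have h3 : ((u⁻¹ : unitary N) : N) * (r * (u : N)) * ((u⁻¹ : unitary N) : N) =
      ((u⁻¹ : unitary N) : N) * r := by
    rw [mul_assoc, mul_assoc, h1, mul_one]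
  rw [h] at h3
  have h4 : ((u⁻¹ : unitary N) : N) * ((u : N) * r) * ((u⁻¹ : unitary N) : N) =
      r * ((u⁻¹ : unitary N) : N) := by
    rw [← mul_assoc, h2, one_mul]
  rw [h4] at h3
  exact h3

/-- CHUNK R134-P-F1.  (`x p0 x⁻¹ = (1-r)/2`) -/
theorem Sit.mu (h : Sit g r) : MU (⊤ : StarSubalgebra ℂ N) (ee g r) := by
  set X : N := (g none : N) with hX
  set Y : N := (((g none)⁻¹ : unitary N) : N) with hY
  set p : N := p0 r with hp
  have hXY : X * Y = 1 := by
    rw [hX, hY, ← Submonoid.coe_mul, mul_inv_cancel]; rfl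
  have hYX : Y * X = 1 := by
    rw [hX, hY, ← Submonoid.coe_mul, inv_mul_cancel]; rfl
  have hrX : r * X = -(X * r) := h.oddx
  have hrY : r * Y = -(Y * r) := CompF1_inv_anti h.oddx
  have hpp : p * p = p := by
    have e : (1 + r) * (1 + r) = (2 : ℂ) • (1 + r) := by
      have : (1 + r) * (1 + r) = 1 + r + (r + r * r) := by noncomm_ring
      rw [this, h.sq, two_smul]
      abel
    rw [hp, p0, smul_mul_smul_comm, e, smul_smul]
    norm_num
  have hq : (1 + r) * (1 - r) = 0 := by
    have : (1 + r) * (1 - r) = 1 - r * r := by noncomm_ring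
    rw [this, h.sq, sub_self]
  have hpXp : p * (X * p) = 0 := by
    have e : X * (1 + r) = (1 - r) * X := by
      rw [mul_add, sub_mul, hrX, mul_one, one_mul, sub_neg_eq_add]
    rw [hp, p0, mul_smul_comm, e, smul_mul_smul_comm, ← mul_assoc, hq, zero_mul, smul_zero]
  have hpYp : p * (Y * p) = 0 := by
    have e : Y * (1 + r) = (1 - r) * Y := by
      rw [mul_add, sub_mul, hrY, mul_one, one_mul, sub_neg_eq_add]
    rw [hp, p0, mul_smul_comm, e, smul_mul_smul_comm, ← mul_assoc, hq, zero_mul, smul_zero]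
  have hps : star p = p := by
    rw [hp, p0, star_smul, star_add, star_one, h.sa.star_eq]
    simp
  have hXs : star X = Y := rfl
  have hYs : star Y = X := by rw [← hXs, star_star]
  have e00 : ee g r 0 0 = p := by simp [ee, hp]
  have e01 : ee g r 0 1 = p * Y := by simp [ee, hp, hY]
  have e10 : ee g r 1 0 = X * p := by simp [ee, hp, hX]
  have e11 : ee g r 1 1 = X * (p * Y) := by simp [ee, hp, hX, hY, mul_assoc]
  have hXY' : ∀ z, X * (Y * z) = z := fun z => by rw [← mul_assoc, hXY, one_mul]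
  have hYX' : ∀ z, Y * (X * z) = z := fun z => by rw [← mul_assoc, hYX, one_mul]
  have hpp' : ∀ z, p * (p * z) = p * z := fun z => by rw [← mul_assoc, hpp]
  have hpXp' : ∀ z, p * (X * (p * z)) = 0 := fun z => by
    rw [← mul_assoc X, ← mul_assoc, hpXp, zero_mul]
  have hpYp' : ∀ z, p * (Y * (p * z)) = 0 := fun z => by
    rw [← mul_assoc Y, ← mul_assoc, hpYp, zero_mul]
  refine ⟨fun _ _ => by trivial, ?_, ?_, ?_⟩
  · intro i j k l
    fin_cases i <;> fin_cases j <;> fin_cases k <;> fin_cases l <;>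
      simp only [Fin.zero_eta, Fin.mk_one, Fin.isValue, e00, e01, e10, e11, mul_assoc, hYX',
        hpp', hpXp', hpYp', hpp, hpXp, hpYp, mul_zero, if_true, if_false, zero_ne_one, one_ne_zero]
  · intro i j
    fin_cases i <;> fin_cases j <;>
      simp only [Fin.zero_eta, Fin.mk_one, Fin.isValue, e00, e01, e10, e11, star_mul, hXs, hYs,
        hps, mul_assoc]
  · rw [Fin.sum_univ_two, e00, e11]
    have e : X * (p * Y) = (2⁻¹ : ℂ) • (1 - r) := by
      rw [hp, p0, smul_mul_assoc, mul_smul_comm, add_mul, mul_add, one_mul, hrY, hXY, mul_neg,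
        ← mul_assoc, hXY, one_mul, sub_eq_add_neg]
    rw [e, hp, p0, ← smul_add, show (1 + r) + (1 - r) = (2 : ℂ) • (1 : N) by rw [two_smul]; abel,
      smul_smul]
    norm_num

/-- CHUNK R134-P-F1. even words commute with `p0` -/
theorem Sit.comm_even (h : Sit g r) (k : FreeGroup (KL S0 S1)) :
    p0 r * ((ev g (kHom k) : unitary N) : N) = ((ev g (kHom k) : unitary N) : N) * p0 r := by
  have hxi := CompF1_inv_anti h.oddx
  have hlet : ∀ c : KL S0 S1, r * ((ev g (kImg c) : unitary N) : N) =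
      ((ev g (kImg c) : unitary N) : N) * r := by
    rintro (_ | ⟨(s | s), (_ | _)⟩)
    · simp only [kImg, map_mul, ev_of, Submonoid.coe_mul]
      rw [← mul_assoc, h.oddx, neg_mul, mul_assoc, h.oddx, mul_neg, neg_neg, mul_assoc]
    · simp only [kImg, ev_of]
      exact h.ev0 s
    · simp only [kImg, map_mul, map_inv, ev_of, Submonoid.coe_mul]
      rw [← mul_assoc, ← mul_assoc, h.oddx, neg_mul, neg_mul, mul_assoc (g none : N) r, h.ev0 s,
        ← mul_assoc, mul_assoc _ r, hxi, mul_neg, neg_neg, mul_assoc, mul_assoc, mul_assoc]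
    · simp only [kImg, map_mul, map_inv, ev_of, Submonoid.coe_mul]
      rw [← mul_assoc, h.odd s, neg_mul, mul_assoc, hxi, mul_neg, neg_neg, mul_assoc]
    · simp only [kImg, map_mul, ev_of, Submonoid.coe_mul]
      rw [← mul_assoc, h.oddx, neg_mul, mul_assoc, h.odd s, mul_neg, neg_neg, mul_assoc]
  have hr : r * ((ev g (kHom k) : unitary N) : N) = ((ev g (kHom k) : unitary N) : N) * r := by
    induction k using FreeGroup.induction_on with
    | C1 => simp
    | of c => rw [kHom_of]; exact hlet c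
    | inv_of c ih =>
      rw [map_inv, map_inv]
      exact CompF1_inv_comm ih
    | mul a b ha hb =>
      rw [map_mul, map_mul, Submonoid.coe_mul, ← mul_assoc, ha, mul_assoc, hb, mul_assoc]
  rw [p0, smul_mul_assoc, mul_smul_comm, add_mul, mul_add, hr, one_mul, mul_one]

end Crest.Agent.FGF
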