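import Crest.Agent.FGF.CompF1
import Crest.Agent.FGF.CompG

set_option autoImplicit false
set_option linter.unusedSectionVars false

namespace Crest.Agent.FGF

open Crest.Agent.GenII1 Filter Topology

variable {N : Type} [CStarAlgebra N] [FinVN N]

variable {S0 S1 : Type} {g : Option (S0 ⊕ S1) → unitary N} {r : N}

theorem f2_ee00 (g : Option (S0 ⊕ S1) → unitary N) (r : N) : ee g r 0 0 = p0 r := by
  simp [ee]

theorem f2_comm (h : Sit g r) (k : FreeGroup (KL S0 S1)) :
    ee g r 0 0 * ((ev g (kHom k) : unitary N) : N) = ((ev g (kHom k) : unitary N) : N) * ee g r 0 0 := by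
  rw [f2_ee00]; exact h.comm_even k

theorem f2_mem {ι : Type} (g : ι → unitary N) (W : FreeGroup ι) :
    ((ev g W : unitary N) : N) ∈ vn (gens g) := by
  refine fg_le_cl _ ?_
  induction W using FreeGroup.induction_on with
  | C1 => rw [map_one]; exact one_mem _
  | of i => rw [ev_of]; exact StarAlgebra.subset_adjoin _ _ ⟨i, rfl⟩
  | inv_of i hi => rw [map_inv]; exact star_mem hi
  | mul x y hx hy => rw [map_mul]; exact mul_mem hx hy

/-- CHUNK R134-P-F2.  PROOF: `ee a 0 * w * ee 0 a * (ee b 0 * w' * ee 0 b) = δ_ab ee a 0 * w * ee 0 0 * w' * ee 0 a`,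
`ee 0 0 = p0 r` commutes with `w'`. -/
theorem kEl_mul (h : Sit g r) (k k' : FreeGroup (KL S0 S1)) :
    kEl g r (k * k') = kEl g r k * kEl g r k' := by
  have hm := h.mu.mul
  have hw := f2_comm h k'
  unfold kEl
  rw [Fin.sum_univ_two, Fin.sum_univ_two, Fin.sum_univ_two, map_mul, map_mul]
  set w : N := ((ev g (kHom k) : unitary N) : N)
  set w' : N := ((ev g (kHom k') : unitary N) : N)
  have hmul : (((ev g (kHom k)) * (ev g (kHom k')) : unitary N) : N) = w * w' := rfl
  rw [hmul]
  have key : ∀ a b : Fin 2, ee g r a 0 * w * ee g r 0 a * (ee g r b 0 * w' * ee g r 0 b) =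
      if a = b then ee g r a 0 * (w * w') * ee g r 0 a else 0 := by
    intro a b
    have e1 : ee g r a 0 * w * ee g r 0 a * (ee g r b 0 * w' * ee g r 0 b) =
        ee g r a 0 * w * (ee g r 0 a * ee g r b 0) * w' * ee g r 0 b := by noncomm_ring
    rw [e1, hm]
    by_cases hab : a = b
    · subst hab
      rw [if_pos rfl, if_pos rfl]
      have e2 : ee g r a 0 * w * ee g r 0 0 * w' * ee g r 0 a =
          ee g r a 0 * w * (ee g r 0 0 * w') * ee g r 0 a := by noncomm_ring
      rw [e2, hw]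
      have e3 : ee g r a 0 * w * (w' * ee g r 0 0) * ee g r 0 a =
          ee g r a 0 * (w * w') * (ee g r 0 0 * ee g r 0 a) := by noncomm_ring
      rw [e3, hm, if_pos rfl]
    · rw [if_neg hab, if_neg hab]
      simp
  rw [add_mul, mul_add, mul_add, key, key, key, key]
  simp

/-- CHUNK R134-P-F2. -/
theorem kEl_one (h : Sit g r) : kEl g r 1 = 1 := by
  have hm := h.mu.mul
  have hs := h.mu.sum
  unfold kEl
  rw [← hs]
  refine Finset.sum_congr rfl fun a _ => ?_
  rw [map_one, map_one]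
  have e : ((1 : unitary N) : N) = 1 := rfl
  rw [e, mul_one, hm, if_pos rfl]

/-- CHUNK R134-P-F2. -/
theorem kEl_star (h : Sit g r) (k : FreeGroup (KL S0 S1)) : star (kEl g r k) = kEl g r k⁻¹ := by
  have hst := h.mu.st
  unfold kEl
  rw [star_sum]
  refine Finset.sum_congr rfl fun a _ => ?_
  rw [star_mul, star_mul, hst, hst, map_inv, map_inv]
  have e : (((ev g (kHom k))⁻¹ : unitary N) : N) = star ((ev g (kHom k) : unitary N) : N) := rfl
  rw [e, mul_assoc]

/-- CHUNK R134-P-F2. -/
theorem kEl_comm (h : Sit g r) (k : FreeGroup (KL S0 S1)) (a b : Fin 2) :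
    ee g r a b * kEl g r k = kEl g r k * ee g r a b := by
  have hm := h.mu.mul
  unfold kEl
  set w : N := ((ev g (kHom k) : unitary N) : N)
  rw [Finset.mul_sum, Finset.sum_mul]
  have h1 : ∀ c : Fin 2, ee g r a b * (ee g r c 0 * w * ee g r 0 c) =
      if b = c then ee g r a 0 * w * ee g r 0 b else 0 := by
    intro c
    rw [← mul_assoc, ← mul_assoc, hm]
    by_cases hbc : b = c
    · subst hbc; simp
    · simp [hbc]
  have h2 : ∀ c : Fin 2, ee g r c 0 * w * ee g r 0 c * ee g r a b =
      if c = a then ee g r a 0 * w * ee g r 0 b else 0 := by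
    intro c
    rw [mul_assoc, hm]
    by_cases hca : c = a
    · subst hca; simp
    · simp [hca]
  simp only [h1, h2, Finset.sum_ite_eq, Finset.sum_ite_eq', Finset.mem_univ, if_true]

/-- CHUNK R134-P-F2. `τ (kEl k) = 2 τ (p0 w) = τ w + τ (w r) = 0` by `FH`, `kHom_injective`, `Sit.tr` -/
theorem kEl_tr (h : Sit g r) (k : FreeGroup (KL S0 S1)) (hk : k ≠ 1) : τ (kEl g r k) = 0 := by
  have hm := h.mu.mul
  unfold kEl
  set w : N := ((ev g (kHom k) : unitary N) : N) with hw
  have h1 : ∀ a : Fin 2, τ (ee g r a 0 * w * ee g r 0 a) = τ (w * p0 r) := by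
    intro a
    rw [mul_assoc, τ_comm, mul_assoc, hm, if_pos rfl, f2_ee00]
  rw [map_sum, Finset.sum_congr rfl (fun a _ => h1 a), Finset.sum_const]
  have h2 : τ (w * p0 r) = 0 := by
    unfold p0
    rw [mul_smul_comm, map_smul, mul_add, mul_one, map_add]
    have h3 : τ w = 0 := h.fh _ (fun h4 => hk (kHom_injective (by rw [h4, map_one])))
    have h4 : τ (w * r) = 0 := h.tr w (f2_mem g _)
    rw [h3, h4]
    simp
  rw [h2, smul_zero]

/-- the unitary -/
noncomputable def kU (h : Sit g r) (k : FreeGroup (KL S0 S1)) : unitary N :=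
  ⟨kEl g r k, Unitary.mem_iff.2 ⟨by
    rw [kEl_star h, ← kEl_mul h, inv_mul_cancel, kEl_one h], by
    rw [kEl_star h, ← kEl_mul h, mul_inv_cancel, kEl_one h]⟩⟩

/-- free Haar -/
theorem Sit.FH_kU (h : Sit g r) : FH (fun k : KL S0 S1 => kU h (FreeGroup.of k)) := by
  have e : ∀ k : FreeGroup (KL S0 S1),
      ev (fun k : KL S0 S1 => kU h (FreeGroup.of k)) k = kU h k := by
    intro k
    have h1 : ev (fun k : KL S0 S1 => kU h (FreeGroup.of k)) =
        MonoidHom.mk' (kU h) (fun a b => Subtype.ext (kEl_mul h a b)) := by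
      apply FreeGroup.ext_hom
      intro k
      simp
    rw [h1]; rfl
  intro k hk
  rw [e k]
  exact kEl_tr h k hk

end Crest.Agent.FGF
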