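import Crest.Agent.FGF.CompG0

set_option autoImplicit false

namespace Crest.Agent.FGF

variable {S0 S1 : Type}

/-- even letters act without changing the class -/
def CompG1_permE {G : Type} [Group G] (A B : G) : Equiv.Perm (Bool × G) where
  toFun p := (p.1, (cond p.1 B A) * p.2)
  invFun p := (p.1, (cond p.1 B A)⁻¹ * p.2)
  left_inv := by rintro ⟨b, g⟩; simp
  right_inv := by rintro ⟨b, g⟩; simp

/-- odd letters exchange the classes -/
def CompG1_permO {G : Type} [Group G] (C D : G) : Equiv.Perm (Bool × G) where
  toFun p := (!p.1, (cond p.1 D C) * p.2)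
  invFun p := (!p.1, (cond p.1 C D)⁻¹ * p.2)
  left_inv := by rintro ⟨b, g⟩; cases b <;> simp
  right_inv := by rintro ⟨b, g⟩; cases b <;> simp

/-- action of the letters -/
def CompG1_act : Option (S0 ⊕ S1) → Equiv.Perm (Bool × FreeGroup (KL S0 S1))
  | none => CompG1_permO 1 (FreeGroup.of none)
  | some (.inl s) => CompG1_permE (FreeGroup.of (some (.inl s, false)))
      ((FreeGroup.of none)⁻¹ * FreeGroup.of (some (.inl s, true)) * FreeGroup.of none)
  | some (.inr s) => CompG1_permO ((FreeGroup.of none)⁻¹ * FreeGroup.of (some (.inr s, true)))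
      (FreeGroup.of (some (.inr s, false)) * FreeGroup.of none)

theorem CompG1_permE_false {G : Type} [Group G] (A B g : G) :
    CompG1_permE A B (false, g) = (false, A * g) := rfl
theorem CompG1_permE_true {G : Type} [Group G] (A B g : G) :
    CompG1_permE A B (true, g) = (true, B * g) := rfl
theorem CompG1_permO_false {G : Type} [Group G] (A B g : G) :
    CompG1_permO A B (false, g) = (true, A * g) := rfl
theorem CompG1_permO_true {G : Type} [Group G] (A B g : G) :
    CompG1_permO A B (true, g) = (false, B * g) := rfl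
theorem CompG1_permO_inv_false {G : Type} [Group G] (A B g : G) :
    (CompG1_permO A B)⁻¹ (false, g) = (true, B⁻¹ * g) := rfl

theorem CompG1_key (k : FreeGroup (KL S0 S1)) : ∀ g : FreeGroup (KL S0 S1),
    FreeGroup.lift CompG1_act (kHom k) (false, g) = (false, k * g) := by
  induction k using FreeGroup.induction_on with
  | C1 => intro g; simp
  | of k =>
    intro g
    rw [kHom_of]
    rcases k with _ | ⟨s | s, _ | _⟩ <;>
      simp only [kImg, map_mul, map_inv, FreeGroup.lift_apply_of, CompG1_act, Equiv.Perm.mul_apply,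
        CompG1_permE_false, CompG1_permE_true, CompG1_permO_false, CompG1_permO_true,
        CompG1_permO_inv_false] <;> simp [mul_assoc]
  | inv_of k ih =>
    intro g
    rw [map_inv, map_inv, Equiv.Perm.inv_eq_iff_eq, ih]
    simp
  | mul x y hx hy =>
    intro g
    rw [map_mul, map_mul, Equiv.Perm.mul_apply, hy, hx, mul_assoc]

/-- CHUNK R134-P-G1.  PROOF (automaton).  Put `G = FreeGroup (KL S0 S1)`, `X2 = of none`.  Let the
letters act by permutations of `Bool × G`: `x : (false,g) ↦ (true,g)`, `(true,g) ↦ (false,X2*g)`;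
even `s`: `(false,g) ↦ (false, of (some (inl s,false)) * g)`,
`(true,g) ↦ (true, X2⁻¹ * of (some (inl s,true)) * X2 * g)`;
odd `s`: `(false,g) ↦ (true, X2⁻¹ * of (some (inr s,true)) * g)`,
`(true,g) ↦ (false, of (some (inr s,false)) * X2 * g)`.  By `FreeGroup.lift` this gives
`ρ : FreeGroup (Option (S0 ⊕ S1)) →* Equiv.Perm (Bool × G)`, and for every letter `k`,
`ρ (kImg k) (false,g) = (false, of k * g)`.  Hence (induction, the set of `k` with this property for
all `g` is a subgroup) `ρ (kHom k) (false,g) = (false, k*g)`, so `kHom k = 1` gives `k = 1`. -/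
theorem kHom_injective : Function.Injective (kHom : FreeGroup (KL S0 S1) →* _) := by
  rw [injective_iff_map_eq_one]
  intro k hk
  have h := CompG1_key k 1
  rw [hk, map_one, Equiv.Perm.one_apply, mul_one] at h
  exact (congrArg Prod.snd h).symm

end Crest.Agent.FGF
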