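import Crest.Agent.FGF.CompG0

set_option autoImplicit false

namespace Crest.Agent.FGF

variable {S0 S1 : Type}

/-- parity of the letters -/
private def CompG2_pl : Option (S0 ⊕ S1) → Multiplicative (ZMod 2)
  | none => Multiplicative.ofAdd 1
  | some (.inl _) => 1
  | some (.inr _) => Multiplicative.ofAdd 1

/-- parity homomorphism -/
private def CompG2_par : FreeGroup (Option (S0 ⊕ S1)) →* Multiplicative (ZMod 2) :=
  FreeGroup.lift CompG2_pl

private theorem CompG2_two :
    (Multiplicative.ofAdd (1 : ZMod 2)) * Multiplicative.ofAdd (1 : ZMod 2) = 1 := by decide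

private theorem CompG2_inv :
    (Multiplicative.ofAdd (1 : ZMod 2))⁻¹ = Multiplicative.ofAdd (1 : ZMod 2) := by decide

private theorem CompG2_par_of (y : Option (S0 ⊕ S1)) :
    CompG2_par (FreeGroup.of y) = CompG2_pl y := by
  simp [CompG2_par]

private theorem CompG2_par_kHom (k : FreeGroup (KL S0 S1)) : CompG2_par (kHom k) = 1 := by
  have h : (CompG2_par (S0 := S0) (S1 := S1)).comp kHom = 1 := by
    refine FreeGroup.ext_hom _ _ fun y => ?_
    rw [MonoidHom.comp_apply, kHom_of, MonoidHom.one_apply]
    match y with
    | none =>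
      simp only [kImg, map_mul, CompG2_par_of, CompG2_pl, CompG2_two]
    | some (.inl s, false) => simp only [kImg, CompG2_par_of, CompG2_pl]
    | some (.inl s, true) =>
      simp only [kImg, map_mul, map_inv, CompG2_par_of, CompG2_pl, CompG2_inv, mul_one, CompG2_two]
    | some (.inr s, false) =>
      simp only [kImg, map_mul, map_inv, CompG2_par_of, CompG2_pl, CompG2_inv, CompG2_two]
    | some (.inr s, true) =>
      simp only [kImg, map_mul, CompG2_par_of, CompG2_pl, CompG2_two]
  exact DFunLike.congr_fun h k

/-- CHUNK R134-P-G2.  PROOF: parity homomorphism `FreeGroup.lift` to `Multiplicative (ZMod 2)`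
(`none, inr ↦ 1`, `inl ↦ 0`) kills `kImg k`, hence `kHom k`, but not `x`. -/
theorem kHom_mul_ne (k : FreeGroup (KL S0 S1)) : kHom k * FreeGroup.of none ≠ 1 := by
  intro h
  have h1 := congrArg CompG2_par h
  rw [map_mul, CompG2_par_kHom, map_one, CompG2_par_of, one_mul] at h1
  exact absurd h1 (by decide : Multiplicative.ofAdd (1 : ZMod 2) ≠ 1)

private theorem CompG2_mem (y : KL S0 S1) : kImg y ∈ (kHom (S0 := S0) (S1 := S1)).range :=
  ⟨FreeGroup.of y, kHom_of y⟩

private theorem CompG2_xx : (FreeGroup.of none * FreeGroup.of none :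
    FreeGroup (Option (S0 ⊕ S1))) ∈ (kHom (S0 := S0) (S1 := S1)).range :=
  CompG2_mem none

/-- the image is stable under conjugation by `x` -/
private theorem CompG2_conj (k : FreeGroup (KL S0 S1)) :
    FreeGroup.of none * kHom k * (FreeGroup.of none)⁻¹ ∈ (kHom (S0 := S0) (S1 := S1)).range := by
  have gen : ∀ y : KL S0 S1, FreeGroup.of none * kImg y * (FreeGroup.of none)⁻¹ ∈
      (kHom (S0 := S0) (S1 := S1)).range := by
    intro y
    match y with
    | none =>
      have : (FreeGroup.of none * kImg none * (FreeGroup.of none)⁻¹ :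
          FreeGroup (Option (S0 ⊕ S1))) = FreeGroup.of none * FreeGroup.of none := by
        simp only [kImg]; group
      rw [this]
      exact CompG2_xx
    | some (.inl s, false) => exact CompG2_mem (some (.inl s, true))
    | some (.inl s, true) =>
      have : (FreeGroup.of none * kImg (some (.inl s, true)) * (FreeGroup.of none)⁻¹ :
          FreeGroup (Option (S0 ⊕ S1))) = (FreeGroup.of none * FreeGroup.of none) *
            kImg (some (.inl s, false)) * (FreeGroup.of none * FreeGroup.of none)⁻¹ := by
        simp only [kImg]; group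
      rw [this]
      exact mul_mem (mul_mem CompG2_xx (CompG2_mem _)) (inv_mem CompG2_xx)
    | some (.inr s, false) =>
      have : (FreeGroup.of none * kImg (some (.inr s, false)) * (FreeGroup.of none)⁻¹ :
          FreeGroup (Option (S0 ⊕ S1))) = kImg (some (.inr s, true)) *
            (FreeGroup.of none * FreeGroup.of none)⁻¹ := by
        simp only [kImg]; group
      rw [this]
      exact mul_mem (CompG2_mem _) (inv_mem CompG2_xx)
    | some (.inr s, true) =>
      have : (FreeGroup.of none * kImg (some (.inr s, true)) * (FreeGroup.of none)⁻¹ :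
          FreeGroup (Option (S0 ⊕ S1))) = (FreeGroup.of none * FreeGroup.of none) *
            kImg (some (.inr s, false)) := by
        simp only [kImg]; group
      rw [this]
      exact mul_mem CompG2_xx (CompG2_mem _)
  induction k using FreeGroup.induction_on with
  | C1 => rw [map_one, mul_one, mul_inv_cancel]; exact one_mem _
  | of y => rw [kHom_of]; exact gen y
  | inv_of y _ =>
    rw [map_inv, kHom_of]
    have : (FreeGroup.of none * (kImg y)⁻¹ * (FreeGroup.of none)⁻¹ :
        FreeGroup (Option (S0 ⊕ S1))) = (FreeGroup.of none * kImg y * (FreeGroup.of none)⁻¹)⁻¹ := by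
      group
    rw [this]
    exact inv_mem (gen y)
  | mul a b ha hb =>
    rw [map_mul]
    have : (FreeGroup.of none * (kHom a * kHom b) * (FreeGroup.of none)⁻¹ :
        FreeGroup (Option (S0 ⊕ S1))) = (FreeGroup.of none * kHom a * (FreeGroup.of none)⁻¹) *
          (FreeGroup.of none * kHom b * (FreeGroup.of none)⁻¹) := by
      group
    rw [this]
    exact mul_mem ha hb

/-- CHUNK R134-P-G2.  every word is `kHom k` or `x * kHom k`.  PROOF: the set of such words is
stable under left multiplication by `x`, `x⁻¹`, `s`, `s⁻¹`: e.g. `x x φ(k) = φ(X2 k)`,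
`x⁻¹ φ(k) = x φ(X2⁻¹ k)`, `s x φ(k) = x φ(X2⁻¹ (s,true) X2 k)` for even `s`,
`s φ(k) = x φ(X2⁻¹ (s,true) k)`, `s x φ(k) = φ((s,false) X2 k)` for odd `s`. -/
theorem kHom_cover (W : FreeGroup (Option (S0 ⊕ S1))) :
    ∃ k : FreeGroup (KL S0 S1), W = kHom k ∨ W = FreeGroup.of none * kHom k := by
  have conj1 : ∀ h ∈ (kHom (S0 := S0) (S1 := S1)).range,
      FreeGroup.of none * h * (FreeGroup.of none)⁻¹ ∈ (kHom (S0 := S0) (S1 := S1)).range := by
    rintro _ ⟨k, rfl⟩
    exact CompG2_conj k
  have conj2 : ∀ h ∈ (kHom (S0 := S0) (S1 := S1)).range,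
      (FreeGroup.of none)⁻¹ * h * FreeGroup.of none ∈ (kHom (S0 := S0) (S1 := S1)).range := by
    intro h hh
    have : (FreeGroup.of none)⁻¹ * h * FreeGroup.of none =
        (FreeGroup.of none * FreeGroup.of none)⁻¹ * (FreeGroup.of none * h * (FreeGroup.of none)⁻¹) *
          (FreeGroup.of none * FreeGroup.of none) := by
      group
    rw [this]
    exact mul_mem (mul_mem (inv_mem CompG2_xx) (conj1 h hh)) CompG2_xx
  have key : W ∈ (kHom (S0 := S0) (S1 := S1)).range ∨
      (FreeGroup.of none)⁻¹ * W ∈ (kHom (S0 := S0) (S1 := S1)).range := by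
    induction W using FreeGroup.induction_on with
    | C1 => exact Or.inl (one_mem _)
    | of y =>
      match y with
      | none =>
        right
        rw [inv_mul_cancel]
        exact one_mem _
      | some (.inl s) => exact Or.inl (CompG2_mem (some (.inl s, false)))
      | some (.inr s) =>
        right
        have : ((FreeGroup.of none)⁻¹ * FreeGroup.of (some (.inr s)) :
            FreeGroup (Option (S0 ⊕ S1))) = (FreeGroup.of none * FreeGroup.of none)⁻¹ *
              kImg (some (.inr s, true)) := by
          simp only [kImg]; group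
        rw [this]
        exact mul_mem (inv_mem CompG2_xx) (CompG2_mem _)
    | inv_of y _ =>
      match y with
      | none =>
        right
        have : ((FreeGroup.of none)⁻¹ * (FreeGroup.of none)⁻¹ :
            FreeGroup (Option (S0 ⊕ S1))) = (FreeGroup.of none * FreeGroup.of none)⁻¹ := by
          group
        rw [this]
        exact inv_mem CompG2_xx
      | some (.inl s) => exact Or.inl (inv_mem (CompG2_mem (some (.inl s, false))))
      | some (.inr s) =>
        right
        have : ((FreeGroup.of none)⁻¹ * (FreeGroup.of (some (.inr s)))⁻¹ :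
            FreeGroup (Option (S0 ⊕ S1))) = (kImg (some (.inr s, false)) *
              (FreeGroup.of none * FreeGroup.of none))⁻¹ := by
          simp only [kImg]; group
        rw [this]
        exact inv_mem (mul_mem (CompG2_mem _) CompG2_xx)
    | mul a b ha hb =>
      rcases ha with ha | ha <;> rcases hb with hb | hb
      · exact Or.inl (mul_mem ha hb)
      · right
        have : (FreeGroup.of none)⁻¹ * (a * b) = ((FreeGroup.of none)⁻¹ * a * FreeGroup.of none) *
            ((FreeGroup.of none)⁻¹ * b) := by
          group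
        rw [this]
        exact mul_mem (conj2 a ha) hb
      · right
        rw [← mul_assoc]
        exact mul_mem ha hb
      · left
        have : a * b = (FreeGroup.of none * ((FreeGroup.of none)⁻¹ * a) * (FreeGroup.of none)⁻¹) *
            (FreeGroup.of none * FreeGroup.of none) * ((FreeGroup.of none)⁻¹ * b) := by
          group
        rw [this]
        exact mul_mem (mul_mem (conj1 _ ha) CompG2_xx) hb
  rcases key with ⟨k, hk⟩ | ⟨k, hk⟩
  · exact ⟨k, Or.inl hk.symm⟩
  · refine ⟨k, Or.inr ?_⟩
    rw [hk]
    group

end Crest.Agent.FGF
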