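import Crest.Agent.FGF.Base

/-! ROW 134 (S0183, S0184), shared definitions.  Proof: `ideas` id 502 (helper2). -/

set_option autoImplicit false

namespace Crest.Agent.FGF

open Crest.Agent.GenII1 Filter Topology

section words

variable {A : Type*} [CStarAlgebra A]

/-- evaluation of words in a family of unitaries -/
noncomputable def ev {ι : Type*} (g : ι → unitary A) : FreeGroup ι →* unitary A := FreeGroup.lift g

@[simp] theorem ev_of {ι : Type*} (g : ι → unitary A) (k : ι) : ev g (FreeGroup.of k) = g k := by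
  simp [ev]

/-- star algebra generated by a family of unitaries -/
noncomputable def alg {ι : Type*} (g : ι → unitary A) : StarSubalgebra ℂ A :=
  StarAlgebra.adjoin ℂ (Set.range fun k => (g k : A))

variable [FinVN A]

/-- free Haar family -/
def FH {ι : Type*} (g : ι → unitary A) : Prop :=
  ∀ h : FreeGroup ι, h ≠ 1 → τ ((ev g h : unitary A) : A) = 0

/-- the family generates `A` (2-norm density of the generated star algebra) -/
def Gen {ι : Type*} (g : ι → unitary A) : Prop := ∀ x : A, L2mem (alg g) x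

/-- free Haar generating family -/
structure Good {ι : Type*} (g : ι → unitary A) : Prop where
  fh : FH g
  gen : Gen g

/-- the 2-closed star subalgebra generated by `S` -/
noncomputable def vn (S : Set A) : StarSubalgebra ℂ A := fg_cl (StarAlgebra.adjoin ℂ S)

/-- the set of members of a family of unitaries -/
def gens {ι : Type*} (g : ι → unitary A) : Set A := Set.range (fun i => (g i : A))

theorem gen_iff {ι : Type*} (g : ι → unitary A) : Gen g ↔ vn (gens g) = ⊤ :=
  ⟨fun h => eq_top_iff.2 fun x _ => h x, fun h x => by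
    have : x ∈ vn (gens g) := by rw [h]; trivial
    exact this⟩

end words

section one

variable {M : Type} [CStarAlgebra M] [FinVN M]

/-- Haar unitary: all non-zero powers have trace zero (positive powers suffice) -/
def Haar (y : unitary M) : Prop := ∀ n : ℕ, 0 < n → τ ((y : M) ^ n) = 0

/-- "derivation pairs" `(z, Θ)`: `z` is in the algebra generated by `D` and the `s j` and
`Θ x y = ∑ τ (x a) τ (b y)` if `∂ z = ∑ a ⊗ b`, where `∂` is the derivation with `∂ d = 0` for
`d ∈ D` and `∂ (s j) = c j • 1 ⊗ 1`. -/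
inductive Der {κ : Type} (D : Set M) (s : κ → M) (c : κ → ℂ) : M → (M → M → ℂ) → Prop
  | base (d : M) (hd : d ∈ D) : Der D s c d (fun _ _ => 0)
  | var (j : κ) : Der D s c (s j) (fun x y => c j * (τ x * τ y))
  | add (z z' : M) (Θ Θ' : M → M → ℂ) (h : Der D s c z Θ) (h' : Der D s c z' Θ') :
      Der D s c (z + z') (fun x y => Θ x y + Θ' x y)
  | smul (a : ℂ) (z : M) (Θ : M → M → ℂ) (h : Der D s c z Θ) :
      Der D s c (a • z) (fun x y => a * Θ x y)
  | mul (z z' : M) (Θ Θ' : M → M → ℂ) (h : Der D s c z Θ) (h' : Der D s c z' Θ') :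
      Der D s c (z * z') (fun x y => Θ x (z' * y) + Θ' (x * z) y)

/-- Schwinger-Dyson relations over `D` with covariance `c`:
`τ (s i z) = (τ ⊗ τ) (∂_i z)` for `z` in the algebra generated by `D` and the `s j`,
`∂_i (s j) = c i j • 1 ⊗ 1`. -/
def SDc {κ : Type} (D : Set M) (s : κ → M) (c : κ → κ → ℂ) : Prop :=
  ∀ i z Θ, Der D s (c i) z Θ → τ (s i * z) = Θ 1 1

/-- free standard semicircular family, free from (the algebra) `D` -/
def SD {κ : Type} [DecidableEq κ] (D : Set M) (s : κ → M) : Prop :=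
  SDc D s (fun i j => if i = j then 1 else 0)

/-- a standard semicircular element -/
structure IsSemi (s : M) : Prop where
  sa : IsSelfAdjoint s
  sd : SDc (Set.range (algebraMap ℂ M)) (fun _ : Unit => s) (fun _ _ => 1)

end one

/-- trace preserving star isomorphism -/
def TPIso (N M : Type) [CStarAlgebra N] [FinVN N] [CStarAlgebra M] [FinVN M] : Prop :=
  ∃ Φ : N ≃⋆ₐ[ℂ] M, ∀ x, τ (Φ x) = τ x

/-- `M` is generated by (the image of) `N` and a free standard semicircular family `s`, free
from `N`. -/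
structure SemiExt {N M : Type} [CStarAlgebra N] [FinVN N] [CStarAlgebra M] [FinVN M]
    {κ : Type} [DecidableEq κ] (ι : N →⋆ₐ[ℂ] M) (s : κ → M) : Prop where
  tr : ∀ x, τ (ι x) = τ x
  sa : ∀ i, IsSelfAdjoint (s i)
  sd : SD (Set.range ι) s
  gen : vn (Set.range ι ∪ Set.range s) = ⊤

/-- the approximate absorption property -/
def PP (N : Type) [CStarAlgebra N] [FinVN N] (κ : Type) [Fintype κ] [DecidableEq κ] (δ : ℝ) : Prop :=
  ∀ (M : Type) [CStarAlgebra M] [FinVN M] (ι : N →⋆ₐ[ℂ] M) (s : κ → M), SemiExt ι s →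
    ∀ (F : Finset N) (ε : ℝ), 0 < ε →
      ∃ β : M ≃⋆ₐ[ℂ] M, (∀ x, τ (β x) = τ x) ∧ (∀ x ∈ F, n2 (β (ι x) - ι x) ≤ ε) ∧
        ∃ t : κ → N, ∑ k, n2 (s k - β (ι (t k))) ^ 2 ≤ (Fintype.card κ : ℝ) * δ ^ 2

/-- `N = M₂(N₁)`: matrix units `e` in `N` and an embedding `κ` of `N₁` onto their relative
commutant. -/
structure IsM2 {N N₁ : Type} [CStarAlgebra N] [FinVN N] [CStarAlgebra N₁] [FinVN N₁]
    (e : Fin 2 → Fin 2 → N) (j : N₁ →⋆ₐ[ℂ] N) : Prop where
  mu : MU (⊤ : StarSubalgebra ℂ N) e
  tr : ∀ x, τ (j x) = τ x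
  comm : ∀ x a b, e a b * j x = j x * e a b
  surj : ∀ y : N, (∀ a b, e a b * y = y * e a b) → ∃ x, j x = y

/-- index set of the capture lemma: `w` (fixed), slots `v l`, targets `y k` -/
inductive Idx (n : ℕ) (κ : Type) : Type
  | w : Idx n κ
  | v (l : Fin n) : Idx n κ
  | y (k : κ) : Idx n κ

/-- words in `w` and the slots -/
def slotWords (n : ℕ) (κ : Type) : Subgroup (FreeGroup (Idx n κ)) :=
  Subgroup.closure ({FreeGroup.of Idx.w} ∪ Set.range (fun l => FreeGroup.of (Idx.v l)))

end Crest.Agent.FGF
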