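import Crest.Agent.FGF.Util
import Crest.Agent.FGF.Defs

/-! MODULE Dict (row 134, lead helper7), definitions: alternating words, freeness of two algebras
(`Free1`), block words in one variable (`zw`) and their derivations (`Th`), one variable
Schwinger-Dyson relations (`SD1`). -/

set_option autoImplicit false
set_option linter.unusedSectionVars false

namespace Crest.Agent.FGF

open Crest.Agent.GenII1 Filter Topology Polynomial

variable {M : Type} [CStarAlgebra M] [FinVN M]

/-- centred elements of a set -/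
def cent (S : Set M) : Set M := {x | x ∈ S ∧ τ x = 0}

/-- alternating words `a₁ b₁ a₂ b₂ ⋯ a_k e`, `a_j ∈ A0`, `b_j ∈ B0`, `e ∈ B1`, `k ≥ 1` -/
inductive AltW (A0 B0 B1 : Set M) : M → Prop
  | last (a e : M) (ha : a ∈ A0) (he : e ∈ B1) : AltW A0 B0 B1 (a * e)
  | cons (a b z : M) (ha : a ∈ A0) (hb : b ∈ B0) (hz : AltW A0 B0 B1 z) :
      AltW A0 B0 B1 (a * b * z)

/-- freeness of `P` and `B` -/
def Free1 (P B : Set M) : Prop := ∀ z, AltW (cent P) (cent B) B z → τ z = 0

theorem cent_mono {S T : Set M} (h : S ⊆ T) : cent S ⊆ cent T := fun _ hx => ⟨h hx.1, hx.2⟩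

theorem AltW.mono {A0 B0 B1 A0' B0' B1' : Set M} (hA : A0 ⊆ A0') (hB : B0 ⊆ B0') (hE : B1 ⊆ B1')
    {z : M} (hz : AltW A0 B0 B1 z) : AltW A0' B0' B1' z := by
  induction hz with
  | last a e ha he => exact AltW.last a e (hA ha) (hE he)
  | cons a b z ha hb _ ih => exact AltW.cons a b z (hA ha) (hB hb) ih

theorem Free1.mono {P B P' B' : Set M} (h : Free1 P' B') (hP : P ⊆ P') (hB : B ⊆ B') :
    Free1 P B := fun z hz => h z (hz.mono (cent_mono hP) (cent_mono hB) hB)

/-! ### one variable: block words and derivations -/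

/-- `Θ` of `q(s)`: `∂ s^n = ∑_{i<n} s^i ⊗ s^{n-1-i}` -/
noncomputable def thp (s : M) (q : ℂ[X]) (x y : M) : ℂ :=
  q.sum fun n c => c * ∑ i ∈ Finset.range n, τ (x * s ^ i) * τ (s ^ (n - 1 - i) * y)

/-- one variable Schwinger-Dyson relation over `B` -/
def SD1 (B : Set M) (s : M) : Prop := SDc B (fun _ : Unit => s) (fun _ _ => 1)

/-- block words `q₁(s) b₁ q₂(s) b₂ ⋯` -/
noncomputable def zw (s : M) : List (ℂ[X] × M) → M
  | [] => 1
  | (q, b) :: l => aeval s q * b * zw s l

/-- the derivation form of a block word -/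
noncomputable def Th (s : M) : List (ℂ[X] × M) → M → M → ℂ
  | [], _, _ => 0
  | (q, b) :: l, x, y => thp s q x (b * zw s l * y) + Th s l (x * (aeval s q * b)) y

/-- "good" block words: non-empty, all `q_j(s)` centred, all `b_j ∈ B`, all `b_j` except the last
one centred -/
def GLw (B : Set M) (s : M) : List (ℂ[X] × M) → Prop
  | [] => False
  | [(q, e)] => τ (aeval s q) = 0 ∧ e ∈ B
  | (q, b) :: p :: l => τ (aeval s q) = 0 ∧ b ∈ B ∧ τ b = 0 ∧ GLw B s (p :: l)

/-- total degree -/
noncomputable def td (l : List (ℂ[X] × M)) : ℕ := (l.map fun p => p.1.natDegree).sum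

@[simp] theorem zw_nil (s : M) : zw s [] = 1 := rfl
@[simp] theorem zw_cons (s : M) (q : ℂ[X]) (b : M) (l : List (ℂ[X] × M)) :
    zw s ((q, b) :: l) = aeval s q * b * zw s l := rfl
@[simp] theorem Th_nil (s x y : M) : Th s [] x y = 0 := rfl
@[simp] theorem Th_cons (s : M) (q : ℂ[X]) (b : M) (l : List (ℂ[X] × M)) (x y : M) :
    Th s ((q, b) :: l) x y = thp s q x (b * zw s l * y) + Th s l (x * (aeval s q * b)) y := rfl

theorem zw_append (s : M) (l l' : List (ℂ[X] × M)) : zw s (l ++ l') = zw s l * zw s l' := by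
  induction l with
  | nil => simp
  | cons p l ih =>
    obtain ⟨q, b⟩ := p
    simp [ih, mul_assoc]

/-- product of derivation pairs -/
def pmul (p p' : M × (M → M → ℂ)) : M × (M → M → ℂ) :=
  (p.1 * p'.1, fun x y => p.2 x (p'.1 * y) + p'.2 (x * p.1) y)

/-- the pair of the block word `b₀ q₁(s) b₁ ⋯` -/
noncomputable def wp (s : M) (b0 : M) (l : List (ℂ[X] × M)) : M × (M → M → ℂ) :=
  (b0 * zw s l, fun x y => Th s l (x * b0) y)

/-- span of the reduced block pairs -/
noncomputable def redSpan (B : Set M) (s : M) : Submodule ℂ (M × (M → M → ℂ)) :=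
  Submodule.span ℂ {p | ∃ b0 ∈ B, ∃ l, (l = [] ∨ GLw B s l) ∧ p = wp s b0 l}

end Crest.Agent.FGF
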