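import Crest.Agent.FGF.DictBase

/-! MODULE Dict (row 134): calculus of `thp`, `Th`, derivation pairs of block words. -/

set_option autoImplicit false
set_option linter.unusedSectionVars false

namespace Crest.Agent.FGF

open Crest.Agent.GenII1 Filter Topology Polynomial

variable {M : Type} [CStarAlgebra M] [FinVN M]

/-- CHUNK R134-D4. `thp` is linear in `q` (`Polynomial.sum_add_index`). -/
theorem thp_add (s : M) (p q : ℂ[X]) (x y : M) :
    thp s (p + q) x y = thp s p x y + thp s q x y := by
  unfold thp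
  exact Polynomial.sum_add_index p q _ (fun i => by rw [zero_mul]) (fun a b c => by rw [add_mul])

theorem thp_smul (s : M) (a : ℂ) (q : ℂ[X]) (x y : M) :
    thp s (a • q) x y = a * thp s q x y := by
  unfold thp
  rw [Polynomial.sum_smul_index q a _ (fun i => by rw [zero_mul]), Polynomial.sum_def,
    Polynomial.sum_def, Finset.mul_sum]
  exact Finset.sum_congr rfl fun i _ => by rw [mul_assoc]

@[simp] theorem thp_C (s : M) (a : ℂ) (x y : M) : thp s (C a) x y = 0 := by
  unfold thp
  rw [Polynomial.sum_C_index (by rw [zero_mul]), Finset.range_zero, Finset.sum_empty, mul_zero]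

theorem thp_monomial (s : M) (n : ℕ) (c : ℂ) (x y : M) : thp s (monomial n c) x y =
    c * ∑ i ∈ Finset.range n, τ (x * s ^ i) * τ (s ^ (n - 1 - i) * y) := by
  unfold thp
  rw [Polynomial.sum_monomial_index]
  rw [zero_mul]

/-- `∂ (s q(s)) = 1 ⊗ q(s) + s ∂ q(s)` (check on monomials) -/
theorem thp_X_mul (s : M) (q : ℂ[X]) (x y : M) :
    thp s (X * q) x y = τ x * τ (aeval s q * y) + thp s q (x * s) y := by
  induction q using Polynomial.induction_on' with
  | add p q hp hq =>
    rw [mul_add, thp_add, thp_add, hp, hq, map_add, add_mul, map_add]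
    ring
  | monomial n c =>
    rw [X_mul_monomial, thp_monomial, thp_monomial, Finset.sum_range_succ', aeval_monomial,
      pow_zero, mul_one, Nat.add_sub_cancel, Nat.sub_zero]
    have h1 : τ (algebraMap ℂ M c * s ^ n * y) = c * τ (s ^ n * y) := by
      rw [mul_assoc, ← Algebra.smul_def, map_smul, smul_eq_mul]
    have h2 : ∑ i ∈ Finset.range n, τ (x * s ^ (i + 1)) * τ (s ^ (n - (i + 1)) * y) =
        ∑ i ∈ Finset.range n, τ (x * s * s ^ i) * τ (s ^ (n - 1 - i) * y) := by
      refine Finset.sum_congr rfl fun i _ => ?_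
      rw [pow_succ', ← mul_assoc, Nat.sub_sub, Nat.add_comm 1 i]
    rw [h1, h2]
    ring

/-- the first factors vanish -/
theorem thp_zero (s : M) (q : ℂ[X]) (x y : M)
    (h : ∀ i, i < q.natDegree → τ (x * s ^ i) = 0) : thp s q x y = 0 := by
  unfold thp
  rw [Polynomial.sum_def]
  refine Finset.sum_eq_zero fun n hn => ?_
  have hn' : n ≤ q.natDegree := le_natDegree_of_mem_supp n hn
  rw [Finset.sum_eq_zero fun i hi => ?_, mul_zero]
  rw [h i ((Finset.mem_range.1 hi).trans_le hn'), zero_mul]

/-- the second factors factorise -/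
theorem thp_factor (s : M) (q : ℂ[X]) (y : M) (t : ℂ)
    (h : ∀ i, i < q.natDegree → τ (s ^ i * y) = τ (s ^ i) * t) :
    thp s q 1 y = thp s q 1 1 * t := by
  unfold thp
  rw [Polynomial.sum_def, Polynomial.sum_def, Finset.sum_mul]
  refine Finset.sum_congr rfl fun n hn => ?_
  have hn' : n ≤ q.natDegree := le_natDegree_of_mem_supp n hn
  rw [mul_assoc, Finset.sum_mul]
  congr 1
  refine Finset.sum_congr rfl fun i hi => ?_
  have hi' := Finset.mem_range.1 hi
  rw [h (n - 1 - i) (by omega), mul_one]
  ring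

/-- both factors factorise -/
theorem thp_factor2 (s : M) (q : ℂ[X]) (x y : M) (t t' : ℂ)
    (hx : ∀ i, i < q.natDegree → τ (x * s ^ i) = t * τ (s ^ i))
    (hy : ∀ i, i < q.natDegree → τ (s ^ i * y) = τ (s ^ i) * t') :
    thp s q x y = t * thp s q 1 1 * t' := by
  unfold thp
  rw [Polynomial.sum_def, Polynomial.sum_def, Finset.mul_sum, Finset.sum_mul]
  refine Finset.sum_congr rfl fun n hn => ?_
  have hn' : n ≤ q.natDegree := le_natDegree_of_mem_supp n hn
  have h1 : ∑ i ∈ Finset.range n, τ (x * s ^ i) * τ (s ^ (n - 1 - i) * y) =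
      t * (∑ i ∈ Finset.range n, τ (1 * s ^ i) * τ (s ^ (n - 1 - i) * 1)) * t' := by
    rw [Finset.mul_sum, Finset.sum_mul]
    refine Finset.sum_congr rfl fun i hi => ?_
    have hi' := Finset.mem_range.1 hi
    rw [hx i (by omega), hy (n - 1 - i) (by omega), mul_one, one_mul]
    ring
  rw [h1]
  ring

/-- derivation pairs of polynomials.  PROOF.  `Polynomial.induction_on'`; constants need
`1 ∈ B` and `Der.smul`, monomials by induction with `Der.mul`, `Der.var`. Use `funext` to identify
the `Θ`s. -/
theorem der_thp (B : Set M) (h1 : (1 : M) ∈ B) (s : M) (q : ℂ[X]) :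
    Der B (fun _ : Unit => s) (fun _ => 1) (aeval s q) (thp s q) := by
  have hX : ∀ n : ℕ, Der B (fun _ : Unit => s) (fun _ => 1) (aeval s (X ^ n : ℂ[X]))
      (thp s (X ^ n)) := by
    intro n
    induction n with
    | zero =>
      have e : thp s (X ^ 0 : ℂ[X]) = fun _ _ => 0 := by
        funext x y
        rw [pow_zero, ← C_1, thp_C]
      rw [e, pow_zero, map_one]
      exact Der.base 1 h1
    | succ n ih =>
      have h2 := Der.mul _ _ _ _ (Der.var (D := B) (s := fun _ : Unit => s) (c := fun _ => 1) ())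
        ih
      have e : thp s (X ^ (n + 1) : ℂ[X]) = fun x y => (1 : ℂ) *
          (τ x * τ (aeval s (X ^ n : ℂ[X]) * y)) + thp s (X ^ n : ℂ[X]) (x * s) y := by
        funext x y
        rw [pow_succ', thp_X_mul, one_mul]
      have e' : aeval s (X ^ (n + 1) : ℂ[X]) = s * aeval s (X ^ n : ℂ[X]) := by
        rw [pow_succ', map_mul, aeval_X]
      rw [e, e']
      exact h2
  induction q using Polynomial.induction_on' with
  | add p q hp hq =>
    have e : thp s (p + q) = fun x y => thp s p x y + thp s q x y := by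
      funext x y
      exact thp_add s p q x y
    rw [e, map_add]
    exact Der.add _ _ _ _ hp hq
  | monomial n c =>
    have e0 : (monomial n c : ℂ[X]) = c • X ^ n := by
      rw [smul_X_eq_monomial]
    have e : thp s (c • X ^ n : ℂ[X]) = fun x y => c * thp s (X ^ n : ℂ[X]) x y := by
      funext x y
      exact thp_smul s c _ x y
    rw [e0, e, map_smul]
    exact Der.smul _ _ _ (hX n)

/-- derivation pairs of block words -/
theorem der_zw (B : Set M) (h1 : (1 : M) ∈ B) (s : M) (l : List (ℂ[X] × M))
    (hl : ∀ p ∈ l, p.2 ∈ B) : Der B (fun _ : Unit => s) (fun _ => 1) (zw s l) (Th s l) := by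
  induction l with
  | nil =>
    have e : Th s ([] : List (ℂ[X] × M)) = fun _ _ => 0 := rfl
    rw [e]
    exact Der.base 1 h1
  | cons p l ih =>
    obtain ⟨q, b⟩ := p
    have hb : b ∈ B := hl (q, b) (List.mem_cons_self)
    have h2 := Der.mul _ _ _ _ (Der.mul _ _ _ _ (der_thp B h1 s q) (Der.base b hb))
      (ih fun p hp => hl p (List.mem_cons_of_mem _ hp))
    have e : Th s ((q, b) :: l) = fun x y => (thp s q x (b * (zw s l * y)) + 0) +
        Th s l (x * (aeval s q * b)) y := by
      funext x y
      rw [Th_cons, add_zero, mul_assoc]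
    rw [e]
    exact h2

/-- if all first factors vanish then `Th = 0`.  PROOF.  Induction on `l` generalising `x`, with
`thp_zero`; for the tail use the decompositions `(q,b) :: l₁ ++ _`. -/
theorem Th_zero (s : M) (l : List (ℂ[X] × M)) (x y : M)
    (h : ∀ l1 q b l2, l = l1 ++ (q, b) :: l2 → ∀ i, i < q.natDegree →
      τ (x * zw s l1 * s ^ i) = 0) : Th s l x y = 0 := by
  induction l generalizing x with
  | nil => rfl
  | cons p l ih =>
    obtain ⟨q, b⟩ := p
    rw [Th_cons, thp_zero s q x _ ?_, ih (x * (aeval s q * b)) ?_, add_zero]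
    · intro l1 q' b' l2 hl i hi
      have h2 := h ((q, b) :: l1) q' b' l2 (by rw [hl, List.cons_append]) i hi
      rw [zw_cons] at h2
      rwa [← mul_assoc] at h2
    · intro i hi
      have h2 := h [] q b l rfl i hi
      rwa [zw_nil, mul_one] at h2

/-- one variable Schwinger-Dyson for polynomials (semicircular elements) -/
theorem IsSemi.poly {s : M} (hs : IsSemi s) (q : ℂ[X]) : τ (s * aeval s q) = thp s q 1 1 :=
  hs.sd () _ _ (der_thp (Set.range (algebraMap ℂ M)) ⟨1, map_one _⟩ s q)

/-- one variable Schwinger-Dyson for block words -/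
theorem SD1.zw {B : Set M} {s : M} (h : SD1 B s) (h1 : (1 : M) ∈ B) (l : List (ℂ[X] × M))
    (hl : ∀ p ∈ l, p.2 ∈ B) : τ (s * zw s l) = Th s l 1 1 :=
  h () _ _ (der_zw B h1 s l hl)

/-- `x(s) = centred + constant` for polynomials -/
theorem aeval_center (s : M) (q : ℂ[X]) :
    τ (aeval s (q - C (τ (aeval s q)))) = 0 := by
  rw [map_sub, aeval_C, map_sub, Algebra.algebraMap_eq_smul_one, map_smul, τ_one]
  simp

end Crest.Agent.FGF
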