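import Crest.Agent.FGF.DictPoly

/-! MODULE Dict (row 134): Schwinger-Dyson implies freeness (one variable). -/

set_option autoImplicit false
set_option linter.unusedSectionVars false

namespace Crest.Agent.FGF

open Crest.Agent.GenII1 Filter Topology Polynomial

variable {M : Type} [CStarAlgebra M] [FinVN M]

/-- multiply the last coefficient of a block word on the right -/
def lm : List (ℂ[X] × M) → M → List (ℂ[X] × M)
  | [], _ => []
  | [(q, e)], b => [(q, e * b)]
  | p :: p' :: l, b => p :: lm (p' :: l) b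

theorem zw_lm (s : M) (l : List (ℂ[X] × M)) (hl : l ≠ []) (b : M) :
    zw s (lm l b) = zw s l * b := by
  induction l with
  | nil => exact absurd rfl hl
  | cons p l ih =>
    cases l with
    | nil => obtain ⟨q, e⟩ := p; simp [lm, mul_assoc]
    | cons p' l =>
      obtain ⟨q, e⟩ := p
      have := ih (by simp)
      simp only [lm, zw_cons] at this ⊢
      rw [this, ← mul_assoc]

theorem td_lm (l : List (ℂ[X] × M)) (b : M) : td (lm l b) = td l := by
  induction l with
  | nil => rfl
  | cons p l ih =>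
    cases l with
    | nil => obtain ⟨q, e⟩ := p; simp [lm, td]
    | cons p' l => simp only [lm, td, List.map_cons, List.sum_cons] at ih ⊢; rw [ih]

theorem GLw_lm (B : Subalgebra ℂ M) (s : M) (l : List (ℂ[X] × M)) (h : GLw (B : Set M) s l) {b : M}
    (hb : b ∈ B) : GLw (B : Set M) s (lm l b) := by
  induction l with
  | nil => exact h
  | cons p l ih =>
    cases l with
    | nil =>
      obtain ⟨q, e⟩ := p
      exact ⟨h.1, B.mul_mem h.2 hb⟩
    | cons p' l =>
      obtain ⟨q, e⟩ := p
      obtain ⟨h1, h2, h3, h4⟩ := h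
      have := ih h4
      cases l with
      | nil => exact ⟨h1, h2, h3, this⟩
      | cons p'' l => exact ⟨h1, h2, h3, this⟩

theorem GLw.mem {B : Set M} {s : M} {l : List (ℂ[X] × M)} (h : GLw B s l) : ∀ p ∈ l, p.2 ∈ B := by
  induction l with
  | nil => simp
  | cons p l ih =>
    obtain ⟨q, e⟩ := p
    cases l with
    | nil =>
      intro p hp
      rw [List.mem_singleton] at hp
      subst hp
      exact h.2
    | cons p' l =>
      obtain ⟨h1, h2, h3, h4⟩ := h
      intro p hp
      rcases List.mem_cons.1 hp with rfl | hp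
      · exact h2
      · exact ih h4 p hp

/-- the entries before a block `(q, b)` of a good word are centred, and appending a centred
polynomial block with any last coefficient in `B` gives a good word -/
theorem GLw.append {B : Set M} {s : M} {l l1 l2 : List (ℂ[X] × M)} {q : ℂ[X]} {b : M}
    (h : GLw B s l) (he : l = l1 ++ (q, b) :: l2) {r : ℂ[X]} (hr : τ (aeval s r) = 0) {e : M}
    (hb : e ∈ B) : GLw B s (l1 ++ [(r, e)]) := by
  induction l1 generalizing l with
  | nil => exact ⟨hr, hb⟩
  | cons p l1 ih =>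
    obtain ⟨q0, b0⟩ := p
    subst he
    have key : GLw B s (l1 ++ (q, b) :: l2) := by
      cases l1 with
      | nil => exact h.2.2.2
      | cons p' l1 => exact h.2.2.2
    have h0 : τ (aeval s q0) = 0 ∧ b0 ∈ B ∧ τ b0 = 0 := by
      cases l1 with
      | nil => exact ⟨h.1, h.2.1, h.2.2.1⟩
      | cons p' l1 => exact ⟨h.1, h.2.1, h.2.2.1⟩
    have := ih key rfl
    cases l1 with
    | nil => exact ⟨h0.1, h0.2.1, h0.2.2, this⟩
    | cons p' l1 => exact ⟨h0.1, h0.2.1, h0.2.2, this⟩

/-- the part of a good word before a block is empty or good -/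
theorem GLw.prefix {B : Set M} {s : M} {l l1 l2 : List (ℂ[X] × M)} {q : ℂ[X]} {b : M}
    (h : GLw B s l) (he : l = l1 ++ (q, b) :: l2) : l1 = [] ∨ GLw B s l1 := by
  induction l1 generalizing l with
  | nil => exact Or.inl rfl
  | cons p l1 ih =>
    right
    obtain ⟨q0, b0⟩ := p
    subst he
    have key : GLw B s (l1 ++ (q, b) :: l2) := by
      cases l1 with
      | nil => exact h.2.2.2
      | cons p' l1 => exact h.2.2.2
    have h0 : τ (aeval s q0) = 0 ∧ b0 ∈ B ∧ τ b0 = 0 := by
      cases l1 with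
      | nil => exact ⟨h.1, h.2.1, h.2.2.1⟩
      | cons p' l1 => exact ⟨h.1, h.2.1, h.2.2.1⟩
    rcases ih key rfl with h1 | h1
    · subst h1; exact ⟨h0.1, h0.2.1⟩
    · cases l1 with
      | nil => exact ⟨h0.1, h0.2.1⟩
      | cons p' l1 => exact ⟨h0.1, h0.2.1, h0.2.2, h1⟩

theorem GLw.replace {B : Set M} {s : M} {q : ℂ[X]} {b : M} {l : List (ℂ[X] × M)}
    (h : GLw B s ((q, b) :: l)) {r : ℂ[X]} (hr : τ (aeval s r) = 0) : GLw B s ((r, b) :: l) := by
  cases l with
  | nil => exact ⟨hr, h.2⟩
  | cons p l => exact ⟨hr, h.2⟩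

theorem GLw.cons' {B : Set M} {s : M} {b : M} {l : List (ℂ[X] × M)} (hb : b ∈ B) (hb0 : τ b = 0)
    (hl : l = [] ∨ GLw B s l) {r : ℂ[X]} (hr : τ (aeval s r) = 0) : GLw B s ((r, b) :: l) := by
  cases l with
  | nil => exact ⟨hr, hb⟩
  | cons p l =>
    rcases hl with hl | hl
    · exact absurd hl (by simp)
    · exact ⟨hr, hb, hb0, hl⟩

theorem td_cons (q : ℂ[X]) (b : M) (l : List (ℂ[X] × M)) :
    td ((q, b) :: l) = q.natDegree + td l := by simp [td]

theorem td_append (l l' : List (ℂ[X] × M)) : td (l ++ l') = td l + td l' := by simp [td]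

theorem td_nil : td ([] : List (ℂ[X] × M)) = 0 := rfl

/-- CHUNK R134-D5, the core of "Schwinger-Dyson implies freeness".
PROOF (strong induction on `N`, i.e. on the total degree).  Write `l = (q₁,b₁) :: l'`.
If `q₁.natDegree = 0` then `q₁ = C λ` and centred, so `λ = 0`, `aeval s q₁ = 0`, done.
Otherwise `q₁ = X * q' + C λ` (`q' = divX q₁`, `natDegree q' < natDegree q₁`), so
`zw s l = s * zw s ((q',b₁)::l') + λ • (b₁ * zw s l')`, and by `SD1.zw`
`τ (s * zw s ((q',b₁)::l')) = thp s q' 1 (b₁ * zw s l' * 1) + Th s l' (1 * (aeval s q' * b₁)) 1`.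
(B) for every `i < natDegree q'`: `τ (s^i * (b₁ * zw s l')) = τ (s^i) * τ (b₁ * zw s l')`: write
`X^i = r + C m`, `r` centred (`m = τ (s^i)`); `(r,b₁)::l'` is good of smaller total degree, so IH
gives `0`.  By `thp_factor` the first term is `thp s q' 1 1 * τ (b₁ * zw s l')`
`= τ (s * aeval s q') * τ (b₁ * zw s l')` (`SD1.zw` for the word `[(q',1)]`).
(A) the second term is `0` by `Th_zero`: let `l' = l₁ ++ (q,b) :: l₂`, `i < natDegree q`;
`b₁` is centred (`l' ≠ []`).  Split `q' = q'₀ + C μ`, `X^i = r + C ν` (centred parts):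
`τ (q'₀ b₁ zw l₁ r) = 0` (IH, word `(q'₀,b₁)::(l₁ ++ [(r,1)])`, `GLw.append`),
`ν τ (q'₀ b₁ zw l₁) = 0` (IH, word `(q'₀,b₁)::l₁`, `GLw.prefix`),
`μ τ (b₁ zw l₁ r) = μ τ (zw (l₁ ++ [(r, b₁)])) = 0` (trace property, IH),
`μ ν τ (b₁ zw l₁) = 0`: `τ b₁ = 0` if `l₁ = []`, otherwise `= τ (zw (lm l₁ b₁))`, IH with `GLw_lm`,
`td_lm`, `zw_lm`.
Sum: `(τ (s q'(s)) + λ) * τ (b₁ * zw s l') = τ (q₁(s)) * ... = 0`. -/
theorem sf_core (B : Subalgebra ℂ M) (s : M) (h : SD1 (B : Set M) s) :
    ∀ (N : ℕ) (l : List (ℂ[X] × M)), GLw (B : Set M) s l → td l ≤ N → τ (zw s l) = 0 := by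
  intro N
  induction N using Nat.strong_induction_on with
  | _ N ihN =>
  intro l hl hN
  have ih : ∀ l' : List (ℂ[X] × M), GLw (B : Set M) s l' → td l' < td l → τ (zw s l') = 0 :=
    fun l' h1 h2 => ihN (td l') (by omega) l' h1 le_rfl
  clear ihN
  obtain _ | ⟨⟨q, b⟩, l'⟩ := l
  · exact absurd hl (by simp [GLw])
  have hqc : τ (aeval s q) = 0 := by
    cases l' with
    | nil => exact hl.1
    | cons p l => exact hl.1
  have hbB : b ∈ B := hl.mem (q, b) (by simp)
  by_cases hdeg : q.natDegree = 0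
  · rw [natDegree_eq_zero] at hdeg
    obtain ⟨a, rfl⟩ := hdeg
    have ha : a = 0 := by
      rw [aeval_C, Algebra.algebraMap_eq_smul_one, map_smul, τ_one] at hqc
      simpa using hqc
    simp [ha]
  -- decompose `q`
  set q' := q.divX with hq'
  set lam := q.coeff 0 with hlam
  have hq : q = X * q' + C lam := by
    rw [hq', hlam, X_mul, divX_mul_X_add]
  have hq'deg : q'.natDegree < q.natDegree := by
    rw [hq', natDegree_divX_eq_natDegree_tsub_one]; omega
  have hmem : ∀ p ∈ (q', b) :: l', p.2 ∈ (B : Set M) := by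
    intro p hp
    rcases List.mem_cons.1 hp with rfl | hp
    · exact hbB
    · exact hl.mem _ (List.mem_cons_of_mem _ hp)
  have hSD := h.zw B.one_mem ((q', b) :: l') hmem
  have hSD1 := h.zw B.one_mem [(q', (1 : M))] (by
    intro p hp; rw [List.mem_singleton] at hp; subst hp; exact B.one_mem)
  simp only [zw_cons, zw_nil, Th_cons, Th_nil, mul_one, one_mul, add_zero] at hSD hSD1
  -- (B)
  have hB : ∀ i, i < q'.natDegree → τ (s ^ i * (b * zw s l')) = τ (s ^ i) * τ (b * zw s l') := by
    intro i hi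
    have hc := aeval_center s (X ^ i : ℂ[X])
    have h1 := ih _ (hl.replace hc) (by
      rw [td_cons, td_cons, natDegree_sub_C, natDegree_X_pow]; omega)
    rw [zw_cons, map_sub, aeval_C, map_pow, aeval_X, Algebra.algebraMap_eq_smul_one, sub_mul,
      sub_mul, map_sub, smul_mul_assoc, smul_mul_assoc, map_smul, one_mul, sub_eq_zero] at h1
    rw [← mul_assoc, h1, smul_eq_mul]
  have h1 := thp_factor s q' (b * zw s l') (τ (b * zw s l')) hB
  -- (A)
  have hA : Th s l' (aeval s q' * b) 1 = 0 := by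
    apply Th_zero
    intro l1 q2 b2 l2 he i hi
    have hl' : GLw (B : Set M) s l' ∧ τ b = 0 := by
      subst he
      cases l1 with
      | nil => exact ⟨hl.2.2.2, hl.2.2.1⟩
      | cons p l => exact ⟨hl.2.2.2, hl.2.2.1⟩
    obtain ⟨hl', hb0⟩ := hl'
    have htd : td l' = td l1 + (q2.natDegree + td l2) := by rw [he, td_append, td_cons]
    have hc1 := aeval_center s q'
    have hc2 := aeval_center s (X ^ i : ℂ[X])
    set mu := τ (aeval s q') with hmu
    set nu := τ (aeval s (X ^ i : ℂ[X])) with hnu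
    have e1 : aeval s q' = aeval s (q' - C mu) + algebraMap ℂ M mu := by
      rw [map_sub, aeval_C, sub_add_cancel]
    have e2 : s ^ i = aeval s (X ^ i - C nu : ℂ[X]) + algebraMap ℂ M nu := by
      rw [map_sub, aeval_C, sub_add_cancel, map_pow, aeval_X]
    have hpre : l1 = [] ∨ GLw (B : Set M) s l1 := hl'.prefix he
    have T1 := ih ((q' - C mu, b) :: (l1 ++ [(X ^ i - C nu, (1 : M))]))
      (GLw.cons' hbB hb0 (Or.inr (hl'.append he hc2 B.one_mem)) hc1) (by
        rw [td_cons, td_cons, td_append, td_cons, td_nil, natDegree_sub_C, natDegree_sub_C,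
          natDegree_X_pow]; omega)
    have T2 := ih ((q' - C mu, b) :: l1) (GLw.cons' hbB hb0 hpre hc1) (by
        rw [td_cons, td_cons, natDegree_sub_C]; omega)
    have T3 := ih (l1 ++ [(X ^ i - C nu, b)]) (hl'.append he hc2 hbB) (by
        rw [td_cons, td_append, td_cons, td_nil, natDegree_sub_C, natDegree_X_pow]; omega)
    have T4 : τ (b * zw s l1) = 0 := by
      by_cases h0 : l1 = []
      · subst h0; simpa using hb0
      · rw [τ_comm, ← zw_lm s l1 h0 b]
        rcases hpre with hpre | hpre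
        · exact absurd hpre h0
        · exact ih _ (GLw_lm B s l1 hpre hbB) (by rw [td_lm, td_cons]; omega)
    rw [zw_cons, zw_append, zw_cons, zw_nil, mul_one, mul_one] at T1
    rw [zw_cons] at T2
    rw [zw_append, zw_cons, zw_nil, mul_one, ← mul_assoc, τ_comm] at T3
    rw [e1, e2]
    generalize aeval s (q' - C mu) = A at *
    generalize aeval s (X ^ i - C nu : ℂ[X]) = R at *
    have e3 : (A + algebraMap ℂ M mu) * b * zw s l1 * (R + algebraMap ℂ M nu) =
        A * b * (zw s l1 * R) + nu • (A * b * zw s l1) + mu • (b * (zw s l1 * R)) +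
          (mu * nu) • (b * zw s l1) := by
      simp only [Algebra.algebraMap_eq_smul_one, add_mul, mul_add, smul_mul_assoc, mul_smul_comm,
        one_mul, mul_one, smul_smul, mul_assoc, smul_add, mul_comm nu mu]
      abel
    rw [e3, map_add, map_add, map_add, map_smul, map_smul, map_smul, T1, T2, T3, T4]
    simp
  rw [hA, add_zero, h1, ← hSD1] at hSD
  have e : zw s ((q, b) :: l') = s * (aeval s q' * b * zw s l') + lam • (b * zw s l') := by
    rw [zw_cons]
    conv_lhs => rw [hq]
    simp only [map_add, map_mul, aeval_X, aeval_C, Algebra.algebraMap_eq_smul_one, add_mul,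
      smul_mul_assoc, one_mul, mul_assoc]
  have e2 : τ (aeval s q) = τ (s * aeval s q') + lam := by
    conv_lhs => rw [hq]
    rw [map_add, map_add, map_mul, aeval_X, aeval_C, Algebra.algebraMap_eq_smul_one, map_smul,
      τ_one]
    simp
  rw [e, map_add, map_smul, hSD, smul_eq_mul, ← add_mul, ← e2, hqc, zero_mul]

/-- Schwinger-Dyson implies freeness -/
theorem free_of_SD1 (B : Subalgebra ℂ M) (s : M) (h : SD1 (B : Set M) s) :
    Free1 (Algebra.adjoin ℂ {s} : Set M) (B : Set M) := by
  intro z hz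
  have key : ∃ l, GLw (B : Set M) s l ∧ z = zw s l := by
    induction hz with
    | last a e ha he =>
      obtain ⟨q, rfl⟩ : ∃ q : ℂ[X], aeval s q = a := by
        have := ha.1
        rw [Algebra.adjoin_singleton_eq_range_aeval] at this
        exact this
      exact ⟨[(q, e)], ⟨ha.2, he⟩, by simp⟩
    | cons a b z ha hb _ ih =>
      obtain ⟨q, rfl⟩ : ∃ q : ℂ[X], aeval s q = a := by
        have := ha.1
        rw [Algebra.adjoin_singleton_eq_range_aeval] at this
        exact this
      obtain ⟨l, hl, rfl⟩ := ih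
      refine ⟨(q, b) :: l, ?_, by simp⟩
      cases l with
      | nil => exact absurd hl (by simp [GLw])
      | cons p l => exact ⟨ha.2, hb.1, hb.2, hl⟩
  obtain ⟨l, hl, rfl⟩ := key
  exact sf_core B s h (td l) l hl le_rfl

end Crest.Agent.FGF
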