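import Crest.Agent.FGF.Defs

/-! MODULE Ext (helper96): extension of trace preserving star homomorphisms given on a
2-dense set; free Haar generating families give isomorphisms. -/

set_option autoImplicit false
set_option linter.unusedSectionVars false

namespace Crest.Agent.FGF

open Crest.Agent.GenII1 Filter Topology

variable {N M : Type} [CStarAlgebra N] [FinVN N] [CStarAlgebra M] [FinVN M]

/-! ### star subalgebras of `N × M` with equal traces -/

theorem ext_continuous_τ (A : Type) [CStarAlgebra A] [FinVN A] :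
    Continuous (fun x : A => (τ x : ℂ)) :=
  AddMonoidHomClass.continuous_of_bound (τ : A →ₗ[ℂ] ℂ) 1
    (fun x => by simpa using norm_τ_le x)

theorem ext_tr_closure (R : StarSubalgebra ℂ (N × M)) (hR : ∀ p ∈ R, τ p.1 = τ p.2) :
    ∀ p ∈ R.topologicalClosure, τ p.1 = τ p.2 := by
  have hcl : IsClosed {p : N × M | τ p.1 = τ p.2} :=
    isClosed_eq ((ext_continuous_τ N).comp continuous_fst) ((ext_continuous_τ M).comp continuous_snd)
  intro p hp
  exact closure_minimal (s := (R : Set (N × M))) hR hcl hp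

theorem ext_n2 {R : StarSubalgebra ℂ (N × M)} (hR : ∀ p ∈ R, τ p.1 = τ p.2) {p : N × M}
    (hp : p ∈ R) : n2 p.1 = n2 p.2 := by
  have h : n2 p.1 ^ 2 = n2 p.2 ^ 2 := by
    rw [n2_sq, n2_sq]
    have := hR _ (mul_mem (star_mem hp) hp)
    exact congrArg Complex.re this
  exact (sq_eq_sq₀ (n2_nonneg _) (n2_nonneg _)).1 h

theorem ext_norm {R : StarSubalgebra ℂ (N × M)} (hcl : IsClosed (R : Set (N × M)))
    (hR : ∀ p ∈ R, τ p.1 = τ p.2) {p : N × M} (hp : p ∈ R) : ‖p‖ = ‖p.1‖ := by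
  let _ : CStarAlgebra R := StarSubalgebra.cstarAlgebra R (h_closed := hcl)
  have hinj : Function.Injective ((StarAlgHom.fst ℂ N M).comp R.subtype) := by
    rw [injective_iff_map_eq_zero]
    rintro ⟨q, hq⟩ h0
    have h0' : q.1 = 0 := h0
    have h1 := ext_n2 hR hq
    rw [h0', n2_zero] at h1
    have h2 : q.2 = 0 := eq_zero_of_n2 h1.symm
    exact Subtype.ext (Prod.ext h0' h2)
  exact (NonUnitalStarAlgHom.norm_map ((StarAlgHom.fst ℂ N M).comp R.subtype) hinj ⟨p, hp⟩).symm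

theorem ext_approx (R : StarSubalgebra ℂ (N × M)) (hcl : IsClosed (R : Set (N × M)))
    (hR : ∀ p ∈ R, τ p.1 = τ p.2)
    (hd : ∀ x : N, ∀ ε : ℝ, 0 < ε → ∃ p ∈ R, n2 (x - p.1) < ε) (x : N) :
    ∃ (p : ℕ → N × M) (C : ℝ), (∀ n, p n ∈ R) ∧ (∀ n, ‖p n‖ ≤ C) ∧ TL (fun n => (p n).1) x := by
  have hcl1 : IsClosed ((R.map (StarAlgHom.fst ℂ N M) : StarSubalgebra ℂ N) : Set N) := by
    rw [← isSeqClosed_iff_isClosed]
    intro f g hf hfg
    have hf' : ∀ n, ∃ p ∈ R, p.1 = f n := by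
      intro n
      obtain ⟨p, hp, h⟩ := hf n
      exact ⟨p, hp, h⟩
    choose p hp hpf using hf'
    have hc : CauchySeq p := by
      rw [Metric.cauchySeq_iff]
      intro ε hε
      obtain ⟨K, hK⟩ := Metric.cauchySeq_iff.1 hfg.cauchySeq ε hε
      refine ⟨K, fun m hm n hn => ?_⟩
      have := hK m hm n hn
      rw [dist_eq_norm] at this ⊢
      rw [ext_norm hcl hR (sub_mem (hp m) (hp n)), Prod.fst_sub, hpf, hpf]
      exact this
    obtain ⟨q, hq⟩ := cauchySeq_tendsto_of_complete hc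
    have hqR : q ∈ R := hcl.mem_of_tendsto hq (Eventually.of_forall hp)
    refine ⟨q, hqR, ?_⟩
    have h1 : Tendsto (fun n => (p n).1) atTop (𝓝 q.1) := (continuous_fst.tendsto q).comp hq
    have h2 : Tendsto (fun n => (p n).1) atTop (𝓝 g) := by
      refine hfg.congr (fun n => (hpf n).symm)
    exact tendsto_nhds_unique h1 h2
  have hx : L2mem (R.map (StarAlgHom.fst ℂ N M)) x := by
    intro ε hε
    obtain ⟨p, hp, h⟩ := hd x ε hε
    exact ⟨p.1, ⟨p, hp, rfl⟩, h⟩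
  obtain ⟨b, C, hb, hbC, hlim⟩ := exists_bounded_approx hx
  have hb' : ∀ n, ∃ p ∈ R, p.1 = b n := by
    intro n
    have h1 := hb n
    have h2 : b n ∈ (R.map (StarAlgHom.fst ℂ N M) : StarSubalgebra ℂ N) := by
      have := (StarSubalgebra.topologicalClosure_minimal le_rfl hcl1) h1
      exact this
    obtain ⟨p, hp, h⟩ := h2
    exact ⟨p, hp, h⟩
  choose p hp hpb using hb'
  refine ⟨p, C, hp, fun n => ?_, ?_⟩
  · rw [ext_norm hcl hR (hp n), hpb]; exact hbC n
  · have : (fun n => (p n).1) = b := funext hpb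
    rw [this]; exact hlim

/-- the bounded 2-closure of `R` -/
noncomputable def ext_cl (R : StarSubalgebra ℂ (N × M)) : StarSubalgebra ℂ (N × M) where
  carrier := {q | ∃ (p : ℕ → N × M) (C : ℝ), (∀ n, p n ∈ R) ∧ (∀ n, ‖p n‖ ≤ C) ∧
    TL (fun n => (p n).1) q.1 ∧ TL (fun n => (p n).2) q.2}
  mul_mem' := by
    rintro a b ⟨p, C, h1, h2, h3, h4⟩ ⟨q, D, k1, k2, k3, k4⟩
    refine ⟨fun n => p n * q n, C * D, fun n => mul_mem (h1 n) (k1 n), fun n => ?_, ?_, ?_⟩
    · exact (norm_mul_le _ _).trans (mul_le_mul (h2 n) (k2 n) (norm_nonneg _)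
        ((norm_nonneg _).trans (h2 n)))
    · exact h3.mul k3 (fun n => (norm_fst_le (p n)).trans (h2 n))
    · exact h4.mul k4 (fun n => (norm_snd_le (p n)).trans (h2 n))
  add_mem' := by
    rintro a b ⟨p, C, h1, h2, h3, h4⟩ ⟨q, D, k1, k2, k3, k4⟩
    exact ⟨fun n => p n + q n, C + D, fun n => add_mem (h1 n) (k1 n),
      fun n => (norm_add_le _ _).trans (add_le_add (h2 n) (k2 n)), h3.add k3, h4.add k4⟩
  algebraMap_mem' r :=
    ⟨fun _ => algebraMap ℂ (N × M) r, ‖algebraMap ℂ (N × M) r‖, fun _ => algebraMap_mem R r,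
      fun _ => le_rfl, TL.const _, TL.const _⟩
  star_mem' := by
    rintro a ⟨p, C, h1, h2, h3, h4⟩
    exact ⟨fun n => star (p n), C, fun n => star_mem (h1 n),
      fun n => by rw [norm_star]; exact h2 n, h3.star, h4.star⟩

theorem ext_le_cl (R : StarSubalgebra ℂ (N × M)) : R ≤ ext_cl R := fun p hp =>
  ⟨fun _ => p, ‖p‖, fun _ => hp, fun _ => le_rfl, TL.const _, TL.const _⟩

theorem ext_cl_tr {R : StarSubalgebra ℂ (N × M)} (hR : ∀ p ∈ R, τ p.1 = τ p.2) :
    ∀ q ∈ ext_cl R, τ q.1 = τ q.2 := by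
  rintro q ⟨p, C, h1, h2, h3, h4⟩
  have e1 := h3.τ
  have e2 := h4.τ
  refine tendsto_nhds_unique e1 ?_
  refine e2.congr (fun n => (hR _ (h1 n)).symm)

/-- A star subalgebra `R` of `N × M` with `τ p.1 = τ p.2` whose first projection is 2-dense is
(contained in) the graph of a trace preserving star homomorphism `N → M`.
PROOF. (i) For `p ∈ R`: `n2 p.1 = n2 p.2` (`star p * p ∈ R`) and `‖p.1‖ = ‖p.2‖` when both come from
the norm closure... see below.  First replace `R` by its norm closure (traces are continuous).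
For `p ∈ R` (closed, so a C*-algebra), `‖p.2‖ ≤ ‖p.1‖`: the first projection is injective on `R`
(`p.1 = 0 → τ(star p.2 * p.2) = τ (star p.1 * p.1) = 0 → p.2 = 0`), a star homomorphism of C*-algebras,
hence isometric, so `‖p.1‖ = ‖p‖ = max ‖p.1‖ ‖p.2‖`.
(ii) given `x : N`, by Kaplansky (`exists_bounded_approx`) there are `p n ∈ R` with
`‖(p n).1‖ ≤ ‖x‖`-bounded and `n2 (x - (p n).1) → 0`; `(p n).2` is bounded by (i) and Cauchy in 2-norm,
so it converges to `Φ x` (`exists_lim`), independent of the choices; `Φ` is a star homomorphism by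
the limit lemmas `TL.*`. -/
theorem ext_rel (R : StarSubalgebra ℂ (N × M)) (hR : ∀ p ∈ R, τ p.1 = τ p.2)
    (hd : ∀ x : N, ∀ ε : ℝ, 0 < ε → ∃ p ∈ R, n2 (x - p.1) < ε) :
    ∃ Φ : N →⋆ₐ[ℂ] M, (∀ x, τ (Φ x) = τ x) ∧ ∀ p ∈ R, Φ p.1 = p.2 := by
  set R' := R.topologicalClosure with hR'
  have hR'c : IsClosed (R' : Set (N × M)) := R.isClosed_topologicalClosure
  have hR't : ∀ p ∈ R', τ p.1 = τ p.2 := ext_tr_closure R hR
  have hle : R ≤ R' := R.le_topologicalClosure
  have hd' : ∀ x : N, ∀ ε : ℝ, 0 < ε → ∃ p ∈ R', n2 (x - p.1) < ε := by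
    intro x ε hε
    obtain ⟨p, hp, h⟩ := hd x ε hε
    exact ⟨p, hle hp, h⟩
  have hT := ext_cl_tr hR't
  -- totality
  have htot : ∀ x : N, ∃ y : M, (x, y) ∈ ext_cl R' := by
    intro x
    obtain ⟨p, C, h1, h2, h3⟩ := ext_approx R' hR'c hR't hd' x
    obtain ⟨y, _, hy⟩ := exists_lim (fun n => (p n).2) C
      (fun n => (norm_snd_le (p n)).trans (h2 n)) (by
        intro ε hε
        have h4 : ∀ᶠ n in atTop, n2 ((p n).1 - x) < ε / 2 := h3.eventually_lt_const (by linarith)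
        obtain ⟨K, hK⟩ := eventually_atTop.1 h4
        refine ⟨K, fun m hm n hn => ?_⟩
        have h5 : n2 ((p m - p n).1) = n2 ((p m - p n).2) := ext_n2 hR't (sub_mem (h1 m) (h1 n))
        rw [Prod.snd_sub, Prod.fst_sub] at h5
        rw [← h5]
        have h6 := n2_triangle (p m).1 x (p n).1
        rw [n2_sub_comm x] at h6
        linarith [hK m hm, hK n hn])
    exact ⟨y, p, C, h1, h2, h3, hy⟩
  -- uniqueness
  have hinj : Function.Bijective ((StarAlgHom.fst ℂ N M).comp (ext_cl R').subtype) := by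
    constructor
    · rw [injective_iff_map_eq_zero]
      rintro ⟨q, hq⟩ h0
      have h0' : q.1 = 0 := h0
      have h1 := ext_n2 hT hq
      rw [h0', n2_zero] at h1
      have h2 : q.2 = 0 := eq_zero_of_n2 h1.symm
      exact Subtype.ext (Prod.ext h0' h2)
    · intro x
      obtain ⟨y, hy⟩ := htot x
      exact ⟨⟨(x, y), hy⟩, rfl⟩
  let e := StarAlgEquiv.ofBijective (R := ℂ) ((StarAlgHom.fst ℂ N M).comp (ext_cl R').subtype) hinj
  have he : ∀ q : ext_cl R', e q = (q : N × M).1 := fun q => rfl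
  have hes : ∀ q : ext_cl R', e.symm (q : N × M).1 = q := fun q => by
    rw [← he]; exact e.symm_apply_apply q
  have hes1 : ∀ x : N, ((e.symm x : ext_cl R') : N × M).1 = x := fun x => by
    rw [← he]; exact e.apply_symm_apply x
  refine ⟨(StarAlgHom.snd ℂ N M).comp ((ext_cl R').subtype.comp (e.symm : N →⋆ₐ[ℂ] (ext_cl R'))),
    ?_, ?_⟩
  · intro x
    have h1 := hT _ (e.symm x).2
    rw [hes1] at h1
    exact h1.symm
  · intro p hp
    have h1 := hes ⟨p, ext_le_cl R' (hle hp)⟩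
    change ((e.symm p.1 : ext_cl R') : N × M).2 = p.2
    have h2 : (e.symm p.1 : ext_cl R') = ⟨p, ext_le_cl R' (hle hp)⟩ := h1
    rw [h2]

/-- a trace preserving star homomorphism is isometric for `n2` -/
theorem n2_map (Φ : N →⋆ₐ[ℂ] M) (hΦ : ∀ x, τ (Φ x) = τ x) (x : N) : n2 (Φ x) = n2 x := by
  have h : n2 (Φ x) ^ 2 = n2 x ^ 2 := by
    rw [n2_sq, n2_sq, ← map_star, ← map_mul, hΦ]
  exact (sq_eq_sq₀ (n2_nonneg _) (n2_nonneg _)).1 h

/-- a trace preserving star homomorphism is injective -/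
theorem map_inj (Φ : N →⋆ₐ[ℂ] M) (hΦ : ∀ x, τ (Φ x) = τ x) : Function.Injective Φ := by
  rw [injective_iff_map_eq_zero]
  intro x h
  have h1 := n2_map Φ hΦ x
  rw [h, n2_zero] at h1
  exact eq_zero_of_n2 h1.symm

/-- a trace preserving star homomorphism is isometric -/
theorem norm_map_tr (Φ : N →⋆ₐ[ℂ] M) (hΦ : ∀ x, τ (Φ x) = τ x) (x : N) : ‖Φ x‖ = ‖x‖ :=
  NonUnitalStarAlgHom.norm_map Φ (map_inj Φ hΦ) x

theorem iso_rel (R : StarSubalgebra ℂ (N × M)) (hR : ∀ p ∈ R, τ p.1 = τ p.2)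
    (hd : ∀ x : N, ∀ ε : ℝ, 0 < ε → ∃ p ∈ R, n2 (x - p.1) < ε)
    (hd' : ∀ x : M, ∀ ε : ℝ, 0 < ε → ∃ p ∈ R, n2 (x - p.2) < ε) :
    ∃ Φ : N ≃⋆ₐ[ℂ] M, (∀ x, τ (Φ x) = τ x) ∧ ∀ p ∈ R, Φ p.1 = p.2 := by
  obtain ⟨Φ, hΦ, hΦR⟩ := ext_rel R hR hd
  let sw : M × N →⋆ₐ[ℂ] N × M := (StarAlgHom.snd ℂ M N).prod (StarAlgHom.fst ℂ M N)
  have hsw : ∀ p : M × N, sw p = (p.2, p.1) := fun p => rfl
  obtain ⟨Ψ, hΨ, hΨR⟩ := ext_rel (R.comap sw) (by
      intro p hp
      have h : sw p ∈ R := hp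
      rw [hsw] at h
      exact (hR _ h).symm) (by
      intro x ε hε
      obtain ⟨p, hp, h⟩ := hd' x ε hε
      exact ⟨(p.2, p.1), hp, h⟩)
  have hΨR' : ∀ p ∈ R, Ψ p.2 = p.1 := fun p hp => hΨR (p.2, p.1) hp
  have h1 : ∀ x : N, Ψ (Φ x) = x := by
    intro x
    apply eq_of_sub_eq_zero
    apply eq_zero_of_n2
    refine le_antisymm (le_of_forall_pos_le_add fun ε hε => ?_) (n2_nonneg _)
    obtain ⟨p, hp, h⟩ := hd x (ε / 2) (by linarith)
    have e1 : Ψ (Φ x) - x = Ψ (Φ (x - p.1)) - (x - p.1) := by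
      rw [map_sub, map_sub, hΦR p hp, hΨR' p hp]; abel
    rw [e1]
    have h2 := n2_sub_le (Ψ (Φ (x - p.1))) (x - p.1)
    rw [n2_map Ψ hΨ, n2_map Φ hΦ] at h2
    linarith
  have h2 : ∀ x : M, Φ (Ψ x) = x := by
    intro x
    apply eq_of_sub_eq_zero
    apply eq_zero_of_n2
    refine le_antisymm (le_of_forall_pos_le_add fun ε hε => ?_) (n2_nonneg _)
    obtain ⟨p, hp, h⟩ := hd' x (ε / 2) (by linarith)
    have e1 : Φ (Ψ x) - x = Φ (Ψ (x - p.2)) - (x - p.2) := by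
      rw [map_sub, map_sub, hΨR' p hp, hΦR p hp]; abel
    rw [e1]
    have h2 := n2_sub_le (Φ (Ψ (x - p.2))) (x - p.2)
    rw [n2_map Φ hΦ, n2_map Ψ hΨ] at h2
    linarith
  refine ⟨StarAlgEquiv.ofBijective (R := ℂ) Φ ⟨map_inj Φ hΦ, fun x => ⟨Ψ x, h2 x⟩⟩, hΦ, hΦR⟩

/-- the range of a trace preserving star homomorphism is 2-closed -/
theorem tclosed_range (Φ : N →⋆ₐ[ℂ] M) (hΦ : ∀ x, τ (Φ x) = τ x) : TClosed Φ.range := by
  intro f g C hf hC hlim
  have hf' : ∀ n, ∃ x, Φ x = f n := fun n => hf n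
  choose x hx using hf'
  obtain ⟨y, _, hy⟩ := exists_lim x C (fun n => by rw [← norm_map_tr Φ hΦ, hx]; exact hC n) (by
    intro ε hε
    have h4 : ∀ᶠ n in atTop, n2 (f n - g) < ε / 2 := hlim.eventually_lt_const (by linarith)
    obtain ⟨K, hK⟩ := eventually_atTop.1 h4
    refine ⟨K, fun m hm n hn => ?_⟩
    rw [← n2_map Φ hΦ, map_sub, hx, hx]
    have h6 := n2_triangle (f m) g (f n)
    rw [n2_sub_comm g] at h6
    linarith [hK m hm, hK n hn])
  have h1 : TL f (Φ y) := by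
    refine Tendsto.congr (fun n => ?_) hy
    rw [← n2_map Φ hΦ, map_sub, hx]
  have h2 : g = Φ y := TL.unique hlim h1
  rw [h2]
  exact ⟨y, rfl⟩

/-! ### free Haar families -/

theorem ev_star' {A : Type} [CStarAlgebra A] [FinVN A] {ι : Type} (g : ι → unitary A)
    (h : FreeGroup ι) : star ((ev g h : unitary A) : A) = (ev g h⁻¹ : unitary A) := by
  rw [map_inv]; rfl

/-- the star algebra spanned by pairs of words -/
noncomputable def wordAlg {ι : Type} (g : ι → unitary N) (g' : ι → unitary M) :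
    StarSubalgebra ℂ (N × M) where
  carrier := Submodule.span ℂ (Set.range fun h : FreeGroup ι =>
    (((ev g h : unitary N), (ev g' h : unitary M)) : N × M))
  mul_mem' := by
    intro a b ha hb
    induction ha, hb using Submodule.span_induction₂ with
    | mem_mem x y hx hy =>
      obtain ⟨h, rfl⟩ := hx
      obtain ⟨k, rfl⟩ := hy
      refine Submodule.subset_span ⟨h * k, ?_⟩
      simp
    | zero_left y hy => rw [zero_mul]; exact Submodule.zero_mem _
    | zero_right x hx => rw [mul_zero]; exact Submodule.zero_mem _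
    | add_left x y z _ _ _ h1 h2 => rw [add_mul]; exact Submodule.add_mem _ h1 h2
    | add_right x y z _ _ _ h1 h2 => rw [mul_add]; exact Submodule.add_mem _ h1 h2
    | smul_left r x y _ _ h1 => rw [smul_mul_assoc]; exact Submodule.smul_mem _ _ h1
    | smul_right r x y _ _ h1 => rw [mul_smul_comm]; exact Submodule.smul_mem _ _ h1
  add_mem' := fun ha hb => Submodule.add_mem _ ha hb
  algebraMap_mem' r := by
    rw [Algebra.algebraMap_eq_smul_one]
    refine Submodule.smul_mem _ _ (Submodule.subset_span ⟨1, ?_⟩)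
    simp only [map_one]; rfl
  star_mem' := by
    intro a ha
    induction ha using Submodule.span_induction with
    | mem x hx =>
      obtain ⟨h, rfl⟩ := hx
      refine Submodule.subset_span ⟨h⁻¹, ?_⟩
      simp only [← ev_star']; rfl
    | zero => rw [star_zero]; exact Submodule.zero_mem _
    | add x y _ _ h1 h2 => rw [star_add]; exact Submodule.add_mem _ h1 h2
    | smul r x _ h1 => rw [star_smul]; exact Submodule.smul_mem _ _ h1

theorem mem_wordAlg {ι : Type} (g : ι → unitary N) (g' : ι → unitary M) (h : FreeGroup ι) :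
    (((ev g h : unitary N), (ev g' h : unitary M)) : N × M) ∈ wordAlg g g' :=
  Submodule.subset_span ⟨h, rfl⟩

theorem mem_wordAlg_gen {ι : Type} (g : ι → unitary N) (g' : ι → unitary M) (i : ι) :
    (((g i : N), (g' i : M)) : N × M) ∈ wordAlg g g' := by
  have := mem_wordAlg g g' (FreeGroup.of i)
  rwa [ev_of, ev_of] at this

theorem wordAlg_tr {ι : Type} (g : ι → unitary N) (g' : ι → unitary M) (hg : FH g)
    (hg' : FH g') : ∀ p ∈ wordAlg g g', τ p.1 = τ p.2 := by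
  intro p hp
  have hp' : p ∈ Submodule.span ℂ (Set.range fun h : FreeGroup ι =>
    (((ev g h : unitary N), (ev g' h : unitary M)) : N × M)) := hp
  clear hp
  induction hp' using Submodule.span_induction with
  | mem x hx =>
    obtain ⟨h, rfl⟩ := hx
    by_cases h1 : h = 1
    · subst h1
      simp only [map_one, OneMemClass.coe_one, τ_one]
    · simp only [hg h h1, hg' h h1]
  | zero => simp
  | add x y _ _ h1 h2 => simp only [Prod.fst_add, Prod.snd_add, map_add, h1, h2]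
  | smul r x _ h1 => simp only [Prod.smul_fst, Prod.smul_snd, map_smul, h1]

theorem wordAlg_fst {ι : Type} (g : ι → unitary N) (g' : ι → unitary M)
    (hgen : vn (gens g) = ⊤) (x : N) (ε : ℝ) (hε : 0 < ε) :
    ∃ p ∈ wordAlg g g', n2 (x - p.1) < ε := by
  have hx : x ∈ vn (gens g) := by rw [hgen]; trivial
  obtain ⟨a, ha, h⟩ := (fg_mem_cl.1 hx) ε hε
  have hle : StarAlgebra.adjoin ℂ (gens g) ≤ (wordAlg g g').map (StarAlgHom.fst ℂ N M) := by
    apply StarAlgebra.adjoin_le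
    rintro _ ⟨i, rfl⟩
    exact ⟨_, mem_wordAlg_gen g g' i, rfl⟩
  obtain ⟨p, hp, rfl⟩ := hle ha
  exact ⟨p, hp, h⟩

theorem wordAlg_snd {ι : Type} (g : ι → unitary N) (g' : ι → unitary M)
    (hgen : vn (gens g') = ⊤) (x : M) (ε : ℝ) (hε : 0 < ε) :
    ∃ p ∈ wordAlg g g', n2 (x - p.2) < ε := by
  have hx : x ∈ vn (gens g') := by rw [hgen]; trivial
  obtain ⟨a, ha, h⟩ := (fg_mem_cl.1 hx) ε hε
  have hle : StarAlgebra.adjoin ℂ (gens g') ≤ (wordAlg g g').map (StarAlgHom.snd ℂ N M) := by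
    apply StarAlgebra.adjoin_le
    rintro _ ⟨i, rfl⟩
    exact ⟨_, mem_wordAlg_gen g g' i, rfl⟩
  obtain ⟨p, hp, rfl⟩ := hle ha
  exact ⟨p, hp, h⟩

/-- free Haar families: embedding -/
theorem emb_of_FH {ι : Type} (g : ι → unitary N) (g' : ι → unitary M) (hg : FH g) (hg' : FH g')
    (hgen : vn (gens g) = ⊤) :
    ∃ Φ : N →⋆ₐ[ℂ] M, (∀ x, τ (Φ x) = τ x) ∧ (∀ i, Φ (g i) = g' i) ∧
      ∀ y ∈ vn (gens g'), ∃ x, Φ x = y := by
  obtain ⟨Φ, hΦ, hΦR⟩ := ext_rel (wordAlg g g') (wordAlg_tr g g' hg hg') (wordAlg_fst g g' hgen)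
  have h1 : ∀ i, Φ (g i) = g' i := fun i => hΦR _ (mem_wordAlg_gen g g' i)
  refine ⟨Φ, hΦ, h1, fun y hy => ?_⟩
  have hle : vn (gens g') ≤ Φ.range := by
    apply fg_cl_le (tclosed_range Φ hΦ)
    apply StarAlgebra.adjoin_le
    rintro _ ⟨i, rfl⟩
    exact ⟨g i, h1 i⟩
  exact hle hy

/-- free Haar generating families: isomorphism -/
theorem iso_of_FH {ι : Type} (g : ι → unitary N) (g' : ι → unitary M) (hg : FH g) (hg' : FH g')
    (hgen : vn (gens g) = ⊤) (hgen' : vn (gens g') = ⊤) :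
    ∃ Φ : N ≃⋆ₐ[ℂ] M, (∀ x, τ (Φ x) = τ x) ∧ ∀ i, Φ (g i) = g' i := by
  obtain ⟨Φ, hΦ, hΦR⟩ := iso_rel (wordAlg g g') (wordAlg_tr g g' hg hg') (wordAlg_fst g g' hgen)
    (wordAlg_snd g g' hgen')
  exact ⟨Φ, hΦ, fun i => hΦR _ (mem_wordAlg_gen g g' i)⟩

end Crest.Agent.FGF
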