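import Crest.Agent.FGF.Util

/-! MODULE Iter: the iteration, step 3 of the proof. -/

set_option autoImplicit false
set_option linter.unusedSectionVars false

namespace Crest.Agent.FGF

open Crest.Agent.GenII1 Filter Topology

variable {N M : Type} [CStarAlgebra N] [FinVN N] [CStarAlgebra M] [FinVN M]

theorem it_norm_eq (Φ : N →⋆ₐ[ℂ] M) (hΦ : ∀ x, τ (Φ x) = τ x) (x : N) : ‖Φ x‖ = ‖x‖ :=
  norm_map_tr Φ hΦ x

/-- the local approximation lemma -/
theorem it_local (ι : N →⋆ₐ[ℂ] M) (hι : ∀ x, τ (ι x) = τ x) (σ : M) (hσ : IsSelfAdjoint σ) (z : M)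
    (hz : z ∈ StarAlgebra.adjoin ℂ (Set.range ι ∪ {σ})) :
    ∃ C : ℝ, 0 ≤ C ∧ ∀ η : ℝ, 0 < η → ∃ δ : ℝ, 0 < δ ∧ ∃ F : Finset N, ∀ β : M ≃⋆ₐ[ℂ] M,
      (∀ x, τ (β x) = τ x) → (∀ x ∈ F, n2 (β (ι x) - ι x) ≤ δ) →
      (∃ t : N, n2 (σ - β (ι t)) ≤ δ) → ∃ x : N, ‖x‖ ≤ C ∧ n2 (z - β (ι x)) ≤ η := by
  classical
  induction hz using StarAlgebra.adjoin_induction with
  | mem y hy =>
    rcases hy with ⟨a, rfl⟩ | hy
    · refine ⟨‖a‖, norm_nonneg _, fun η hη => ⟨η, hη, {a}, fun β _ hF _ => ⟨a, le_rfl, ?_⟩⟩⟩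
      rw [n2_sub_comm]
      exact hF a (Finset.mem_singleton_self a)
    · rw [Set.mem_singleton_iff] at hy
      subst hy
      refine ⟨‖y‖, norm_nonneg _, fun η hη => ⟨η, hη, ∅, fun β hβ _ ht => ?_⟩⟩
      obtain ⟨t, ht⟩ := ht
      let Ψ : N →⋆ₐ[ℂ] M := (β : M →⋆ₐ[ℂ] M).comp ι
      have hΨ : ∀ x, τ (Ψ x) = τ x := fun x => (hβ (ι x)).trans (hι x)
      have hcl : IsClosed ((Ψ.range : StarSubalgebra ℂ M) : Set M) := (tclosed_range Ψ hΨ).isClosed
      let a : M := (1 / 2 : ℂ) • (Ψ t + star (Ψ t))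
      have ha : a ∈ Ψ.range := cl_mem_re ⟨t, rfl⟩
      have hasa : IsSelfAdjoint a := cl_sa_re _
      have hd : n2 (a - y) ≤ η := by
        have e : a - y = (1 / 2 : ℂ) • ((Ψ t - y) + star (Ψ t - y)) := by
          rw [star_sub, hσ.star_eq]
          simp only [a]
          module
        rw [e]
        refine (cl_n2_re_le _).trans ?_
        rw [n2_sub_comm]
        exact ht
      obtain ⟨b, hb, -, hbn, hbd⟩ := cl_trunc (Ψ.range.le_topologicalClosure ha) hasa hσ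
      have hb' : b ∈ Ψ.range := by
        have := StarSubalgebra.topologicalClosure_minimal (le_refl Ψ.range) hcl
        exact this hb
      obtain ⟨x, hx⟩ := hb'
      refine ⟨x, ?_, ?_⟩
      · rw [← it_norm_eq Ψ hΨ x]
        have : Ψ x = b := hx
        rw [this]; exact hbn
      · have : β (ι x) = b := hx
        rw [this, n2_sub_comm]
        exact hbd.trans hd
  | algebraMap r =>
    refine ⟨‖algebraMap ℂ N r‖, norm_nonneg _, fun η hη => ⟨η, hη, ∅, fun β _ _ _ =>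
      ⟨algebraMap ℂ N r, le_rfl, ?_⟩⟩⟩
    have h1 : β (ι (algebraMap ℂ N r)) = algebraMap ℂ M r := by
      rw [Algebra.algebraMap_eq_smul_one, map_smul, map_smul, map_one, map_one,
        ← Algebra.algebraMap_eq_smul_one]
    rw [h1, sub_self, n2_zero]; exact hη.le
  | add y y' _ _ hy hy' =>
    obtain ⟨C, hC, h1⟩ := hy
    obtain ⟨C', hC', h2⟩ := hy'
    refine ⟨C + C', add_nonneg hC hC', fun η hη => ?_⟩
    obtain ⟨δ1, hδ1, F1, h1⟩ := h1 (η / 2) (by linarith)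
    obtain ⟨δ2, hδ2, F2, h2⟩ := h2 (η / 2) (by linarith)
    refine ⟨min δ1 δ2, lt_min hδ1 hδ2, F1 ∪ F2, fun β hβ hF ht => ?_⟩
    obtain ⟨t, ht⟩ := ht
    obtain ⟨x, hx, hx2⟩ := h1 β hβ (fun x hx => (hF x (Finset.mem_union_left _ hx)).trans (min_le_left _ _))
      ⟨t, ht.trans (min_le_left _ _)⟩
    obtain ⟨x', hx', hx2'⟩ := h2 β hβ (fun x hx => (hF x (Finset.mem_union_right _ hx)).trans (min_le_right _ _))
      ⟨t, ht.trans (min_le_right _ _)⟩
    refine ⟨x + x', (norm_add_le _ _).trans (add_le_add hx hx'), ?_⟩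
    have e : y + y' - β (ι (x + x')) = (y - β (ι x)) + (y' - β (ι x')) := by
      rw [map_add, map_add]; abel
    rw [e]
    refine (n2_add_le _ _).trans ?_
    linarith
  | mul y y' _ _ hy hy' =>
    obtain ⟨C, hC, h1⟩ := hy
    obtain ⟨C', hC', h2⟩ := hy'
    refine ⟨C * C', mul_nonneg hC hC', fun η hη => ?_⟩
    obtain ⟨δ1, hδ1, F1, h1⟩ := h1 (η / (2 * (‖y'‖ + 1))) (by positivity)
    obtain ⟨δ2, hδ2, F2, h2⟩ := h2 (η / (2 * (C + 1))) (by positivity)
    refine ⟨min δ1 δ2, lt_min hδ1 hδ2, F1 ∪ F2, fun β hβ hF ht => ?_⟩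
    obtain ⟨t, ht⟩ := ht
    obtain ⟨x, hx, hx2⟩ := h1 β hβ (fun x hx => (hF x (Finset.mem_union_left _ hx)).trans (min_le_left _ _))
      ⟨t, ht.trans (min_le_left _ _)⟩
    obtain ⟨x', hx', hx2'⟩ := h2 β hβ (fun x hx => (hF x (Finset.mem_union_right _ hx)).trans (min_le_right _ _))
      ⟨t, ht.trans (min_le_right _ _)⟩
    refine ⟨x * x', (norm_mul_le _ _).trans (mul_le_mul hx hx' (norm_nonneg _) hC), ?_⟩
    have e : y * y' - β (ι (x * x')) = (y - β (ι x)) * y' + β (ι x) * (y' - β (ι x')) := by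
      rw [map_mul, map_mul]; noncomm_ring
    rw [e]
    have hb : ‖β (ι x)‖ ≤ C := by
      refine le_trans ?_ hx
      exact (NonUnitalStarAlgHom.norm_apply_le β (ι x)).trans (NonUnitalStarAlgHom.norm_apply_le ι x)
    have h3 : n2 ((y - β (ι x)) * y') ≤ η / 2 := by
      refine (n2_mul_le_right _ _).trans ?_
      calc n2 (y - β (ι x)) * ‖y'‖ ≤ (η / (2 * (‖y'‖ + 1))) * ‖y'‖ :=
            mul_le_mul_of_nonneg_right hx2 (norm_nonneg _)
        _ = (‖y'‖ / (‖y'‖ + 1)) * (η / 2) := by field_simp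
        _ ≤ 1 * (η / 2) := by
          refine mul_le_mul_of_nonneg_right ?_ (by linarith)
          rw [div_le_one (by positivity)]; linarith
        _ = η / 2 := one_mul _
    have h4 : n2 (β (ι x) * (y' - β (ι x'))) ≤ η / 2 := by
      refine (n2_mul_le_left _ _).trans ?_
      calc ‖β (ι x)‖ * n2 (y' - β (ι x')) ≤ C * (η / (2 * (C + 1))) :=
            mul_le_mul hb hx2' (n2_nonneg _) hC
        _ = (C / (C + 1)) * (η / 2) := by field_simp
        _ ≤ 1 * (η / 2) := by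
          refine mul_le_mul_of_nonneg_right ?_ (by linarith)
          rw [div_le_one (by positivity)]; linarith
        _ = η / 2 := one_mul _
    refine (n2_add_le _ _).trans ?_
    linarith
  | star y _ hy =>
    obtain ⟨C, hC, h1⟩ := hy
    refine ⟨C, hC, fun η hη => ?_⟩
    obtain ⟨δ, hδ, F, h1⟩ := h1 η hη
    refine ⟨δ, hδ, F, fun β hβ hF ht => ?_⟩
    obtain ⟨x, hx, hx2⟩ := h1 β hβ hF ht
    refine ⟨star x, by rwa [norm_star], ?_⟩
    have e : star y - β (ι (star x)) = star (y - β (ι x)) := by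
      rw [map_star, map_star, star_sub]
    rw [e, n2_star]
    exact hx2

/-- one step of the iteration -/
theorem it_step (ι : N →⋆ₐ[ℂ] M) (s : Unit → M) (h : SemiExt ι s)
    (hPP : ∀ δ : ℝ, 0 < δ → PP N Unit δ) (E : Finset M) (α : M ≃⋆ₐ[ℂ] M)
    (hα : ∀ x, τ (α x) = τ x) (F : Finset N) (ε : ℝ) (hε : 0 < ε) :
    ∃ α' : M ≃⋆ₐ[ℂ] M, (∀ x, τ (α' x) = τ x) ∧ (∀ x ∈ F, n2 (α' (ι x) - α (ι x)) ≤ ε) ∧
      ∀ m ∈ E, ∃ x : N, n2 (m - α' (ι x)) ≤ ε := by
  classical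
  have hαn : ∀ x, n2 (α x) = n2 x := fun x => n2_map (α : M →⋆ₐ[ℂ] M) hα x
  have hset : Set.range ι ∪ Set.range s = Set.range ι ∪ {s ()} := by
    congr 1
    ext x
    simp only [Set.mem_range, Set.mem_singleton_iff]
    exact ⟨fun ⟨_, h⟩ => h.symm, fun h => ⟨(), h.symm⟩⟩
  have hgen := h.gen
  rw [hset] at hgen
  have hz : ∀ m : M, ∃ z ∈ StarAlgebra.adjoin ℂ (Set.range ι ∪ {s ()}),
      n2 (α.symm m - z) < ε / 2 := by
    intro m
    have : α.symm m ∈ vn (Set.range ι ∪ {s ()}) := by rw [hgen]; trivial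
    exact this (ε / 2) (by linarith)
  choose z hz hz2 using hz
  choose Cz hCz hloc using fun m : M => it_local ι h.tr (s ()) (h.sa ()) (z m) (hz m)
  choose δz hδz Fz hFz using fun m : M => hloc m (ε / 2) (by linarith)
  -- a common δ
  obtain ⟨δ, hδ, hδE⟩ : ∃ δ : ℝ, 0 < δ ∧ δ ≤ ε ∧ ∀ m ∈ E, δ ≤ δz m := by
    by_cases hE : E.Nonempty
    · refine ⟨min ε (E.inf' hE δz), lt_min hε ((Finset.lt_inf'_iff hE).2 fun m _ => hδz m),
        min_le_left _ _, fun m hm => (min_le_right _ _).trans (Finset.inf'_le _ hm)⟩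
    · rw [Finset.not_nonempty_iff_eq_empty] at hE
      exact ⟨ε, hε, le_rfl, fun m hm => by rw [hE] at hm; exact absurd hm (Finset.notMem_empty m)⟩
  obtain ⟨β, hβ, hβF, t, ht⟩ := hPP δ hδ M ι s h (F ∪ E.biUnion Fz) δ hδ
  have ht' : n2 (s () - β (ι (t ()))) ≤ δ := by
    simp only [Finset.univ_unique, PUnit.default_eq_unit, Finset.sum_singleton, Fintype.card_unit,
      Nat.cast_one, one_mul] at ht
    exact (abs_le_of_sq_le_sq' ht hδ.le).2
  refine ⟨β.trans α, fun x => (hα (β x)).trans (hβ x), fun x hx => ?_, fun m hm => ?_⟩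
  · change n2 (α (β (ι x)) - α (ι x)) ≤ ε
    rw [← map_sub, hαn]
    exact (hβF x (Finset.mem_union_left _ hx)).trans hδE.1
  · obtain ⟨x, -, hx⟩ := hFz m β hβ
      (fun x hx => (hβF x (Finset.mem_union_right _ (Finset.mem_biUnion.2 ⟨m, hm, hx⟩))).trans
        (hδE.2 m hm)) ⟨t (), ht'.trans (hδE.2 m hm)⟩
    refine ⟨x, ?_⟩
    change n2 (m - α (β (ι x))) ≤ ε
    have e : m - α (β (ι x)) = α (α.symm m - β (ι x)) := by
      rw [map_sub, StarAlgEquiv.apply_symm_apply]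
    rw [e, hαn]
    have h1 := n2_triangle (α.symm m) (z m) (β (ι x))
    have h2 := hz2 m
    linarith

/-- 2-norm Cauchy sequences -/
def C2 (f : ℕ → M) : Prop := ∀ ε : ℝ, 0 < ε → ∃ K : ℕ, ∀ m, K ≤ m → ∀ n, K ≤ n → n2 (f m - f n) < ε

theorem C2.add {f g : ℕ → M} (hf : C2 f) (hg : C2 g) : C2 (fun n => f n + g n) := by
  intro ε hε
  obtain ⟨K, hK⟩ := hf (ε / 2) (by linarith)
  obtain ⟨K', hK'⟩ := hg (ε / 2) (by linarith)
  refine ⟨max K K', fun m hm n hn => ?_⟩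
  have h1 := hK m ((le_max_left _ _).trans hm) n ((le_max_left _ _).trans hn)
  have h2 := hK' m ((le_max_right _ _).trans hm) n ((le_max_right _ _).trans hn)
  have e : f m + g m - (f n + g n) = (f m - f n) + (g m - g n) := by abel
  rw [e]
  exact (n2_add_le _ _).trans_lt (by linarith)

theorem C2.star {f : ℕ → M} (hf : C2 f) : C2 (fun n => star (f n)) := by
  intro ε hε
  obtain ⟨K, hK⟩ := hf ε hε
  refine ⟨K, fun m hm n hn => ?_⟩
  rw [← star_sub, n2_star]
  exact hK m hm n hn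

theorem C2.mul {f g : ℕ → M} {C : ℝ} (hC : 0 ≤ C) (hf : C2 f) (hg : C2 g) (hfC : ∀ n, ‖f n‖ ≤ C)
    (hgC : ∀ n, ‖g n‖ ≤ C) : C2 (fun n => f n * g n) := by
  intro ε hε
  obtain ⟨K, hK⟩ := hf (ε / (2 * (C + 1))) (by positivity)
  obtain ⟨K', hK'⟩ := hg (ε / (2 * (C + 1))) (by positivity)
  refine ⟨max K K', fun m hm n hn => ?_⟩
  have h1 := hK m ((le_max_left _ _).trans hm) n ((le_max_left _ _).trans hn)
  have h2 := hK' m ((le_max_right _ _).trans hm) n ((le_max_right _ _).trans hn)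
  have e : f m * g m - f n * g n = (f m - f n) * g m + f n * (g m - g n) := by noncomm_ring
  rw [e]
  rw [lt_div_iff₀ (by positivity)] at h1 h2
  have h3 : n2 ((f m - f n) * g m) ≤ n2 (f m - f n) * C :=
    (n2_mul_le_right _ _).trans (mul_le_mul_of_nonneg_left (hgC m) (n2_nonneg _))
  have h4 : n2 (f n * (g m - g n)) ≤ C * n2 (g m - g n) :=
    (n2_mul_le_left _ _).trans (mul_le_mul_of_nonneg_right (hfC n) (n2_nonneg _))
  have h5 := n2_add_le ((f m - f n) * g m) (f n * (g m - g n))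
  have h6 := n2_nonneg (f m - f n)
  have h7 := n2_nonneg (g m - g n)
  nlinarith

/-- pointwise 2-convergence of trace preserving homomorphisms -/
theorem it_limit (φ : ℕ → N →⋆ₐ[ℂ] M) (hφ : ∀ k x, τ (φ k x) = τ x) (S : Set N)
    (hS : vn S = ⊤) (hc : ∀ x ∈ S, C2 (fun k => φ k x)) :
    ∃ Φ : N →⋆ₐ[ℂ] M, (∀ x, τ (Φ x) = τ x) ∧ ∀ x, TL (fun k => φ k x) (Φ x) := by
  have hn : ∀ k x, n2 (φ k x) = n2 x := fun k x => n2_map (φ k) (hφ k) x
  have hb : ∀ k x, ‖φ k x‖ ≤ ‖x‖ := fun k x => NonUnitalStarAlgHom.norm_apply_le (φ k) x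
  have h1 : ∀ x ∈ StarAlgebra.adjoin ℂ S, C2 (fun k => φ k x) := by
    intro x hx
    induction hx using StarAlgebra.adjoin_induction with
    | mem y hy => exact hc y hy
    | algebraMap r =>
      intro ε hε
      refine ⟨0, fun m _ n _ => ?_⟩
      have : ∀ k, φ k (algebraMap ℂ N r) = algebraMap ℂ M r := fun k => by
        rw [Algebra.algebraMap_eq_smul_one, map_smul, map_one, ← Algebra.algebraMap_eq_smul_one]
      change n2 (φ m (algebraMap ℂ N r) - φ n (algebraMap ℂ N r)) < ε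
      rw [this, this, sub_self, n2_zero]; exact hε
    | add y y' _ _ h h' => simpa only [map_add] using h.add h'
    | mul y y' _ _ h h' =>
      have := C2.mul (C := ‖y‖ + ‖y'‖) (by positivity) h h'
        (fun k => (hb k y).trans (by linarith [norm_nonneg y']))
        (fun k => (hb k y').trans (by linarith [norm_nonneg y]))
      simpa only [map_mul] using this
    | star y _ h => simpa only [map_star] using h.star
  have h2 : ∀ x, C2 (fun k => φ k x) := by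
    intro x ε hε
    have hx : x ∈ vn S := by rw [hS]; trivial
    obtain ⟨a, ha, hxa⟩ := hx (ε / 3) (by linarith)
    obtain ⟨K, hK⟩ := h1 a ha (ε / 3) (by linarith)
    refine ⟨K, fun m hm n hn' => ?_⟩
    have h3 := hK m hm n hn'
    have e : φ m x - φ n x = φ m (x - a) + (φ m a - φ n a) + φ n (a - x) := by
      simp only [map_sub]; abel
    rw [e]
    have h4 := n2_add_le (φ m (x - a) + (φ m a - φ n a)) (φ n (a - x))
    have h5 := n2_add_le (φ m (x - a)) (φ m a - φ n a)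
    rw [hn] at h4 h5
    rw [n2_sub_comm a x] at h4
    linarith
  choose Φ hΦn hΦ using fun x => exists_lim (fun k => φ k x) ‖x‖ (fun k => hb k x) (h2 x)
  have hTL : ∀ x, TL (fun k => φ k x) (Φ x) := hΦ
  refine ⟨{ toFun := Φ
            map_one' := ?_
            map_mul' := ?_
            map_zero' := ?_
            map_add' := ?_
            commutes' := ?_
            map_star' := ?_ }, fun x => ?_, hTL⟩
  · refine TL.unique (hTL 1) ?_
    simpa only [map_one] using TL.const (1 : M)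
  · intro x y
    refine TL.unique (hTL (x * y)) ?_
    simpa only [map_mul] using (hTL x).mul (hTL y) (fun k => hb k x)
  · refine TL.unique (hTL 0) ?_
    simpa only [map_zero] using TL.const (0 : M)
  · intro x y
    refine TL.unique (hTL (x + y)) ?_
    simpa only [map_add] using (hTL x).add (hTL y)
  · intro r
    refine TL.unique (hTL (algebraMap ℂ N r)) ?_
    have : ∀ k, φ k (algebraMap ℂ N r) = algebraMap ℂ M r := fun k => by
      rw [Algebra.algebraMap_eq_smul_one, map_smul, map_one, ← Algebra.algebraMap_eq_smul_one]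
    simpa only [this] using TL.const (algebraMap ℂ M r)
  · intro x
    refine TL.unique (hTL (star x)) ?_
    simpa only [map_star] using (hTL x).star
  · have h3 := (hTL x).τ
    simp only [hφ] at h3
    exact tendsto_nhds_unique h3 tendsto_const_nhds |>.symm ▸ rfl

/-- STEP 3. If `N` is finitely generated and has the approximate absorption property for one
semicircular and all `δ > 0`, then `N ≅ N * L(ℤ)`. -/
theorem iso_of_PP (ι : N →⋆ₐ[ℂ] M) (s : Unit → M) (h : SemiExt ι s) (SN : Finset N)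
    (hSN : vn (SN : Set N) = ⊤) (hPP : ∀ δ : ℝ, 0 < δ → PP N Unit δ) : TPIso N M := by
  classical
  let E : Finset M := SN.image ι ∪ {s ()}
  let State := {α : M ≃⋆ₐ[ℂ] M // ∀ x, τ (α x) = τ x} × Finset N
  have hstep : ∀ (k : ℕ) (st : State), ∃ st' : State,
      (∀ x ∈ st.2, n2 (st'.1.1 (ι x) - st.1.1 (ι x)) ≤ (1 / 2 : ℝ) ^ k) ∧ st.2 ⊆ st'.2 ∧
      ∀ m ∈ E, ∃ x ∈ st'.2, n2 (m - st'.1.1 (ι x)) ≤ (1 / 2 : ℝ) ^ k := by
    rintro k ⟨⟨α, hα⟩, F⟩
    obtain ⟨α', hα', h1, h2⟩ := it_step ι s h hPP E α hα F ((1 / 2 : ℝ) ^ k) (by positivity)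
    choose! x hx using h2
    refine ⟨⟨⟨α', hα'⟩, F ∪ E.image x⟩, h1, Finset.subset_union_left, fun m hm => ?_⟩
    exact ⟨x m, Finset.mem_union_right _ (Finset.mem_image_of_mem x hm), hx m hm⟩
  choose next hn1 hn2 hn3 using hstep
  let st : ℕ → State := fun k => Nat.rec (motive := fun _ => State)
    (⟨⟨StarAlgEquiv.refl ℂ M, fun _ => rfl⟩, SN⟩) (fun k s => next k s) k
  have hst : ∀ k, st (k + 1) = next k (st k) := fun k => rfl
  let φ : ℕ → N →⋆ₐ[ℂ] M := fun k => ((st k).1.1 : M →⋆ₐ[ℂ] M).comp ι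
  have hφ : ∀ k x, τ (φ k x) = τ x := fun k x => ((st k).1.2 (ι x)).trans (h.tr x)
  have hmono : ∀ k, (st k).2 ⊆ (st (k + 1)).2 := fun k => hn2 k (st k)
  have hmono' : ∀ j k, j ≤ k → (st j).2 ⊆ (st k).2 := by
    intro j k hjk
    induction k, hjk using Nat.le_induction with
    | base => exact Finset.Subset.refl _
    | succ k _ ih => exact ih.trans (hmono k)
  have hinc : ∀ k, ∀ x ∈ (st k).2, n2 (φ (k + 1) x - φ k x) ≤ (1 / 2 : ℝ) ^ k :=
    fun k x hx => hn1 k (st k) x hx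
  -- geometric estimate
  have hgeo : ∀ k, ∀ x ∈ (st k).2, ∀ j, n2 (φ (k + j) x - φ k x) ≤ 2 * (1 / 2 : ℝ) ^ k -
      2 * (1 / 2 : ℝ) ^ (k + j) := by
    intro k x hx j
    induction j with
    | zero => simp
    | succ j ih =>
      have h1 := hinc (k + j) x (hmono' k (k + j) (Nat.le_add_right _ _) hx)
      have h2 := n2_triangle (φ (k + j + 1) x) (φ (k + j) x) (φ k x)
      have e : (1 / 2 : ℝ) ^ (k + (j + 1)) = (1 / 2) * (1 / 2 : ℝ) ^ (k + j) := by
        rw [← add_assoc, pow_succ]; ring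
      rw [e]
      have e2 : φ (k + (j + 1)) x = φ (k + j + 1) x := rfl
      rw [e2]
      linarith
  have hgeo' : ∀ k, ∀ x ∈ (st k).2, ∀ m, k ≤ m → n2 (φ m x - φ k x) ≤ 2 * (1 / 2 : ℝ) ^ k := by
    intro k x hx m hm
    obtain ⟨j, rfl⟩ := Nat.exists_eq_add_of_le hm
    have := hgeo k x hx j
    have h3 : (0 : ℝ) ≤ (1 / 2 : ℝ) ^ (k + j) := by positivity
    linarith
  have hsmall : ∀ ε : ℝ, 0 < ε → ∃ K : ℕ, (1 / 2 : ℝ) ^ K < ε := fun ε hε =>
    exists_pow_lt_of_lt_one hε (by norm_num)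
  obtain ⟨Φ, hΦ, hTL⟩ := it_limit φ hφ (SN : Set N) hSN (by
    intro x hx ε hε
    obtain ⟨K, hK⟩ := hsmall (ε / 4) (by linarith)
    have hxK : x ∈ (st K).2 := hmono' 0 K (Nat.zero_le _) hx
    refine ⟨K, fun m hm n hn => ?_⟩
    have h1 := hgeo' K x hxK m hm
    have h2 := hgeo' K x hxK n hn
    have h3 := n2_triangle (φ m x) (φ K x) (φ n x)
    rw [n2_sub_comm (φ K x)] at h3
    linarith)
  -- distance to the limit
  have hlim : ∀ k, ∀ x ∈ (st k).2, n2 (Φ x - φ k x) ≤ 2 * (1 / 2 : ℝ) ^ k := by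
    intro k x hx
    have h1 : Tendsto (fun m => n2 (φ m x - Φ x) + 2 * (1 / 2 : ℝ) ^ k) atTop
        (𝓝 (0 + 2 * (1 / 2 : ℝ) ^ k)) := (hTL x).add_const _
    rw [zero_add] at h1
    refine ge_of_tendsto h1 ?_
    filter_upwards [eventually_ge_atTop k] with m hm
    have h2 := n2_triangle (Φ x) (φ m x) (φ k x)
    rw [n2_sub_comm (Φ x) (φ m x)] at h2
    have h3 := hgeo' k x hx m hm
    linarith
  have hE : ∀ m ∈ E, m ∈ Φ.range := by
    intro m hm
    refine mem_of_L2mem (tclosed_range Φ hΦ) le_rfl ?_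
    intro ε hε
    obtain ⟨K, hK⟩ := hsmall (ε / 4) (by linarith)
    obtain ⟨x, hx, hx2⟩ := hn3 K (st K) m hm
    refine ⟨Φ x, ⟨x, rfl⟩, ?_⟩
    have h1 := hlim (K + 1) x hx
    have h2 := n2_triangle m (φ (K + 1) x) (Φ x)
    rw [n2_sub_comm (φ (K + 1) x)] at h2
    have h3 : n2 (m - φ (K + 1) x) ≤ (1 / 2 : ℝ) ^ K := hx2
    have h4 : (1 / 2 : ℝ) ^ (K + 1) = (1 / 2) * (1 / 2 : ℝ) ^ K := by rw [pow_succ]; ring
    rw [h4] at h1
    linarith
  have htop : (⊤ : StarSubalgebra ℂ M) ≤ Φ.range := by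
    rw [← h.gen]
    refine vn_le (tclosed_range Φ hΦ) ?_
    have hιS : vn (ι '' (SN : Set N)) ≤ Φ.range := by
      refine vn_le (tclosed_range Φ hΦ) ?_
      rintro _ ⟨a, ha, rfl⟩
      exact hE _ (Finset.mem_union_left _ (Finset.mem_image_of_mem ι ha))
    rintro x (⟨a, rfl⟩ | ⟨⟨⟩, rfl⟩)
    · exact hιS (map_mem_vn ι h.tr (SN : Set N) (by rw [hSN]; trivial))
    · exact hE _ (Finset.mem_union_right _ (Finset.mem_singleton_self _))
  have hsurj : Function.Surjective Φ := fun y => htop (show y ∈ (⊤ : StarSubalgebra ℂ M) by trivial)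
  have hinj : Function.Injective Φ := map_inj Φ hΦ
  exact ⟨StarAlgEquiv.ofBijective Φ ⟨hinj, hsurj⟩, fun x => hΦ x⟩

end Crest.Agent.FGF
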