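import Crest.Agent.FGF.Ext

/-! ROW 134: small lemmas on `vn`, reindexing and transport by trace preserving homomorphisms. -/

set_option autoImplicit false
set_option linter.unusedSectionVars false

namespace Crest.Agent.FGF

open Crest.Agent.GenII1 Filter Topology

section vn

variable {A : Type*} [CStarAlgebra A] [FinVN A]

theorem subset_vn (S : Set A) : S ⊆ vn S := fun _ hx =>
  fg_le_cl _ (StarAlgebra.subset_adjoin ℂ S hx)

theorem mem_vn_of_mem {S : Set A} {x : A} (hx : x ∈ S) : x ∈ vn S := subset_vn S hx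

theorem tclosed_vn (S : Set A) : TClosed (vn S) := fg_cl_closed _

theorem vn_le {S : Set A} {P : StarSubalgebra ℂ A} (hP : TClosed P) (h : S ⊆ P) : vn S ≤ P :=
  fg_cl_le hP (StarAlgebra.adjoin_le h)

theorem vn_mono {S T : Set A} (h : S ⊆ T) : vn S ≤ vn T :=
  vn_le (tclosed_vn T) (h.trans (subset_vn T))

theorem vn_le_vn {S T : Set A} (h : S ⊆ vn T) : vn S ≤ vn T :=
  vn_le (tclosed_vn T) h

end vn

section map

variable {N M : Type} [CStarAlgebra N] [FinVN N] [CStarAlgebra M] [FinVN M]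

/-- the image of a unitary under a star homomorphism -/
noncomputable def umap (Φ : N →⋆ₐ[ℂ] M) (u : unitary N) : unitary M :=
  ⟨Φ u, by
    rw [Unitary.mem_iff]
    exact ⟨by rw [← map_star, ← map_mul, Unitary.star_mul_self_of_mem u.2, map_one],
      by rw [← map_star, ← map_mul, Unitary.mul_star_self_of_mem u.2, map_one]⟩⟩

@[simp] theorem umap_coe (Φ : N →⋆ₐ[ℂ] M) (u : unitary N) : (umap Φ u : M) = Φ u := rfl

/-- `umap` as a homomorphism -/
noncomputable def umapHom (Φ : N →⋆ₐ[ℂ] M) : unitary N →* unitary M where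
  toFun := umap Φ
  map_one' := Subtype.ext (by simp)
  map_mul' a b := Subtype.ext (by simp)

theorem ev_umap {ι : Type} (Φ : N →⋆ₐ[ℂ] M) (g : ι → unitary N) (h : FreeGroup ι) :
    ev (fun i => umap Φ (g i)) h = umap Φ (ev g h) := by
  have : (ev (fun i => umap Φ (g i)) : FreeGroup ι →* unitary M) = (umapHom Φ).comp (ev g) := by
    ext i
    simp [umapHom]
  rw [this]; rfl

theorem FH_umap {ι : Type} (Φ : N →⋆ₐ[ℂ] M) (hΦ : ∀ x, τ (Φ x) = τ x) (g : ι → unitary N)
    (hg : FH g) : FH (fun i => umap Φ (g i)) := by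
  intro h hh
  rw [ev_umap, umap_coe, hΦ]
  exact hg h hh

/-- the image of `vn S` is contained in `vn (Φ '' S)` -/
theorem map_mem_vn (Φ : N →⋆ₐ[ℂ] M) (hΦ : ∀ x, τ (Φ x) = τ x) (S : Set N) {x : N}
    (hx : x ∈ vn S) : Φ x ∈ vn (Φ '' S) := by
  intro ε hε
  obtain ⟨a, ha, h1⟩ := hx ε hε
  refine ⟨Φ a, ?_, ?_⟩
  · have h2 : StarSubalgebra.map Φ (StarAlgebra.adjoin ℂ S) = StarAlgebra.adjoin ℂ (Φ '' S) :=
      StarAlgHom.map_adjoin Φ S
    rw [← h2]
    exact StarSubalgebra.mem_map.2 ⟨a, ha, rfl⟩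
  · rw [← map_sub, n2_map Φ hΦ]
    exact h1

end map

section reindex

variable {A : Type*} [CStarAlgebra A]

theorem ev_comp {ι κ : Type*} (g : ι → unitary A) (f : κ → ι) (h : FreeGroup κ) :
    ev (fun k => g (f k)) h = ev g (FreeGroup.map f h) := by
  have : (ev (fun k => g (f k)) : FreeGroup κ →* unitary A) = (ev g).comp (FreeGroup.map f) := by
    ext i
    simp
  rw [this]; rfl

theorem FH_comp [FinVN A] {ι κ : Type*} (g : ι → unitary A) (hg : FH g) (f : κ → ι)
    (hf : Function.Injective f) : FH (fun k => g (f k)) := by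
  intro h hh
  rw [ev_comp]
  refine hg _ ?_
  intro h1
  exact hh (FreeGroup.map_injective hf (by rw [h1, map_one]))

end reindex

end Crest.Agent.FGF
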