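import Crest.Agent.FGF.LGBase
import Crest.Agent.FGF.Util

/-! MODULE LG: the group von Neumann algebra as a `FinVN`. -/

set_option autoImplicit false
set_option linter.unusedSectionVars false

namespace Crest.Agent.FGF

open Crest.Agent.GenII1 Filter Topology Crest.OpAlg LGw

/-- the group von Neumann algebra as a type -/
abbrev LG (G : Type) [Group G] : Type := ↥(groupVNA G).toStarSubalgebra

variable (G : Type) [Group G]

theorem isClosed_LG : IsClosed ((groupVNA G).toStarSubalgebra : Set (ltwo G →L[ℂ] ltwo G)) := by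
  have h1 : ((groupVNA G).toStarSubalgebra : Set (ltwo G →L[ℂ] ltwo G)) =
      Set.centralizer (Set.centralizer (groupVNA G).carrier) := (groupVNA G).centralizer_centralizer'.symm
  rw [h1]
  exact Set.isClosed_centralizer _

noncomputable instance instCStarLG : CStarAlgebra (LG G) :=
  StarSubalgebra.cstarAlgebra (groupVNA G).toStarSubalgebra (h_closed := isClosed_LG G)

noncomputable instance instFinVNLG [DecidableEq G] : FinVN (LG G) where
  τ := { toFun := fun x => groupTrace G (x : ltwo G →L[ℂ] ltwo G)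
         map_add' := fun x y => by simp [groupTrace]
         map_smul' := fun c x => by simp [groupTrace] }
  τ_one := by
    change groupTrace G (1 : ltwo G →L[ℂ] ltwo G) = 1
    have h := groupTrace_star_mul (1 : ltwo G →L[ℂ] ltwo G)
    rw [star_one, one_mul] at h
    rw [h]
    change (((‖(dl (1 : G) : ltwo G)‖ ^ 2 : ℝ)) : ℂ) = 1
    have h2 : ‖(dl (1 : G) : ltwo G)‖ = 1 := by
      rw [lp.norm_single (by norm_num)]
      simp
    rw [h2]
    norm_num
  τ_comm x y := groupTrace_comm x.2 y.2
  τ_nonneg x := by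
    change 0 ≤ (groupTrace G (star (x : ltwo G →L[ℂ] ltwo G) * x)).re
    rw [groupTrace_star_mul]
    simp only [Complex.ofReal_re]
    positivity
  τ_im x := by
    change (groupTrace G (star (x : ltwo G →L[ℂ] ltwo G) * x)).im = 0
    rw [groupTrace_star_mul]
    exact Complex.ofReal_im _
  faithful x hx := by
    have hx' : groupTrace G (star (x : ltwo G →L[ℂ] ltwo G) * x) = 0 := hx
    rw [groupTrace_star_mul] at hx'
    have h1 : ‖(x : ltwo G →L[ℂ] ltwo G) (dl 1)‖ = 0 := by
      have : ‖(x : ltwo G →L[ℂ] ltwo G) (dl 1)‖ ^ 2 = 0 := by exact_mod_cast hx'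
      exact pow_eq_zero_iff (two_ne_zero) |>.1 this
    have h2 : (x : ltwo G →L[ℂ] ltwo G) (dl 1) = 0 := norm_eq_zero.1 h1
    apply Subtype.ext
    apply ext_dl
    intro g
    rw [x_dl x.2 g, h2, map_zero]
    rfl
  complete f C hC hc := by
    obtain ⟨g, hg, hgC, hlim⟩ := complete_aux (fun n => (f n : ltwo G →L[ℂ] ltwo G))
      (fun n => (f n).2) C hC (by
        intro ε hε
        obtain ⟨N, hN⟩ := hc ε hε
        refine ⟨N, fun m hm n hn => ?_⟩
        have h1 : (groupTrace G (star ((f m : ltwo G →L[ℂ] ltwo G) - f n) *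
          ((f m : ltwo G →L[ℂ] ltwo G) - f n))).re < ε := hN m hm n hn
        rw [groupTrace_star_mul, Complex.ofReal_re] at h1
        exact h1)
    refine ⟨⟨g, hg⟩, hgC, ?_⟩
    have e : (fun n => ‖((f n : ltwo G →L[ℂ] ltwo G) - g) (dl 1)‖ ^ 2) = fun n =>
        (groupTrace G (star ((f n : ltwo G →L[ℂ] ltwo G) - g) *
          ((f n : ltwo G →L[ℂ] ltwo G) - g))).re := by
      funext n
      rw [groupTrace_star_mul]
      exact (Complex.ofReal_re _).symm
    rw [e] at hlim
    exact hlim

theorem τ_LG [DecidableEq G] (x : LG G) : τ x = groupTrace G (x : ltwo G →L[ℂ] ltwo G) := rfl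

theorem n2_LG [DecidableEq G] (x : LG G) :
    n2 x = ‖(x : ltwo G →L[ℂ] ltwo G) (dl 1)‖ := by
  have h1 : n2 x ^ 2 = ‖(x : ltwo G →L[ℂ] ltwo G) (dl 1)‖ ^ 2 := by
    rw [n2_sq]
    change (groupTrace G (star (x : ltwo G →L[ℂ] ltwo G) * x)).re = _
    rw [groupTrace_star_mul]
    exact Complex.ofReal_re _
  exact (sq_eq_sq₀ (n2_nonneg _) (norm_nonneg _)).1 h1

theorem left_mul (g h : G) : leftRegular (g * h) = leftRegular g * leftRegular h := by
  ext ξ k
  change ξ ((g * h)⁻¹ * k) = ξ (h⁻¹ * (g⁻¹ * k))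
  rw [mul_inv_rev, mul_assoc]

theorem left_one : leftRegular (1 : G) = 1 := by
  ext ξ k
  change ξ (1⁻¹ * k) = ξ k
  simp

/-- the left regular unitaries -/
noncomputable def lam : G →* unitary (LG G) where
  toFun g := ⟨⟨leftRegular g, left_mem g⟩, by
    rw [Unitary.mem_iff]
    constructor
    · apply Subtype.ext
      change star (leftRegular g) * leftRegular g = 1
      rw [left_star, ← left_mul, inv_mul_cancel, left_one]
    · apply Subtype.ext
      change leftRegular g * star (leftRegular g) = 1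
      rw [left_star, ← left_mul, mul_inv_cancel, left_one]⟩
  map_one' := Subtype.ext (Subtype.ext (left_one G))
  map_mul' g h := Subtype.ext (Subtype.ext (left_mul G g h))

theorem lam_coe (g : G) : (((lam G g : unitary (LG G)) : LG G) : ltwo G →L[ℂ] ltwo G) =
    leftRegular g := rfl

theorem τ_lam [DecidableEq G] (g : G) (hg : g ≠ 1) : τ ((lam G g : unitary (LG G)) : LG G) = 0 := by
  change groupTrace G (leftRegular g) = 0
  change inner ℂ (dl (1 : G)) (leftRegular g (dl 1)) = 0
  rw [left_dl, inner_dl, dl_apply, if_neg]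
  simpa using hg.symm

/-- the left regular unitaries span a 2-dense subspace -/
theorem L2_lam [DecidableEq G] (x : LG G) (ε : ℝ) (hε : 0 < ε) :
    ∃ (S : Finset G) (c : G → ℂ), n2 (x - ∑ g ∈ S, c g • ((lam G g : unitary (LG G)) : LG G)) < ε := by
  set ξ : ltwo G := (x : ltwo G →L[ℂ] ltwo G) (dl 1) with hξ
  have h1 : HasSum (fun g : G => lp.single 2 g (ξ g)) ξ := lp.hasSum_single (by norm_num) ξ
  obtain ⟨S, hS⟩ := (Metric.tendsto_nhds.1 h1 ε hε).exists
  refine ⟨S, fun g => ξ g, ?_⟩
  rw [n2_LG]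
  have e : ((x - ∑ g ∈ S, ξ g • ((lam G g : unitary (LG G)) : LG G) : LG G) :
      ltwo G →L[ℂ] ltwo G) (dl 1) = ξ - ∑ g ∈ S, lp.single 2 g (ξ g) := by
    have e1 : ((x - ∑ g ∈ S, ξ g • ((lam G g : unitary (LG G)) : LG G) : LG G) :
      ltwo G →L[ℂ] ltwo G) = (x : ltwo G →L[ℂ] ltwo G) - ∑ g ∈ S, ξ g • leftRegular g := by
      push_cast
      rfl
    rw [e1, sub_apply, sum_apply]
    congr 1
    refine Finset.sum_congr rfl fun g _ => ?_
    rw [smul_apply, left_dl, mul_one, ← lp.single_smul]
    simp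
  rw [e]
  rw [dist_comm, dist_eq_norm] at hS
  exact hS

/-- The generators of the free group give a free Haar generating family. -/
theorem exists_FH_LG (n : ℕ) : ∃ g : Fin n → unitary (LG (FreeGroup (Fin n))),
    FH g ∧ vn (gens g) = ⊤ := by
  let g : Fin n → unitary (LG (FreeGroup (Fin n))) := fun i => lam _ (FreeGroup.of i)
  have hev : ev g = lam (FreeGroup (Fin n)) := by
    ext i
    simp [g]
  refine ⟨g, ?_, ?_⟩
  · intro h hh
    rw [hev]
    exact τ_lam _ h hh
  · rw [eq_top_iff]
    intro x _ ε hε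
    obtain ⟨S, c, h1⟩ := L2_lam _ x ε hε
    refine ⟨_, ?_, h1⟩
    refine sum_mem fun h _ => ?_
    refine SMulMemClass.smul_mem _ ?_
    rw [← hev]
    have key : ∀ h : FreeGroup (Fin n), ((ev g h : unitary (LG (FreeGroup (Fin n)))) :
        LG (FreeGroup (Fin n))) ∈ StarAlgebra.adjoin ℂ (gens g) := by
      intro h
      refine FreeGroup.induction_on h ?_ ?_ ?_ ?_
      · rw [map_one]; exact one_mem _
      · intro i
        rw [ev_of]
        exact StarAlgebra.subset_adjoin ℂ (gens g) ⟨i, rfl⟩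
      · intro i hi
        rw [map_inv]
        exact star_mem hi
      · intro a b ha hb
        rw [map_mul]
        exact mul_mem ha hb
    exact key h

end Crest.Agent.FGF
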