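import Crest.Agent.FGF.Base
import Crest.Prelude.Def_GroupVNA

/-! The group von Neumann algebra: left/right translations, trace, completeness (helper2). -/

set_option autoImplicit false
set_option linter.unusedSectionVars false

namespace Crest.Agent.FGF.LGw

open Crest.Agent.GenII1 Filter Topology Crest.OpAlg

variable (G : Type) [Group G]

/-- right translation -/
noncomputable def rightReg (g : G) : ltwo G →L[ℂ] ltwo G :=
  ((ltwoReindex (Equiv.mulRight g) : ltwo G ≃ₗᵢ[ℂ] ltwo G) : ltwo G →L[ℂ] ltwo G)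

variable {G}

theorem left_apply (g : G) (ξ : ltwo G) (h : G) : leftRegular g ξ h = ξ (g⁻¹ * h) := rfl

theorem right_apply (g : G) (ξ : ltwo G) (h : G) : rightReg G g ξ h = ξ (h * g) := rfl

theorem left_right (g h : G) : leftRegular g * rightReg G h = rightReg G h * leftRegular g := by
  ext ξ k
  change ξ (g⁻¹ * k * h) = ξ (g⁻¹ * (k * h))
  rw [mul_assoc]

theorem left_star (g : G) : star (leftRegular g) = leftRegular g⁻¹ := by
  rw [ContinuousLinearMap.star_eq_adjoint]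
  symm
  rw [ContinuousLinearMap.eq_adjoint_iff]
  intro ξ η
  have h1 := LinearIsometryEquiv.inner_map_map (ltwoReindex (Equiv.mulLeft g⁻¹) : ltwo G ≃ₗᵢ[ℂ] ltwo G)
    (leftRegular g⁻¹ ξ) η
  have h2 : (ltwoReindex (Equiv.mulLeft g⁻¹) : ltwo G ≃ₗᵢ[ℂ] ltwo G) (leftRegular g⁻¹ ξ) = ξ := by
    ext k
    change ξ (g⁻¹⁻¹ * (g⁻¹ * k)) = ξ k
    simp
  rw [h2] at h1
  exact h1.symm

theorem mem_LG_iff (x : ltwo G →L[ℂ] ltwo G) : x ∈ (groupVNA G).toStarSubalgebra ↔
    ∀ y ∈ (StarSubalgebra.centralizer ℂ (Set.range (leftRegular (G := G))) :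
      StarSubalgebra ℂ (ltwo G →L[ℂ] ltwo G)), y * x = x * y := by
  change x ∈ StarSubalgebra.centralizer ℂ _ ↔ _
  rw [StarSubalgebra.mem_centralizer_iff]
  constructor
  · intro h y hy
    exact (h y hy).1
  · intro h y hy
    refine ⟨h y hy, ?_⟩
    exact h (star y) (star_mem hy)

theorem mem_commutant_iff (y : ltwo G →L[ℂ] ltwo G) :
    y ∈ (StarSubalgebra.centralizer ℂ (Set.range (leftRegular (G := G))) :
      StarSubalgebra ℂ (ltwo G →L[ℂ] ltwo G)) ↔ ∀ g, leftRegular g * y = y * leftRegular g := by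
  rw [StarSubalgebra.mem_centralizer_iff]
  constructor
  · intro h g
    exact (h _ ⟨g, rfl⟩).1
  · rintro h _ ⟨g, rfl⟩
    refine ⟨h g, ?_⟩
    rw [left_star]
    exact h g⁻¹

theorem right_mem (g : G) : rightReg G g ∈
    (StarSubalgebra.centralizer ℂ (Set.range (leftRegular (G := G))) :
      StarSubalgebra ℂ (ltwo G →L[ℂ] ltwo G)) := by
  rw [mem_commutant_iff]
  intro h
  exact left_right h g

theorem comm_right {x : ltwo G →L[ℂ] ltwo G} (hx : x ∈ (groupVNA G).toStarSubalgebra) (g : G) :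
    rightReg G g * x = x * rightReg G g := (mem_LG_iff x).1 hx _ (right_mem g)

theorem left_mem (g : G) : leftRegular g ∈ (groupVNA G).toStarSubalgebra := by
  rw [mem_LG_iff]
  intro y hy
  exact ((mem_commutant_iff y).1 hy g).symm

variable [DecidableEq G]

/-- the vector `δ_g` -/
noncomputable abbrev dl (g : G) : ltwo G := lp.single 2 g (1 : ℂ)

theorem dl_apply (g h : G) : dl g h = if h = g then 1 else 0 := by
  rw [lp.single_apply, Pi.single_apply]

theorem right_dl (g h : G) : rightReg G g (dl h) = dl (h * g⁻¹) := by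
  ext k
  rw [right_apply, dl_apply, dl_apply]
  simp only [eq_mul_inv_iff_mul_eq]

theorem left_dl (g h : G) : leftRegular g (dl h) = dl (g * h) := by
  ext k
  rw [left_apply, dl_apply, dl_apply]
  simp only [inv_mul_eq_iff_eq_mul]

theorem inner_dl (g : G) (ξ : ltwo G) : inner ℂ (dl g) ξ = ξ g := by
  rw [lp.inner_single_left]
  simp

/-- finitely supported vectors are dense: an operator vanishing on all `δ_g` is zero -/
theorem ext_dl {x y : ltwo G →L[ℂ] ltwo G} (h : ∀ g, x (dl g) = y (dl g)) : x = y := by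
  ext1 ξ
  have h1 : HasSum (fun g : G => lp.single 2 g (ξ g)) ξ := lp.hasSum_single (by norm_num) ξ
  have h2 : ∀ g, lp.single 2 g (ξ g) = (ξ g) • dl g := by
    intro g
    rw [← lp.single_smul]
    simp
  have hx := h1.mapL x
  have hy := h1.mapL y
  refine hx.unique ?_
  have e : (fun g => x (lp.single 2 g (ξ g))) = fun g => y (lp.single 2 g (ξ g)) := by
    funext g
    rw [h2, map_smul, map_smul, h g]
  rw [e]; exact hy

theorem x_dl {x : ltwo G →L[ℂ] ltwo G} (hx : x ∈ (groupVNA G).toStarSubalgebra) (g : G) :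
    x (dl g) = rightReg G g⁻¹ (x (dl 1)) := by
  have h1 : dl g = rightReg G g⁻¹ (dl 1) := by rw [right_dl]; simp
  have h2 := comm_right hx g⁻¹
  have h3 := congrArg (fun z : ltwo G →L[ℂ] ltwo G => z (dl 1)) h2
  rw [h1]; exact h3.symm

theorem norm_right (g : G) (ξ : ltwo G) : ‖rightReg G g ξ‖ = ‖ξ‖ :=
  LinearIsometryEquiv.norm_map (ltwoReindex (Equiv.mulRight g) : ltwo G ≃ₗᵢ[ℂ] ltwo G) ξ

theorem star_apply_one {x : ltwo G →L[ℂ] ltwo G} (hx : x ∈ (groupVNA G).toStarSubalgebra) (g : G) :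
    (star x) (dl 1) g = (starRingEnd ℂ) (x (dl 1) g⁻¹) := by
  have h1 : (star x) (dl 1) g = inner ℂ (dl g) ((star x) (dl 1)) := (inner_dl _ _).symm
  rw [h1, ContinuousLinearMap.star_eq_adjoint, ContinuousLinearMap.adjoint_inner_right,
    ← inner_conj_symm, inner_dl, x_dl hx g, right_apply, one_mul]

theorem groupTrace_mul {x y : ltwo G →L[ℂ] ltwo G} (hx : x ∈ (groupVNA G).toStarSubalgebra) :
    groupTrace G (x * y) = ∑' g : G, x (dl 1) g⁻¹ * y (dl 1) g := by
  have h1 : groupTrace G (x * y) = inner ℂ ((star x) (dl 1)) (y (dl 1)) := by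
    rw [ContinuousLinearMap.star_eq_adjoint, ContinuousLinearMap.adjoint_inner_left]; rfl
  rw [h1, lp.inner_eq_tsum]
  refine tsum_congr fun g => ?_
  rw [star_apply_one hx]
  simp [mul_comm]

theorem groupTrace_comm {x y : ltwo G →L[ℂ] ltwo G} (hx : x ∈ (groupVNA G).toStarSubalgebra)
    (hy : y ∈ (groupVNA G).toStarSubalgebra) : groupTrace G (x * y) = groupTrace G (y * x) := by
  rw [groupTrace_mul hx, groupTrace_mul hy, ← Equiv.tsum_eq (Equiv.inv G)]
  refine tsum_congr fun g => ?_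
  simp [mul_comm]

theorem groupTrace_star_mul (x : ltwo G →L[ℂ] ltwo G) :
    groupTrace G (star x * x) = ((‖x (dl 1)‖ ^ 2 : ℝ) : ℂ) := by
  have h1 : groupTrace G (star x * x) = inner ℂ (x (dl 1)) (x (dl 1)) := by
    rw [ContinuousLinearMap.star_eq_adjoint]
    exact ContinuousLinearMap.adjoint_inner_right x (dl 1) (x (dl 1))
  rw [h1, inner_self_eq_norm_sq_to_K]
  norm_cast

theorem complete_aux (f : ℕ → ltwo G →L[ℂ] ltwo G) (hf : ∀ n, f n ∈ (groupVNA G).toStarSubalgebra)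
    (C : ℝ) (hC : ∀ n, ‖f n‖ ≤ C)
    (hc : ∀ ε : ℝ, 0 < ε → ∃ N : ℕ, ∀ m, N ≤ m → ∀ n, N ≤ n → ‖(f m - f n) (dl 1)‖ ^ 2 < ε) :
    ∃ g : ltwo G →L[ℂ] ltwo G, g ∈ (groupVNA G).toStarSubalgebra ∧ ‖g‖ ≤ C ∧
      Tendsto (fun n => ‖(f n - g) (dl 1)‖ ^ 2) atTop (𝓝 0) := by
  have hC0 : 0 ≤ C := (norm_nonneg _).trans (hC 0)
  -- Cauchy on every `δ_g`
  have hd : ∀ m n g, ‖(f m - f n) (dl g)‖ = ‖(f m - f n) (dl 1)‖ := by
    intro m n g
    rw [x_dl (sub_mem (hf m) (hf n)) g, norm_right]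
  have hcs : ∀ g, CauchySeq (fun n => f n (dl g)) := by
    intro g
    rw [Metric.cauchySeq_iff]
    intro ε hε
    obtain ⟨N, hN⟩ := hc (ε ^ 2) (by positivity)
    refine ⟨N, fun m hm n hn => ?_⟩
    rw [dist_eq_norm]
    have h1 := hN m hm n hn
    have h2 := hd m n g
    rw [sub_apply] at h2
    rw [h2]
    exact lt_of_pow_lt_pow_left₀ 2 hε.le h1
  -- Cauchy on every vector
  have hcv : ∀ ξ : ltwo G, CauchySeq (fun n => f n ξ) := by
    intro ξ
    have hdense : ∀ ε : ℝ, 0 < ε → ∃ S : Finset G, ‖ξ - ∑ g ∈ S, (ξ g) • dl g‖ < ε := by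
      intro ε hε
      have h1 : HasSum (fun g : G => lp.single 2 g (ξ g)) ξ := lp.hasSum_single (by norm_num) ξ
      have h2 := (Metric.tendsto_nhds.1 h1 ε hε).exists
      obtain ⟨S, hS⟩ := h2
      refine ⟨S, ?_⟩
      rw [dist_comm, dist_eq_norm] at hS
      have e : ∑ g ∈ S, lp.single 2 g (ξ g) = ∑ g ∈ S, (ξ g) • dl g := by
        refine Finset.sum_congr rfl fun g _ => ?_
        rw [← lp.single_smul]
        simp
      rw [← e]
      exact hS
    rw [Metric.cauchySeq_iff]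
    intro ε hε
    obtain ⟨S, hS⟩ := hdense (ε / (4 * (C + 1))) (by positivity)
    have h1 : CauchySeq (fun n => f n (∑ g ∈ S, (ξ g) • dl g)) := by
      have h2 : ∀ g ∈ S, ∃ l, Tendsto (fun n => f n ((ξ g) • dl g)) atTop (𝓝 l) := by
        intro g _
        obtain ⟨l, hl⟩ := cauchySeq_tendsto_of_complete (hcs g)
        refine ⟨ξ g • l, ?_⟩
        simp only [map_smul]
        exact hl.const_smul _
      choose! l hl using h2
      have h3 : Tendsto (fun n => ∑ g ∈ S, f n ((ξ g) • dl g)) atTop (𝓝 (∑ g ∈ S, l g)) :=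
        tendsto_finsetSum _ fun g hg => hl g hg
      simp only [← map_sum] at h3
      exact h3.cauchySeq
    obtain ⟨N, hN⟩ := (Metric.cauchySeq_iff.1 h1) (ε / 2) (by linarith)
    refine ⟨N, fun m hm n hn => ?_⟩
    have h4 := hN m hm n hn
    rw [dist_eq_norm] at h4 ⊢
    set ζ : ltwo G := ∑ g ∈ S, (ξ g) • dl g with hζ
    have e : f m ξ - f n ξ = f m (ξ - ζ) - f n (ξ - ζ) + (f m ζ - f n ζ) := by
      simp only [map_sub]; abel
    rw [e]
    have h5 : ∀ k, ‖f k (ξ - ζ)‖ ≤ C * (ε / (4 * (C + 1))) := fun k =>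
      ((f k).le_opNorm _).trans (mul_le_mul (hC k) hS.le (norm_nonneg _) hC0)
    have h6 : C * (ε / (4 * (C + 1))) ≤ ε / 4 := by
      have : C * (ε / (4 * (C + 1))) = (C / (C + 1)) * (ε / 4) := by field_simp
      rw [this]
      have h7 : C / (C + 1) ≤ 1 := by rw [div_le_one (by linarith)]; linarith
      nlinarith
    have h8 := norm_add_le (f m (ξ - ζ) - f n (ξ - ζ)) (f m ζ - f n ζ)
    have h9 := norm_sub_le (f m (ξ - ζ)) (f n (ξ - ζ))
    have h10 := h5 m
    have h11 := h5 n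
    linarith
  choose L hL using fun ξ => cauchySeq_tendsto_of_complete (hcv ξ)
  have hadd : ∀ ξ η, L (ξ + η) = L ξ + L η := by
    intro ξ η
    refine tendsto_nhds_unique (hL (ξ + η)) ?_
    simp only [map_add]
    exact (hL ξ).add (hL η)
  have hsmul : ∀ (c : ℂ) ξ, L (c • ξ) = c • L ξ := by
    intro c ξ
    refine tendsto_nhds_unique (hL (c • ξ)) ?_
    simp only [map_smul]
    exact (hL ξ).const_smul c
  have hbd : ∀ ξ, ‖L ξ‖ ≤ C * ‖ξ‖ := by
    intro ξ
    refine le_of_tendsto (hL ξ).norm (Eventually.of_forall fun n => ?_)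
    exact ((f n).le_opNorm _).trans (mul_le_mul_of_nonneg_right (hC n) (norm_nonneg _))
  let T : ltwo G →L[ℂ] ltwo G :=
    LinearMap.mkContinuous { toFun := L, map_add' := hadd, map_smul' := hsmul } C hbd
  have hT : ∀ ξ, T ξ = L ξ := fun ξ => rfl
  refine ⟨T, ?_, LinearMap.mkContinuous_norm_le _ hC0 _, ?_⟩
  · rw [mem_LG_iff]
    intro y hy
    ext1 ξ
    change y (L ξ) = L (y ξ)
    have h1 : Tendsto (fun n => y (f n ξ)) atTop (𝓝 (y (L ξ))) := (y.continuous.tendsto _).comp (hL ξ)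
    refine tendsto_nhds_unique h1 ?_
    have h2 : (fun n => y (f n ξ)) = fun n => f n (y ξ) := by
      funext n
      exact congrArg (fun z : ltwo G →L[ℂ] ltwo G => z ξ) ((mem_LG_iff _).1 (hf n) y hy)
    rw [h2]
    exact hL (y ξ)
  · have h1 : Tendsto (fun n => f n (dl 1) - L (dl 1)) atTop (𝓝 0) := by
      have := (hL (dl 1)).sub_const (L (dl 1))
      simpa using this
    have h2 : Tendsto (fun n => ‖f n (dl 1) - L (dl 1)‖ ^ 2) atTop (𝓝 0) := by
      simpa using (h1.norm).pow 2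
    exact h2

end Crest.Agent.FGF.LGw
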