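import Crest.Agent.FGF.Capture
import Crest.Agent.FGF.Util

/-! MODULE Large (lead: helper2): Step 2(a). -/

set_option autoImplicit false
set_option linter.unusedSectionVars false

namespace Crest.Agent.FGF

open Crest.Agent.GenII1 Filter Topology

/-! ### Lipschitz estimates -/

section lip

variable {M : Type} [CStarAlgebra M] [FinVN M]

theorem lg_norm_le {N : Type} [CStarAlgebra N] (Φ : N →⋆ₐ[ℂ] M) (x : N) : ‖Φ x‖ ≤ ‖x‖ :=
  NonUnitalStarAlgHom.norm_apply_le Φ x

/-- moving the generators a little moves every element of the generated star algebra a little -/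
theorem lg_adjoin_move {N : Type} [CStarAlgebra N] [FinVN N] (ι : N →⋆ₐ[ℂ] M)
    (hι : ∀ x, τ (ι x) = τ x) (S : Set N) (a : N) (ha : a ∈ StarAlgebra.adjoin ℂ S) :
    ∃ C : ℝ, 0 ≤ C ∧ ∀ β : M ≃⋆ₐ[ℂ] M, ∀ ε' : ℝ, 0 ≤ ε' →
      (∀ x ∈ S, n2 (β (ι x) - ι x) ≤ ε') → n2 (β (ι a) - ι a) ≤ C * ε' := by
  induction ha using StarAlgebra.adjoin_induction with
  | mem x hx => exact ⟨1, zero_le_one, fun β ε' _ h => by simpa using h x hx⟩
  | algebraMap r =>
    refine ⟨0, le_rfl, fun β ε' _ _ => ?_⟩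
    have h1 : β (ι (algebraMap ℂ N r)) = ι (algebraMap ℂ N r) := by
      rw [Algebra.algebraMap_eq_smul_one, map_smul, map_smul, map_one, map_one]
    rw [h1, sub_self, n2_zero, zero_mul]
  | add x y _ _ hx hy =>
    obtain ⟨C, hC, h1⟩ := hx
    obtain ⟨C', hC', h2⟩ := hy
    refine ⟨C + C', add_nonneg hC hC', fun β ε' he h => ?_⟩
    have e : β (ι (x + y)) - ι (x + y) = (β (ι x) - ι x) + (β (ι y) - ι y) := by
      rw [map_add, map_add]; abel
    rw [e, add_mul]
    exact (n2_add_le _ _).trans (add_le_add (h1 β ε' he h) (h2 β ε' he h))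
  | mul x y _ _ hx hy =>
    obtain ⟨C, hC, h1⟩ := hx
    obtain ⟨C', hC', h2⟩ := hy
    refine ⟨‖x‖ * C' + C * ‖y‖, by positivity, fun β ε' he h => ?_⟩
    have e : β (ι (x * y)) - ι (x * y) =
        β (ι x) * (β (ι y) - ι y) + (β (ι x) - ι x) * ι y := by
      rw [map_mul, map_mul]; noncomm_ring
    rw [e]
    have hb : ‖β (ι x)‖ ≤ ‖x‖ :=
      (NonUnitalStarAlgHom.norm_apply_le β (ι x)).trans (lg_norm_le ι x)
    calc n2 (β (ι x) * (β (ι y) - ι y) + (β (ι x) - ι x) * ι y)
        ≤ n2 (β (ι x) * (β (ι y) - ι y)) + n2 ((β (ι x) - ι x) * ι y) := n2_add_le _ _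
      _ ≤ ‖β (ι x)‖ * n2 (β (ι y) - ι y) + n2 (β (ι x) - ι x) * ‖ι y‖ :=
        add_le_add (n2_mul_le_left _ _) (n2_mul_le_right _ _)
      _ ≤ ‖x‖ * (C' * ε') + (C * ε') * ‖y‖ := by
        refine add_le_add ?_ ?_
        · exact mul_le_mul hb (h2 β ε' he h) (n2_nonneg _) (norm_nonneg _)
        · exact mul_le_mul (h1 β ε' he h) (lg_norm_le ι y) (norm_nonneg _) (by positivity)
      _ = (‖x‖ * C' + C * ‖y‖) * ε' := by ring
  | star x _ hx =>
    obtain ⟨C, hC, h1⟩ := hx
    refine ⟨C, hC, fun β ε' he h => ?_⟩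
    have e : β (ι (star x)) - ι (star x) = star (β (ι x) - ι x) := by
      rw [map_star, map_star, star_sub]
    rw [e, n2_star]
    exact h1 β ε' he h

/-- evaluation of a Laurent polynomial at a unitary -/
noncomputable def qev (q : ℤ →₀ ℂ) (y : unitary M) : M :=
  q.sum fun j c => c • ((y ^ j : unitary M) : M)

theorem lg_n2_pow (x y : unitary M) (n : ℕ) :
    n2 (((x ^ n : unitary M) : M) - ((y ^ n : unitary M) : M)) ≤ n * n2 ((x : M) - y) := by
  induction n with
  | zero => simp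
  | succ n ih =>
    have e : ((x ^ (n + 1) : unitary M) : M) - ((y ^ (n + 1) : unitary M) : M) =
        ((x ^ n : unitary M) : M) * ((x : M) - y) +
          (((x ^ n : unitary M) : M) - ((y ^ n : unitary M) : M)) * y := by
      rw [pow_succ, pow_succ]
      push_cast
      noncomm_ring
    rw [e]
    refine (n2_add_le _ _).trans ?_
    rw [n2_unitary_mul (x ^ n).2, n2_mul_unitary _ y.2, Nat.cast_succ]
    linarith

theorem lg_n2_zpow (x y : unitary M) (j : ℤ) :
    n2 (((x ^ j : unitary M) : M) - ((y ^ j : unitary M) : M)) ≤ |(j : ℝ)| * n2 ((x : M) - y) := by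
  obtain ⟨n, rfl | rfl⟩ := j.eq_nat_or_neg
  · simpa using lg_n2_pow x y n
  · have h := lg_n2_pow x y n
    have e : ((x ^ (-(n : ℤ)) : unitary M) : M) - ((y ^ (-(n : ℤ)) : unitary M) : M) =
        star (((x ^ n : unitary M) : M) - ((y ^ n : unitary M) : M)) := by
      rw [zpow_neg, zpow_neg, zpow_natCast, zpow_natCast, star_sub]
      rfl
    rw [e, n2_star]
    simpa using h

/-- Lipschitz constant of a Laurent polynomial -/
noncomputable def qlip (q : ℤ →₀ ℂ) : ℝ := ∑ j ∈ q.support, ‖q j‖ * |(j : ℝ)|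

theorem qlip_nonneg (q : ℤ →₀ ℂ) : 0 ≤ qlip q := Finset.sum_nonneg fun _ _ => by positivity

theorem lg_n2_qev (q : ℤ →₀ ℂ) (x y : unitary M) :
    n2 (qev q x - qev q y) ≤ qlip q * n2 ((x : M) - y) := by
  have e : qev q x - qev q y =
      ∑ j ∈ q.support, q j • (((x ^ j : unitary M) : M) - ((y ^ j : unitary M) : M)) := by
    simp only [qev, Finsupp.sum, smul_sub, Finset.sum_sub_distrib]
  rw [e, qlip, Finset.sum_mul]
  refine (n2_sum_le _ _).trans (Finset.sum_le_sum fun j _ => ?_)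
  rw [n2_smul, mul_assoc]
  exact mul_le_mul_of_nonneg_left (lg_n2_zpow x y j) (norm_nonneg _)

end lip

section main

/-- the letters of the capture lemma, as a disjoint union -/
def idxEquiv (n : ℕ) (κ : Type) : Idx n κ → Fin (n + 1) ⊕ κ
  | .w => Sum.inl 0
  | .v l => Sum.inl l.succ
  | .y k => Sum.inr k

theorem idxEquiv_inj (n : ℕ) (κ : Type) : Function.Injective (idxEquiv n κ) := by
  intro a b h
  cases a <;> cases b <;> simp [idxEquiv] at h ⊢
  · exact absurd h.symm (Fin.succ_ne_zero _)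
  · exact h
  · exact h

/-- STEP 2(a) -/
theorem PP_large (δ : ℝ) (hδ : 0 < δ) : ∃ n0 : ℕ, ∀ n, n0 ≤ n →
    ∀ (N : Type) [CStarAlgebra N] [FinVN N] (g : Fin (n + 1) → unitary N), FH g →
      vn (gens g) = ⊤ → ∀ (κ : Type) [Fintype κ] [DecidableEq κ], PP N κ δ := by
  obtain ⟨q, hq⟩ := exists_haar_of_semi (δ / 2) (by linarith)
  have hL := qlip_nonneg q
  obtain ⟨n0, hn0⟩ := captureAll (δ / (2 * (qlip q + 1))) (by positivity)
  refine ⟨n0, fun n hn N _ _ g hg hgen κ _ _ M _ _ ι s hs F ε hε => ?_⟩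
  -- the Haar unitaries
  have hsemi : ∀ k, IsSemi (s k) := fun k =>
    SD.isSemi (Set.range ι) (fun z => ⟨algebraMap ℂ N z, by
      rw [Algebra.algebraMap_eq_smul_one, map_smul, map_one, ← Algebra.algebraMap_eq_smul_one]⟩)
      s hs.sd k (hs.sa k)
  choose y hyH hyv hsv hyq hyr using fun k => hq M (s k) (hsemi k)
  -- the family
  let G : Idx n κ → unitary M := fun i => Sum.elim (fun j => umap ι (g j)) y (idxEquiv n κ i)
  have hFH : FH (Sum.elim (fun j => umap ι (g j)) y) := by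
    refine FH_of_SD _ (FH_umap ι hs.tr g hg) ι.range (fun i => ⟨g i, rfl⟩) s hs.sa ?_ y hyH hyv
    have : ((ι.range : StarSubalgebra ℂ M) : Set M) = Set.range ι := by
      ext x; exact Iff.rfl
    rw [this]; exact hs.sd
  have hG : FH G := FH_comp _ hFH (idxEquiv n κ) (idxEquiv_inj n κ)
  have hGg : ∀ j : Fin (n + 1), ι (g j) ∈ gens G := by
    intro j
    refine Fin.cases ⟨Idx.w, rfl⟩ (fun l => ⟨Idx.v l, rfl⟩) j
  have hGen : vn (gens G) = ⊤ := by
    rw [eq_top_iff, ← hs.gen]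
    refine vn_le_vn ?_
    rintro x (⟨a, rfl⟩ | ⟨k, rfl⟩)
    · have h1 : a ∈ vn (gens g) := by rw [hgen]; trivial
      have h2 := map_mem_vn ι hs.tr (gens g) h1
      refine vn_mono ?_ h2
      rintro _ ⟨_, ⟨j, rfl⟩, rfl⟩
      exact hGg j
    · refine vn_mono ?_ (hsv k)
      rintro _ rfl
      exact ⟨Idx.y k, rfl⟩
  -- choice of ε'
  have happ : ∀ x : N, ∃ a ∈ StarAlgebra.adjoin ℂ (gens g), n2 (x - a) < ε / 3 := by
    intro x
    have h1 : x ∈ vn (gens g) := by rw [hgen]; trivial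
    exact h1 (ε / 3) (by linarith)
  choose ap hap hap2 using happ
  choose Cf hCf0 hCf using fun x : N => lg_adjoin_move ι hs.tr (gens g) (ap x) (hap x)
  let Ctot : ℝ := ∑ x ∈ F, Cf x
  have hCtot : 0 ≤ Ctot := Finset.sum_nonneg fun x _ => hCf0 x
  obtain ⟨β, hβτ, hβw, hβv, hβy⟩ := hn0 n hn κ M G hG hGen (ε / (3 * (Ctot + 1))) (by positivity)
  refine ⟨β, hβτ, ?_, ?_⟩
  · intro x hx
    have hmove : ∀ z ∈ gens g, n2 (β (ι z) - ι z) ≤ ε / (3 * (Ctot + 1)) := by
      rintro _ ⟨j, rfl⟩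
      refine Fin.cases ?_ (fun l => ?_) j
      · have h1 : β (ι (g 0)) = ι (g 0) := hβw
        simp only [h1, sub_self, n2_zero]
        positivity
      · exact hβv l
    have h1 := hCf x β (ε / (3 * (Ctot + 1))) (by positivity) hmove
    have h2 : Cf x * (ε / (3 * (Ctot + 1))) ≤ ε / 3 := by
      have h3 : Cf x ≤ Ctot := Finset.single_le_sum (fun x _ => hCf0 x) hx
      have h4 : Cf x * (ε / (3 * (Ctot + 1))) = (Cf x / (Ctot + 1)) * (ε / 3) := by
        field_simp
      rw [h4]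
      have h5 : Cf x / (Ctot + 1) ≤ 1 := by
        rw [div_le_one (by linarith)]; linarith
      nlinarith
    have h3 : β (ι x) - ι x = β (ι (x - ap x)) + (β (ι (ap x)) - ι (ap x)) + ι (ap x - x) := by
      simp only [map_sub]; abel
    rw [h3]
    refine (n2_add_le _ _).trans ?_
    have h4 : n2 (β (ι (x - ap x))) = n2 (x - ap x) := by
      have e1 : n2 (β (ι (x - ap x))) = n2 (ι (x - ap x)) := n2_map (β : M →⋆ₐ[ℂ] M) hβτ _
      rw [e1, n2_map ι hs.tr]
    have h5 : n2 (ι (ap x - x)) = n2 (x - ap x) := by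
      rw [n2_map ι hs.tr, n2_sub_comm]
    have h6 := n2_add_le (β (ι (x - ap x))) (β (ι (ap x)) - ι (ap x))
    have h7 := hap2 x
    linarith
  · -- the words
    have hX : ∀ k, ∃ t : unitary N, n2 (β (ι t) - (y k : M)) ≤ δ / (2 * (qlip q + 1)) := by
      intro k
      obtain ⟨X, hX, hX2⟩ := hβy k
      have hex : ∀ X ∈ slotWords n κ, ∃ t : unitary N, umap ι t = ev G X := by
        intro X hX
        induction hX using Subgroup.closure_induction with
        | mem z hz =>
          rcases hz with rfl | ⟨l, rfl⟩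
          · exact ⟨g 0, by simp [G, idxEquiv]⟩
          · exact ⟨g l.succ, by simp [G, idxEquiv]⟩
        | one => exact ⟨1, by rw [map_one]; exact Subtype.ext (by simp)⟩
        | mul a b _ _ ha hb =>
          obtain ⟨s, hs⟩ := ha
          obtain ⟨t, ht⟩ := hb
          exact ⟨s * t, by rw [map_mul, ← hs, ← ht]; exact Subtype.ext (by simp)⟩
        | inv a _ ha =>
          obtain ⟨s, hs⟩ := ha
          refine ⟨s⁻¹, ?_⟩
          rw [map_inv, ← hs]
          exact map_inv (umapHom ι) s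
      obtain ⟨t, ht⟩ := hex X hX
      refine ⟨t, ?_⟩
      have : ι (t : N) = ((ev G X : unitary M) : M) := by rw [← ht]; rfl
      rw [this]
      exact hX2
    choose t ht using hX
    refine ⟨fun k => qev q (t k), ?_⟩
    have hk : ∀ k, n2 (s k - β (ι (qev q (t k)))) ≤ δ := by
      intro k
      let u : unitary M := umap (β : M →⋆ₐ[ℂ] M) (umap ι (t k))
      have e1 : β (ι (qev q (t k))) = qev q u := by
        simp only [qev, Finsupp.sum, map_sum, map_smul]
        refine Finset.sum_congr rfl fun j _ => ?_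
        congr 1
        have : umap (β : M →⋆ₐ[ℂ] M) (umap ι (t k ^ j)) = u ^ j := by
          have h1 : umap ι (t k ^ j) = (umap ι (t k)) ^ j := map_zpow (umapHom ι) (t k) j
          rw [h1]
          exact map_zpow (umapHom (β : M →⋆ₐ[ℂ] M)) _ j
        exact congrArg (fun z : unitary M => (z : M)) this
      rw [e1]
      have h1 := hyq k
      have h2 := lg_n2_qev q (y k) u
      have h3 : n2 ((y k : M) - u) ≤ δ / (2 * (qlip q + 1)) := by
        rw [n2_sub_comm]; exact ht k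
      have h4 : qlip q * n2 ((y k : M) - u) ≤ δ / 2 := by
        calc qlip q * n2 ((y k : M) - u) ≤ qlip q * (δ / (2 * (qlip q + 1))) :=
              mul_le_mul_of_nonneg_left h3 hL
          _ = (qlip q / (qlip q + 1)) * (δ / 2) := by field_simp
          _ ≤ 1 * (δ / 2) := by
            refine mul_le_mul_of_nonneg_right ?_ (by linarith)
            rw [div_le_one (by linarith)]; linarith
          _ = δ / 2 := one_mul _
      have h5 := n2_triangle (s k) (qev q (y k)) (qev q u)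
      have h6 : n2 (s k - qev q (y k)) ≤ δ / 2 := h1
      linarith
    calc ∑ k, n2 (s k - β (ι (qev q (t k)))) ^ 2 ≤ ∑ _k : κ, δ ^ 2 :=
          Finset.sum_le_sum fun k _ => pow_le_pow_left₀ (n2_nonneg _) (hk k) 2
      _ = (Fintype.card κ : ℝ) * δ ^ 2 := by simp

end main

end Crest.Agent.FGF
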