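import Crest.Agent.FGF.LG
import Crest.Agent.FGF.Iter
import Crest.Agent.FGF.Large
import Crest.Agent.FGF.Amp
import Crest.Agent.FGF.Comp
import Crest.Agent.FGF.Util

/-! Assembly (helper2). -/

set_option autoImplicit false
set_option linter.unusedSectionVars false

namespace Crest.Agent.FGF

open Crest.Agent.GenII1 Filter Topology

abbrev LF (n : ℕ) : Type := LG (FreeGroup (Fin n))

theorem PP_LF_aux (δ : ℝ) (n0 : ℕ)
    (h0 : ∀ n, n0 ≤ n → ∀ (N : Type) [CStarAlgebra N] [FinVN N] (g : Fin (n + 1) → unitary N), FH g →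
      vn (gens g) = ⊤ → ∀ (κ : Type) [Fintype κ] [DecidableEq κ], PP N κ δ) :
    ∀ (j m : ℕ), 2 ≤ m → n0 ≤ 4 ^ j * (m - 1) → ∀ (κ : Type) [Fintype κ] [DecidableEq κ],
      PP (LF m) κ δ := by
  intro j
  induction j with
  | zero =>
    intro m hm hn κ _ _
    obtain ⟨g, hg, hgen⟩ := exists_FH_LG m
    obtain ⟨n, rfl⟩ : ∃ n, m = n + 1 := ⟨m - 1, by omega⟩
    exact h0 n (by simpa using hn) (LF (n + 1)) g hg hgen κ
  | succ j ih =>
    intro m hm hn κ _ _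
    obtain ⟨g, hg, hgen⟩ := exists_FH_LG m
    obtain ⟨g₁, hg₁, hgen₁⟩ := exists_FH_LG (4 * m - 3)
    obtain ⟨e, jj, he⟩ := FH_M2 m hm g hg hgen g₁ hg₁ hgen₁
    refine PP_amp e jj he κ δ (ih (4 * m - 3) (by omega) ?_ (κ × Fin 4))
    have h1 : 4 * m - 3 - 1 = 4 * (m - 1) := by omega
    rw [h1]
    calc n0 ≤ 4 ^ (j + 1) * (m - 1) := hn
      _ = 4 ^ j * (4 * (m - 1)) := by ring

theorem PP_LF (m : ℕ) (hm : 2 ≤ m) (δ : ℝ) (hδ : 0 < δ) : PP (LF m) Unit δ := by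
  obtain ⟨n0, h0⟩ := PP_large δ hδ
  refine PP_LF_aux δ n0 h0 n0 m hm ?_ Unit
  calc n0 ≤ 4 ^ n0 := (Nat.lt_pow_self (by norm_num)).le
    _ = 4 ^ n0 * 1 := (mul_one _).symm
    _ ≤ 4 ^ n0 * (m - 1) := Nat.mul_le_mul_left _ (by omega)

theorem Der.mono {M : Type} [CStarAlgebra M] [FinVN M] {κ : Type} {D D' : Set M} (h : D ⊆ D')
    {s : κ → M} {c : κ → ℂ} {z : M} {Θ : M → M → ℂ} (hz : Der D s c z Θ) : Der D' s c z Θ := by
  induction hz with
  | base d hd => exact Der.base d (h hd)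
  | var j => exact Der.var j
  | add z z' Θ Θ' _ _ h1 h2 => exact Der.add z z' Θ Θ' h1 h2
  | smul a z Θ _ h1 => exact Der.smul a z Θ h1
  | mul z z' Θ Θ' _ _ h1 h2 => exact Der.mul z z' Θ Θ' h1 h2

theorem SDc.mono {M : Type} [CStarAlgebra M] [FinVN M] {κ : Type} {D D' : Set M} (h : D ⊆ D')
    {s : κ → M} {c : κ → κ → ℂ} (hs : SDc D' s c) : SDc D s c :=
  fun i z Θ hz => hs i z Θ (hz.mono h)

theorem FH.haar_mem {M : Type} [CStarAlgebra M] [FinVN M] {ι : Type} {g : ι → unitary M}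
    (hg : FH g) (i : ι) : Haar (g i) := by
  intro n hn
  have h1 := hg (FreeGroup.of i ^ n) (by
    intro h0
    have h2 := congrArg (FreeGroup.lift (fun _ : ι => Multiplicative.ofAdd (1 : ℤ))) h0
    rw [_root_.map_pow, FreeGroup.lift_apply_of, MonoidHom.map_one] at h2
    have h3 : (n • (1 : ℤ)) = 0 := h2
    simp at h3
    omega)
  rw [map_pow, ev_of] at h1
  simpa using h1

/-- the inclusion `L(F_m) ⊂ L(F_{m+1})` as a semicircular extension -/
theorem exists_semiExt (m : ℕ) :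
    ∃ (ι : LF m →⋆ₐ[ℂ] LF (m + 1)) (s : Unit → LF (m + 1)), SemiExt ι s := by
  obtain ⟨g, hg, hgen⟩ := exists_FH_LG m
  obtain ⟨g', hg', hgen'⟩ := exists_FH_LG (m + 1)
  have h0 : FH (fun j : Fin m => g' j.castSucc) := FH_comp g' hg' _ (Fin.castSucc_injective m)
  obtain ⟨ι, hι, hιg, hιs⟩ := emb_of_FH g (fun j : Fin m => g' j.castSucc) hg h0 hgen
  obtain ⟨s, hs, hsy, hys, -⟩ := exists_semi_of_haar (LF (m + 1)) (g' (Fin.last m))
    (hg'.haar_mem _)
  have hsum : FH (fun i : Fin m ⊕ Unit => g' (Sum.elim Fin.castSucc (fun _ => Fin.last m) i)) := by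
    refine FH_comp g' hg' _ ?_
    rintro (i | i) (j | j) h
    · simp only [Sum.elim_inl] at h
      rw [Fin.castSucc_injective m h]
    · simp only [Sum.elim_inl, Sum.elim_inr] at h
      exact absurd h (Fin.castSucc_lt_last i).ne
    · simp only [Sum.elim_inl, Sum.elim_inr] at h
      exact absurd h (Fin.castSucc_lt_last j).ne'
    · rfl
  have hSD := SD_of_FH _ hsum (fun _ : Unit => s) (fun _ => hs) (fun _ => hsy)
  refine ⟨ι, fun _ => s, hι, fun _ => hs.sa, ?_, ?_⟩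
  · refine SDc.mono ?_ hSD
    rintro _ ⟨x, rfl⟩
    have hx : x ∈ vn (gens g) := by rw [hgen]; trivial
    refine vn_mono ?_ (map_mem_vn ι hι (gens g) hx)
    rintro _ ⟨_, ⟨j, rfl⟩, rfl⟩
    exact ⟨j, (hιg j).symm⟩
  · rw [eq_top_iff, ← hgen']
    refine vn_le_vn ?_
    rintro _ ⟨j, rfl⟩
    refine Fin.lastCases ?_ (fun j => ?_) j
    · refine vn_mono ?_ hys
      rintro _ rfl
      exact Or.inr ⟨(), rfl⟩
    · exact mem_vn_of_mem (Or.inl ⟨g j, hιg j⟩)

theorem main (m : ℕ) (hm : 2 ≤ m) : TPIso (LF m) (LF (m + 1)) := by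
  classical
  obtain ⟨ι, s, h⟩ := exists_semiExt m
  obtain ⟨g, hg, hgen⟩ := exists_FH_LG m
  refine iso_of_PP ι s h (Finset.univ.image fun i => (g i : LF m)) ?_ (PP_LF m hm)
  have e : ((Finset.univ.image fun i => (g i : LF m) : Finset (LF m)) : Set (LF m)) = gens g := by
    simp [gens]
  rw [e]; exact hgen

end Crest.Agent.FGF
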