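import Crest.Agent.FGF.SemiDefs

/-! MODULE Semi (row 134), chunk BM -/

set_option autoImplicit false
set_option linter.unusedSectionVars false

namespace Crest.Agent.FGF

open Crest.Agent.GenII1 Filter Topology MeasureTheory

theorem BM.add {μ : Measure ℂ} {g h : ℂ → ℂ} (hg : BM μ g) (hh : BM μ h) : BM μ (g + h) := by
  obtain ⟨C, hC⟩ := hg.2
  obtain ⟨D, hD⟩ := hh.2
  refine ⟨hg.1.add hh.1, C + D, ?_⟩
  filter_upwards [hC, hD] with z h1 h2
  calc ‖(g + h) z‖ = ‖g z + h z‖ := rfl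
    _ ≤ ‖g z‖ + ‖h z‖ := norm_add_le _ _
    _ ≤ C + D := add_le_add h1 h2

theorem BM.mul {μ : Measure ℂ} {g h : ℂ → ℂ} (hg : BM μ g) (hh : BM μ h) : BM μ (g * h) := by
  obtain ⟨C, hC⟩ := hg.2
  obtain ⟨D, hD⟩ := hh.2
  refine ⟨hg.1.mul hh.1, |C| * |D|, ?_⟩
  filter_upwards [hC, hD] with z h1 h2
  calc ‖(g * h) z‖ = ‖g z * h z‖ := rfl
    _ = ‖g z‖ * ‖h z‖ := norm_mul _ _
    _ ≤ |C| * |D| := mul_le_mul (h1.trans (le_abs_self C)) (h2.trans (le_abs_self D))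
        (norm_nonneg _) (abs_nonneg _)

theorem BM.st {μ : Measure ℂ} {g : ℂ → ℂ} (hg : BM μ g) : BM μ (fun z => star (g z)) := by
  obtain ⟨C, hC⟩ := hg.2
  refine ⟨continuous_star.measurable.comp hg.1, C, ?_⟩
  filter_upwards [hC] with z h1
  simpa using h1

theorem BM.of_cont {μ : Measure ℂ} {R : ℝ} (hR : ∀ᵐ z ∂μ, ‖z‖ ≤ R) {g : ℂ → ℂ}
    (hg : Continuous g) : BM μ g := by
  refine ⟨hg.measurable, ?_⟩
  obtain ⟨C, hC⟩ := (isCompact_closedBall (0 : ℂ) R).exists_bound_of_continuousOn hg.continuousOn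
  refine ⟨C, ?_⟩
  filter_upwards [hR] with z h1
  exact hC z (by simpa using h1)

end Crest.Agent.FGF
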