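import Crest.Agent.FGF.SemiCalc

/-! MODULE Semi (row 134), chunk CPEV -/

set_option autoImplicit false
set_option linter.unusedSectionVars false

namespace Crest.Agent.FGF

open Crest.Agent.GenII1 Filter Topology MeasureTheory

variable {M : Type} [CStarAlgebra M] [FinVN M]

private theorem SemiCPev_sum {x : M} {μ : Measure ℂ} {Φ : (ℂ → ℂ) → M} (hL : Law x μ)
    (hΦ : Calc x μ Φ) (h : ℂ → ℂ) (hh : BM μ h) (w : ℕ × ℕ → ℂ) (s : Finset (ℕ × ℕ)) :
    BM μ (fun z => ∑ ab ∈ s, w ab * (h z ^ ab.1 * star (h z) ^ ab.2)) ∧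
      Φ (fun z => ∑ ab ∈ s, w ab * (h z ^ ab.1 * star (h z) ^ ab.2)) =
        ∑ ab ∈ s, w ab • (Φ h ^ ab.1 * star (Φ h) ^ ab.2) := by
  classical
  induction s using Finset.induction_on with
  | empty =>
    simp only [Finset.sum_empty]
    exact ⟨BM.const 0, by rw [hΦ.const hL 0, zero_smul]⟩
  | insert ab s hab ih =>
    have h1 := hΦ.pow hL h hh ab.1
    have h2 := hΦ.pow hL (fun z => star (h z)) hh.st ab.2
    have h3 : BM μ (fun z => h z ^ ab.1 * star (h z) ^ ab.2) := h1.1.mul h2.1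
    have h4 : Φ (fun z => h z ^ ab.1 * star (h z) ^ ab.2) = Φ h ^ ab.1 * star (Φ h) ^ ab.2 := by
      have e : (fun z => h z ^ ab.1 * star (h z) ^ ab.2) =
          (fun z => h z ^ ab.1) * fun z => star (h z) ^ ab.2 := rfl
      rw [e, hΦ.mul _ _ h1.1 h2.1, h1.2, h2.2, hΦ.st h hh]
    have h5 : BM μ (fun z => w ab * (h z ^ ab.1 * star (h z) ^ ab.2)) :=
      (BM.const (w ab)).mul h3
    have e : (fun z => ∑ ab ∈ insert ab s, w ab * (h z ^ ab.1 * star (h z) ^ ab.2)) =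
        (fun z => w ab * (h z ^ ab.1 * star (h z) ^ ab.2)) +
          fun z => ∑ ab ∈ s, w ab * (h z ^ ab.1 * star (h z) ^ ab.2) := by
      funext z
      rw [Finset.sum_insert hab]
      rfl
    rw [e, Finset.sum_insert hab]
    refine ⟨h5.add ih.1, ?_⟩
    rw [hΦ.add _ _ h5 ih.1, ih.2, hΦ.smul hL _ _ h3, h4]

/-- composition with a polynomial in `z, conj z` -/
theorem Calc.pev {x : M} {μ : Measure ℂ} {Φ : (ℂ → ℂ) → M} (hL : Law x μ) (hΦ : Calc x μ Φ)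
    (h : ℂ → ℂ) (hh : BM μ h) (c : ℕ × ℕ →₀ ℂ) :
    BM μ (fun z => pev c (h z)) ∧ Φ (fun z => pev c (h z)) = pevM c (Φ h) :=
  SemiCPev_sum hL hΦ h hh (fun ab => c ab) c.support

theorem pevM_mem (c : ℕ × ℕ →₀ ℂ) (x : M) (P : StarSubalgebra ℂ M) (hx : x ∈ P) :
    pevM c x ∈ P := by
  unfold pevM Finsupp.sum
  exact sum_mem fun ab _ => P.smul_mem
    (mul_mem (pow_mem hx _) (pow_mem (star_mem hx) _)) _

end Crest.Agent.FGF
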