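import Crest.Agent.FGF.SemiExC

/-! MODULE Semi (row 134), consequences of the calculus -/

set_option autoImplicit false
set_option linter.unusedSectionVars false

namespace Crest.Agent.FGF

open Crest.Agent.GenII1 Filter Topology MeasureTheory

variable {M : Type} [CStarAlgebra M] [FinVN M]

theorem BM.const {μ : Measure ℂ} (c : ℂ) : BM μ (fun _ => c) :=
  ⟨measurable_const, ‖c‖, Eventually.of_forall fun _ => le_rfl⟩

theorem Calc.const {x : M} {μ : Measure ℂ} {Φ : (ℂ → ℂ) → M} (hL : Law x μ) (hΦ : Calc x μ Φ)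
    (c : ℂ) : Φ (fun _ => c) = c • (1 : M) := by
  rw [hΦ.cont _ continuous_const]
  haveI := hL.nor
  rw [cfc_const c x, Algebra.algebraMap_eq_smul_one]

theorem Calc.smul {x : M} {μ : Measure ℂ} {Φ : (ℂ → ℂ) → M} (hL : Law x μ) (hΦ : Calc x μ Φ)
    (c : ℂ) (g : ℂ → ℂ) (hg : BM μ g) : Φ (fun z => c * g z) = c • Φ g := by
  have h := hΦ.mul (fun _ => c) g (BM.const c) hg
  have e : (fun z => c * g z) = (fun _ : ℂ => c) * g := rfl
  rw [e, h, hΦ.const hL c, smul_mul_assoc, one_mul]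

theorem Calc.sub {x : M} {μ : Measure ℂ} {Φ : (ℂ → ℂ) → M} (hL : Law x μ) (hΦ : Calc x μ Φ)
    (g h : ℂ → ℂ) (hg : BM μ g) (hh : BM μ h) : Φ (fun z => g z - h z) = Φ g - Φ h := by
  have h2 : BM μ (fun z => (-1 : ℂ) * h z) := (BM.const (-1)).mul hh
  have h1 := hΦ.add g (fun z => (-1 : ℂ) * h z) hg h2
  rw [hΦ.smul hL _ _ hh] at h1
  have e : (fun z => g z - h z) = g + fun z => (-1 : ℂ) * h z := by
    funext z; simp [sub_eq_add_neg]
  rw [e, h1, neg_one_smul, sub_eq_add_neg]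

theorem BM.sub {μ : Measure ℂ} {g h : ℂ → ℂ} (hg : BM μ g) (hh : BM μ h) :
    BM μ (fun z => g z - h z) := by
  have h2 : BM μ (fun z => (-1 : ℂ) * h z) := (BM.const (-1)).mul hh
  have e : (fun z => g z - h z) = g + fun z => (-1 : ℂ) * h z := by
    funext z; simp [sub_eq_add_neg]
  rw [e]; exact hg.add h2

/-- `‖Φ g‖₂² = ∫ |g|²` -/
theorem Calc.n2 {x : M} {μ : Measure ℂ} {Φ : (ℂ → ℂ) → M} (hΦ : Calc x μ Φ)
    (g : ℂ → ℂ) (hg : BM μ g) : n2 (Φ g) ^ 2 = ∫ z, ‖g z‖ ^ 2 ∂μ := by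
  have h1 := hΦ.tr _ (hg.st.mul hg)
  rw [hΦ.mul _ _ hg.st hg, hΦ.st g hg, τ_star_mul_self] at h1
  have e : (∫ z, ((fun z => star (g z)) * g) z ∂μ) = ((∫ z, ‖g z‖ ^ 2 ∂μ : ℝ) : ℂ) := by
    rw [← integral_complex_ofReal]
    congr 1
    funext z
    simp only [Pi.mul_apply]
    rw [show star (g z) * g z = (starRingEnd ℂ) (g z) * g z from rfl, ← Complex.normSq_eq_conj_mul_self,
      Complex.normSq_eq_norm_sq]
  rw [e] at h1
  exact_mod_cast h1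

theorem Calc.congr_ae {x : M} {μ : Measure ℂ} {Φ : (ℂ → ℂ) → M} (hL : Law x μ) (hΦ : Calc x μ Φ)
    (g h : ℂ → ℂ) (hg : BM μ g) (hh : BM μ h) (e : g =ᵐ[μ] h) : Φ g = Φ h := by
  have h1 := hΦ.n2 _ (hg.sub hh)
  rw [hΦ.sub hL g h hg hh] at h1
  have h2 : ∫ z, ‖g z - h z‖ ^ 2 ∂μ = 0 := by
    rw [integral_eq_zero_of_ae]
    filter_upwards [e] with z hz
    simp [hz]
  rw [h2] at h1
  have h3 : GenII1.n2 (Φ g - Φ h) = 0 := by
    exact pow_eq_zero_iff (two_ne_zero) |>.1 h1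
  exact sub_eq_zero.1 (eq_zero_of_n2 h3)

theorem Calc.pow {x : M} {μ : Measure ℂ} {Φ : (ℂ → ℂ) → M} (hL : Law x μ) (hΦ : Calc x μ Φ)
    (g : ℂ → ℂ) (hg : BM μ g) (n : ℕ) : BM μ (fun z => g z ^ n) ∧ Φ (fun z => g z ^ n) = Φ g ^ n := by
  induction n with
  | zero =>
    simp only [pow_zero]
    refine ⟨BM.const 1, ?_⟩
    rw [hΦ.const hL 1, one_smul]
  | succ n ih =>
    have e : (fun z => g z ^ (n + 1)) = (fun z => g z ^ n) * g := by
      funext z; simp [pow_succ]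
    refine ⟨?_, ?_⟩
    · rw [e]; exact ih.1.mul hg
    · rw [e, hΦ.mul _ _ ih.1 hg, ih.2, pow_succ]

theorem Calc.id {x : M} {μ : Measure ℂ} {Φ : (ℂ → ℂ) → M} (hL : Law x μ) (hΦ : Calc x μ Φ) :
    Φ (fun z => z) = x := by
  haveI := hL.nor
  rw [hΦ.cont (fun z => z) continuous_id]
  exact cfc_id' ℂ x

theorem Law.BM_id {x : M} {μ : Measure ℂ} (hL : Law x μ) : BM μ (fun z => z) := by
  obtain ⟨R, hR⟩ := hL.supp
  exact ⟨measurable_id, R, hR⟩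

/-- `Φ g` is unitary if `|g| = 1` a.e. -/
theorem Calc.unitary {x : M} {μ : Measure ℂ} {Φ : (ℂ → ℂ) → M} (hL : Law x μ) (hΦ : Calc x μ Φ)
    (g : ℂ → ℂ) (hg : BM μ g) (h1 : ∀ᵐ z ∂μ, ‖g z‖ = 1) : Φ g ∈ unitary M := by
  have e : ∀ (w : ℂ), ‖w‖ = 1 → star w * w = 1 := by
    intro w hw
    rw [show star w * w = (starRingEnd ℂ) w * w from rfl, ← Complex.normSq_eq_conj_mul_self,
      Complex.normSq_eq_norm_sq, hw]
    simp
  have hone : Φ (fun _ => (1 : ℂ)) = 1 := by rw [hΦ.const hL 1, one_smul]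
  rw [Unitary.mem_iff]
  constructor
  · rw [← hΦ.st g hg, ← hΦ.mul _ _ hg.st hg, ← hone]
    refine hΦ.congr_ae hL _ _ (hg.st.mul hg) (BM.const 1) ?_
    filter_upwards [h1] with z hz
    simpa using e _ hz
  · rw [← hΦ.st g hg, ← hΦ.mul _ _ hg hg.st, ← hone]
    refine hΦ.congr_ae hL _ _ (hg.mul hg.st) (BM.const 1) ?_
    filter_upwards [h1] with z hz
    simpa [mul_comm] using e _ hz

end Crest.Agent.FGF
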