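import Crest.Agent.FGF.Defs

/-! MODULE Semi (row 134; lead helper14): definitions for the one-variable functional calculus.

Plan.  Base probability space: `ρ = (2/π) cos² ψ dψ` on `(-π/2, π/2]`, with the functions
`S ψ = 2 sin ψ` (semicircular) and `Y ψ = sgn ψ * exp (i |2ψ + sin 2ψ|)` (Haar).  Every Haar unitary
`y` has spectral law `ρ.map Y` and every standard semicircular `s` has spectral law `ρ.map S`;
bounded measurable functional calculus `Φ` (`Calc`) of an element with given law. -/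

set_option autoImplicit false
set_option linter.unusedSectionVars false

namespace Crest.Agent.FGF

open Crest.Agent.GenII1 Filter Topology MeasureTheory

/-- (a.e.) bounded measurable function on `ℂ` -/
def BM (μ : Measure ℂ) (g : ℂ → ℂ) : Prop := Measurable g ∧ ∃ C : ℝ, ∀ᵐ z ∂μ, ‖g z‖ ≤ C

/-- polynomial in `z` and `conj z` -/
noncomputable def pev (c : ℕ × ℕ →₀ ℂ) (z : ℂ) : ℂ :=
  c.sum fun ab w => w * (z ^ ab.1 * star z ^ ab.2)

/-- polynomial in `x` and `star x` -/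
noncomputable def pevM {M : Type} [CStarAlgebra M] (c : ℕ × ℕ →₀ ℂ) (x : M) : M :=
  c.sum fun ab w => w • (x ^ ab.1 * star x ^ ab.2)

/-- `μ` is the spectral law (with respect to the trace) of the normal element `x` -/
structure Law {M : Type} [CStarAlgebra M] [FinVN M] (x : M) (μ : Measure ℂ) : Prop where
  nor : IsStarNormal x
  prob : IsProbabilityMeasure μ
  supp : ∃ R : ℝ, ∀ᵐ z ∂μ, ‖z‖ ≤ R
  int : ∀ g : ℂ → ℂ, Continuous g → τ (cfc g x) = ∫ z, g z ∂μ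

/-- `a` represents the bounded measurable function `g` of `x` -/
def Rep {M : Type} [CStarAlgebra M] [FinVN M] (x : M) (μ : Measure ℂ) (g : ℂ → ℂ) (a : M) : Prop :=
  ∃ C : ℝ, ‖a‖ ≤ C ∧ (∀ᵐ z ∂μ, ‖g z‖ ≤ C) ∧ ∀ ε : ℝ, 0 < ε → ∃ g' : ℂ → ℂ, Continuous g' ∧
    (∀ z, ‖g' z‖ ≤ C) ∧ ∫ z, ‖g' z - g z‖ ^ 2 ∂μ < ε ^ 2 ∧ n2 (a - cfc g' x) < ε

/-- `Φ` is the bounded measurable functional calculus of `x` -/
structure Calc {M : Type} [CStarAlgebra M] [FinVN M] (x : M) (μ : Measure ℂ)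
    (Φ : (ℂ → ℂ) → M) : Prop where
  cont : ∀ g, Continuous g → Φ g = cfc g x
  add : ∀ g h, BM μ g → BM μ h → Φ (g + h) = Φ g + Φ h
  mul : ∀ g h, BM μ g → BM μ h → Φ (g * h) = Φ g * Φ h
  st : ∀ g, BM μ g → Φ (fun z => star (g z)) = star (Φ g)
  tr : ∀ g, BM μ g → τ (Φ g) = ∫ z, g z ∂μ

/-- base measure `(2/π) cos² ψ dψ` on `(-π/2, π/2]` -/
noncomputable def ρ : Measure ℝ :=
  (volume.restrict (Set.Ioc (-(Real.pi / 2)) (Real.pi / 2))).withDensity
    fun ψ => ENNReal.ofReal (2 / Real.pi * Real.cos ψ ^ 2)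

/-- semicircular variable -/
noncomputable def S (ψ : ℝ) : ℂ := ((2 * Real.sin ψ : ℝ) : ℂ)

/-- Haar variable -/
noncomputable def Y (ψ : ℝ) : ℂ :=
  (Real.sign ψ : ℂ) * Complex.exp (Complex.I * ((2 * |ψ| + Real.sin (2 * |ψ|) : ℝ) : ℂ))

end Crest.Agent.FGF
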