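import Crest.Agent.FGF.SemiDefs

/-! MODULE Semi (row 134), chunk DER -/

set_option autoImplicit false
set_option linter.unusedSectionVars false

namespace Crest.Agent.FGF

open Crest.Agent.GenII1 Filter Topology MeasureTheory

/-- the difference quotient functional -/
noncomputable def SemiDer_T {M : Type} [CStarAlgebra M] [FinVN M] (s : M) (p : Polynomial ℂ)
    (x y : M) : ℂ :=
  p.sum fun n c => c * ∑ k ∈ Finset.range n, τ (x * s ^ k) * τ (s ^ (n - 1 - k) * y)

theorem SemiDer_T_add {M : Type} [CStarAlgebra M] [FinVN M] (s : M) (p q : Polynomial ℂ)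
    (x y : M) : SemiDer_T s (p + q) x y = SemiDer_T s p x y + SemiDer_T s q x y := by
  unfold SemiDer_T
  rw [Polynomial.sum_add_index]
  · intro i
    simp
  · intro a b c
    ring

theorem SemiDer_T_monomial {M : Type} [CStarAlgebra M] [FinVN M] (s : M) (n : ℕ) (c : ℂ)
    (x y : M) : SemiDer_T s (Polynomial.monomial n c) x y =
      c * ∑ k ∈ Finset.range n, τ (x * s ^ k) * τ (s ^ (n - 1 - k) * y) := by
  unfold SemiDer_T
  rw [Polynomial.sum_monomial_index]
  simp

theorem SemiDer_T_add_left {M : Type} [CStarAlgebra M] [FinVN M] (s : M) (p : Polynomial ℂ)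
    (x x' y : M) : SemiDer_T s p (x + x') y = SemiDer_T s p x y + SemiDer_T s p x' y := by
  unfold SemiDer_T Polynomial.sum
  simp only [add_mul, map_add, Finset.sum_add_distrib, mul_add]

theorem SemiDer_T_add_right {M : Type} [CStarAlgebra M] [FinVN M] (s : M) (p : Polynomial ℂ)
    (x y y' : M) : SemiDer_T s p x (y + y') = SemiDer_T s p x y + SemiDer_T s p x y' := by
  unfold SemiDer_T Polynomial.sum
  simp only [mul_add, map_add, Finset.sum_add_distrib]

theorem SemiDer_T_smul {M : Type} [CStarAlgebra M] [FinVN M] (s : M) (a : ℂ) (p : Polynomial ℂ)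
    (x y : M) : SemiDer_T s (Polynomial.C a * p) x y = a * SemiDer_T s p x y := by
  induction p using Polynomial.induction_on' with
  | add p q hp hq => rw [mul_add, SemiDer_T_add, SemiDer_T_add, hp, hq]; ring
  | monomial n c =>
    rw [Polynomial.C_mul_monomial, SemiDer_T_monomial, SemiDer_T_monomial]
    ring

theorem SemiDer_T_mul {M : Type} [CStarAlgebra M] [FinVN M] (s : M) (p q : Polynomial ℂ)
    (x y : M) : SemiDer_T s (p * q) x y =
      SemiDer_T s p x (Polynomial.aeval s q * y) + SemiDer_T s q (x * Polynomial.aeval s p) y := by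
  induction p using Polynomial.induction_on' with
  | add p p' hp hp' =>
    rw [add_mul, SemiDer_T_add, SemiDer_T_add, hp, hp', map_add, mul_add, SemiDer_T_add_left]
    ring
  | monomial n a =>
    induction q using Polynomial.induction_on' with
    | add q q' hq hq' =>
      rw [mul_add, SemiDer_T_add, SemiDer_T_add, hq, hq', map_add, add_mul, SemiDer_T_add_right]
      ring
    | monomial m b =>
      rw [Polynomial.monomial_mul_monomial, SemiDer_T_monomial, SemiDer_T_monomial,
        SemiDer_T_monomial, Finset.sum_range_add, Polynomial.aeval_monomial,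
        Polynomial.aeval_monomial, mul_add, Finset.mul_sum, Finset.mul_sum, Finset.mul_sum,
        Finset.mul_sum]
      congr 1
      · refine Finset.sum_congr rfl fun k hk => ?_
        rw [Finset.mem_range] at hk
        have e : n + m - 1 - k = (n - 1 - k) + m := by omega
        have e2 : s ^ (n - 1 - k) * ((algebraMap ℂ M) b * s ^ m * y) =
            b • (s ^ (n - 1 - k + m) * y) := by
          rw [Algebra.algebraMap_eq_smul_one, smul_mul_assoc, smul_mul_assoc, mul_smul_comm,
            one_mul, pow_add, mul_assoc]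
        rw [e, e2, map_smul, smul_eq_mul]
        ring
      · refine Finset.sum_congr rfl fun k hk => ?_
        rw [Finset.mem_range] at hk
        have e : n + m - 1 - (n + k) = m - 1 - k := by omega
        have e2 : x * ((algebraMap ℂ M) a * s ^ n) * s ^ k = a • (x * s ^ (n + k)) := by
          rw [Algebra.algebraMap_eq_smul_one, smul_mul_assoc, mul_smul_comm, smul_mul_assoc,
            one_mul, pow_add, mul_assoc]
        rw [e, e2, map_smul, smul_eq_mul]
        ring

/-- `Θ` of a one-variable derivation pair is the difference quotient of a polynomial.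
Proof: induction on `Der`.  For `p : Polynomial ℂ` put
`T p x y = p.sum fun n c => c * ∑ k ∈ range n, τ (x * s ^ k) * τ (s ^ (n - 1 - k) * y)`; show
`T (p + q) = T p + T q`, `T (C a * p) = a * T p`, and the product rule
`T (p * q) x y = T p x (aeval s q * y) + T q (x * aeval s p) y`
(bilinear, so check it on monomials: `Finset.sum_range_add`/`Finset.range_add` splitting).
`base`: `d` is a scalar, `p = C a`, `T = 0`. `var`: `p = X`. -/
theorem der_poly {M : Type} [CStarAlgebra M] [FinVN M] (s : M) (z : M) (Θ : M → M → ℂ)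
    (h : Der (Set.range (algebraMap ℂ M)) (fun _ : Unit => s) (fun _ => (1 : ℂ)) z Θ) :
    ∃ p : Polynomial ℂ, z = Polynomial.aeval s p ∧ ∀ x y : M, Θ x y =
      p.sum fun n c => c * ∑ k ∈ Finset.range n, τ (x * s ^ k) * τ (s ^ (n - 1 - k) * y) := by
  change ∃ p : Polynomial ℂ, z = Polynomial.aeval s p ∧ ∀ x y : M, Θ x y = SemiDer_T s p x y
  induction h with
  | base d hd =>
    obtain ⟨a, rfl⟩ := hd
    refine ⟨Polynomial.C a, by simp, fun x y => ?_⟩
    rw [← Polynomial.monomial_zero_left, SemiDer_T_monomial]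
    simp
  | var j =>
    refine ⟨Polynomial.X, by simp, fun x y => ?_⟩
    rw [← Polynomial.monomial_one_one_eq_X, SemiDer_T_monomial]
    simp
  | add z z' Θ Θ' _ _ ih ih' =>
    obtain ⟨p, hp, hT⟩ := ih
    obtain ⟨q, hq, hT'⟩ := ih'
    refine ⟨p + q, by rw [hp, hq, map_add], fun x y => ?_⟩
    rw [SemiDer_T_add, ← hT, ← hT']
  | smul a z Θ _ ih =>
    obtain ⟨p, hp, hT⟩ := ih
    refine ⟨Polynomial.C a * p, ?_, fun x y => ?_⟩
    · rw [map_mul, Polynomial.aeval_C, ← hp, Algebra.smul_def]
    · rw [SemiDer_T_smul, ← hT]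
  | mul z z' Θ Θ' _ _ ih ih' =>
    obtain ⟨p, hp, hT⟩ := ih
    obtain ⟨q, hq, hT'⟩ := ih'
    refine ⟨p * q, by rw [hp, hq, map_mul], fun x y => ?_⟩
    rw [SemiDer_T_mul, ← hT, ← hT', hp, hq]

/-- every power of `s` has a derivation pair whose value at `1, 1` is the expected one
(induction on `n`, using `var` and `mul`; `base` for `n = 0`). -/
theorem der_pow {M : Type} [CStarAlgebra M] [FinVN M] (s : M) (n : ℕ) :
    ∃ Θ : M → M → ℂ, Der (Set.range (algebraMap ℂ M)) (fun _ : Unit => s) (fun _ => (1 : ℂ))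
      (s ^ n) Θ ∧ ∀ x y : M, Θ x y =
        ∑ k ∈ Finset.range n, τ (x * s ^ k) * τ (s ^ (n - 1 - k) * y) := by
  induction n with
  | zero =>
    refine ⟨fun _ _ => 0, Der.base _ ⟨1, by simp⟩, fun x y => by simp⟩
  | succ n ih =>
    obtain ⟨Θ, hΘ, hT⟩ := ih
    refine ⟨fun x y => Θ x (s * y) + (1 : ℂ) * (τ (x * s ^ n) * τ y), ?_, fun x y => ?_⟩
    · rw [pow_succ]
      exact Der.mul (s ^ n) s Θ (fun x y => (1 : ℂ) * (τ x * τ y)) hΘ (Der.var ())
    · show Θ x (s * y) + (1 : ℂ) * (τ (x * s ^ n) * τ y) = _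
      rw [Finset.sum_range_succ, hT, one_mul]
      congr 1
      · refine Finset.sum_congr rfl fun k hk => ?_
        rw [Finset.mem_range] at hk
        have e : n + 1 - 1 - k = (n - 1 - k) + 1 := by omega
        rw [e, pow_succ, mul_assoc]
      · have e : n + 1 - 1 - n = 0 := by omega
        rw [e, pow_zero, one_mul]

/-- `IsSemi` = self-adjoint with the Catalan recursion for the moments.
Proof: (→) apply `sd` to `der_pow`.  (←) `der_poly`: `τ (s * aeval s p) = p.sum (c * τ (s^(n+1)))`. -/
theorem isSemi_iff_rec {M : Type} [CStarAlgebra M] [FinVN M] (s : M) :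
    IsSemi s ↔ IsSelfAdjoint s ∧ ∀ n : ℕ,
      τ (s ^ (n + 1)) = ∑ k ∈ Finset.range n, τ (s ^ k) * τ (s ^ (n - 1 - k)) := by
  constructor
  · rintro ⟨hsa, hsd⟩
    refine ⟨hsa, fun n => ?_⟩
    obtain ⟨Θ, hΘ, hT⟩ := der_pow s n
    have h := hsd () (s ^ n) Θ hΘ
    rw [hT] at h
    rw [pow_succ']
    simpa using h
  · rintro ⟨hsa, hrec⟩
    refine ⟨hsa, fun i z Θ h => ?_⟩
    obtain ⟨p, rfl, hT⟩ := der_poly s z Θ h
    rw [hT, Polynomial.aeval_def, Polynomial.eval₂_eq_sum]
    unfold Polynomial.sum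
    rw [Finset.mul_sum, map_sum]
    refine Finset.sum_congr rfl fun n _ => ?_
    show τ (s * ((algebraMap ℂ M) (p.coeff n) * s ^ n)) =
      p.coeff n * ∑ k ∈ Finset.range n, τ (1 * s ^ k) * τ (s ^ (n - 1 - k) * 1)
    rw [← Algebra.smul_def, mul_smul_comm, map_smul, smul_eq_mul, ← pow_succ', hrec]
    simp

end Crest.Agent.FGF
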