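import Crest.Agent.FGF.SemiLaw
import Crest.Agent.FGF.SemiBM

/-! MODULE Semi (row 134), chunk REPB -/

set_option autoImplicit false
set_option linter.unusedSectionVars false

namespace Crest.Agent.FGF

open Crest.Agent.GenII1 Filter Topology MeasureTheory

variable {M : Type} [CStarAlgebra M] [FinVN M]

theorem semiRepB_int {μ : Measure ℂ} [IsProbabilityMeasure μ] {f : ℂ → ℂ} {C : ℝ}
    (hf : Measurable f) (hC : ∀ᵐ z ∂μ, ‖f z‖ ≤ C) : Integrable f μ :=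
  Integrable.of_bound hf.aestronglyMeasurable C hC

theorem semiRepB_int2 {μ : Measure ℂ} [IsProbabilityMeasure μ] {f : ℂ → ℂ} {C : ℝ}
    (hf : Measurable f) (hC : ∀ᵐ z ∂μ, ‖f z‖ ≤ C) : Integrable (fun z => ‖f z‖ ^ 2) μ := by
  refine Integrable.of_bound (hf.norm.pow_const 2).aestronglyMeasurable (C ^ 2) ?_
  filter_upwards [hC] with z hz
  rw [norm_pow, norm_norm]
  exact pow_le_pow_left₀ (norm_nonneg _) hz 2

theorem semiRepB_sub {μ : Measure ℂ} {f g : ℂ → ℂ} {C : ℝ} (hf : ∀ z, ‖f z‖ ≤ C)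
    (hC : ∀ᵐ z ∂μ, ‖g z‖ ≤ C) : ∀ᵐ z ∂μ, ‖f z - g z‖ ≤ C + C := by
  filter_upwards [hC] with z hz
  exact (norm_sub_le _ _).trans (add_le_add (hf z) hz)

theorem semiRepB_sq {a b : ℂ} : ‖a + b‖ ^ 2 ≤ 2 * ‖a‖ ^ 2 + 2 * ‖b‖ ^ 2 := by
  have h1 := norm_add_le a b
  have h2 := norm_nonneg (a + b)
  have h3 : ‖a + b‖ ^ 2 ≤ (‖a‖ + ‖b‖) ^ 2 := pow_le_pow_left₀ h2 h1 2
  nlinarith [sq_nonneg (‖a‖ - ‖b‖)]

theorem Rep.add {x : M} {μ : Measure ℂ} (h : Law x μ) (g g₂ : ℂ → ℂ) (hg : BM μ g)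
    (hg2 : BM μ g₂) (a b : M) (ha : Rep x μ g a) (hb : Rep x μ g₂ b) :
    Rep x μ (g + g₂) (a + b) := by
  have := h.prob
  have := h.nor
  obtain ⟨C1, ha1, hg1, ha2⟩ := ha
  obtain ⟨C2, hb1, hg2', hb2⟩ := hb
  refine ⟨C1 + C2, (norm_add_le _ _).trans (add_le_add ha1 hb1), ?_, ?_⟩
  · filter_upwards [hg1, hg2'] with z h1 h2
    exact (norm_add_le _ _).trans (add_le_add h1 h2)
  intro ε hε
  obtain ⟨p, hpc, hpC, hp1, hp2⟩ := ha2 (ε / 2) (by positivity)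
  obtain ⟨q, hqc, hqC, hq1, hq2⟩ := hb2 (ε / 2) (by positivity)
  refine ⟨p + q, hpc.add hqc, fun z => (norm_add_le _ _).trans (add_le_add (hpC z) (hqC z)), ?_, ?_⟩
  · have i1 := semiRepB_int2 (μ := μ) (hpc.measurable.sub hg.1) (semiRepB_sub hpC hg1)
    have i2 := semiRepB_int2 (μ := μ) (hqc.measurable.sub hg2.1) (semiRepB_sub hqC hg2')
    simp only [Pi.sub_apply] at i1 i2
    have h1 : ∫ z, ‖(p + q) z - (g + g₂) z‖ ^ 2 ∂μ
        ≤ ∫ z, (2 * ‖p z - g z‖ ^ 2 + 2 * ‖q z - g₂ z‖ ^ 2) ∂μ := by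
      refine integral_mono_of_nonneg (Eventually.of_forall fun z => by positivity)
        ((i1.const_mul 2).add (i2.const_mul 2)) (Eventually.of_forall fun z => ?_)
      have e : (p + q) z - (g + g₂) z = (p z - g z) + (q z - g₂ z) := by
        simp only [Pi.add_apply]; ring
      show ‖(p + q) z - (g + g₂) z‖ ^ 2 ≤ _
      rw [e]
      exact semiRepB_sq
    rw [integral_add (i1.const_mul 2) (i2.const_mul 2), integral_const_mul,
      integral_const_mul] at h1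
    nlinarith
  · have e : cfc (p + q) x = cfc p x + cfc q x :=
      cfc_add x p q hpc.continuousOn hqc.continuousOn
    rw [e]
    have e2 : a + b - (cfc p x + cfc q x) = (a - cfc p x) + (b - cfc q x) := by abel
    rw [e2]
    exact (n2_add_le _ _).trans_lt (by linarith)

/-- `g'h' - gh = g'(h' - h) + (g' - g) h` -/
theorem Rep.mul {x : M} {μ : Measure ℂ} (h : Law x μ) (g g₂ : ℂ → ℂ) (hg : BM μ g)
    (hg2 : BM μ g₂) (a b : M) (ha : Rep x μ g a) (hb : Rep x μ g₂ b) :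
    Rep x μ (g * g₂) (a * b) := by
  have := h.prob
  have := h.nor
  obtain ⟨C1, ha1, hg1, ha2⟩ := ha
  obtain ⟨C2, hb1, hg2', hb2⟩ := hb
  have hC1 : 0 ≤ C1 := (norm_nonneg _).trans ha1
  have hC2 : 0 ≤ C2 := (norm_nonneg _).trans hb1
  refine ⟨C1 * C2, (norm_mul_le _ _).trans (mul_le_mul ha1 hb1 (norm_nonneg _) hC1), ?_, ?_⟩
  · filter_upwards [hg1, hg2'] with z h1 h2
    rw [Pi.mul_apply, norm_mul]
    exact mul_le_mul h1 h2 (norm_nonneg _) hC1
  intro ε hε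
  have hK : 0 < C1 + C2 + 1 := by positivity
  obtain ⟨p, hpc, hpC, hp1, hp2⟩ := ha2 (ε / (2 * (C1 + C2 + 1))) (by positivity)
  obtain ⟨q, hqc, hqC, hq1, hq2⟩ := hb2 (ε / (2 * (C1 + C2 + 1))) (by positivity)
  set δ := ε / (2 * (C1 + C2 + 1)) with hδ
  have hδ0 : 0 < δ := by positivity
  have hδε : (C1 + C2 + 1) * δ = ε / 2 := by
    rw [hδ]; field_simp
  refine ⟨p * q, hpc.mul hqc, fun z => ?_, ?_, ?_⟩
  · rw [Pi.mul_apply, norm_mul]
    exact mul_le_mul (hpC z) (hqC z) (norm_nonneg _) hC1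
  · have i1 := semiRepB_int2 (μ := μ) (hpc.measurable.sub hg.1) (semiRepB_sub hpC hg1)
    have i2 := semiRepB_int2 (μ := μ) (hqc.measurable.sub hg2.1) (semiRepB_sub hqC hg2')
    simp only [Pi.sub_apply] at i1 i2
    have h1 : ∫ z, ‖(p * q) z - (g * g₂) z‖ ^ 2 ∂μ
        ≤ ∫ z, (2 * C2 ^ 2 * ‖p z - g z‖ ^ 2 + 2 * C1 ^ 2 * ‖q z - g₂ z‖ ^ 2) ∂μ := by
      refine integral_mono_of_nonneg (Eventually.of_forall fun z => by positivity)
        ((i1.const_mul (2 * C2 ^ 2)).add (i2.const_mul (2 * C1 ^ 2))) ?_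
      filter_upwards [hg2'] with z hz
      have e : (p * q) z - (g * g₂) z = (p z - g z) * g₂ z + p z * (q z - g₂ z) := by
        simp only [Pi.mul_apply]; ring
      show ‖(p * q) z - (g * g₂) z‖ ^ 2 ≤ _
      rw [e]
      refine semiRepB_sq.trans ?_
      rw [norm_mul, norm_mul, mul_pow, mul_pow]
      have h3 : ‖g₂ z‖ ^ 2 ≤ C2 ^ 2 := pow_le_pow_left₀ (norm_nonneg _) hz 2
      have h4 : ‖p z‖ ^ 2 ≤ C1 ^ 2 := pow_le_pow_left₀ (norm_nonneg _) (hpC z) 2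
      have h5 := mul_le_mul_of_nonneg_left h3 (sq_nonneg ‖p z - g z‖)
      have h6 := mul_le_mul_of_nonneg_right h4 (sq_nonneg ‖q z - g₂ z‖)
      linarith
    rw [integral_add (i1.const_mul _) (i2.const_mul _), integral_const_mul,
      integral_const_mul] at h1
    have h7 : C2 ^ 2 * ∫ z, ‖p z - g z‖ ^ 2 ∂μ ≤ C2 ^ 2 * δ ^ 2 :=
      mul_le_mul_of_nonneg_left hp1.le (sq_nonneg _)
    have h8 : C1 ^ 2 * ∫ z, ‖q z - g₂ z‖ ^ 2 ∂μ ≤ C1 ^ 2 * δ ^ 2 :=
      mul_le_mul_of_nonneg_left hq1.le (sq_nonneg _)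
    have h9 : (C1 ^ 2 + C2 ^ 2) * δ ^ 2 ≤ ((C1 + C2 + 1) * δ) ^ 2 := by
      rw [mul_pow]
      refine mul_le_mul_of_nonneg_right ?_ (sq_nonneg _)
      nlinarith [mul_nonneg hC1 hC2]
    rw [hδε] at h9
    nlinarith
  · have e : cfc (p * q) x = cfc p x * cfc q x :=
      cfc_mul p q x hpc.continuousOn hqc.continuousOn
    rw [e]
    have e2 : a * b - cfc p x * cfc q x
        = a * (b - cfc q x) + (a - cfc p x) * cfc q x := by noncomm_ring
    rw [e2]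
    have h1 : ‖cfc q x‖ ≤ C2 := norm_cfc_le hC2 fun z _ => hqC z
    have h2 := n2_mul_le_left a (b - cfc q x)
    have h3 := n2_mul_le_right (a - cfc p x) (cfc q x)
    have h4 : ‖a‖ * n2 (b - cfc q x) ≤ C1 * δ :=
      mul_le_mul ha1 hq2.le (n2_nonneg _) hC1
    have h5 : n2 (a - cfc p x) * ‖cfc q x‖ ≤ δ * C2 :=
      mul_le_mul hp2.le h1 (norm_nonneg _) hδ0.le
    refine (n2_add_le _ _).trans_lt ?_
    nlinarith

theorem Rep.st {x : M} {μ : Measure ℂ} (h : Law x μ) (g : ℂ → ℂ) (hg : BM μ g)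
    (a : M) (ha : Rep x μ g a) : Rep x μ (fun z => star (g z)) (star a) := by
  obtain ⟨C, ha1, hg1, ha2⟩ := ha
  refine ⟨C, by rwa [norm_star], ?_, ?_⟩
  · filter_upwards [hg1] with z hz
    rwa [norm_star]
  intro ε hε
  obtain ⟨p, hpc, hpC, hp1, hp2⟩ := ha2 ε hε
  refine ⟨fun z => star (p z), hpc.star, fun z => by rw [norm_star]; exact hpC z, ?_, ?_⟩
  · have e : ∀ z, ‖star (p z) - star (g z)‖ = ‖p z - g z‖ := fun z => by
      rw [← star_sub, norm_star]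
    simp only [e]
    exact hp1
  · rw [cfc_star, ← star_sub, n2_star]
    exact hp2

theorem Rep.tr {x : M} {μ : Measure ℂ} (h : Law x μ) (g : ℂ → ℂ) (hg : BM μ g)
    (a : M) (ha : Rep x μ g a) : τ a = ∫ z, g z ∂μ := by
  have := h.prob
  obtain ⟨C, ha1, hg1, ha2⟩ := ha
  have key : ∀ ε : ℝ, 0 < ε → ‖τ a - ∫ z, g z ∂μ‖ ≤ 0 + ε := by
    intro ε hε
    obtain ⟨p, hpc, hpC, hp1, hp2⟩ := ha2 (ε / 2) (by positivity)
    have i1 := semiRepB_int2 (μ := μ) (hpc.measurable.sub hg.1) (semiRepB_sub hpC hg1)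
    have i0 := semiRepB_int (μ := μ) (hpc.measurable.sub hg.1) (semiRepB_sub hpC hg1)
    simp only [Pi.sub_apply] at i1
    have ip : Integrable p μ := semiRepB_int hpc.measurable (Eventually.of_forall hpC)
    have ig : Integrable g μ := semiRepB_int hg.1 hg1
    have h1 : ‖τ (a - cfc p x)‖ ≤ ε / 2 := (norm_τ_le_n2 _).trans hp2.le
    have h2 : ‖∫ z, (p z - g z) ∂μ‖ ≤ ε / 2 := by
      refine (norm_integral_le_integral_norm _).trans ?_
      have h3 : ∫ z, ‖p z - g z‖ ∂μ ≤ ∫ z, (1 / ε * ‖p z - g z‖ ^ 2 + ε / 4) ∂μ := by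
        refine integral_mono_of_nonneg (Eventually.of_forall fun z => norm_nonneg _)
          ((i1.const_mul _).add (integrable_const _)) (Eventually.of_forall fun z => ?_)
        have : 0 ≤ 1 / ε * (‖p z - g z‖ - ε / 2) ^ 2 := by positivity
        have e : 1 / ε * (‖p z - g z‖ - ε / 2) ^ 2
            = 1 / ε * ‖p z - g z‖ ^ 2 - ‖p z - g z‖ + ε / 4 := by
          field_simp; ring
        show ‖p z - g z‖ ≤ 1 / ε * ‖p z - g z‖ ^ 2 + ε / 4
        linarith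
      rw [integral_add (i1.const_mul _) (integrable_const _), integral_const_mul] at h3
      have h4 : 1 / ε * ∫ z, ‖p z - g z‖ ^ 2 ∂μ ≤ 1 / ε * (ε / 2) ^ 2 :=
        mul_le_mul_of_nonneg_left hp1.le (by positivity)
      have h5 : 1 / ε * (ε / 2) ^ 2 = ε / 4 := by field_simp; ring
      have h6 : ∫ _z : ℂ, ε / 4 ∂μ = ε / 4 := by simp
      linarith
    have e : τ a - ∫ z, g z ∂μ = τ (a - cfc p x) + ∫ z, (p z - g z) ∂μ := by
      rw [integral_sub ip ig, map_sub, h.int p hpc]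
      ring
    rw [e]
    refine (norm_add_le _ _).trans ?_
    linarith
  have h0 := le_of_forall_pos_le_add key
  exact sub_eq_zero.1 (norm_le_zero_iff.1 h0)

end Crest.Agent.FGF
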