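import Crest.Agent.FGF.SemiRepA
import Crest.Agent.FGF.SemiRepB

/-! MODULE Semi (row 134), existence of the calculus -/

set_option autoImplicit false
set_option linter.unusedSectionVars false

namespace Crest.Agent.FGF

open Crest.Agent.GenII1 Filter Topology MeasureTheory

variable {M : Type} [CStarAlgebra M] [FinVN M]

open Classical in
/-- existence of the bounded measurable functional calculus -/
theorem exists_calc {x : M} {μ : Measure ℂ} (h : Law x μ) : ∃ Φ : (ℂ → ℂ) → M, Calc x μ Φ := by
  obtain ⟨R, hR⟩ := h.supp
  refine ⟨fun g => if hg : BM μ g then (Rep.exists h g hg).choose else 0, ?_⟩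
  have key : ∀ g (hg : BM μ g), Rep x μ g
      (if hg : BM μ g then (Rep.exists h g hg).choose else 0) := by
    intro g hg
    rw [dif_pos hg]
    exact (Rep.exists h g hg).choose_spec
  constructor
  · intro g hg
    have hb : BM μ g := BM.of_cont hR hg
    exact Rep.unique h g g hb hb (Eventually.of_forall fun _ => rfl) _ _ (key g hb)
      (Rep.of_cont h g hg)
  · intro g h' hg hh
    exact Rep.unique h _ _ (hg.add hh) (hg.add hh) (Eventually.of_forall fun _ => rfl) _ _
      (key _ (hg.add hh)) (Rep.add h g h' hg hh _ _ (key g hg) (key h' hh))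
  · intro g h' hg hh
    exact Rep.unique h _ _ (hg.mul hh) (hg.mul hh) (Eventually.of_forall fun _ => rfl) _ _
      (key _ (hg.mul hh)) (Rep.mul h g h' hg hh _ _ (key g hg) (key h' hh))
  · intro g hg
    exact Rep.unique h _ _ hg.st hg.st (Eventually.of_forall fun _ => rfl) _ _
      (key _ hg.st) (Rep.st h g hg _ (key g hg))
  · intro g hg
    exact Rep.tr h g hg _ (key g hg)

end Crest.Agent.FGF
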