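import Crest.Agent.FGF.SemiRho

/-! MODULE Semi (row 134), chunk INV -/

set_option autoImplicit false
set_option linter.unusedSectionVars false

namespace Crest.Agent.FGF

open Crest.Agent.GenII1 Filter Topology MeasureTheory

/-- the angle -/
noncomputable def SemiInv_th (x : ℝ) : ℝ := 2 * x + Real.sin (2 * x)

theorem SemiInv_th_pos {x : ℝ} (h0 : 0 < x) (h1 : x < Real.pi / 2) : 0 < SemiInv_th x := by
  have h2 : 0 < Real.sin (2 * x) := Real.sin_pos_of_pos_of_lt_pi (by linarith) (by linarith)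
  unfold SemiInv_th; linarith

theorem SemiInv_th_lt {x : ℝ} (h1 : x < Real.pi / 2) : SemiInv_th x < Real.pi := by
  have h2 : Real.sin (Real.pi - 2 * x) < Real.pi - 2 * x := Real.sin_lt (by linarith)
  rw [Real.sin_pi_sub] at h2
  unfold SemiInv_th; linarith

theorem SemiInv_th_strict {a b : ℝ} (h0 : 0 ≤ a) (hab : a < b) (h1 : b < Real.pi / 2) :
    SemiInv_th a < SemiInv_th b := by
  have e : Real.sin (2 * b) - Real.sin (2 * a) = 2 * Real.sin (b - a) * Real.cos (a + b) := by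
    rw [Real.sin_sub_sin]
    congr 2
    · congr 1; ring
    · ring
  have h2 : 0 < Real.sin (b - a) := Real.sin_pos_of_pos_of_lt_pi (by linarith)
    (by linarith [Real.pi_pos])
  have h3 : Real.sin (b - a) < b - a := Real.sin_lt (by linarith)
  have h4 : -1 ≤ Real.cos (a + b) := Real.neg_one_le_cos _
  unfold SemiInv_th
  nlinarith

theorem SemiInv_th_inj {a b : ℝ} (ha : 0 ≤ a) (hb : 0 ≤ b) (ha1 : a < Real.pi / 2)
    (hb1 : b < Real.pi / 2) (h : SemiInv_th a = SemiInv_th b) : a = b := by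
  rcases lt_trichotomy a b with h1 | h1 | h1
  · exact absurd h (SemiInv_th_strict ha h1 hb1).ne
  · exact h1
  · exact absurd h (SemiInv_th_strict hb h1 ha1).ne'

theorem SemiInv_Y_eq (ψ : ℝ) : Y ψ = ((Real.sign ψ : ℝ) : ℂ) *
    (((Real.cos (SemiInv_th |ψ|) : ℝ) : ℂ) + ((Real.sin (SemiInv_th |ψ|) : ℝ) : ℂ) * Complex.I) := by
  unfold Y SemiInv_th
  rw [mul_comm Complex.I, Complex.exp_mul_I, ← Complex.ofReal_cos, ← Complex.ofReal_sin]

theorem SemiInv_Y_re (ψ : ℝ) : (Y ψ).re = Real.sign ψ * Real.cos (SemiInv_th |ψ|) := by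
  rw [SemiInv_Y_eq, Complex.re_ofReal_mul, Complex.add_re, Complex.ofReal_re,
    Complex.re_ofReal_mul, Complex.I_re, mul_zero, add_zero]

theorem SemiInv_Y_im (ψ : ℝ) : (Y ψ).im = Real.sign ψ * Real.sin (SemiInv_th |ψ|) := by
  rw [SemiInv_Y_eq, Complex.im_ofReal_mul, Complex.add_im, Complex.ofReal_im,
    Complex.im_ofReal_mul, Complex.I_im, mul_one, zero_add]

/-- `Y` is injective on `(-π/2, 0) ∪ (0, π/2)`: for `ψ > 0` it is `exp(i θ)`, `θ = 2ψ + sin 2ψ`
strictly increasing from `0` to `π` (upper half circle); for `ψ < 0` it is in the lower half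
circle. -/
theorem Y_injOn : Set.InjOn Y {ψ | ψ ∈ Set.Ioo (-(Real.pi / 2)) (Real.pi / 2) ∧ ψ ≠ 0} := by
  rintro a ⟨⟨ha1, ha2⟩, ha0⟩ b ⟨⟨hb1, hb2⟩, hb0⟩ h
  have ha3 : |a| < Real.pi / 2 := abs_lt.2 ⟨ha1, ha2⟩
  have hb3 : |b| < Real.pi / 2 := abs_lt.2 ⟨hb1, hb2⟩
  have ha4 : 0 < |a| := abs_pos.2 ha0
  have hb4 : 0 < |b| := abs_pos.2 hb0
  have hre : (Y a).re = (Y b).re := by rw [h]
  have him : (Y a).im = (Y b).im := by rw [h]
  rw [SemiInv_Y_re, SemiInv_Y_re] at hre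
  rw [SemiInv_Y_im, SemiInv_Y_im] at him
  have hsa : 0 < Real.sin (SemiInv_th |a|) :=
    Real.sin_pos_of_pos_of_lt_pi (SemiInv_th_pos ha4 ha3) (SemiInv_th_lt ha3)
  have hsb : 0 < Real.sin (SemiInv_th |b|) :=
    Real.sin_pos_of_pos_of_lt_pi (SemiInv_th_pos hb4 hb3) (SemiInv_th_lt hb3)
  have key : Real.cos (SemiInv_th |a|) = Real.cos (SemiInv_th |b|) → |a| = |b| := by
    intro hc
    have := Real.injOn_cos ⟨(SemiInv_th_pos ha4 ha3).le, (SemiInv_th_lt ha3).le⟩
      ⟨(SemiInv_th_pos hb4 hb3).le, (SemiInv_th_lt hb3).le⟩ hc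
    exact SemiInv_th_inj ha4.le hb4.le ha3 hb3 this
  rcases lt_or_gt_of_ne ha0 with ha | ha <;> rcases lt_or_gt_of_ne hb0 with hb | hb
  · rw [Real.sign_of_neg ha, Real.sign_of_neg hb] at hre
    have := key (by linarith)
    rw [abs_of_neg ha, abs_of_neg hb] at this
    linarith
  · rw [Real.sign_of_neg ha, Real.sign_of_pos hb] at him
    linarith
  · rw [Real.sign_of_pos ha, Real.sign_of_neg hb] at him
    linarith
  · rw [Real.sign_of_pos ha, Real.sign_of_pos hb] at hre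
    have := key (by linarith)
    rw [abs_of_pos ha, abs_of_pos hb] at this
    linarith

/-- measurable inverse of `Y`, composed with `S`.
Proof: the subtype `X = {ψ ∈ (-π/2, π/2), ψ ≠ 0}` is standard Borel
(`MeasurableSet.standardBorel`), `Y` is injective and measurable on it, hence a measurable
embedding (`Measurable.measurableEmbedding`), `MeasurableEmbedding.exists_measurable_extend`
gives `f` with `f (Y ψ) = S ψ`; replace `f` by `clip (re f)` to have real values in `[-2, 2]`. -/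
theorem exists_f : ∃ f : ℂ → ℂ, Measurable f ∧ (∀ z, ‖f z‖ ≤ 2) ∧ (∀ z, star (f z) = f z) ∧
    ∀ ψ, ψ ∈ Set.Ioo (-(Real.pi / 2)) (Real.pi / 2) → ψ ≠ 0 → f (Y ψ) = S ψ := by
  set X : Set ℝ := {ψ | ψ ∈ Set.Ioo (-(Real.pi / 2)) (Real.pi / 2) ∧ ψ ≠ 0} with hX
  have hXm : MeasurableSet X := by
    have : X = Set.Ioo (-(Real.pi / 2)) (Real.pi / 2) ∩ {0}ᶜ := by
      ext ψ; simp [hX]
    rw [this]
    exact measurableSet_Ioo.inter (measurableSet_singleton 0).compl
  have : StandardBorelSpace X := hXm.standardBorel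
  have hemb : MeasurableEmbedding (fun ψ : X => Y ψ) := by
    refine Measurable.measurableEmbedding (measurable_Y.comp measurable_subtype_coe) ?_
    intro a b h
    exact Subtype.ext (Y_injOn a.2 b.2 h)
  have hSm : Measurable (fun ψ : X => 2 * Real.sin (ψ : ℝ)) :=
    (Real.measurable_sin.comp measurable_subtype_coe).const_mul 2
  obtain ⟨g, hg, hgY⟩ := hemb.exists_measurable_extend hSm (fun _ => ⟨0⟩)
  refine ⟨fun z => ((max (-2) (min 2 (g z)) : ℝ) : ℂ), ?_, fun z => ?_, fun z => ?_,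
    fun ψ hψ h0 => ?_⟩
  · exact Complex.measurable_ofReal.comp (measurable_const.max (measurable_const.min hg))
  · rw [Complex.norm_real, Real.norm_eq_abs, abs_le]
    exact ⟨le_max_left _ _, max_le (by norm_num) (min_le_left _ _)⟩
  · exact Complex.conj_ofReal _
  · have h1 : g (Y ψ) = 2 * Real.sin ψ := congrFun hgY ⟨ψ, hψ, h0⟩
    have h2 := Real.sin_le_one ψ
    have h3 := Real.neg_one_le_sin ψ
    show ((max (-2) (min 2 (g (Y ψ))) : ℝ) : ℂ) = S ψ
    rw [h1, min_eq_right (by linarith), max_eq_right (by linarith)]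
    rfl

/-- `g z = Y (arcsin (re z / 2))`. -/
theorem exists_g : ∃ g : ℂ → ℂ, Measurable g ∧ (∀ z, ‖g z‖ ≤ 1) ∧ (∀ z, g (-z) = -g z) ∧
    ∀ ψ, ψ ∈ Set.Ioo (-(Real.pi / 2)) (Real.pi / 2) → g (S ψ) = Y ψ := by
  refine ⟨fun z => Y (Real.arcsin (z.re / 2)), ?_, fun z => norm_Y_le _, fun z => ?_,
    fun ψ hψ => ?_⟩
  · exact measurable_Y.comp (Real.measurable_arcsin.comp (Complex.measurable_re.div_const 2))
  · show Y (Real.arcsin ((-z).re / 2)) = -Y (Real.arcsin (z.re / 2))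
    rw [Complex.neg_re, neg_div, Real.arcsin_neg, Y_neg]
  · show Y (Real.arcsin ((S ψ).re / 2)) = Y ψ
    have : (S ψ).re / 2 = Real.sin ψ := by
      unfold S; rw [Complex.ofReal_re]; ring
    rw [this, Real.arcsin_sin hψ.1.le hψ.2.le]

end Crest.Agent.FGF
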