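import Crest.Agent.FGF.SemiNear

/-! MODULE Semi (row 134), chunk LAWM -/

set_option autoImplicit false
set_option linter.unusedSectionVars false

namespace Crest.Agent.FGF

open Crest.Agent.GenII1 Filter Topology MeasureTheory

variable {M : Type} [CStarAlgebra M] [FinVN M]

theorem SemiLaw_nontrivial (M : Type) [CStarAlgebra M] [FinVN M] : Nontrivial M := by
  refine ⟨1, 0, fun h => ?_⟩
  have h1 := τ_one (A := M)
  rw [h, map_zero] at h1
  exact zero_ne_one h1

theorem SemiLaw_integrable {μ : Measure ℂ} [IsProbabilityMeasure μ]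
    {R : ℝ} (hR : ∀ᵐ z ∂μ, ‖z‖ ≤ R) {g : ℂ → ℂ} (hg : Continuous g) : Integrable g μ := by
  obtain ⟨C, hC⟩ := (isCompact_closedBall (0 : ℂ) R).exists_bound_of_continuousOn hg.continuousOn
  refine Integrable.of_bound hg.aestronglyMeasurable C ?_
  filter_upwards [hR] with z hz
  exact hC z (by simpa using hz)

/-- the *-moments determine the law: approximate `g` uniformly on `‖z‖ ≤ max R ‖x‖` by `pev c`
(`exists_pev_near`); `τ (cfc (pev c) x) = ∫ pev c` by `cfc_pev` and the moments;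
`‖cfc (g - pev c) x‖ ≤ ε` (`norm_cfc_le`, `spectrum.norm_le_norm_of_mem`). -/
theorem law_of_moments {x : M} (hx : IsStarNormal x) {μ : Measure ℂ} [IsProbabilityMeasure μ]
    {R : ℝ} (hR : ∀ᵐ z ∂μ, ‖z‖ ≤ R)
    (h : ∀ a b : ℕ, τ (x ^ a * star x ^ b) = ∫ z, z ^ a * star z ^ b ∂μ) : Law x μ := by
  have := SemiLaw_nontrivial M
  refine ⟨hx, inferInstance, ⟨R, hR⟩, fun g hg => ?_⟩
  have hp : ∀ c : ℕ × ℕ →₀ ℂ, τ (cfc (pev c) x) = ∫ z, pev c z ∂μ := by
    intro c
    rw [cfc_pev x hx c]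
    simp only [pevM, pev, Finsupp.sum, map_sum, map_smul, smul_eq_mul]
    rw [integral_finsetSum]
    · refine Finset.sum_congr rfl fun ab _ => ?_
      rw [integral_const_mul, h]
    · intro ab _
      exact SemiLaw_integrable hR (by fun_prop)
  refine eq_of_forall_dist_le fun ε hε => ?_
  obtain ⟨c, hc⟩ := exists_pev_near (max R ‖x‖) g hg (ε / 2) (by linarith)
  have h1 : ‖cfc (pev c) x - cfc g x‖ ≤ ε / 2 := by
    rw [← cfc_sub (pev c) g x (continuous_pev c).continuousOn hg.continuousOn]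
    refine norm_cfc_le (by linarith) fun z hz => ?_
    exact hc z ((spectrum.norm_le_norm_of_mem hz).trans (le_max_right _ _))
  have h2 : ‖(∫ z, pev c z ∂μ) - ∫ z, g z ∂μ‖ ≤ ε / 2 := by
    rw [← integral_sub (SemiLaw_integrable hR (continuous_pev c)) (SemiLaw_integrable hR hg)]
    have h3 := norm_integral_le_of_norm_le_const (μ := μ) (f := fun z => pev c z - g z)
      (C := ε / 2) (by
        filter_upwards [hR] with z hz
        exact hc z (hz.trans (le_max_left _ _)))
    simpa using h3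
  have h4 : ‖τ (cfc (pev c) x) - τ (cfc g x)‖ ≤ ε / 2 := by
    rw [← map_sub]
    exact (norm_τ_le _).trans h1
  rw [hp c] at h4
  rw [dist_eq_norm]
  have e : τ (cfc g x) - ∫ z, g z ∂μ =
      (∫ z, pev c z ∂μ - ∫ z, g z ∂μ) - (∫ z, pev c z ∂μ - τ (cfc g x)) := by ring
  rw [e]
  exact (norm_sub_le _ _).trans (by linarith)

/-- `‖g(x)‖₂² = ∫ |g|²` for continuous `g` -/
theorem Law.n2_cfc {x : M} {μ : Measure ℂ} (h : Law x μ) (g : ℂ → ℂ) (hg : Continuous g) :
    n2 (cfc g x) ^ 2 = ∫ z, ‖g z‖ ^ 2 ∂μ := by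
  have h1 : star (cfc g x) * cfc g x = cfc (fun z => star (g z) * g z) x := by
    rw [← cfc_star, ← cfc_mul (fun z => star (g z)) g x (by fun_prop) hg.continuousOn]
  rw [n2_sq, h1, h.int _ (by fun_prop)]
  have h2 : (fun z => star (g z) * g z) = fun z => ((‖g z‖ ^ 2 : ℝ) : ℂ) := by
    funext z
    have := Complex.conj_mul' (g z)
    simpa using this
  rw [h2, integral_complex_ofReal, Complex.ofReal_re]

end Crest.Agent.FGF
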