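import Crest.Agent.FGF.SemiPev

/-! MODULE Semi (row 134), chunk NEAR -/

set_option autoImplicit false
set_option linter.unusedSectionVars false

namespace Crest.Agent.FGF

open Crest.Agent.GenII1 Filter Topology MeasureTheory

theorem semiNear_clip_lip (C x y : ℝ) :
    |max (-C) (min x C) - max (-C) (min y C)| ≤ |x - y| := by
  have h1 : |max (-C) (min x C) - max (-C) (min y C)| ≤ |min x C - min y C| := by
    rw [max_comm (-C) (min x C), max_comm (-C) (min y C)]
    exact abs_max_sub_max_le_abs _ _ _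
  have h2 : |min x C - min y C| ≤ |x - y| := by
    have := abs_min_sub_min_le_max x C y C
    simpa using this
  exact h1.trans h2

/-- 1-Lipschitz truncation `z ↦ clip (re z) + i clip (im z)` to `[-C, C]²`. -/
theorem exists_trunc (C : ℝ) (hC : 0 ≤ C) : ∃ t : ℂ → ℂ, Continuous t ∧ (∀ z, ‖t z‖ ≤ 2 * C) ∧
    (∀ z w, ‖t z - t w‖ ≤ ‖z - w‖) ∧ ∀ z, ‖z‖ ≤ C → t z = z := by
  refine ⟨fun z => (⟨max (-C) (min z.re C), max (-C) (min z.im C)⟩ : ℂ), ?_, ?_, ?_, ?_⟩
  · have : (fun z : ℂ => (⟨max (-C) (min z.re C), max (-C) (min z.im C)⟩ : ℂ)) =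
        fun z : ℂ => ((max (-C) (min z.re C) : ℝ) : ℂ) +
          ((max (-C) (min z.im C) : ℝ) : ℂ) * Complex.I := by
      funext z
      apply Complex.ext <;> simp
    rw [this]
    have h1 : Continuous fun z : ℂ => max (-C) (min z.re C) :=
      continuous_const.max (Complex.continuous_re.min continuous_const)
    have h2 : Continuous fun z : ℂ => max (-C) (min z.im C) :=
      continuous_const.max (Complex.continuous_im.min continuous_const)
    exact (Complex.continuous_ofReal.comp h1).add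
      ((Complex.continuous_ofReal.comp h2).mul continuous_const)
  · intro z
    have hb : ∀ x : ℝ, |max (-C) (min x C)| ≤ C := by
      intro x
      rw [abs_le]
      exact ⟨le_max_left _ _, max_le (by linarith) (min_le_right _ _)⟩
    refine (Complex.norm_le_abs_re_add_abs_im _).trans ?_
    have := hb z.re
    have := hb z.im
    simp only
    linarith
  · intro z w
    have h1 := semiNear_clip_lip C z.re w.re
    have h2 := semiNear_clip_lip C z.im w.im
    apply le_of_sq_le_sq _ (norm_nonneg _) |>.trans le_rfl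
    rw [Complex.sq_norm, Complex.sq_norm, Complex.normSq_apply, Complex.normSq_apply]
    simp only [Complex.sub_re, Complex.sub_im]
    have e1 := sq_le_sq.2 h1
    have e2 := sq_le_sq.2 h2
    nlinarith [e1, e2]
  · intro z hz
    have h1 := (Complex.abs_re_le_norm z).trans hz
    have h2 := (Complex.abs_im_le_norm z).trans hz
    rw [abs_le] at h1 h2
    apply Complex.ext
    · simp only
      rw [min_eq_left h1.2, max_eq_right h1.1]
    · simp only
      rw [min_eq_left h2.2, max_eq_right h2.1]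

/-- integrability of an a.e. bounded measurable function -/
theorem semiNear_int {μ : Measure ℂ} [IsProbabilityMeasure μ] {f : ℂ → ℝ} (hf : Measurable f)
    {C : ℝ} (h : ∀ᵐ z ∂μ, ‖f z‖ ≤ C) : Integrable f μ :=
  Integrable.mono' (integrable_const C) hf.aestronglyMeasurable h

/-- `L²` approximation of a bounded measurable function by uniformly bounded continuous functions
(`MemLp.exists_boundedContinuous_eLpNorm_sub_le` with `p = 2`, then `exists_trunc`). -/
theorem exists_cont_near (μ : Measure ℂ) [IsProbabilityMeasure μ] (g : ℂ → ℂ) (hg : Measurable g)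
    (C : ℝ) (hC : 0 ≤ C) (hgC : ∀ᵐ z ∂μ, ‖g z‖ ≤ C) (ε : ℝ) (hε : 0 < ε) :
    ∃ g' : ℂ → ℂ, Continuous g' ∧ (∀ z, ‖g' z‖ ≤ 2 * C) ∧
      ∫ z, ‖g' z - g z‖ ^ 2 ∂μ < ε ^ 2 := by
  obtain ⟨t, ht, htb, htl, hti⟩ := exists_trunc C hC
  have hm : MemLp g (ENNReal.ofReal 2) μ := by
    have h1 : MemLp g ⊤ μ := memLp_top_of_bound hg.aestronglyMeasurable C hgC
    exact h1.mono_exponent le_top
  obtain ⟨g0, hg0, hg0m⟩ := hm.exists_boundedContinuous_integral_rpow_sub_le (by norm_num)
    (show 0 < ε ^ 2 / 2 by positivity)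
  refine ⟨fun z => t (g0 z), ht.comp g0.continuous, fun z => htb _, ?_⟩
  have hle : ∫ z, ‖t (g0 z) - g z‖ ^ 2 ∂μ ≤ ∫ z, ‖g z - g0 z‖ ^ (2 : ℝ) ∂μ := by
    apply integral_mono_ae
    · refine semiNear_int (C := (3 * C) ^ 2) ?_ ?_
      · exact ((((ht.comp g0.continuous).measurable).sub hg).norm).pow_const 2
      · filter_upwards [hgC] with z hz
        rw [Real.norm_of_nonneg (by positivity)]
        have : ‖t (g0 z) - g z‖ ≤ 3 * C := by
          refine (norm_sub_le _ _).trans ?_
          have := htb (g0 z)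
          linarith
        exact pow_le_pow_left₀ (norm_nonneg _) this 2
    · refine semiNear_int (C := (C + ‖g0‖) ^ 2) ?_ ?_
      · have := ((hg.sub g0.continuous.measurable).norm).pow_const (2 : ℝ)
        exact this
      · filter_upwards [hgC] with z hz
        rw [Real.rpow_two, Real.norm_of_nonneg (by positivity)]
        have : ‖g z - g0 z‖ ≤ C + ‖g0‖ := by
          refine (norm_sub_le _ _).trans ?_
          have := g0.norm_coe_le_norm z
          linarith
        exact pow_le_pow_left₀ (norm_nonneg _) this 2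
    · filter_upwards [hgC] with z hz
      rw [Real.rpow_two]
      apply pow_le_pow_left₀ (norm_nonneg _)
      calc ‖t (g0 z) - g z‖ = ‖t (g0 z) - t (g z)‖ := by rw [hti _ hz]
        _ ≤ ‖g0 z - g z‖ := htl _ _
        _ = ‖g z - g0 z‖ := norm_sub_rev _ _
  have : (0 : ℝ) < ε ^ 2 := by positivity
  linarith

/-- `L²` approximation by polynomials in `z, conj z` for compactly supported `μ`
(from `exists_cont_near` and `exists_pev_near`). -/
theorem exists_pev_L2 (μ : Measure ℂ) [IsProbabilityMeasure μ] (R : ℝ) (hR : ∀ᵐ z ∂μ, ‖z‖ ≤ R)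
    (g : ℂ → ℂ) (hg : BM μ g) (ε : ℝ) (hε : 0 < ε) :
    ∃ c : ℕ × ℕ →₀ ℂ, ∫ z, ‖pev c z - g z‖ ^ 2 ∂μ < ε ^ 2 := by
  obtain ⟨hgm, C0, hC0⟩ := hg
  obtain ⟨g', hg'c, hg'b, hg'i⟩ := exists_cont_near μ g hgm (max C0 0) (le_max_right _ _)
    (by filter_upwards [hC0] with z hz using hz.trans (le_max_left _ _)) (ε / 4) (by positivity)
  obtain ⟨c, hc⟩ := exists_pev_near R g' hg'c (ε / 4) (by positivity)
  refine ⟨c, ?_⟩
  have hi : Integrable (fun z => ‖g' z - g z‖ ^ 2) μ := by
    refine semiNear_int (C := (2 * max C0 0 + max C0 0) ^ 2) ?_ ?_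
    · exact ((hg'c.measurable.sub hgm).norm).pow_const 2
    · filter_upwards [hC0] with z hz
      rw [Real.norm_of_nonneg (by positivity)]
      have h1 := hg'b z
      have h2 := hz.trans (le_max_left C0 0)
      have : ‖g' z - g z‖ ≤ 2 * max C0 0 + max C0 0 := (norm_sub_le _ _).trans (by linarith)
      exact pow_le_pow_left₀ (norm_nonneg _) this 2
  have hpt : ∀ᵐ z ∂μ, ‖pev c z - g z‖ ^ 2 ≤ 2 * (ε / 4) ^ 2 + 2 * ‖g' z - g z‖ ^ 2 := by
    filter_upwards [hR] with z hz
    have h1 := hc z hz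
    have h2 : ‖pev c z - g z‖ ≤ ‖pev c z - g' z‖ + ‖g' z - g z‖ := norm_sub_le_norm_sub_add_norm_sub _ _ _
    have h3 : ‖pev c z - g z‖ ≤ ε / 4 + ‖g' z - g z‖ := by linarith
    have h4 := pow_le_pow_left₀ (norm_nonneg _) h3 2
    nlinarith [sq_nonneg (ε / 4 - ‖g' z - g z‖)]
  have hle : ∫ z, ‖pev c z - g z‖ ^ 2 ∂μ ≤ ∫ z, (2 * (ε / 4) ^ 2 + 2 * ‖g' z - g z‖ ^ 2) ∂μ := by
    apply integral_mono_ae
    · refine Integrable.mono' ((integrable_const (2 * (ε / 4) ^ 2)).add (hi.const_mul 2)) ?_ ?_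
      · exact ((((continuous_pev c).measurable.sub hgm).norm).pow_const 2).aestronglyMeasurable
      · filter_upwards [hpt] with z hz
        rw [Real.norm_of_nonneg (by positivity)]
        exact hz
    · exact (integrable_const (2 * (ε / 4) ^ 2)).add (hi.const_mul 2)
    · exact hpt
  rw [integral_add (integrable_const _) (hi.const_mul 2),
    integral_const_mul (2 : ℝ) (fun z => ‖g' z - g z‖ ^ 2)] at hle
  simp only [integral_const, probReal_univ, smul_eq_mul, one_mul] at hle
  nlinarith [hle, hg'i, sq_nonneg ε, pow_pos hε 2]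

end Crest.Agent.FGF
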