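import Crest.Agent.FGF.SemiDefs

/-! MODULE Semi (row 134), chunk PEV -/

set_option autoImplicit false
set_option linter.unusedSectionVars false

namespace Crest.Agent.FGF

open Crest.Agent.GenII1 Filter Topology MeasureTheory

theorem continuous_pev (c : ℕ × ℕ →₀ ℂ) : Continuous (pev c) := by
  unfold pev Finsupp.sum
  refine continuous_finset_sum _ fun ab _ => ?_
  fun_prop

theorem semiPev_add (c d : ℕ × ℕ →₀ ℂ) (z : ℂ) : pev (c + d) z = pev c z + pev d z := by
  unfold pev
  rw [Finsupp.sum_add_index']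
  · intro a; simp
  · intro a b₁ b₂; ring

theorem semiPev_single (a b : ℕ) (w z : ℂ) :
    pev (Finsupp.single (a, b) w) z = w * (z ^ a * star z ^ b) := by
  unfold pev
  rw [Finsupp.sum_single_index]
  simp

theorem semiPev_zero (z : ℂ) : pev 0 z = 0 := by
  unfold pev
  simp

theorem semiPev_mul (c d : ℕ × ℕ →₀ ℂ) : ∃ e : ℕ × ℕ →₀ ℂ, ∀ z, pev e z = pev c z * pev d z := by
  induction c using Finsupp.induction_linear with
  | zero => exact ⟨0, fun z => by simp [semiPev_zero]⟩
  | add f g hf hg =>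
    obtain ⟨e₁, h₁⟩ := hf
    obtain ⟨e₂, h₂⟩ := hg
    exact ⟨e₁ + e₂, fun z => by rw [semiPev_add, semiPev_add, h₁, h₂]; ring⟩
  | single ab w =>
    induction d using Finsupp.induction_linear with
    | zero => exact ⟨0, fun z => by simp [semiPev_zero]⟩
    | add f g hf hg =>
      obtain ⟨e₁, h₁⟩ := hf
      obtain ⟨e₂, h₂⟩ := hg
      exact ⟨e₁ + e₂, fun z => by rw [semiPev_add, semiPev_add, h₁, h₂]; ring⟩
    | single cd v =>
      refine ⟨Finsupp.single (ab.1 + cd.1, ab.2 + cd.2) (w * v), fun z => ?_⟩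
      rw [semiPev_single]
      have h1 := semiPev_single ab.1 ab.2 w z
      have h2 := semiPev_single cd.1 cd.2 v z
      simp only [Prod.mk.eta] at h1 h2
      rw [h1, h2]
      ring

/-- Stone-Weierstrass on the closed ball
(`polynomialFunctions.starClosure_topologicalClosure` or
`ContinuousMap.starSubalgebra_topologicalClosure_eq_top_of_separatesPoints`; elements of the star
algebra generated by `z` are of the form `pev c`). -/
theorem exists_pev_near (R : ℝ) (g : ℂ → ℂ) (hg : Continuous g) (ε : ℝ) (hε : 0 < ε) :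
    ∃ c : ℕ × ℕ →₀ ℂ, ∀ z : ℂ, ‖z‖ ≤ R → ‖pev c z - g z‖ ≤ ε := by
  have hK : IsCompact (Metric.closedBall (0 : ℂ) R) := isCompact_closedBall _ _
  haveI : CompactSpace (Metric.closedBall (0 : ℂ) R) := isCompact_iff_compactSpace.mp hK
  have key : ∀ f : C(Metric.closedBall (0 : ℂ) R, ℂ), ∀ δ : ℝ, 0 < δ →
      ∃ c : ℕ × ℕ →₀ ℂ, ∀ z : Metric.closedBall (0 : ℂ) R, ‖pev c z - f z‖ ≤ δ := by
    intro f
    induction f using ContinuousMap.induction_on_of_compact with
    | const r =>
      intro δ hδ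
      refine ⟨Finsupp.single (0, 0) r, fun z => ?_⟩
      rw [semiPev_single]
      simpa using hδ.le
    | id =>
      intro δ hδ
      refine ⟨Finsupp.single (1, 0) 1, fun z => ?_⟩
      rw [semiPev_single]
      simpa using hδ.le
    | star_id =>
      intro δ hδ
      refine ⟨Finsupp.single (0, 1) 1, fun z => ?_⟩
      rw [semiPev_single]
      simpa using hδ.le
    | add f g hf hg =>
      intro δ hδ
      obtain ⟨c, hc⟩ := hf (δ / 2) (by positivity)
      obtain ⟨d, hd⟩ := hg (δ / 2) (by positivity)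
      refine ⟨c + d, fun z => ?_⟩
      rw [semiPev_add]
      have : pev c z + pev d z - (f + g) z = (pev c z - f z) + (pev d z - g z) := by
        simp only [ContinuousMap.add_apply]; ring
      rw [this]
      calc _ ≤ ‖pev c z - f z‖ + ‖pev d z - g z‖ := norm_add_le _ _
        _ ≤ δ := by linarith [hc z, hd z]
    | mul f g hf hg =>
      intro δ hδ
      have hA : 0 < ‖f‖ + ‖g‖ + 2 := by positivity
      set η := min 1 (δ / (‖f‖ + ‖g‖ + 2)) with hη
      have hη0 : 0 < η := lt_min one_pos (by positivity)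
      obtain ⟨c, hc⟩ := hf η hη0
      obtain ⟨d, hd⟩ := hg η hη0
      obtain ⟨e, he⟩ := semiPev_mul c d
      refine ⟨e, fun z => ?_⟩
      rw [he]
      have h1 : pev c z * pev d z - (f * g) z =
          (pev c z - f z) * pev d z + f z * (pev d z - g z) := by
        simp only [ContinuousMap.mul_apply]; ring
      rw [h1]
      have hd1 : ‖pev d z‖ ≤ ‖g‖ + 1 := by
        calc ‖pev d z‖ = ‖(pev d z - g z) + g z‖ := by ring_nf
          _ ≤ ‖pev d z - g z‖ + ‖g z‖ := norm_add_le _ _
          _ ≤ 1 + ‖g‖ := add_le_add ((hd z).trans (min_le_left _ _)) (g.norm_coe_le_norm z)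
          _ = _ := by ring
      have hfz : ‖f z‖ ≤ ‖f‖ := f.norm_coe_le_norm z
      calc _ ≤ ‖(pev c z - f z) * pev d z‖ + ‖f z * (pev d z - g z)‖ := norm_add_le _ _
        _ = ‖pev c z - f z‖ * ‖pev d z‖ + ‖f z‖ * ‖pev d z - g z‖ := by rw [norm_mul, norm_mul]
        _ ≤ η * (‖g‖ + 1) + ‖f‖ * η := by
            gcongr
            · exact hc z
            · exact hd z
        _ = η * (‖f‖ + ‖g‖ + 1) := by ring
        _ ≤ η * (‖f‖ + ‖g‖ + 2) := by gcongr; norm_num
        _ ≤ (δ / (‖f‖ + ‖g‖ + 2)) * (‖f‖ + ‖g‖ + 2) := by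
            gcongr
            exact min_le_right _ _
        _ = δ := by field_simp
    | frequently f hf =>
      intro δ hδ
      have h2 : ∀ᶠ h in 𝓝 f, ‖h - f‖ < δ / 2 := by
        have := Metric.ball_mem_nhds f (show (0 : ℝ) < δ / 2 by positivity)
        filter_upwards [this] with h hh
        simpa [dist_eq_norm] using hh
      obtain ⟨h, hh1, hh2⟩ := (hf.and_eventually h2).exists
      obtain ⟨c, hc⟩ := hh1 (δ / 2) (by positivity)
      refine ⟨c, fun z => ?_⟩
      have h3 : ‖(h - f) z‖ ≤ ‖h - f‖ := (h - f).norm_coe_le_norm z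
      have h4 : pev c z - f z = (pev c z - h z) + (h - f) z := by
        simp only [ContinuousMap.sub_apply]; ring
      rw [h4]
      calc _ ≤ ‖pev c z - h z‖ + ‖(h - f) z‖ := norm_add_le _ _
        _ ≤ δ := by linarith [hc z]
  obtain ⟨c, hc⟩ := key ⟨fun z => g z, hg.comp continuous_subtype_val⟩ ε hε
  refine ⟨c, fun z hz => ?_⟩
  exact hc ⟨z, by simpa using hz⟩

/-- `cfc` of a polynomial in `z, conj z` -/
theorem cfc_pev {M : Type} [CStarAlgebra M] (x : M) (hx : IsStarNormal x) (c : ℕ × ℕ →₀ ℂ) : cfc (pev c) x = pevM c x := by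
  induction c using Finsupp.induction_linear with
  | zero =>
    have h1 : pev 0 = fun _ => (0 : ℂ) := by funext z; exact semiPev_zero z
    rw [h1, cfc_const_zero]
    simp [pevM]
  | add f g hf hg =>
    have h1 : pev (f + g) = fun z => pev f z + pev g z := by funext z; exact semiPev_add f g z
    rw [h1, cfc_add (a := x) (pev f) (pev g) (continuous_pev f).continuousOn
      (continuous_pev g).continuousOn, hf, hg]
    unfold pevM
    rw [Finsupp.sum_add_index']
    · intro a; simp
    · intro a b₁ b₂; rw [add_smul]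
  | single ab w =>
    have h1 : pev (Finsupp.single ab w) = fun z => w * (z ^ ab.1 * star z ^ ab.2) := by
      funext z
      have := semiPev_single ab.1 ab.2 w z
      simpa using this
    rw [h1]
    rw [cfc_const_mul w (fun z : ℂ => z ^ ab.1 * star z ^ ab.2) x (by fun_prop)]
    rw [cfc_mul (fun z : ℂ => z ^ ab.1) (fun z : ℂ => star z ^ ab.2) x (by fun_prop) (by fun_prop)]
    rw [cfc_pow_id x ab.1]
    rw [cfc_pow (fun z : ℂ => star z) ab.2 x (by fun_prop)]
    rw [cfc_star_id x]
    unfold pevM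
    rw [Finsupp.sum_single_index]
    simp

end Crest.Agent.FGF
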