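import Crest.Agent.FGF.SemiLaw
import Crest.Agent.FGF.SemiBM

/-! MODULE Semi (row 134), chunk REPA -/

set_option autoImplicit false
set_option linter.unusedSectionVars false

namespace Crest.Agent.FGF

open Crest.Agent.GenII1 Filter Topology MeasureTheory

variable {M : Type} [CStarAlgebra M] [FinVN M]

private theorem repA_integrable {μ : Measure ℂ} [IsProbabilityMeasure μ] {u v : ℂ → ℂ}
    (hu : Measurable u) (hv : Measurable v) {C D : ℝ}
    (hu' : ∀ᵐ z ∂μ, ‖u z‖ ≤ C) (hv' : ∀ᵐ z ∂μ, ‖v z‖ ≤ D) :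
    Integrable (fun z => ‖u z - v z‖ ^ 2) μ := by
  refine Integrable.of_bound ((hu.sub hv).norm.pow_const 2).aestronglyMeasurable ((C + D) ^ 2) ?_
  filter_upwards [hu', hv'] with z h1 h2
  rw [Real.norm_of_nonneg (by positivity)]
  exact pow_le_pow_left₀ (norm_nonneg _) ((norm_sub_le _ _).trans (add_le_add h1 h2)) 2

private theorem repA_int {μ : Measure ℂ} [IsProbabilityMeasure μ] {u v w : ℂ → ℂ}
    (hu : Measurable u) (hv : Measurable v) (hw : Measurable w) {C D E : ℝ}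
    (hu' : ∀ᵐ z ∂μ, ‖u z‖ ≤ C) (hv' : ∀ᵐ z ∂μ, ‖v z‖ ≤ D) (hw' : ∀ᵐ z ∂μ, ‖w z‖ ≤ E) :
    ∫ z, ‖u z - w z‖ ^ 2 ∂μ ≤ 2 * ∫ z, ‖u z - v z‖ ^ 2 ∂μ + 2 * ∫ z, ‖w z - v z‖ ^ 2 ∂μ := by
  have i1 := repA_integrable hu hv hu' hv'
  have i2 := repA_integrable hw hv hw' hv'
  have i3 := repA_integrable hu hw hu' hw'
  rw [← integral_const_mul, ← integral_const_mul, ← integral_add (i1.const_mul 2) (i2.const_mul 2)]
  refine integral_mono i3 ((i1.const_mul 2).add (i2.const_mul 2)) (fun z => ?_)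
  have h1 : ‖u z - w z‖ ≤ ‖u z - v z‖ + ‖w z - v z‖ := by
    have : u z - w z = (u z - v z) - (w z - v z) := by ring
    rw [this]; exact norm_sub_le _ _
  have h2 := norm_nonneg (u z - w z)
  simp only
  nlinarith [sq_nonneg (‖u z - v z‖ - ‖w z - v z‖)]

private theorem repA_n2 {x : M} {μ : Measure ℂ} (h : Law x μ) {g g' : ℂ → ℂ} (hg : Continuous g)
    (hg' : Continuous g') : n2 (cfc g x - cfc g' x) ^ 2 = ∫ z, ‖g z - g' z‖ ^ 2 ∂μ := by
  haveI := h.nor
  rw [← cfc_sub g g' x hg.continuousOn hg'.continuousOn]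
  exact h.n2_cfc _ (hg.sub hg')

private theorem repA_nontrivial : Nontrivial M := by
  refine ⟨⟨1, 0, fun h => ?_⟩⟩
  have h1 := τ_one (A := M)
  rw [h, map_zero] at h1
  exact zero_ne_one h1

private theorem repA_spec {x z : M} {w : ℂ} (hw : w ∈ spectrum ℂ x) : ‖w‖ ≤ ‖x‖ := by
  haveI : Nontrivial M := repA_nontrivial
  exact spectrum.norm_le_norm_of_mem hw

/-- continuous functions are represented by `cfc`:
`C` large (`≥ 2 sup_{‖z‖ ≤ max R ‖x‖} ‖g z‖`), `g' = t ∘ g` with the truncation `t` of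
`exists_trunc` (equal to `g` on the ball of radius `max R ‖x‖`, which contains the spectrum). -/
theorem Rep.of_cont {x : M} {μ : Measure ℂ} (h : Law x μ) (g : ℂ → ℂ) (hg : Continuous g) :
    Rep x μ g (cfc g x) := by
  haveI := h.nor
  haveI := h.prob
  obtain ⟨R, hR⟩ := h.supp
  obtain ⟨B, hB⟩ := (isCompact_closedBall (0 : ℂ) (max R ‖x‖)).exists_bound_of_continuousOn
    hg.continuousOn
  have hB' : ∀ z : ℂ, ‖z‖ ≤ max R ‖x‖ → ‖g z‖ ≤ max B 0 := fun z hz =>
    (hB z (by simpa using hz)).trans (le_max_left _ _)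
  have hB0 : 0 ≤ max B 0 := le_max_right _ _
  set B' := max B 0
  obtain ⟨t, ht, ht2, -, ht3⟩ := exists_trunc B' hB0
  have hae : ∀ᵐ z ∂μ, ‖g z‖ ≤ B' := by
    filter_upwards [hR] with z hz
    exact hB' z (hz.trans (le_max_left _ _))
  have hsp : ∀ z ∈ spectrum ℂ x, ‖g z‖ ≤ B' := fun z hz =>
    hB' z ((repA_spec (z := x) hz).trans (le_max_right _ _))
  refine ⟨2 * B', ?_, ?_, fun ε hε => ⟨fun z => t (g z), ht.comp hg, fun z => ht2 _, ?_, ?_⟩⟩
  · refine (norm_cfc_le hB0 hsp).trans (by linarith)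
  · filter_upwards [hae] with z hz
    linarith
  · rw [integral_eq_zero_of_ae]
    · positivity
    · filter_upwards [hae] with z hz
      simp [ht3 _ hz]
  · have e : cfc (fun z => t (g z)) x = cfc g x :=
      cfc_congr (fun z hz => ht3 _ (hsp z hz))
    rw [e, sub_self, n2_zero]
    exact hε

/-- existence: `g_n` from `exists_cont_near` with `ε = 1/(n+1)`; `cfc g_n x` is bounded and
2-norm Cauchy by `Law.n2_cfc`; `exists_lim`. -/
theorem Rep.exists {x : M} {μ : Measure ℂ} (h : Law x μ) (g : ℂ → ℂ) (hg : BM μ g) :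
    ∃ a : M, Rep x μ g a := by
  haveI := h.nor
  haveI := h.prob
  obtain ⟨hgm, C, hC⟩ := hg
  set C' := max C 0
  have hC0 : 0 ≤ C' := le_max_right _ _
  have hC' : ∀ᵐ z ∂μ, ‖g z‖ ≤ C' := by
    filter_upwards [hC] with z hz
    exact hz.trans (le_max_left _ _)
  have hex : ∀ n : ℕ, ∃ g' : ℂ → ℂ, Continuous g' ∧ (∀ z, ‖g' z‖ ≤ 2 * C') ∧
      ∫ z, ‖g' z - g z‖ ^ 2 ∂μ < (1 / ((n : ℝ) + 1)) ^ 2 := fun n =>
    exists_cont_near μ g hgm C' hC0 hC' (1 / ((n : ℝ) + 1)) (by positivity)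
  choose G hGc hGb hGi using hex
  have hbd : ∀ n, ‖cfc (G n) x‖ ≤ 2 * C' := fun n =>
    norm_cfc_le (by positivity) (fun z _ => hGb n z)
  obtain ⟨a, ha, hlim⟩ := exists_lim (fun n => cfc (G n) x) (2 * C') hbd (by
    intro ε hε
    obtain ⟨N, hN⟩ := exists_nat_gt (2 / ε)
    refine ⟨N, fun m hm n hn => ?_⟩
    have key : n2 (cfc (G m) x - cfc (G n) x) ^ 2 < ε ^ 2 := by
      rw [repA_n2 h (hGc m) (hGc n)]
      refine (repA_int (hGc m).measurable hgm (hGc n).measurable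
        (Eventually.of_forall (hGb m)) hC' (Eventually.of_forall (hGb n))).trans_lt ?_
      have e1 : ∀ k : ℕ, N ≤ k → (1 / ((k : ℝ) + 1)) ^ 2 ≤ (ε / 2) ^ 2 := by
        intro k hk
        refine pow_le_pow_left₀ (by positivity) ?_ 2
        rw [div_le_div_iff₀ (by positivity) (by norm_num)]
        rw [div_lt_iff₀ hε] at hN
        have : (N : ℝ) ≤ k := by exact_mod_cast hk
        nlinarith
      have h1 := hGi m
      have h2 := hGi n
      have h3 := e1 m hm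
      have h4 := e1 n hn
      nlinarith
    exact lt_of_pow_lt_pow_left₀ 2 hε.le key)
  refine ⟨a, 2 * C', ha, ?_, fun ε hε => ?_⟩
  · filter_upwards [hC'] with z hz
    linarith
  · have h1 : ∀ᶠ n in atTop, n2 (cfc (G n) x - a) < ε := hlim.eventually_lt_const hε
    obtain ⟨N, hN⟩ := exists_nat_gt (1 / ε)
    obtain ⟨n, hn1, hn2⟩ := (h1.and (eventually_ge_atTop N)).exists
    refine ⟨G n, hGc n, hGb n, (hGi n).trans_le ?_, by rwa [n2_sub_comm]⟩
    refine pow_le_pow_left₀ (by positivity) ?_ 2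
    rw [div_le_iff₀ (by positivity)]
    rw [div_lt_iff₀ hε] at hN
    have : (N : ℝ) ≤ n := by exact_mod_cast hn2
    nlinarith

/-- uniqueness (also for functions that agree a.e.) -/
theorem Rep.unique {x : M} {μ : Measure ℂ} (h : Law x μ) (g g₂ : ℂ → ℂ) (hg : BM μ g)
    (hg2 : BM μ g₂) (he : g =ᵐ[μ] g₂) (a b : M) (ha : Rep x μ g a) (hb : Rep x μ g₂ b) : a = b := by
  haveI := h.prob
  obtain ⟨C, haC, hgC, ha⟩ := ha
  obtain ⟨D, hbD, hgD, hb⟩ := hb
  have key : ∀ ε : ℝ, 0 < ε → n2 (a - b) ≤ 4 * ε := by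
    intro ε hε
    obtain ⟨u, hu, huC, hui, hua⟩ := ha ε hε
    obtain ⟨w, hw, hwC, hwi, hwa⟩ := hb ε hε
    have e1 : ∫ z, ‖w z - g z‖ ^ 2 ∂μ = ∫ z, ‖w z - g₂ z‖ ^ 2 ∂μ := by
      refine integral_congr_ae ?_
      filter_upwards [he] with z hz
      simp only [hz]
    have h1 := repA_int hu.measurable hg.1 hw.measurable
        (Eventually.of_forall huC) hgC (Eventually.of_forall hwC)
    rw [← repA_n2 h hu hw, e1] at h1
    have h2 : n2 (cfc u x - cfc w x) ≤ 2 * ε := by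
      refine le_of_sq_le_sq ?_ (by positivity)
      nlinarith
    have h3 := n2_triangle a (cfc u x) b
    have h4 := n2_triangle (cfc u x) (cfc w x) b
    rw [n2_sub_comm b] at hwa
    linarith
  have h0 : n2 (a - b) = 0 := by
    refine le_antisymm (le_of_forall_pos_le_add fun ε hε => ?_) (n2_nonneg _)
    have := key (ε / 4) (by positivity)
    linarith
  exact sub_eq_zero.1 (eq_zero_of_n2 h0)

end Crest.Agent.FGF
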