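import Crest.Agent.FGF.SemiDefs

/-! MODULE Semi (row 134), chunk RHO -/

set_option autoImplicit false
set_option linter.unusedSectionVars false

namespace Crest.Agent.FGF

open Crest.Agent.GenII1 Filter Topology MeasureTheory

theorem SemiRho_nonneg (ψ : ℝ) : 0 ≤ 2 / Real.pi * Real.cos ψ ^ 2 := by
  have := Real.pi_pos
  positivity

theorem SemiRho_meas : Measurable fun ψ : ℝ => ENNReal.ofReal (2 / Real.pi * Real.cos ψ ^ 2) := by
  fun_prop

/-- `integral_withDensity_eq_integral_smul` / `setIntegral` -/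
theorem integral_ρ (F : ℝ → ℂ) :
    ∫ ψ, F ψ ∂ρ = ∫ ψ in (-(Real.pi / 2))..(Real.pi / 2),
      ((2 / Real.pi * Real.cos ψ ^ 2 : ℝ) : ℂ) * F ψ := by
  have hpi := Real.pi_pos
  rw [intervalIntegral.integral_of_le (by linarith)]
  unfold ρ
  rw [integral_withDensity_eq_integral_toReal_smul SemiRho_meas
    (Filter.Eventually.of_forall fun _ => ENNReal.ofReal_lt_top)]
  refine integral_congr_ae (Filter.Eventually.of_forall fun ψ => ?_)
  simp only
  rw [ENNReal.toReal_ofReal (SemiRho_nonneg ψ), Complex.real_smul]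

/-- `∫ cos² = π/2` -/
instance isProb_ρ : IsProbabilityMeasure ρ := by
  have hpi := Real.pi_pos
  constructor
  unfold ρ
  rw [withDensity_apply _ MeasurableSet.univ, Measure.restrict_univ,
    ← ofReal_integral_eq_lintegral_ofReal]
  · rw [← intervalIntegral.integral_of_le (by linarith), intervalIntegral.integral_const_mul,
      integral_cos_sq]
    have h1 : Real.cos (Real.pi / 2) = 0 := Real.cos_pi_div_two
    have h2 : Real.cos (-(Real.pi / 2)) = 0 := by rw [Real.cos_neg, h1]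
    rw [h1, h2, ← ENNReal.ofReal_one]
    congr 1
    field_simp
    ring
  · have hc : Continuous fun ψ : ℝ => 2 / Real.pi * Real.cos ψ ^ 2 := by fun_prop
    exact (hc.integrableOn_Icc).mono_set Set.Ioc_subset_Icc_self
  · exact Filter.Eventually.of_forall fun ψ => SemiRho_nonneg ψ

theorem SemiRho_restrict_eq :
    (volume.restrict (Set.Ioc (-(Real.pi / 2)) (Real.pi / 2)) : Measure ℝ) =
      volume.restrict (Set.Icc (-(Real.pi / 2)) (Real.pi / 2)) :=
  Measure.restrict_congr_set Ioc_ae_eq_Icc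

/-- `ψ ↦ -ψ` preserves `ρ` (`Ioc` and `Ico` differ by a null set). -/
theorem ρ_symm : ρ.map (fun ψ => -ψ) = ρ := by
  ext s hs
  rw [Measure.map_apply measurable_neg hs]
  unfold ρ
  rw [withDensity_apply _ (measurable_neg hs), withDensity_apply _ hs, SemiRho_restrict_eq,
    Measure.restrict_restrict (measurable_neg hs), Measure.restrict_restrict hs]
  have hmp : MeasurePreserving (fun ψ : ℝ => -ψ) volume volume := Measure.measurePreserving_neg _
  have hset : ((fun ψ : ℝ => -ψ) ⁻¹' s ∩ Set.Icc (-(Real.pi / 2)) (Real.pi / 2)) =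
      (fun ψ : ℝ => -ψ) ⁻¹' (s ∩ Set.Icc (-(Real.pi / 2)) (Real.pi / 2)) := by
    ext ψ
    simp only [Set.mem_inter_iff, Set.mem_preimage, Set.mem_Icc]
    constructor
    · rintro ⟨h1, h2, h3⟩
      exact ⟨h1, by linarith, by linarith⟩
    · rintro ⟨h1, h2, h3⟩
      exact ⟨h1, by linarith, by linarith⟩
  rw [hset]
  have hms : MeasurableSet (s ∩ Set.Icc (-(Real.pi / 2)) (Real.pi / 2)) :=
    hs.inter measurableSet_Icc
  rw [← hmp.setLIntegral_comp_preimage hms SemiRho_meas]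
  refine lintegral_congr fun ψ => ?_
  rw [Real.cos_neg]

theorem ρ_ae_mem : ∀ᵐ ψ ∂ρ, ψ ∈ Set.Ioo (-(Real.pi / 2)) (Real.pi / 2) ∧ ψ ≠ 0 := by
  have hac : ρ ≪ volume.restrict (Set.Ioc (-(Real.pi / 2)) (Real.pi / 2)) :=
    withDensity_absolutelyContinuous _ _
  apply hac.ae_le
  have h0 : ∀ᵐ ψ ∂(volume.restrict (Set.Ioc (-(Real.pi / 2)) (Real.pi / 2)) : Measure ℝ),
      ψ ∈ Set.Ioc (-(Real.pi / 2)) (Real.pi / 2) := ae_restrict_mem measurableSet_Ioc
  have h1 : ∀ᵐ ψ ∂(volume.restrict (Set.Ioc (-(Real.pi / 2)) (Real.pi / 2)) : Measure ℝ),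
      ψ ≠ Real.pi / 2 := ae_restrict_of_ae (Measure.ae_ne volume _)
  have h2 : ∀ᵐ ψ ∂(volume.restrict (Set.Ioc (-(Real.pi / 2)) (Real.pi / 2)) : Measure ℝ),
      ψ ≠ 0 := ae_restrict_of_ae (Measure.ae_ne volume _)
  filter_upwards [h0, h1, h2] with ψ a b c
  exact ⟨⟨a.1, lt_of_le_of_ne a.2 b⟩, c⟩

theorem measurable_S : Measurable S := by
  unfold S
  fun_prop

theorem SemiRho_measurable_sign : Measurable (Real.sign : ℝ → ℝ) := by
  unfold Real.sign
  refine Measurable.ite (measurableSet_lt measurable_id measurable_const) measurable_const ?_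
  exact Measurable.ite (measurableSet_lt measurable_const measurable_id) measurable_const
    measurable_const

theorem measurable_Y : Measurable Y := by
  unfold Y
  have h := SemiRho_measurable_sign
  have h1 : Measurable fun ψ : ℝ => ((Real.sign ψ : ℝ) : ℂ) := Complex.measurable_ofReal.comp h
  refine h1.mul ?_
  fun_prop

theorem S_neg (ψ : ℝ) : S (-ψ) = -S ψ := by
  unfold S
  rw [Real.sin_neg]
  push_cast
  ring

theorem Y_neg (ψ : ℝ) : Y (-ψ) = -Y ψ := by
  unfold Y
  rw [Real.sign_neg, abs_neg]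
  push_cast
  ring

theorem norm_S_le (ψ : ℝ) : ‖S ψ‖ ≤ 2 := by
  unfold S
  rw [Complex.norm_real, Real.norm_eq_abs, abs_mul, abs_two]
  have := Real.abs_sin_le_one ψ
  linarith

theorem SemiRho_norm_Y_eq (ψ : ℝ) : ‖Y ψ‖ = |Real.sign ψ| := by
  unfold Y
  rw [norm_mul, mul_comm Complex.I, Complex.norm_exp_ofReal_mul_I, mul_one, Complex.norm_real,
    Real.norm_eq_abs]

theorem norm_Y_le (ψ : ℝ) : ‖Y ψ‖ ≤ 1 := by
  rw [SemiRho_norm_Y_eq]
  rcases Real.sign_apply_eq ψ with h | h | h <;> rw [h] <;> simp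

theorem norm_Y {ψ : ℝ} (h : ψ ≠ 0) : ‖Y ψ‖ = 1 := by
  rw [SemiRho_norm_Y_eq]
  rcases Real.sign_apply_eq_of_ne_zero ψ h with h | h <;> rw [h] <;> simp

end Crest.Agent.FGF
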